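import Vale.Agent.P032.H227.Cont

/-!
# P032: contacts of the circles of two two-pair points (helper460)

Wild frame `Irr U T`, `V`, `W` two-pair points, `T V ∪ T W` everything, `p` a common point of the
unit circles about `V`, `W` (not the midpoint).

* `PV` : a two-pair point by its pairs `P`, `P'` (no names).
* `PV.side` : what `S(V)` carries near `p` (any order of `p`).
* `PV.contact` : **the full contact lemma** for `|T p| ≤ 3`: either a pair of `V` is the free pair of
  `W` and `p` is in the closed arcs of this pair on `S(V)`; or the same with `V`, `W` exchanged; or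
  `T p = {g, g', i}`, `{g', i}` a pair of `V`, `{g, i}` a pair of `W`, `g` free at `V`, `g'` free at
  `W`, and `p` in the closed arcs of both pairs.
* `PV.contact_disj` : the two exact pairs are disjoint: only the first two cases.
-/

open Set Filter Topology Metric

noncomputable section

namespace Vale.Agent.P032.H460

open Vale.Agent.P032.Six Vale.Agent.P032.S5.H767

variable {U : Fin 6 → Set ℂ} {T : ℂ → Set (Fin 6)} {V W p : ℂ} {P P' Q Q' : Set (Fin 6)}

/-- a two-pair point with the pairs `P`, `P'` -/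
structure PV (T : ℂ → Set (Fin 6)) (V : ℂ) (P P' : Set (Fin 6)) : Prop where
  pal : T V = P ∪ P'
  two : P.ncard = 2
  two' : P'.ncard = 2
  disj : Disjoint P P'
  near : ∀ y, dist y V = 1 → T y ⊆ T V → y ∈ closure (Ex T V P) ∨ y ∈ closure (Ex T V P')

theorem PV.swap (H : PV T V P P') : PV T V P' P :=
  ⟨by rw [H.pal, union_comm], H.two', H.two, H.disj.symm, fun y h1 h2 => (H.near y h1 h2).symm⟩

theorem pv_of_dpt (h : Irr U T) {a b c d : Fin 6} (hV : DPt T V a b c d) :
    PV T V {a, b} {c, d} where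
  pal := by rw [hV.pal]; ext i; simp only [mem_insert_iff, mem_singleton_iff, mem_union]; tauto
  two := Set.ncard_pair hV.ab
  two' := Set.ncard_pair hV.cd
  disj := by
    rw [Set.disjoint_left]
    rintro i (rfl | hi) h2
    · rcases h2 with h2 | h2
      · exact hV.ac h2
      · exact hV.ad h2
    · rw [mem_singleton_iff] at hi; subst hi
      rcases h2 with h2 | h2
      · exact hV.bc h2
      · exact hV.bd h2
  near := by
    intro y hy hsub
    rw [← mem_union, ← closure_union, mem_closure_iff_nhds]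
    intro N hN
    obtain ⟨q, hqN, hqV, hloc, hqy, -, -⟩ := h.arc_of_sub hy hsub hN
    refine ⟨q, hqN, ?_⟩
    rcases h.twoPairs hV q hqV hloc (hqy.trans hsub) with h1 | h1
    · exact Or.inl ⟨hqV, hloc.mono fun q' h2 => h2.trans h1⟩
    · exact Or.inr ⟨hqV, hloc.mono fun q' h2 => h2.trans h1⟩

namespace PV

theorem sub (H : PV T V P P') : P ⊆ T V := by rw [H.pal]; exact subset_union_left
theorem sub' (H : PV T V P P') : P' ⊆ T V := by rw [H.pal]; exact subset_union_right

theorem four (H : PV T V P P') : (T V).ncard = 4 := by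
  rw [H.pal, Set.ncard_union_eq H.disj (Set.toFinite _) (Set.toFinite _), H.two, H.two']

theorem free_two (H : PV T V P P') : ((T V)ᶜ : Set (Fin 6)).ncard = 2 := by
  have h1 := Set.ncard_add_ncard_compl (T V)
  have h2 : Nat.card (Fin 6) = 6 := by simp
  have h4 := H.four
  omega

theorem near_nhds (hp : p ∉ closure (Ex T V P)) :
    ∀ᶠ y in 𝓝[sphere V 1] p, y ∉ closure (Ex T V P) :=
  mem_nhdsWithin_of_mem_nhds (isClosed_closure.isOpen_compl.mem_nhds hp)

/-- no pair of `V` near `p`: the two free colours of `V` meet at `p` -/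
theorem side0 (h : Irr U T) (H : PV T V P P') (hcov : ∀ i, i ∈ T V ∨ i ∈ T W)
    (hpV : dist p V = 1) (hpW : dist p W = 1) (hne : W ≠ V) (hne2 : W + V ≠ 2 * p)
    (h1 : p ∉ closure (Ex T V P)) (h2 : p ∉ closure (Ex T V P')) : (T V)ᶜ ⊆ T p := by
  have h3 := H227.two_of_full h hpV hpW hne hne2 (s := (T V)ᶜ) (s' := T V)
    (fun i hi => (hcov i).resolve_left hi) (fun i => (em (i ∈ T V)).symm) (by
      filter_upwards [near_nhds h1, near_nhds h2, self_mem_nhdsWithin] with y k1 k2 k3 k4
      rcases H.near y k3 k4 with k5 | k5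
      · exact k1 k5
      · exact k2 k5)
  have h4 : T p ∩ (T V)ᶜ = (T V)ᶜ := by
    refine Set.eq_of_subset_of_ncard_le inter_subset_right ?_ (Set.toFinite _)
    rw [H.free_two]; exact h3
  rw [← h4]
  exact inter_subset_left

/-- only the pair `P` near `p` and no free colour: `P` is the free pair of `W` -/
theorem side1 (h : Irr U T) (H : PV T V P P') (HW : ((T W)ᶜ : Set (Fin 6)).ncard = 2)
    (hpV : dist p V = 1) (hpW : dist p W = 1) (hne : W ≠ V) (hne2 : W + V ≠ 2 * p)
    (h2 : p ∉ closure (Ex T V P')) (hsub : T p ⊆ T V) : P = (T W)ᶜ := by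
  have h3 : P ⊆ (T W)ᶜ := by
    intro i hi hiW
    refine h.not_eventually hpV hpW hne hne2 hiW ?_
    filter_upwards [near_nhds h2, self_mem_nhdsWithin,
      mem_nhdsWithin_of_mem_nhds (h.nhd p)] with y k1 k2 k3
    rcases H.near y k2 (k3.trans hsub) with k4 | k4
    · exact sub_of_closure h k4 hi
    · exact absurd k4 k1
  exact Set.eq_of_subset_of_ncard_le h3 (by rw [HW, H.two]) (Set.toFinite _)

/-- **what `S(V)` carries near a common point** (any order) -/
theorem side (h : Irr U T) (H : PV T V P P') (HW : ((T W)ᶜ : Set (Fin 6)).ncard = 2)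
    (hcov : ∀ i, i ∈ T V ∨ i ∈ T W)
    (hpV : dist p V = 1) (hpW : dist p W = 1) (hne : W ≠ V) (hne2 : W + V ≠ 2 * p) :
    (T V)ᶜ ⊆ T p ∨
    (p ∈ closure (Ex T V P) ∧ (P = (T W)ᶜ ∨ ∃ g ∉ T V, g ∈ T p)) ∨
    (p ∈ closure (Ex T V P') ∧ (P' = (T W)ᶜ ∨ ∃ g ∉ T V, g ∈ T p)) ∨
    (p ∈ closure (Ex T V P) ∧ p ∈ closure (Ex T V P') ∧ T V ⊆ T p) := by
  by_cases h1 : p ∈ closure (Ex T V P)
  · by_cases h2 : p ∈ closure (Ex T V P')
    · refine Or.inr (Or.inr (Or.inr ⟨h1, h2, ?_⟩))
      rw [H.pal]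
      exact union_subset (sub_of_closure h h1) (sub_of_closure h h2)
    · refine Or.inr (Or.inl ⟨h1, ?_⟩)
      by_cases h3 : T p ⊆ T V
      · exact Or.inl (side1 h H HW hpV hpW hne hne2 h2 h3)
      · obtain ⟨g, hg, hgV⟩ := not_subset.1 h3
        exact Or.inr ⟨g, hgV, hg⟩
  · by_cases h2 : p ∈ closure (Ex T V P')
    · refine Or.inr (Or.inr (Or.inl ⟨h2, ?_⟩))
      by_cases h3 : T p ⊆ T V
      · exact Or.inl (side1 h H.swap HW hpV hpW hne hne2 h1 h3)
      · obtain ⟨g, hg, hgV⟩ := not_subset.1 h3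
        exact Or.inr ⟨g, hgV, hg⟩
    · exact Or.inl (side0 h H hcov hpV hpW hne hne2 h1 h2)

/-- the letter of `S(V)` at a common point of order at most three -/
theorem letter (h : Irr U T) (H : PV T V P P') (HW : ((T W)ᶜ : Set (Fin 6)).ncard = 2)
    (hcov : ∀ i, i ∈ T V ∨ i ∈ T W)
    (hpV : dist p V = 1) (hpW : dist p W = 1) (hne : W ≠ V) (hne2 : W + V ≠ 2 * p)
    (h3 : (T p).ncard ≤ 3) :
    (T V)ᶜ ⊆ T p ∨ ∃ R, (R = P ∨ R = P') ∧ p ∈ closure (Ex T V R) ∧
      (R = (T W)ᶜ ∨ ∃ g ∉ T V, T p = insert g R) := by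
  have key : ∀ R R' : Set (Fin 6), PV T V R R' → p ∈ closure (Ex T V R) → ∀ g ∉ T V, g ∈ T p →
      T p = insert g R := by
    intro R R' HR hR g hgV hg
    symm
    refine Set.eq_of_subset_of_ncard_le (insert_subset hg (sub_of_closure h hR)) ?_ (Set.toFinite _)
    rw [Set.ncard_insert_of_notMem (fun h1 => hgV (HR.sub h1)) (Set.toFinite _), HR.two]
    exact h3
  rcases side h H HW hcov hpV hpW hne hne2 with h1 | ⟨h1, h2⟩ | ⟨h1, h2⟩ | ⟨h1, h2, h4⟩
  · exact Or.inl h1
  · refine Or.inr ⟨P, Or.inl rfl, h1, h2.imp id ?_⟩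
    rintro ⟨g, hgV, hg⟩
    exact ⟨g, hgV, key P P' H h1 g hgV hg⟩
  · refine Or.inr ⟨P', Or.inr rfl, h1, h2.imp id ?_⟩
    rintro ⟨g, hgV, hg⟩
    exact ⟨g, hgV, key P' P H.swap h1 g hgV hg⟩
  · exfalso
    have h5 := Set.ncard_le_ncard h4 (Set.toFinite _)
    rw [H.four] at h5
    omega

/-- **the full contact lemma** -/
theorem contact (h : Irr U T) (H : PV T V P P') (K : PV T W Q Q')
    (hcov : ∀ i, i ∈ T V ∨ i ∈ T W) (hpV : dist p V = 1) (hpW : dist p W = 1)
    (hne : V ≠ W) (hne2 : V + W ≠ 2 * p) (h3 : (T p).ncard ≤ 3) :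
    (∃ R, (R = P ∨ R = P') ∧ R = (T W)ᶜ ∧ p ∈ closure (Ex T V R)) ∨
    (∃ S, (S = Q ∨ S = Q') ∧ S = (T V)ᶜ ∧ p ∈ closure (Ex T W S)) ∨
    ∃ R S, (R = P ∨ R = P') ∧ (S = Q ∨ S = Q') ∧ p ∈ closure (Ex T V R) ∧
      p ∈ closure (Ex T W S) ∧ ∃ g g' i, g ∉ T V ∧ g' ∉ T W ∧ i ∈ T V ∧ i ∈ T W ∧
        R = {g', i} ∧ S = {g, i} ∧ T p = {g, g', i} ∧ i ≠ g ∧ i ≠ g' := by
  have hne2' : W + V ≠ 2 * p := by rwa [add_comm]
  have hcov' : ∀ i, i ∈ T W ∨ i ∈ T V := fun i => (hcov i).symm
  rcases letter h H K.free_two hcov hpV hpW hne.symm hne2' h3 with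
    h1 | ⟨R, hR, hRc, h1 | ⟨g, hg, h1⟩⟩
  · -- the free colours of `V`
    right; left
    rcases letter h K H.free_two hcov' hpW hpV hne hne2 h3 with
      h2 | ⟨S, hS, hSc, h2 | ⟨g, hg, h2⟩⟩
    · exfalso
      have h4 : Disjoint ((T V)ᶜ : Set (Fin 6)) ((T W)ᶜ) := by
        rw [Set.disjoint_left]
        intro i hi hi'
        exact (hcov i).elim hi hi'
      have h5 := Set.ncard_le_ncard (union_subset h1 h2) (Set.toFinite _)
      rw [Set.ncard_union_eq h4 (Set.toFinite _) (Set.toFinite _), H.free_two, K.free_two] at h5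
      omega
    · exact ⟨S, hS, h2, hSc⟩
    · refine ⟨S, hS, ?_, hSc⟩
      have hS2 : S.ncard = 2 := by
        rcases hS with rfl | rfl
        · exact K.two
        · exact K.two'
      have h4 : (T V)ᶜ ⊆ S := by
        intro i hi
        have h5 := h1 hi
        rw [h2] at h5
        rcases h5 with h5 | h5
        · exact absurd (h5 ▸ (hcov i).resolve_left hi) hg
        · exact h5
      exact (Set.eq_of_subset_of_ncard_le h4 (by rw [hS2, H.free_two]) (Set.toFinite _)).symm
  · exact Or.inl ⟨R, hR, h1, hRc⟩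
  · -- a change `g | R`
    have hR2 : R.ncard = 2 := by
      rcases hR with rfl | rfl
      · exact H.two
      · exact H.two'
    have hRV : R ⊆ T V := by
      rcases hR with rfl | rfl
      · exact H.sub
      · exact H.sub'
    rcases letter h K H.free_two hcov' hpW hpV hne hne2 h3 with
      h2 | ⟨S, hS, hSc, h2 | ⟨g', hg', h2⟩⟩
    · -- `(T W)ᶜ ⊆ T p = insert g R`
      left
      refine ⟨R, hR, ?_, hRc⟩
      have h4 : (T W)ᶜ ⊆ R := by
        intro i hi
        have h5 := h2 hi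
        rw [h1] at h5
        rcases h5 with h5 | h5
        · exact absurd (h5 ▸ (hcov i).resolve_right hi) hg
        · exact h5
      exact (Set.eq_of_subset_of_ncard_le h4 (by rw [hR2, K.free_two]) (Set.toFinite _)).symm
    · exact Or.inr (Or.inl ⟨S, hS, h2, hSc⟩)
    · right; right
      have hS2 : S.ncard = 2 := by
        rcases hS with rfl | rfl
        · exact K.two
        · exact K.two'
      have hSW : S ⊆ T W := by
        rcases hS with rfl | rfl
        · exact K.sub
        · exact K.sub'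
      have hgW : g ∈ T W := (hcov g).resolve_left hg
      have hgV' : g' ∈ T V := (hcov g').resolve_right hg'
      have hgg : g ≠ g' := fun e => hg' (e ▸ hgW)
      have hg'R : g' ∈ R := by
        have h5 : g' ∈ insert g R := by rw [← h1, h2]; exact mem_insert _ _
        rcases h5 with h5 | h5
        · exact absurd h5.symm hgg
        · exact h5
      have hgS : g ∈ S := by
        have h5 : g ∈ insert g' S := by rw [← h2, h1]; exact mem_insert _ _
        rcases h5 with h5 | h5
        · exact absurd h5 hgg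
        · exact h5
      obtain ⟨x, y, hxy, hRxy⟩ := Set.ncard_eq_two.1 hR2
      obtain ⟨i, hi, hRi⟩ : ∃ i, i ≠ g' ∧ R = {g', i} := by
        rw [hRxy] at hg'R
        rcases hg'R with h5 | h5
        · subst h5; exact ⟨y, hxy.symm, hRxy⟩
        · rw [mem_singleton_iff] at h5
          subst h5; exact ⟨x, hxy, by rw [hRxy, Set.pair_comm]⟩
      have hiR : i ∈ R := by rw [hRi]; simp
      have hiV : i ∈ T V := hRV hiR
      have hig : i ≠ g := fun e => hg (e ▸ hiV)
      have hSi : S = {g, i} := by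
        have h5 : S ⊆ {g, i} := by
          intro j hj
          have h6 : j ∈ insert g R := by rw [← h1, h2]; exact mem_insert_of_mem _ hj
          rcases h6 with h6 | h6
          · exact Or.inl h6
          · rw [hRi] at h6
            rcases h6 with h6 | h6
            · exact absurd (h6 ▸ hSW hj) hg'
            · exact Or.inr h6
        refine Set.eq_of_subset_of_ncard_le h5 ?_ (Set.toFinite _)
        rw [Set.ncard_pair hig.symm, hS2]
      have hiW : i ∈ T W := hSW (by rw [hSi]; simp)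
      refine ⟨R, S, hR, hS, hRc, hSc, g, g', i, hg, hg', hiV, hiW, hRi, hSi, ?_, hig, hi⟩
      rw [h1, hRi]

/-- the contact lemma when no pair of `V` meets a pair of `W` in exactly one common colour and ...:
the exact pairs near `p` are disjoint -/
theorem contact_disj (h : Irr U T) (H : PV T V P P') (K : PV T W Q Q')
    (hcov : ∀ i, i ∈ T V ∨ i ∈ T W) (hpV : dist p V = 1) (hpW : dist p W = 1)
    (hne : V ≠ W) (hne2 : V + W ≠ 2 * p) (h3 : (T p).ncard ≤ 3)
    (hd : ∀ R S, (R = P ∨ R = P') → (S = Q ∨ S = Q') → ∀ g g' i, g ∉ T V → g' ∉ T W →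
      R = {g', i} → S = {g, i} → False) :
    (∃ R, (R = P ∨ R = P') ∧ R = (T W)ᶜ ∧ p ∈ closure (Ex T V R)) ∨
    ∃ S, (S = Q ∨ S = Q') ∧ S = (T V)ᶜ ∧ p ∈ closure (Ex T W S) := by
  rcases contact h H K hcov hpV hpW hne hne2 h3 with h1 | h1 |
    ⟨R, S, hR, hS, -, -, g, g', i, h4, h5, -, -, h6, h7, -⟩
  · exact Or.inl h1
  · exact Or.inr h1
  · exact (hd R S hR hS g g' i h4 h5 h6 h7).elim

end PV

end Vale.Agent.P032.H460
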