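import Vale.Agent.P032.H695.JPar
import Vale.Agent.P032.H809.Side

/-!
# P032: the apexes at a K-neighbour, no swaps at two-pair neighbours (closed form)

`z` a two-pair point with the pairs `{a, b}`, `{c, d}`.

* `kapex460` : `v ∈ S(z)` a two-pair point with the pairs `{a, c}`, `{b, e}`, `p` a common point of
  `S(z)`, `S(v)` with at most three colours: `f ∈ T p`.
* `noswp460` : `y ∈ S(z)` a two-pair point whose pairs are not `{e, f}`, `p` a common point of
  `S(z)`, `S(y)` with at most three colours: `y`, `p` have no two letters of `S(z)` in common.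
-/

open Set Filter Topology Metric

noncomputable section

namespace Vale.Agent.P032.H460

open Vale.Agent.P032.Six Vale.Agent.P032.S5.H767 Vale.Agent.P032.H695

variable {U : Fin 6 → Set ℂ} {T : ℂ → Set (Fin 6)} {z v p : ℂ} {a b c d e f : Fin 6}

/-- near a point of the circle of a four coloured centre every palette is in the palette of the
point and contains a letter -/
theorem letters460 (C : Ctr U T z a b c d e f) (p : ℂ) :
    ∀ᶠ q in 𝓝[sphere z 1] p, T q ⊆ T p ∧
      (e ∈ T q ∨ f ∈ T q ∨ ({a, b} : Set (Fin 6)) ⊆ T q ∨ ({c, d} : Set (Fin 6)) ⊆ T q) := by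
  filter_upwards [mem_nhdsWithin_of_mem_nhds (C.irr.nhd p), self_mem_nhdsWithin] with q h1 h2
  refine ⟨h1, ?_⟩
  obtain ⟨l, hl⟩ := C.cover (mem_sphere.1 h2)
  have h3 := Lt_col C.irr hl
  fin_cases l
  · exact Or.inl (h3 rfl)
  · exact Or.inr (Or.inl (h3 rfl))
  · exact Or.inr (Or.inr (Or.inl h3))
  · exact Or.inr (Or.inr (Or.inr h3))

theorem pair_sub460 {x y : Fin 6} {s : Set (Fin 6)} (h : ({x, y} : Set (Fin 6)) ⊆ s) :
    x ∈ s ∧ y ∈ s := ⟨h (by simp), h (by simp)⟩

/-- not four colours -/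
theorem not_four460 {s : Set (Fin 6)} (h3 : s.ncard ≤ 3) {x y x' y' : Fin 6} (hx : x ∈ s)
    (hy : y ∈ s) (hx' : x' ∈ s) (hy' : y' ∈ s) (hn : [x, y, x', y'].Nodup) : False := by
  have := four_le hx hy hx' hy' hn
  omega

/-- the third centre rule at an apex -/
theorem apex460 (h : Irr U T) {t : Fin 6} (hvz : dist v z = 1) (hpz : dist p z = 1)
    (hpv : dist p v = 1) (ht : ∀ᶠ q in 𝓝[sphere z 1] p, t ∈ T q) (htv : t ∈ T v) : False := by
  obtain ⟨h1, h2⟩ := tri (z := v) (y := p) (y' := z) hpv (by rw [dist_comm]; exact hvz)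
  rcases h.third hpz ht hpv htv with h3 | h3
  · exact h1 h3
  · exact h2 h3

/-- **K-apex rule, closed form** -/
theorem kapex460 (h : Irr U T) (hz : DPt T z a b c d) (hnd : [a, b, c, d, e, f].Nodup)
    (hv : DPt T v a c b e) (hvz : dist v z = 1) (hpz : dist p z = 1) (hpv : dist p v = 1)
    (h3 : (T p).ncard ≤ 3) : f ∈ T p := by
  have hn := hnd
  simp only [List.nodup_cons, List.mem_cons, List.not_mem_nil, or_false, not_or, List.nodup_nil,
    and_true, not_false_eq_true] at hn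
  obtain ⟨⟨ab, ac, ad, ae, af⟩, ⟨bc, bd, be, bf⟩, ⟨cd, ce, cf⟩, ⟨de, df⟩, ef⟩ := hn
  have hzv : dist z v = 1 := by rw [dist_comm]; exact hvz
  have Cz := ctr_of h hz hnd
  have hnd' : [a, c, b, e, d, f].Nodup := by
    simp only [List.nodup_cons, List.mem_cons, List.not_mem_nil, or_false, not_or, List.nodup_nil,
      and_true, not_false_eq_true]
    exact ⟨⟨ac, ab, ae, ad, af⟩, ⟨Ne.symm bc, ce, cd, cf⟩, ⟨be, bd, bf⟩, ⟨Ne.symm de, ef⟩, df⟩
  have Cv := ctr_of h hv hnd'
  have lz := letters460 Cz p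
  have lv := letters460 Cv p
  have za : a ∈ T z := by rw [hz.pal]; simp
  have zb : b ∈ T z := by rw [hz.pal]; simp
  have zd : d ∈ T z := by rw [hz.pal]; simp
  have va : a ∈ T v := by rw [hv.pal]; simp
  have vc : c ∈ T v := by rw [hv.pal]; simp
  have ve : e ∈ T v := by rw [hv.pal]; simp
  by_contra hf
  by_cases he : e ∈ T p
  · by_cases hd : d ∈ T p
    · by_cases hb : b ∈ T p
      · -- `T p = {b, d, e}`
        refine apex460 h hvz hpz hpv (lz.mono fun q hq => ?_) ve
        rcases hq.2 with h1 | h1 | h1 | h1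
        · exact h1
        · exact absurd (hq.1 h1) hf
        · exact (not_four460 h3 (hq.1 (pair_sub460 h1).1) hb hd he (by simp [ab, ad, ae, bd, be, de])).elim
        · exact (not_four460 h3 (hq.1 (pair_sub460 h1).1) hb hd he
            (by simp [Ne.symm bc, cd, ce, bd, be, de])).elim
      · refine apex460 h hzv hpv hpz (lv.mono fun q hq => ?_) zd
        rcases hq.2 with h1 | h1 | h1 | h1
        · exact h1
        · exact absurd (hq.1 h1) hf
        · exact (not_four460 h3 (hq.1 (pair_sub460 h1).1) (hq.1 (pair_sub460 h1).2) hd he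
            (by simp [ac, ad, ae, cd, ce, de])).elim
        · exact absurd (hq.1 (pair_sub460 h1).1) hb
    · -- `S(v)` has only pairs
      by_cases hac : a ∈ T p ∧ c ∈ T p
      · refine apex460 h hzv hpv hpz (lv.mono fun q hq => ?_) za
        rcases hq.2 with h1 | h1 | h1 | h1
        · exact absurd (hq.1 h1) hd
        · exact absurd (hq.1 h1) hf
        · exact (pair_sub460 h1).1
        · exact (not_four460 h3 (hq.1 (pair_sub460 h1).1) hac.1 hac.2 he
            (by simp [Ne.symm ab, bc, be, ac, ae, ce])).elim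
      · refine apex460 h hzv hpv hpz (lv.mono fun q hq => ?_) zb
        rcases hq.2 with h1 | h1 | h1 | h1
        · exact absurd (hq.1 h1) hd
        · exact absurd (hq.1 h1) hf
        · exact absurd ⟨hq.1 (pair_sub460 h1).1, hq.1 (pair_sub460 h1).2⟩ hac
        · exact (pair_sub460 h1).1
  · -- `S(z)` has only pairs
    by_cases hab : a ∈ T p ∧ b ∈ T p
    · refine apex460 h hvz hpz hpv (lz.mono fun q hq => ?_) va
      rcases hq.2 with h1 | h1 | h1 | h1
      · exact absurd (hq.1 h1) he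
      · exact absurd (hq.1 h1) hf
      · exact (pair_sub460 h1).1
      · exact (not_four460 h3 (hq.1 (pair_sub460 h1).1) (hq.1 (pair_sub460 h1).2) hab.1 hab.2
          (by simp [Ne.symm ac, Ne.symm bc, Ne.symm ad, Ne.symm bd, cd, ab])).elim
    · refine apex460 h hvz hpz hpv (lz.mono fun q hq => ?_) vc
      rcases hq.2 with h1 | h1 | h1 | h1
      · exact absurd (hq.1 h1) he
      · exact absurd (hq.1 h1) hf
      · exact absurd ⟨hq.1 (pair_sub460 h1).1, hq.1 (pair_sub460 h1).2⟩ hab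
      · exact (pair_sub460 h1).1

theorem free_fin460 : ∀ p q r s : Fin 6, decide ([p, q, r, s].Nodup) = true →
    ∃ g g' : Fin 6, decide ([p, q, r, s, g, g'].Nodup) = true := by
  decide +kernel

/-- two colours outside the palette of a two-pair point -/
theorem exists_free460 {y : ℂ} {p q r s : Fin 6} (hD : DPt T y p q r s) :
    ∃ g g' : Fin 6, [p, q, r, s, g, g'].Nodup := by
  obtain ⟨g, g', h⟩ := free_fin460 p q r s (by
    simp [hD.ab, hD.ac, hD.ad, hD.bc, hD.bd, hD.cd])
  exact ⟨g, g', of_decide_eq_true h⟩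

theorem two_of_ef460 {x y e f : Fin 6} (hxy : x ≠ y) (hx : x = e ∨ x = f) (hy : y = e ∨ y = f) :
    ({e, f} : Set (Fin 6)) = {x, y} := by
  rcases hx with rfl | rfl <;> rcases hy with rfl | rfl
  · exact absurd rfl hxy
  · rfl
  · exact Set.pair_comm _ _
  · exact absurd rfl hxy

/-- **the palette of an apex of order at most three is not inside the palette of a two-pair
neighbour whose pairs are not `{e, f}`** -/
theorem not_inside460 (C : Ctr U T z a b c d e f) {x y : ℂ} {p q r s : Fin 6}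
    (hy : dist y z = 1) (hD : DPt T y p q r s) (h1 : ({e, f} : Set (Fin 6)) ≠ {p, q})
    (h2 : ({e, f} : Set (Fin 6)) ≠ {r, s}) (hx : dist x z = 1) (hxy : dist x y = 1)
    (h3 : (T x).ncard ≤ 3) : ¬ T x ⊆ T y := by
  intro hsub
  have h := C.irr
  have hzy : dist z y = 1 := by rw [dist_comm]; exact hy
  obtain ⟨g, g', hnd⟩ := exists_free460 hD
  have Cy := ctr_of h hD hnd
  have hn := hnd
  simp only [List.nodup_cons, List.mem_cons, List.not_mem_nil, or_false, not_or, List.nodup_nil,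
    and_true, not_false_eq_true] at hn
  obtain ⟨⟨pq, pr, ps, pg, pg'⟩, ⟨qr, qs, qg, qg'⟩, ⟨rs, rg, rg'⟩, ⟨sg, sg'⟩, gg⟩ := hn
  have ly := letters460 Cy x
  have hgx : g ∉ T x := fun hg => by
    have := hsub hg
    rw [hD.pal] at this
    simp only [mem_insert_iff, mem_singleton_iff] at this
    rcases this with h4 | h4 | h4 | h4
    exacts [pg h4.symm, qg h4.symm, rg h4.symm, sg h4.symm]
  have hgx' : g' ∉ T x := fun hg => by
    have := hsub hg
    rw [hD.pal] at this
    simp only [mem_insert_iff, mem_singleton_iff] at this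
    rcases this with h4 | h4 | h4 | h4
    exacts [pg' h4.symm, qg' h4.symm, rg' h4.symm, sg' h4.symm]
  have hfin : ∀ t, (∀ᶠ w in 𝓝[sphere y 1] x, t ∈ T w) → t = e ∨ t = f := by
    intro t ht
    by_contra hcon
    have htz : t ∈ T z := by
      by_contra h4
      exact hcon (C.miss h4)
    exact apex460 h hzy hxy hx ht htz
  by_cases hpq : p ∈ T x ∧ q ∈ T x
  · have hall : ∀ᶠ w in 𝓝[sphere y 1] x, p ∈ T w ∧ q ∈ T w := by
      filter_upwards [ly] with w hw
      rcases hw.2 with h4 | h4 | h4 | h4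
      · exact absurd (hw.1 h4) hgx
      · exact absurd (hw.1 h4) hgx'
      · exact pair_sub460 h4
      · exact (not_four460 h3 hpq.1 hpq.2 (hw.1 (pair_sub460 h4).1) (hw.1 (pair_sub460 h4).2)
          (by simp [pq, pr, ps, qr, qs, rs])).elim
    exact h1 (two_of_ef460 pq (hfin p (hall.mono fun w hw => hw.1))
      (hfin q (hall.mono fun w hw => hw.2)))
  · have hall : ∀ᶠ w in 𝓝[sphere y 1] x, r ∈ T w ∧ s ∈ T w := by
      filter_upwards [ly] with w hw
      rcases hw.2 with h4 | h4 | h4 | h4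
      · exact absurd (hw.1 h4) hgx
      · exact absurd (hw.1 h4) hgx'
      · exact absurd ⟨hw.1 (pair_sub460 h4).1, hw.1 (pair_sub460 h4).2⟩ hpq
      · exact pair_sub460 h4
    exact h2 (two_of_ef460 rs (hfin r (hall.mono fun w hw => hw.1))
      (hfin s (hall.mono fun w hw => hw.2)))

/-- **no swap at a two-pair neighbour whose pairs are not `{e, f}`** -/
theorem noswp460 (C : Ctr U T z a b c d e f) {x y : ℂ} {p q r s : Fin 6}
    (hy : dist y z = 1) (hD : DPt T y p q r s) (h1 : ({e, f} : Set (Fin 6)) ≠ {p, q})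
    (h2 : ({e, f} : Set (Fin 6)) ≠ {r, s}) (hx : dist x z = 1) (hxy : dist x y = 1)
    (h3 : (T x).ncard ≤ 3) : ¬ Swp T z a b c d e f y x := by
  rintro ⟨l, m, hlm, k1, k2, k3, k4⟩
  have h := C.irr
  have hnin := not_inside460 C hy hD h1 h2 hx hxy h3
  have c1 := Lt_col h k1
  have c2 := Lt_col h k2
  have c3 := Lt_col h k3
  have c4 := Lt_col h k4
  obtain ⟨w, hwx, hwy⟩ := Set.not_subset.1 hnin
  have hn := C.nd
  simp only [List.nodup_cons, List.mem_cons, List.not_mem_nil, or_false, not_or, List.nodup_nil,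
    and_true, not_false_eq_true] at hn
  obtain ⟨⟨ab, ac, ad, ae, af⟩, ⟨bc, bd, be, bf⟩, ⟨cd, ce, cf⟩, ⟨de, df⟩, ef⟩ := hn
  -- two common letters with three colours fill the palette of `x`
  have three : ∀ i j k : Fin 6, i ∈ T x → j ∈ T x → k ∈ T x → i ∈ T y → j ∈ T y → k ∈ T y →
      i ≠ j → i ≠ k → j ≠ k → False := by
    intro i j k xi xj xk yi yj yk ij ik jk
    have wi : w ≠ i := fun hh => hwy (hh ▸ yi)
    have wj : w ≠ j := fun hh => hwy (hh ▸ yj)
    have wk : w ≠ k := fun hh => hwy (hh ▸ yk)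
    exact not_four460 h3 hwx xi xj xk (by simp [wi, wj, wk, ij, ik, jk])
  -- the letters are `e` and `f`
  have hef : e ∈ T y ∧ f ∈ T y ∧ e ∈ T x ∧ f ∈ T x := by
    have key : ∀ l m : Fin 4, l < m → col a b c d e f l ⊆ T y → col a b c d e f m ⊆ T y →
        col a b c d e f l ⊆ T x → col a b c d e f m ⊆ T x →
        e ∈ T y ∧ f ∈ T y ∧ e ∈ T x ∧ f ∈ T x := by
      intro l m hlm c1 c2 c3 c4
      have : (l = 0 ∧ m = 1) ∨ (l = 0 ∧ m = 2) ∨ (l = 0 ∧ m = 3) ∨ (l = 1 ∧ m = 2) ∨
          (l = 1 ∧ m = 3) ∨ (l = 2 ∧ m = 3) := by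
        revert hlm; clear c1 c2 c3 c4; revert l m; decide
      rcases this with ⟨rfl, rfl⟩ | ⟨rfl, rfl⟩ | ⟨rfl, rfl⟩ | ⟨rfl, rfl⟩ | ⟨rfl, rfl⟩ | ⟨rfl, rfl⟩
      · exact ⟨c1 rfl, c2 rfl, c3 rfl, c4 rfl⟩
      · exact (three e a b (c3 rfl) (c4 (Or.inl rfl)) (c4 (Or.inr rfl)) (c1 rfl) (c2 (Or.inl rfl))
          (c2 (Or.inr rfl)) (Ne.symm ae) (Ne.symm be) ab).elim
      · exact (three e c d (c3 rfl) (c4 (Or.inl rfl)) (c4 (Or.inr rfl)) (c1 rfl) (c2 (Or.inl rfl))
          (c2 (Or.inr rfl)) (Ne.symm ce) (Ne.symm de) cd).elim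
      · exact (three f a b (c3 rfl) (c4 (Or.inl rfl)) (c4 (Or.inr rfl)) (c1 rfl) (c2 (Or.inl rfl))
          (c2 (Or.inr rfl)) (Ne.symm af) (Ne.symm bf) ab).elim
      · exact (three f c d (c3 rfl) (c4 (Or.inl rfl)) (c4 (Or.inr rfl)) (c1 rfl) (c2 (Or.inl rfl))
          (c2 (Or.inr rfl)) (Ne.symm cf) (Ne.symm df) cd).elim
      · exact (three a b c (c3 (Or.inl rfl)) (c3 (Or.inr rfl)) (c4 (Or.inl rfl)) (c1 (Or.inl rfl))
          (c1 (Or.inr rfl)) (c2 (Or.inl rfl)) ab ac bc).elim
    rcases lt_or_gt_of_ne hlm with h4 | h4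
    · exact key l m h4 c1 c2 c3 c4
    · exact key m l h4 c2 c1 c4 c3
  obtain ⟨ye, yf, xe, xf⟩ := hef
  have we : w ≠ e := fun hh => hwy (hh ▸ ye)
  have wf : w ≠ f := fun hh => hwy (hh ▸ yf)
  have hwz : w ∈ T z := by
    by_contra h4
    rcases C.miss h4 with h5 | h5
    · exact we h5
    · exact wf h5
  have hTx : ∀ i ∈ T x, i = e ∨ i = f ∨ i = w := by
    intro i hi
    by_contra hcon
    push Not at hcon
    exact not_four460 h3 xe xf hwx hi (by simp [ef, Ne.symm we, Ne.symm wf, Ne.symm hcon.1, Ne.symm hcon.2.1, Ne.symm hcon.2.2])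
  -- `w` is the only letter of `S(y)` at `x`
  obtain ⟨g, g', hnd⟩ := exists_free460 hD
  have Cy := ctr_of h hD hnd
  have hzy : dist z y = 1 := by rw [dist_comm]; exact hy
  refine apex460 h hzy hxy hx ((letters460 Cy x).mono fun u hu => ?_) hwz
  have hpal := hD.pal
  have hnd2 := hnd
  simp only [List.nodup_cons, List.mem_cons, List.not_mem_nil, or_false, not_or, List.nodup_nil,
    and_true, not_false_eq_true] at hnd2
  obtain ⟨⟨pq, pr, ps, pg, pg'⟩, ⟨qr, qs, qg, qg'⟩, ⟨rs, rg, rg'⟩, ⟨sg, sg'⟩, gg⟩ := hnd2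
  have free : ∀ i ∈ T u, i ∉ T y → w ∈ T u := by
    intro i hi hiy
    rcases hTx i (hu.1 hi) with rfl | rfl | rfl
    · exact absurd ye hiy
    · exact absurd yf hiy
    · exact hi
  have hgy : g ∉ T y := by
    rw [hpal]; simp [Ne.symm pg, Ne.symm qg, Ne.symm rg, Ne.symm sg]
  have hgy' : g' ∉ T y := by
    rw [hpal]; simp [Ne.symm pg', Ne.symm qg', Ne.symm rg', Ne.symm sg']
  have pair : ∀ i j : Fin 6, i ≠ j → ({e, f} : Set (Fin 6)) ≠ {i, j} → i ∈ T u → j ∈ T u →
      w ∈ T u := by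
    intro i j hij hne hi hj
    rcases hTx i (hu.1 hi) with h4 | h4 | h4
    · rcases hTx j (hu.1 hj) with h5 | h5 | h5
      · exact absurd (h4.trans h5.symm) hij
      · exact absurd (two_of_ef460 hij (Or.inl h4) (Or.inr h5)) hne
      · rw [← h5]; exact hj
    · rcases hTx j (hu.1 hj) with h5 | h5 | h5
      · exact absurd (two_of_ef460 hij (Or.inr h4) (Or.inl h5)) hne
      · exact absurd (h4.trans h5.symm) hij
      · rw [← h5]; exact hj
    · rw [← h4]; exact hi
  rcases hu.2 with h4 | h4 | h4 | h4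
  · exact free g h4 hgy
  · exact free g' h4 hgy'
  · exact pair p q pq h1 (pair_sub460 h4).1 (pair_sub460 h4).2
  · exact pair r s rs h2 (pair_sub460 h4).1 (pair_sub460 h4).2

end Vale.Agent.P032.H460
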