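import Vale.Agent.P032.H460.CovW

/-!
# P032, X-B (B3): the four-term sum at a quasi-full two-pair point

`ringK` : at a quasi-full centre with J- or K-ends the canonical labels on every fine mesh of the
circle have an odd number of `e|f` changes.

`DSt.sum_four_quasi` : `V` two-pair with the pairs `{a, b}`, `{p, q}`, the exact `ab`-arcs form one
arc of length at most `60` degrees whose ends are `PEnd` (J or K, `JKEnd.pend`), the points of
order at least four of `S(V)` are `Safe` and none of them has both free colours `e, g`.  Then the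
sum of the four state values `{i, e, g}` at `V`, `i = a, b, p, q`, each read at the colour `i`,
is `1`.
-/

open Set Filter Topology Metric

noncomputable section

namespace Vale.Agent.P032.H460

open Vale.Agent.P032.Six Vale.Agent.P032.S5.H767 Vale.Agent.P032.H695
open Vale.Agent.P032.H180 hiding pt pt_six dist_pt continuous_pt
open Vale.Agent.P032.S5 (eps)

variable {U : Fin 6 → Set ℂ} {T : ℂ → Set (Fin 6)} {z : ℂ} {a b c d e f : Fin 6}

theorem s5pt460 (z : ℂ) (j k : ℕ) : S5.pt z j (2 ^ j) k = pt z ((k : ℝ) / 2 ^ j) := by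
  unfold S5.pt pt cis
  have h1 : ((((2 ^ j : ℕ) : ℝ) / 2 ^ j : ℝ) : ℂ) = 1 := by
    push_cast
    exact div_self (pow_ne_zero _ two_ne_zero)
  have h2 : (Real.pi / 3 * (k : ℝ) / 2 ^ j : ℝ) = (k : ℝ) / 2 ^ j * (Real.pi / 3) := by ring
  rw [h1, one_mul, h2]

theorem pt_per460 (z : ℂ) (u : ℝ) (n : ℤ) : pt z (u + n * 6) = pt z u := by
  unfold pt cis
  congr 1
  have h1 : (((u + n * 6) * (Real.pi / 3) : ℝ) : ℂ) * Complex.I =
      ((u * (Real.pi / 3) : ℝ) : ℂ) * Complex.I + (n : ℂ) * (2 * Real.pi * Complex.I) := by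
    push_cast
    ring
  rw [h1, Complex.exp_add, Complex.exp_int_mul_two_pi_mul_I, mul_one]

theorem eps_pair460 {e f u w : Fin 6} (hef : e ≠ f) :
    eps u w {e, f} = if (u = e ∧ w = f) ∨ (u = f ∧ w = e) then 1 else 0 := by
  unfold S5.eps
  refine if_congr ⟨?_, ?_⟩ rfl rfl
  · rintro ⟨hne, h⟩
    have h1 : e ∈ ({u, w} : Finset (Fin 6)) := by rw [← h]; simp
    have h2 : f ∈ ({u, w} : Finset (Fin 6)) := by rw [← h]; simp
    simp only [Finset.mem_insert, Finset.mem_singleton] at h1 h2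
    rcases h1 with h1 | h1 <;> rcases h2 with h2 | h2
    · exact absurd (h1.trans h2.symm) hef
    · exact Or.inl ⟨h1.symm, h2.symm⟩
    · exact Or.inr ⟨h2.symm, h1.symm⟩
    · exact absurd (h1.trans h2.symm) hef
  · rintro (⟨rfl, rfl⟩ | ⟨rfl, rfl⟩)
    · exact ⟨hef, rfl⟩
    · exact ⟨Ne.symm hef, Finset.pair_comm _ _⟩

open Classical in
/-- the label in `Fin 3` -/
def lb3 (T : ℂ → Set (Fin 6)) (e f : Fin 6) (y : ℂ) : Fin 3 :=
  if e ∈ T y then 0 else if f ∈ T y then 1 else 2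

theorem lb3_zero {y : ℂ} : lb3 T e f y = 0 ↔ e ∈ T y := by
  unfold lb3
  split_ifs with h1 h2
  · exact ⟨fun _ => h1, fun _ => rfl⟩
  · exact ⟨fun h => absurd h (by decide), fun h => absurd h h1⟩
  · exact ⟨fun h => absurd h (by decide), fun h => absurd h h1⟩

theorem lb3_one {y : ℂ} : lb3 T e f y = 1 ↔ e ∉ T y ∧ f ∈ T y := by
  unfold lb3
  split_ifs with h1 h2
  · exact ⟨fun h => absurd h (by decide), fun h => absurd h1 h.1⟩
  · exact ⟨fun _ => ⟨h1, h2⟩, fun _ => rfl⟩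
  · exact ⟨fun h => absurd h (by decide), fun h => absurd h.2 h2⟩

theorem lb3_step (hfe : f ≠ e) (hae : a ≠ e) (haf : a ≠ f) (y y' : ℂ) :
    f2 (lb3 T e f y) (lb3 T e f y') = eps (can T e f a y) (can T e f a y') {e, f} := by
  rw [eps_pair460 (Ne.symm hfe)]
  unfold f2
  refine if_congr ?_ rfl rfl
  rw [lb3_zero, lb3_one, lb3_one, lb3_zero, can_e hfe hae, can_g hfe haf, can_g hfe haf,
    can_e hfe hae]

theorem lb3_mem (C : Ctr U T z a b c d e f) {y : ℂ} (hy : dist y z = 1) :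
    lb3 T e f y ∈ Q3 T z a b c d e f y := by
  unfold lb3
  split_ifs with h1 h2
  · exact Q3_zero.2 ⟨hy, h1⟩
  · exact Q3_one.2 ⟨hy, h2⟩
  · obtain ⟨l, hl⟩ := C.cover hy
    have h3 := Lt_col C.irr hl
    fin_cases l
    · exact absurd (h3 rfl) h1
    · exact absurd (h3 rfl) h2
    · exact Q3_two.2 (Or.inl hl)
    · exact Q3_two.2 (Or.inr hl)

/-- **The ring of a quasi-full centre, J- or K-ends.** -/
theorem ringK (C : Ctr U T z a b c d e f) {u0 α : ℝ} (hα0 : 0 < α) (hα1 : α ≤ 1)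
    (hX : ∀ t ∈ Ioo (0 : ℝ) α, e ∉ T (pt z (u0 + t)) ∧ f ∉ T (pt z (u0 + t)))
    (hl : PEnd T e f (pt z u0) (pt z (u0 - 1)))
    (hr : PEnd T e f (pt z (u0 + α)) (pt z (u0 + α + 1)))
    (hXonly : ∀ t ∈ Ioo α (6 : ℝ), pt z (u0 + t) ∉ closure (Ex T z {a, b}))
    (hback : ∀ t ∈ Icc (0 : ℝ) α, pt z (u0 + 3 + t) ∉ closure (Ex T z {c, d}))
    (htr : ∀ q, dist q z = 1 → e ∈ T q → f ∈ T q → q ∉ closure (Ex T z {a, b}) ∧
        q ∉ closure (Ex T z {c, d}))
    (hsw : ∀ y y', dist y z = 1 → dist y' z = 1 → dist y y' = 1 → y ∉ closure (Ex T z {a, b}) →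
        y' ∉ closure (Ex T z {a, b}) → ¬ Swp T z a b c d e f y y') :
    ∀ᶠ j : ℕ in atTop, ∑ k ∈ Finset.range (6 * 2 ^ j),
      eps (can T e f a (S5.pt z j (2 ^ j) k)) (can T e f a (S5.pt z j (2 ^ j) (k + 1)))
        {e, f} = 1 := by
  have hn := C.nd
  simp only [List.nodup_cons, List.mem_cons, List.not_mem_nil, or_false, not_or, List.nodup_nil,
    and_true, not_false_eq_true] at hn
  obtain ⟨⟨ab, ac, ad, ae, af⟩, ⟨bc, bd, be, bf⟩, ⟨cd, ce, cf⟩, ⟨de, df⟩, ef⟩ := hn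
  -- no triple point
  have hntr : ∀ q, dist q z = 1 → ¬ ∀ l, l ∈ Q3 T z a b c d e f q := by
    intro q hq hall
    have h1 := htr q hq (Q3_zero.1 (hall 0)).2 (Q3_one.1 (hall 1)).2
    rcases Q3_two.1 (hall 2) with h2 | h2
    · exact h1.1 h2
    · exact h1.2 h2
  have hcov : Cov fun t => Q3 T z a b c d e f (pt z (u0 - 3 + t)) := by
    refine ⟨fun t => ?_, fun t => ?_, fun t => ?_, fun t => ?_⟩
    · have h1 : u0 - 3 + (t + 6) = u0 - 3 + t + 6 := by ring
      simp only [h1, pt_six]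
    · obtain ⟨l, hl⟩ := C.cover (dist_pt z (u0 - 3 + t))
      exact ⟨mg l, Q3_mg hl⟩
    · by_contra hcon
      push Not at hcon
      exact hntr _ (dist_pt z _) hcon
    · have h1 : Tendsto (fun s : ℝ => pt z (u0 - 3 + s)) (𝓝 t) (𝓝 (pt z (u0 - 3 + t))) :=
        ((continuous_pt z).comp (continuous_const_add (u0 - 3))).tendsto t
      have h3 : ∀ l, ∀ᶠ y in 𝓝 (pt z (u0 - 3 + t)), l ∈ Q3 T z a b c d e f y →
          l ∈ Q3 T z a b c d e f (pt z (u0 - 3 + t)) := by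
        intro l
        by_cases hl : l ∈ Q3 T z a b c d e f (pt z (u0 - 3 + t))
        · exact Eventually.of_forall fun _ _ => hl
        · filter_upwards [(Q3_closed C.irr l).isOpen_compl.mem_nhds hl] with y hy hy'
          exact absurd hy' hy
      filter_upwards [h1.eventually (eventually_all.2 h3)] with y hy l hl
      exact hy l hl
  have kl : KEnd (fun t => Q3 T z a b c d e f (pt z (u0 - 3 + t))) 3 2 := by
    refine PEnd.kend (p := fun t => pt z (u0 - 3 + t)) ?_ fun t => dist_pt z _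
    show PEnd T e f (pt z (u0 - 3 + 3)) (pt z (u0 - 3 + 2))
    rw [show u0 - 3 + 3 = u0 by ring, show u0 - 3 + 2 = u0 - 1 by ring]
    exact hl
  have kr : KEnd (fun t => Q3 T z a b c d e f (pt z (u0 - 3 + t))) (3 + α) (4 + α) := by
    refine PEnd.kend (p := fun t => pt z (u0 - 3 + t)) ?_ fun t => dist_pt z _
    show PEnd T e f (pt z (u0 - 3 + (3 + α))) (pt z (u0 - 3 + (4 + α)))
    rw [show u0 - 3 + (3 + α) = u0 + α by ring, show u0 - 3 + (4 + α) = u0 + α + 1 by ring]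
    exact hr
  obtain ⟨δ, hδ, hring⟩ := ring_oddK hcov (α := α) hα0 hα1 (fun t ht => by
    have h1 := hX (t - 3) ⟨by linarith [ht.1], by linarith [ht.2]⟩
    have h3 : u0 + (t - 3) = u0 - 3 + t := by ring
    rw [h3] at h1
    intro l hl
    rcases hl with ⟨rfl, h⟩ | ⟨rfl, h⟩ | ⟨rfl, h⟩
    · exact absurd h.2 h1.1
    · exact absurd h.2 h1.2
    · rfl) kl kr (fun t ht h => by
    rcases Q3_two.1 h with h | h
    · have h3 : u0 + (t - 3) = u0 - 3 + t := by ring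
      have h4 := hXonly (t - 3) ⟨by linarith [ht.1], by linarith [ht.2]⟩
      rw [h3] at h4
      exact h4 h
    · have h3 : u0 + 3 + (t - 6) = u0 - 3 + t := by ring
      have h4 := hback (t - 6) ⟨by linarith [ht.1], by linarith [ht.2]⟩
      rw [h3] at h4
      exact h4 h)
    (fun t ht => by
    have h3 : u0 + (t - 3) = u0 - 3 + t := by ring
    have h3' : u0 + (t - 2) = u0 - 3 + (t + 1) := by ring
    have h4 := hXonly (t - 3) ⟨by linarith [ht.1], by linarith [ht.2]⟩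
    have h4' := hXonly (t - 2) ⟨by linarith [ht.1], by linarith [ht.2]⟩
    rw [h3] at h4
    rw [h3'] at h4'
    have h5 : dist (pt z (u0 - 3 + t)) (pt z (u0 - 3 + (t + 1))) = 1 := by
      have := dist_pt_one z (u0 - 3 + t)
      rwa [add_assoc] at this
    have h6 : ¬ Swp T z a b c d e f (pt z (u0 - 3 + t)) (pt z (u0 - 3 + (t + 1))) :=
      hsw _ _ (dist_pt z _) (dist_pt z _) h5 h4 h4'
    have h6' : ¬ Swp T z a b c d e f (pt z (u0 - 3 + (t + 1))) (pt z (u0 - 3 + t)) := by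
      rintro ⟨l, m, hlm, k1, k2, k3, k4⟩
      exact h6 ⟨l, m, hlm, k3, k4, k1, k2⟩
    exact ⟨not_sub C (dist_pt z _) (dist_pt z _) h5 h4 h4' h6,
      not_sub C (dist_pt z _) (dist_pt z _) (by rw [dist_comm]; exact h5) h4' h4 h6'⟩)
  -- the base shift
  obtain ⟨n, c0, hc0, hc0'⟩ : ∃ (n : ℤ) (c0 : ℝ), c0 ∈ Icc (0 : ℝ) 6 ∧
      u0 - 3 + c0 = (n : ℝ) * 6 := by
    refine ⟨-⌊-(u0 - 3) / 6⌋, -(u0 - 3) - ⌊-(u0 - 3) / 6⌋ * 6, ⟨?_, ?_⟩, ?_⟩
    · have := Int.floor_le (-(u0 - 3) / 6)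
      linarith
    · have := Int.lt_floor_add_one (-(u0 - 3) / 6)
      linarith
    · push_cast
      ring
  have hpos : ∀ j : ℕ, (0 : ℝ) < 2 ^ j := fun j => by positivity
  filter_upwards [(tendsto_order.1 S5.tendsto_mesh).2 _ hδ] with j hj
  have hj2 := hpos j
  have hpt : ∀ k : ℕ, pt z (u0 - 3 + ((k : ℝ) / 2 ^ j + c0)) = S5.pt z j (2 ^ j) k := by
    intro k
    rw [s5pt460, ← pt_per460 z ((k : ℝ) / 2 ^ j) n]
    congr 1
    linarith
  have h1 := hring c0 hc0 (6 * 2 ^ j) (fun k => (k : ℝ) / 2 ^ j + c0)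
    (fun k => lb3 T e f (S5.pt z j (2 ^ j) k)) (fun k hk => ?_) ?_ ?_ (fun k hk => ?_)
    (fun k hk => ?_) ?_
  · rw [← h1]
    refine Finset.sum_congr rfl fun k _ => ?_
    exact (lb3_step (Ne.symm ef) ae af _ _).symm
  · have hk' : (k : ℝ) ≤ 6 * 2 ^ j := by exact_mod_cast hk
    constructor
    · have h2 : (0 : ℝ) ≤ (k : ℝ) / 2 ^ j := by positivity
      linarith [hc0.1]
    · have h2 : (k : ℝ) / 2 ^ j ≤ 6 := by
        rw [div_le_iff₀ hj2]
        exact hk'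
      linarith [hc0.2]
  · simp
  · push_cast
    field_simp
    ring
  · have h2 : (k : ℝ) / 2 ^ j + c0 - (((k + 1 : ℕ) : ℝ) / 2 ^ j + c0) = -(1 / 2 ^ j) := by
      push_cast
      ring
    rw [h2, abs_neg, abs_of_pos (by positivity)]
    refine lt_of_le_of_lt ?_ hj
    exact div_le_div_of_nonneg_right (by norm_num) hj2.le
  · show lb3 T e f (S5.pt z j (2 ^ j) k) ∈ Q3 T z a b c d e f (pt z (u0 - 3 + ((k : ℝ) / 2 ^ j + c0)))
    rw [hpt]
    exact lb3_mem C (S5.pt_ring z j k)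
  · show lb3 T e f (S5.pt z j (2 ^ j) (6 * 2 ^ j)) = lb3 T e f (S5.pt z j (2 ^ j) 0)
    rw [S5.pt_per]

/-- **The ring of a quasi-full two-pair point with J- and K-ends.** -/
theorem ring_quasi460 (h : Irr U T) (hz : DPt T z a b c d) (hnd : [a, b, c, d, e, f].Nodup)
    {u0 α : ℝ} (hα0 : 0 < α) (hα1 : α ≤ 1) (harc : ∀ t ∈ Ioo (0 : ℝ) α, T (pt z (u0 + t)) = {a, b})
    (honly : ∀ q, dist q z = 1 → T q = {a, b} → ∃ t ∈ Ioo (0 : ℝ) α, q = pt z (u0 + t))
    (hl : PEnd T e f (pt z u0) (pt z (u0 - 1)))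
    (hr : PEnd T e f (pt z (u0 + α)) (pt z (u0 + α + 1)))
    (hN : ∀ y, dist y z = 1 → 4 ≤ (T y).ncard → Safe T z e f y)
    (hef : ∀ y, dist y z = 1 → 4 ≤ (T y).ncard → ¬ (e ∈ T y ∧ f ∈ T y)) :
    ∀ᶠ j : ℕ in atTop, ∑ k ∈ Finset.range (6 * 2 ^ j),
      eps (can T e f a (S5.pt z j (2 ^ j) k)) (can T e f a (S5.pt z j (2 ^ j) (k + 1)))
        {e, f} = 1 := by
  have C := ctr_of h hz hnd
  have hn := hnd
  simp only [List.nodup_cons, List.mem_cons, List.not_mem_nil, or_false, not_or, List.nodup_nil,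
    and_true, not_false_eq_true] at hn
  obtain ⟨⟨ab, ac, ad, ae, af⟩, ⟨bc, bd, be, bf⟩, ⟨cd, ce, cf⟩, ⟨de, df⟩, ef⟩ := hn
  -- the closed arc
  have hclos : closure (Ex T z {a, b}) ⊆ (fun t : ℝ => pt z (u0 + t)) '' Icc 0 α := by
    have h1 : IsClosed ((fun t : ℝ => pt z (u0 + t)) '' Icc 0 α) :=
      (isCompact_Icc.image ((continuous_pt z).comp (continuous_const_add u0))).isClosed
    refine closure_minimal (fun y hy => ?_) h1
    obtain ⟨t, ht, hyt⟩ := honly y hy.1 (ex_self hy)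
    exact ⟨t, ⟨ht.1.le, ht.2.le⟩, hyt.symm⟩
  have hclT : ∀ t ∈ Icc (0 : ℝ) α, ({a, b} : Set (Fin 6)) ⊆ T (pt z (u0 + t)) := by
    intro t ht i hi
    have h1 : IsClosed {t : ℝ | i ∈ T (pt z (u0 + t))} :=
      (h.closed i).preimage ((continuous_pt z).comp (continuous_const_add u0))
    have h2 : closure (Ioo (0 : ℝ) α) ⊆ {t : ℝ | i ∈ T (pt z (u0 + t))} :=
      closure_minimal (fun s hs => by
        show i ∈ T (pt z (u0 + s))
        rw [harc s hs]; exact hi) h1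
    rw [closure_Ioo hα0.ne] at h2
    exact h2 ht
  refine ringK C hα0 hα1 (fun t ht => ?_) hl hr (fun t ht hcl => ?_) (fun t ht hcl => ?_)
    (fun q hq he hf => ?_) fun y y' hy hy' hyy hy2 hy2' => ?_
  · rw [harc t ht]
    simp [Ne.symm ae, Ne.symm be, Ne.symm af, Ne.symm bf]
  · obtain ⟨s, hs, hst⟩ := hclos hcl
    obtain ⟨n, hn⟩ := pt_inj460 hst
    have h1 : s = t + n * 6 := by linarith
    have b1 : (n : ℝ) * 6 < 0 := by linarith [hs.2, ht.1]
    have b2 : -6 < (n : ℝ) * 6 := by linarith [hs.1, ht.2]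
    have c1 : (n : ℝ) < 0 := by linarith
    have c2 : (-1 : ℝ) < n := by linarith
    have c3 : n < 0 := by exact_mod_cast c1
    have c4 : (-1 : ℤ) < n := by exact_mod_cast c2
    omega
  · have e1 : u0 + 3 + t = u0 + t + 3 := by ring
    rw [e1, pt_three] at hcl
    have h1 := pair_sub460 (hclT t ht)
    have h2 := pair_sub460 (sub_of_closure h hcl)
    exact h.anti hz (dist_pt z _) (h.sub _ h1.1) (h.sub _ h1.2) (h.sub _ h2.1) (h.sub _ h2.2)
  · constructor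
    · intro hcl
      have h1 := pair_sub460 (sub_of_closure h hcl)
      exact hef q hq (four_le h1.1 h1.2 he hf (by simp [ab, ae, af, be, bf, ef])) ⟨he, hf⟩
    · intro hcl
      have h1 := pair_sub460 (sub_of_closure h hcl)
      exact hef q hq (four_le h1.1 h1.2 he hf (by simp [cd, ce, cf, de, df, ef])) ⟨he, hf⟩
  · -- no swaps
    have hJ : ∀ y, T y = T z → y ∉ closure (Ex T z {a, b}) → ∀ l m : Fin 4, l ≠ m →
        y ∈ Lt T z a b c d e f l → y ∈ Lt T z a b c d e f m → False := by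
      intro y hyT hy2 l m hlm hl hm
      have hey : e ∉ T y := by
        rw [hyT, hz.pal]; simp [Ne.symm ae, Ne.symm be, Ne.symm ce, Ne.symm de]
      have hfy : f ∉ T y := by
        rw [hyT, hz.pal]; simp [Ne.symm af, Ne.symm bf, Ne.symm cf, Ne.symm df]
      have key : ∀ l : Fin 4, y ∈ Lt T z a b c d e f l → l = 3 := by
        intro l hl
        have hc := Lt_col h hl
        fin_cases l
        · exact absurd (hc rfl) hey
        · exact absurd (hc rfl) hfy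
        · exact absurd hl hy2
        · rfl
      exact hlm ((key l hl).trans (key m hm).symm)
    have hyy' : dist y' y = 1 := by rw [dist_comm]; exact hyy
    by_cases h4 : 4 ≤ (T y).ncard
    · rcases hN y hy h4 with h5 | ⟨⟨p, q, r, s, hD, h6, h7⟩, h8⟩
      · rintro ⟨l, m, hlm, k1, k2, k3, k4⟩
        exact hJ y h5 hy2 l m hlm k1 k2
      · exact noswp460 C hy hD h6 h7 hy' hyy' (h8 y' hy' hyy')
    · by_cases h4' : 4 ≤ (T y').ncard
      · rcases hN y' hy' h4' with h5 | ⟨⟨p, q, r, s, hD, h6, h7⟩, h8⟩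
        · rintro ⟨l, m, hlm, k1, k2, k3, k4⟩
          exact hJ y' h5 hy2' l m hlm k3 k4
        · rintro ⟨l, m, hlm, k1, k2, k3, k4⟩
          exact noswp460 C hy' hD h6 h7 hy hyy (h8 y hy hyy) ⟨l, m, hlm, k3, k4, k1, k2⟩
      · rintro ⟨l, m, hlm, k1, k2, k3, k4⟩
        exact C.noswap hlm hyy (by omega) (by omega) k1 k2 k3 k4

end Vale.Agent.P032.H460

namespace Vale.Agent.P032.Six

open Vale.Agent.P032.S5.H767 Vale.Agent.P032.Carr Vale.Agent.P032.H460

variable {U : Fin 6 → Set ℂ} {T : ℂ → Set (Fin 6)} {f : ℂ → Set (Fin 6)} {Z : Set ℂ} {c : ℂ}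
  {R δ₀ : ℝ}

/-- **X-B (B3).** The four-term sum at a quasi-full two-pair point with J- and K-ends -/
theorem DSt.sum_four_quasi (D : DSt U T Z f c R δ₀) {V : ℂ} (hV : dist V c ≤ R - 1)
    {a b p q e g : Fin 6} (hz : DPt T V a b p q) (hnd : [a, b, p, q, e, g].Nodup)
    {u0 α : ℝ} (hα0 : 0 < α) (hα1 : α ≤ 1) (harc : ∀ t ∈ Ioo (0 : ℝ) α, T (pt V (u0 + t)) = {a, b})
    (honly : ∀ y, dist y V = 1 → T y = {a, b} → ∃ t ∈ Ioo (0 : ℝ) α, y = pt V (u0 + t))
    (hl : PEnd T e g (pt V u0) (pt V (u0 - 1)))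
    (hr : PEnd T e g (pt V (u0 + α)) (pt V (u0 + α + 1)))
    (hN : ∀ y, dist y V = 1 → 4 ≤ (T y).ncard → Safe T V e g y)
    (heg : ∀ y, dist y V = 1 → 4 ≤ (T y).ncard → ¬ (e ∈ T y ∧ g ∈ T y)) :
    lamT T Z f δ₀ a V e g + lamT T Z f δ₀ b V e g + lamT T Z f δ₀ p V e g +
      lamT T Z f δ₀ q V e g = 1 := by
  refine D.sum_four hV hnd (fun i hi => ?_) heg
    (ring_quasi460 D.df.irr hz hnd hα0 hα1 harc honly hl hr hN heg).frequently
  rw [hz.pal]
  exact hi

end Vale.Agent.P032.Six
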