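import Vale.Agent.P032.H809.Side
import Vale.Agent.P032.S5.H225.Germ
import Vale.Agent.P032.S5.H824.Two

/-!
# P032: the border rule at a two-pair point

`z` a two-pair point with the pairs `{a, b}`, `{c, d}`.

* `Irr.contact460` : every mixed pair `{a, c}` is the palette of points `w → z`, `w ≠ z`.
* `Irr.on_circle460` : `v ∈ S(z)` a two-pair point with the pair `{a, c}`: all points near `z` with
  both colours lie on `S(v)`.
* `Irr.border_uniq460` : at most one such `v` for every mixed pair.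
* `Irr.border_arc460` : an exact `ac`-arc of `S(v)` ends at `z`, the other half branch has palettes
  inside `{b, d}`.
-/

open Set Filter Topology Metric

noncomputable section

namespace Vale.Agent.P032.Six

variable {k : ℕ} {U : Fin k → Set ℂ} {T : ℂ → Set (Fin k)}

/-- the segment between two directions, scaled by `r` -/
def sgm460 (z x y : ℂ) (r s : ℝ) : ℂ := z + r * (((1 - s : ℝ) : ℂ) * x + (s : ℂ) * y)

theorem sgm460_zero (z x y : ℂ) (r : ℝ) : sgm460 z x y r 0 = z + r * x := by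
  simp [sgm460]

theorem sgm460_one (z x y : ℂ) (r : ℝ) : sgm460 z x y r 1 = z + r * y := by
  simp [sgm460]

theorem norm_sgm460 {z x y : ℂ} {r s : ℝ} (hr : 0 ≤ r) (hs : s ∈ Icc (0 : ℝ) 1) :
    dist (sgm460 z x y r s) z ≤ r * (‖x‖ + ‖y‖) := by
  rw [sgm460, dist_eq_norm, add_sub_cancel_left, norm_mul, Complex.norm_real,
    Real.norm_of_nonneg hr]
  refine mul_le_mul_of_nonneg_left ?_ hr
  refine (norm_add_le _ _).trans ?_
  rw [norm_mul, norm_mul, Complex.norm_real, Complex.norm_real,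
    Real.norm_of_nonneg (by linarith [hs.2]), Real.norm_of_nonneg hs.1]
  have h1 := norm_nonneg x
  have h2 := norm_nonneg y
  nlinarith [hs.1, hs.2]

theorem sgm460_nhds {z : ℂ} (x y : ℂ) {N : Set ℂ} (hN : N ∈ 𝓝 z) :
    ∀ᶠ r : ℝ in 𝓝[>] 0, ∀ s ∈ Icc (0 : ℝ) 1, sgm460 z x y r s ∈ N := by
  obtain ⟨ε, hε, hb⟩ := Metric.mem_nhds_iff.1 hN
  have h1 : ∀ᶠ r : ℝ in 𝓝[>] 0, 0 < r ∧ r < ε / (‖x‖ + ‖y‖ + 1) := by
    filter_upwards [self_mem_nhdsWithin, mem_nhdsWithin_of_mem_nhds (Iio_mem_nhds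
      (show (0 : ℝ) < ε / (‖x‖ + ‖y‖ + 1) by positivity))] with r h1 h2
    exact ⟨h1, h2⟩
  filter_upwards [h1] with r hr s hs
  refine hb ?_
  rw [mem_ball]
  refine lt_of_le_of_lt (norm_sgm460 hr.1.le hs) ?_
  have h2 := hr.2
  rw [lt_div_iff₀ (by positivity)] at h2
  nlinarith [hr.1]

/-- the segment between two directions on the same side of `S(p)` -/
theorem sgm460_side {z p x y : ℂ} {σ : ℝ} (hp : dist z p = 1) (h0 : 0 < σ * ip x (p - z))
    (h1 : 0 < σ * ip y (p - z)) : ∀ᶠ r : ℝ in 𝓝[>] 0, ∀ s ∈ Icc (0 : ℝ) 1,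
      0 < σ * (1 - dist (sgm460 z x y r s) p ^ 2) := by
  set m := min (σ * ip x (p - z)) (σ * ip y (p - z)) with hm
  have hm0 : 0 < m := lt_min h0 h1
  set M := (‖x‖ + ‖y‖) ^ 2 with hM
  have hM0 : 0 ≤ M := by positivity
  have h2 : ∀ᶠ r : ℝ in 𝓝[>] 0, 0 < r ∧ r < 2 * m / (|σ| * M + 1) := by
    filter_upwards [self_mem_nhdsWithin, mem_nhdsWithin_of_mem_nhds (Iio_mem_nhds
      (show (0 : ℝ) < 2 * m / (|σ| * M + 1) by positivity))] with r h1 h2
    exact ⟨h1, h2⟩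
  filter_upwards [h2] with r hr s hs
  have h3 := sq_line z (((1 - s : ℝ) : ℂ) * x + (s : ℂ) * y) p r
  rw [hp] at h3
  have h4 : ip (((1 - s : ℝ) : ℂ) * x + (s : ℂ) * y) (p - z) =
      (1 - s) * ip x (p - z) + s * ip y (p - z) := by
    unfold ip
    simp only [Complex.add_re, Complex.add_im, Complex.mul_re, Complex.mul_im, Complex.ofReal_re,
      Complex.ofReal_im, Complex.sub_re, Complex.sub_im]
    ring
  have h5 : ip (((1 - s : ℝ) : ℂ) * x + (s : ℂ) * y) (((1 - s : ℝ) : ℂ) * x + (s : ℂ) * y) ≤ M := by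
    have e1 : ip (((1 - s : ℝ) : ℂ) * x + (s : ℂ) * y) (((1 - s : ℝ) : ℂ) * x + (s : ℂ) * y) =
        ‖((1 - s : ℝ) : ℂ) * x + (s : ℂ) * y‖ ^ 2 := by
      rw [Complex.sq_norm, Complex.normSq_apply]; rfl
    rw [e1, hM]
    refine pow_le_pow_left₀ (norm_nonneg _) ?_ 2
    refine (norm_add_le _ _).trans ?_
    rw [norm_mul, norm_mul, Complex.norm_real, Complex.norm_real,
      Real.norm_of_nonneg (by linarith [hs.2]), Real.norm_of_nonneg hs.1]
    have h1 := norm_nonneg x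
    have h2 := norm_nonneg y
    nlinarith [hs.1, hs.2]
  have h5' : 0 ≤ ip (((1 - s : ℝ) : ℂ) * x + (s : ℂ) * y)
      (((1 - s : ℝ) : ℂ) * x + (s : ℂ) * y) := by
    unfold ip; nlinarith [sq_nonneg (((1 - s : ℝ) : ℂ) * x + (s : ℂ) * y).re,
      sq_nonneg (((1 - s : ℝ) : ℂ) * x + (s : ℂ) * y).im]
  have h6 : m ≤ σ * ip (((1 - s : ℝ) : ℂ) * x + (s : ℂ) * y) (p - z) := by
    rw [h4]
    have k1 : m ≤ σ * ip x (p - z) := min_le_left _ _
    have k2 : m ≤ σ * ip y (p - z) := min_le_right _ _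
    nlinarith [hs.1, hs.2, mul_le_mul_of_nonneg_left k1 (sub_nonneg.2 hs.2),
      mul_le_mul_of_nonneg_left k2 hs.1]
  have h7 : r * (|σ| * M + 1) < 2 * m := by
    have := hr.2
    rwa [lt_div_iff₀ (by positivity)] at this
  show 0 < σ * (1 - dist (z + r * (((1 - s : ℝ) : ℂ) * x + (s : ℂ) * y)) p ^ 2)
  rw [h3]
  generalize ip (((1 - s : ℝ) : ℂ) * x + (s : ℂ) * y) (p - z) = A at *
  generalize ip (((1 - s : ℝ) : ℂ) * x + (s : ℂ) * y) (((1 - s : ℝ) : ℂ) * x + (s : ℂ) * y) = B at *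
  have h8 : σ * B ≤ |σ| * M := by
    calc σ * B ≤ |σ| * B := mul_le_mul_of_nonneg_right (le_abs_self σ) h5'
      _ ≤ |σ| * M := mul_le_mul_of_nonneg_left h5 (abs_nonneg σ)
  have h9 : σ * (1 - (1 ^ 2 - 2 * r * A + r ^ 2 * B)) = r * (2 * (σ * A) - r * (σ * B)) := by ring
  rw [h9]
  refine mul_pos hr.1 ?_
  have h10 : r * (σ * B) ≤ r * (|σ| * M) := mul_le_mul_of_nonneg_left h8 hr.1.le
  nlinarith [hr.1]

/-- one direction -/
theorem ray_side460 {z p x : ℂ} {σ : ℝ} (hp : dist z p = 1) (h0 : 0 < σ * ip x (p - z)) :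
    ∀ᶠ r : ℝ in 𝓝[>] 0, 0 < σ * (1 - dist (z + r * x) p ^ 2) := by
  filter_upwards [sgm460_side hp h0 h0] with r hr
  have := hr 0 ⟨le_rfl, zero_le_one⟩
  rwa [sgm460_zero] at this

/-- the sides at the centre with a sign: `a` is absent on the side `-σ` of `S(p)`, `b` on the side
`σ` -/
def Sg460 (U : Fin k → Set ℂ) (p z : ℂ) (σ : ℝ) (a b : Fin k) : Prop :=
  ∀ᶠ w in 𝓝 z, (0 < σ * (1 - dist w p ^ 2) → b ∉ Pal U w) ∧
    (σ * (1 - dist w p ^ 2) < 0 → a ∉ Pal U w)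

theorem Sd.sg460 {p z : ℂ} {a b : Fin k} (h : Sd U p z a b) : Sg460 U p z 1 a b := by
  filter_upwards [h] with w hw
  have hd := dist_nonneg (x := w) (y := p)
  constructor
  · intro h1
    exact hw.2 (by nlinarith)
  · intro h1
    exact hw.1 (by nlinarith)

theorem Sd.sg460' {p z : ℂ} {a b : Fin k} (h : Sd U p z b a) : Sg460 U p z (-1) a b := by
  filter_upwards [h] with w hw
  have hd := dist_nonneg (x := w) (y := p)
  constructor
  · intro h1
    exact hw.1 (by nlinarith)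
  · intro h1
    exact hw.2 (by nlinarith)

theorem Irr.exists_sg460 (h : Irr U T) {z p : ℂ} {a b c d : Fin k} (hz : DPt T z a b c d)
    (hp : Arc T z p {a, b}) : ∃ σ : ℝ, (σ = 1 ∨ σ = -1) ∧ Sg460 U p z σ a b := by
  rcases h.sides hz hp.1 with hs | hs
  · exact ⟨1, Or.inl rfl, (h.sd_center hp hs).sg460⟩
  · exact ⟨-1, Or.inr rfl, (h.sd_center (by rwa [pair_comm]) hs).sg460'⟩

/-- a direction orthogonal to a direction of a `cd`-arc, on the `a`-side of `p` -/
theorem Irr.ray_pure460 (h : Irr U T) {z p : ℂ} {t0 η : ℝ} {a b c d : Fin k}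
    (hz : DPt T z a b c d) (hp : dist z p = 1) {σ : ℝ} (hσ : Sg460 U p z σ a b) (hη : 0 < η)
    (hJ : ∀ t : ℝ, |t - t0| < η → T (z + cis t) = {c, d}) {τ : ℝ} (hτ : τ = 1 ∨ τ = -1)
    (h1 : 0 < σ * ip (τ * (Complex.I * cis t0)) (p - z)) :
    ∀ᶠ r : ℝ in 𝓝[>] 0, T (z + r * (τ * (Complex.I * cis t0))) = {a} := by
  have hc := h.mx.ray_avoid hη (i := c) (fun t ht => h.sub _ (by rw [hJ t ht]; simp)) hτ
  have hd := h.mx.ray_avoid hη (i := d) (fun t ht => h.sub _ (by rw [hJ t ht]; simp)) hτ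
  filter_upwards [hc, hd, (tendsto_ray z _).eventually (h.nhd z), (tendsto_ray z _).eventually hσ,
    ray_side460 hp h1] with r e1 e2 e3 e4 e5
  have hsub : T (z + r * (τ * (Complex.I * cis t0))) ⊆ {a} := by
    intro i hi
    have h2 := e3 hi
    rw [hz.pal] at h2
    rcases h2 with rfl | rfl | rfl | h2
    · rfl
    · exact absurd (h.sub _ hi) (e4.1 e5)
    · exact absurd (h.sub _ hi) e1
    · rw [mem_singleton_iff] at h2
      subst h2
      exact absurd (h.sub _ hi) e2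
  refine Subset.antisymm hsub ?_
  rintro i rfl
  obtain ⟨j, hj⟩ := h.ne (z + r * (τ * (Complex.I * cis t0)))
  rw [← mem_singleton_iff.1 (hsub hj)]
  exact hj

theorem cr_cis460 (s t : ℝ) : cr (cis s) (cis t) = Real.sin (t - s) := by
  unfold cr
  simp only [cis_re, cis_im]
  rw [Real.sin_sub]; ring

theorem sign_pick460 {x : ℝ} (hx : x ≠ 0) : ∃ τ : ℝ, (τ = 1 ∨ τ = -1) ∧ 0 < τ * x := by
  rcases lt_or_gt_of_ne hx with h | h
  · exact ⟨-1, Or.inr rfl, by linarith⟩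
  · exact ⟨1, Or.inl rfl, by linarith⟩

/-- a direction of a `cd`-arc near `t0`, whose `a`-direction lies on the given side of `t0` -/
theorem pick_dir460 {t0 s0 η : ℝ} (hη : 0 < η) {σ ρ : ℝ} (hρ : ρ = 1 ∨ ρ = -1)
    (hσ : σ = 1 ∨ σ = -1) (hne : Real.sin (s0 - t0) ≠ 0) :
    ∃ t1 τ : ℝ, |t1 - t0| < η ∧ (τ = 1 ∨ τ = -1) ∧ 0 < σ * (τ * Real.sin (s0 - t1)) ∧
      0 < ρ * (τ * Real.sin (t0 - t1)) := by
  obtain ⟨τ, hτ, h1⟩ := sign_pick460 (x := σ * Real.sin (s0 - t0)) (by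
    refine mul_ne_zero ?_ hne
    rcases hσ with rfl | rfl <;> norm_num)
  have hcont : ContinuousAt (fun t : ℝ => σ * (τ * Real.sin (s0 - t))) t0 := by fun_prop
  have h2 : ∀ᶠ t in 𝓝 t0, 0 < σ * (τ * Real.sin (s0 - t)) :=
    hcont.eventually (Ioi_mem_nhds (by
      show 0 < σ * (τ * Real.sin (s0 - t0))
      linarith))
  obtain ⟨δ, hδ, hb⟩ := Metric.eventually_nhds_iff.1 h2
  set ε := min (min δ η / 2) 1 with hε
  have hε0 : 0 < ε := by positivity
  have hε1 : ε ≤ 1 := min_le_right _ _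
  have hεδ : ε < δ := by
    have := min_le_left (min δ η / 2) 1
    have := min_le_left δ η
    have : 0 < min δ η := lt_min hδ hη
    linarith
  have hεη : ε < η := by
    have := min_le_left (min δ η / 2) 1
    have := min_le_right δ η
    have : 0 < min δ η := lt_min hδ hη
    linarith
  have hsin : 0 < Real.sin ε :=
    Real.sin_pos_of_pos_of_lt_pi hε0 (by linarith [Real.pi_gt_three])
  have hρτ : ρ * τ = 1 ∨ ρ * τ = -1 := by
    rcases hρ with rfl | rfl <;> rcases hτ with rfl | rfl <;> norm_num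
  have habs : |ρ * τ * ε| = ε := by
    rcases hρτ with h3 | h3 <;> rw [h3]
    · rw [one_mul, abs_of_pos hε0]
    · rw [neg_one_mul, abs_neg, abs_of_pos hε0]
  refine ⟨t0 - ρ * τ * ε, τ, ?_, hτ, ?_, ?_⟩
  · rw [show t0 - ρ * τ * ε - t0 = -(ρ * τ * ε) by ring, abs_neg, habs]; exact hεη
  · refine hb ?_
    rw [Real.dist_eq, show t0 - ρ * τ * ε - t0 = -(ρ * τ * ε) by ring, abs_neg, habs]; exact hεδ
  · rw [show t0 - (t0 - ρ * τ * ε) = ρ * τ * ε by ring, ← mul_assoc]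
    rcases hρτ with h3 | h3 <;> rw [h3]
    · rw [one_mul, one_mul]; exact hsin
    · rw [neg_one_mul, neg_one_mul, Real.sin_neg, neg_neg]; exact hsin

/-- **contact**: at a two-pair point the mixed pair `{a, c}` is the palette of points `w → z`,
`w ≠ z` -/
theorem Irr.contact460 (h : Irr U T) {z : ℂ} {a b c d : Fin k} (hz : DPt T z a b c d) :
    ∃ᶠ w in 𝓝[≠] z, T w = {a, c} := by
  obtain ⟨p, hp⟩ := hz.arc1
  obtain ⟨g0, hg0⟩ := hz.arc2
  obtain ⟨g, hg, hgp, hgp2⟩ := hg0.exists_off_line (y := p)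
  have hcr := cr_ne_of hg.1 hp.1 hgp hgp2
  obtain ⟨s0, hs0⟩ := exists_cis (u := p - z) (by rw [← dist_eq_norm]; exact hp.1)
  obtain ⟨t0, ht0⟩ := exists_cis (u := g - z) (by rw [← dist_eq_norm]; exact hg.1)
  have hps : p = z + cis s0 := by rw [← hs0]; ring
  have hgt : g = z + cis t0 := by rw [← ht0]; ring
  have hzp : dist z p = 1 := by rw [dist_comm]; exact hp.1
  have hzg : dist z g = 1 := by rw [dist_comm]; exact hg.1
  obtain ⟨η, hη, hJp⟩ := (show Arc T z (z + cis s0) {a, b} by rw [← hps]; exact hp).exists_eta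
  obtain ⟨η', hη', hJg⟩ := (show Arc T z (z + cis t0) {c, d} by rw [← hgt]; exact hg).exists_eta
  rw [hs0, ht0, cr_cis460] at hcr
  have hcr' : Real.sin (t0 - s0) ≠ 0 := by
    rw [show t0 - s0 = -(s0 - t0) by ring, Real.sin_neg]; exact neg_ne_zero.2 hcr
  obtain ⟨σp, hσp, Sp⟩ := h.exists_sg460 hz hp
  obtain ⟨σg, hσg, Sg⟩ := h.exists_sg460 hz.swap hg
  -- a pure direction of `a`
  obtain ⟨t1, τ, ht1, hτ, k1, k2⟩ := pick_dir460 (s0 := s0) hη' hσg hσp hcr
  obtain ⟨s1, ρ, hs1, hρ, l1, l2⟩ := pick_dir460 (s0 := t0) hη hσp hσg hcr'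
  set x := (τ : ℂ) * (Complex.I * cis t1) with hx
  set y := (ρ : ℂ) * (Complex.I * cis s1) with hy
  have e1 : ip x (p - z) = τ * Real.sin (s0 - t1) := by
    rw [hx, ip_smul, ip_I, hs0, cr_cis460]
  have e2 : ip x (g - z) = τ * Real.sin (t0 - t1) := by
    rw [hx, ip_smul, ip_I, ht0, cr_cis460]
  have e3 : ip y (g - z) = ρ * Real.sin (t0 - s1) := by
    rw [hy, ip_smul, ip_I, ht0, cr_cis460]
  have e4 : ip y (p - z) = ρ * Real.sin (s0 - s1) := by
    rw [hy, ip_smul, ip_I, hs0, cr_cis460]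
  have r1 : ∀ᶠ r : ℝ in 𝓝[>] 0, T (z + r * x) = {a} :=
    h.ray_pure460 hz hzp Sp (η := η' - |t1 - t0|) (by linarith) (fun t ht => hJg t (by
      have := abs_add_le (t - t1) (t1 - t0)
      rw [show t - t1 + (t1 - t0) = t - t0 by ring] at this
      linarith)) hτ (by rw [← hx, e1]; exact k1)
  have r2 : ∀ᶠ r : ℝ in 𝓝[>] 0, T (z + r * y) = {c} :=
    h.ray_pure460 hz.swap hzg Sg (η := η - |s1 - s0|) (by linarith) (fun t ht => hJp t (by
      have := abs_add_le (t - s1) (s1 - s0)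
      rw [show t - s1 + (s1 - s0) = t - s0 by ring] at this
      linarith)) hρ (by rw [← hy, e3]; exact l1)
  have q1 := sgm460_side (z := z) (x := x) (y := y) (σ := σp) hzp (by rw [e1]; exact k1)
    (by rw [e4]; exact l2)
  have q2 := sgm460_side (z := z) (x := x) (y := y) (σ := σg) hzg (by rw [e2]; exact k2)
    (by rw [e3]; exact l1)
  intro hcon
  have hcon' : {w | w ≠ z → ¬ T w = {a, c}} ∈ 𝓝 z := mem_nhdsWithin_iff_eventually.1 hcon
  obtain ⟨r, f1, f2, f3, f4, f5, f6, f7, f8, f9⟩ := (r1.and (r2.and (q1.and (q2.and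
    ((sgm460_nhds x y hcon').and ((sgm460_nhds x y Sp).and ((sgm460_nhds x y Sg).and
    ((sgm460_nhds x y (h.nhd z)).and (self_mem_nhdsWithin : Ioi (0 : ℝ) ∈ 𝓝[>] 0))))))))).exists
  have hT : ∀ s ∈ Icc (0 : ℝ) 1, T (sgm460 z x y r s) ⊆ {a, c} := by
    intro s hs i hi
    have h2 := f8 s hs hi
    rw [hz.pal] at h2
    rcases h2 with rfl | rfl | rfl | h2
    · simp
    · exact absurd (h.sub _ hi) ((f6 s hs).1 (f3 s hs))
    · simp
    · rw [mem_singleton_iff] at h2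
      subst h2
      exact absurd (h.sub _ hi) ((f7 s hs).1 (f4 s hs))
  have hcont : Continuous fun s : ℝ => sgm460 z x y r s := by unfold sgm460; fun_prop
  obtain ⟨s, hs, ha, hc⟩ := isPreconnected_closed_iff.1 (isPreconnected_Icc (a := (0 : ℝ)) (b := 1))
    {s : ℝ | a ∈ T (sgm460 z x y r s)} {s : ℝ | c ∈ T (sgm460 z x y r s)}
    ((h.closed a).preimage hcont) ((h.closed c).preimage hcont)
    (by
      intro s hs
      obtain ⟨i, hi⟩ := h.ne (sgm460 z x y r s)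
      rcases hT s hs hi with rfl | h3
      · exact Or.inl hi
      · rw [mem_singleton_iff] at h3
        subst h3
        exact Or.inr hi)
    ⟨0, ⟨le_rfl, zero_le_one⟩, by
      show a ∈ T (sgm460 z x y r 0)
      rw [sgm460_zero, f1]; rfl⟩
    ⟨1, ⟨zero_le_one, le_rfl⟩, by
      show c ∈ T (sgm460 z x y r 1)
      rw [sgm460_one, f2]; rfl⟩
  refine f5 s hs ?_ (Subset.antisymm (hT s hs) ?_)
  · intro h3
    have h4 := f3 s hs
    rw [h3, hzp] at h4
    norm_num at h4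
  · rintro i (rfl | hi)
    · exact ha
    · rw [mem_singleton_iff] at hi; subst hi; exact hc

/-- two circles through `z` have no other common point near `z` -/
theorem two_circles460 {v v' z : ℂ} (hne : v ≠ v') (hx : dist z v = 1) (hx' : dist z v' = 1) :
    ∀ᶠ w in 𝓝 z, dist w v = 1 → dist w v' = 1 → w = z := by
  by_cases hex : ∃ w0, w0 ≠ z ∧ dist w0 v = 1 ∧ dist w0 v' = 1
  · obtain ⟨w0, hw0, h1, h2⟩ := hex
    filter_upwards [isOpen_ne.mem_nhds hw0.symm] with w hw h3 h4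
    have h5 := EuclideanGeometry.eq_of_dist_eq_of_dist_eq_of_finrank_eq_two (V := ℂ)
      Complex.finrank_real_complex hne hw0 h1 hx h3 h2 hx' h4
    rcases h5 with h5 | h5
    · exact absurd h5 hw
    · exact h5
  · push Not at hex
    refine Eventually.of_forall fun w h1 h2 => ?_
    by_contra hw
    exact hex w hw h1 h2

/-- **(B1)** near a point `z` of the circle about a two-pair point `v` with the pair `{a, c}` all
points with both colours lie on `S(v)` -/
theorem Irr.on_circle460 (h : Irr U T) {v z : ℂ} {a c p q : Fin k} (hv : DPt T v a c p q)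
    (hz : dist z v = 1) : ∀ᶠ w in 𝓝 z, a ∈ Pal U w → c ∈ Pal U w → dist w v = 1 := by
  rcases h.sides hv hz with hs | hs
  · filter_upwards [hs] with w hw ha hc
    rcases lt_trichotomy (dist w v) 1 with h1 | h1 | h1
    · exact absurd hc (hw.2 h1)
    · exact h1
    · exact absurd ha (hw.1 h1)
  · filter_upwards [hs] with w hw ha hc
    rcases lt_trichotomy (dist w v) 1 with h1 | h1 | h1
    · exact absurd ha (hw.2 h1)
    · exact h1
    · exact absurd hc (hw.1 h1)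

/-- **(B2)** a mixed pair of `z` is a pair of at most one two-pair point of `S(z)` -/
theorem Irr.border_uniq460 (h : Irr U T) {z v v' : ℂ} {a b c d p q p' q' : Fin k}
    (hz : DPt T z a b c d) (hv : dist v z = 1) (hv' : dist v' z = 1) (hD : DPt T v a c p q)
    (hD' : DPt T v' a c p' q') : v = v' := by
  by_contra hne
  have hzv : dist z v = 1 := by rw [dist_comm]; exact hv
  have hzv' : dist z v' = 1 := by rw [dist_comm]; exact hv'
  obtain ⟨w, hw, ⟨h1, h2, h3⟩, hwz⟩ := ((h.contact460 hz).and_eventually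
    ((((h.on_circle460 hD hzv).and ((h.on_circle460 hD' hzv').and
      (two_circles460 hne hzv hzv'))).filter_mono nhdsWithin_le_nhds).and
      (self_mem_nhdsWithin : ({z}ᶜ : Set ℂ) ∈ 𝓝[≠] z))).exists
  have ha : a ∈ Pal U w := h.sub w (by rw [hw]; simp)
  have hc : c ∈ Pal U w := h.sub w (by rw [hw]; simp)
  exact hwz (h3 (h1 ha hc) (h2 ha hc))

/-- a property of both half branches holds on the circle near the point -/
theorem hb_sphere460 {v z : ℂ} (hz : dist z v = 1) {P : ℂ → Prop}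
    (h1 : ∀ᶠ t : ℝ in 𝓝[>] 0, P (hb v z 1 t)) (h2 : ∀ᶠ t : ℝ in 𝓝[>] 0, P (hb v z (-1) t)) :
    ∀ᶠ w in 𝓝 z, dist w v = 1 → w ≠ z → P w := by
  obtain ⟨δ, hδ, hd⟩ := mem_nhdsGT_iff_exists_Ioo_subset.1 h1
  obtain ⟨δ', hδ', hd'⟩ := mem_nhdsGT_iff_exists_Ioo_subset.1 h2
  rw [mem_Ioi] at hδ hδ'
  have hzv : z - v ≠ 0 := by
    intro h3
    rw [sub_eq_zero] at h3
    rw [h3, dist_self] at hz
    norm_num at hz
  have hq : ContinuousAt (fun w : ℂ => Complex.arg ((w - v) / (z - v))) z := by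
    have h3 : ContinuousAt Complex.arg ((z - v) / (z - v)) := by
      rw [div_self hzv]
      exact Complex.continuousAt_arg (by simp [Complex.slitPlane])
    exact ContinuousAt.comp (f := fun w : ℂ => (w - v) / (z - v)) h3 (by fun_prop)
  have h0 : Complex.arg ((z - v) / (z - v)) = 0 := by rw [div_self hzv, Complex.arg_one]
  have h4 : ∀ᶠ w in 𝓝 z, |Complex.arg ((w - v) / (z - v))| < min δ δ' := by
    have := hq.abs.eventually (Iio_mem_nhds (show |Complex.arg ((z - v) / (z - v))| < min δ δ' by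
      rw [h0, abs_zero]; exact lt_min hδ hδ'))
    exact this
  filter_upwards [h4] with w hw hwv hwz
  set θ := Complex.arg ((w - v) / (z - v)) with hθ
  have hnorm : ‖(w - v) / (z - v)‖ = 1 := by
    rw [norm_div, ← dist_eq_norm, ← dist_eq_norm, hwv, hz, div_one]
  have hcis : cis θ = (w - v) / (z - v) := by
    have h5 := Complex.norm_mul_exp_arg_mul_I ((w - v) / (z - v))
    rw [hnorm, Complex.ofReal_one, one_mul] at h5
    exact h5
  have hw2 : w = v + (z - v) * cis θ := by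
    rw [hcis]; field_simp; ring
  have hθ0 : θ ≠ 0 := by
    intro h5
    apply hwz
    rw [hw2, h5]
    simp [cis]
  rcases lt_or_gt_of_ne hθ0 with h5 | h5
  · have h6 : P (hb v z (-1) (-θ)) := hd' ⟨by linarith, by
      rw [abs_of_neg h5] at hw
      exact lt_of_lt_of_le hw (min_le_right _ _)⟩
    rw [hb, show (-1 : ℝ) * -θ = θ by ring, ← hw2] at h6
    exact h6
  · have h6 : P (hb v z 1 θ) := hd ⟨h5, by
      rw [abs_of_pos h5] at hw
      exact lt_of_lt_of_le hw (min_le_left _ _)⟩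
    rw [hb, one_mul, ← hw2] at h6
    exact h6

theorem pair_ne460 {a b c : Fin k} {X : Set (Fin k)} (hX : X ⊆ {a, b}) (h1 : c ≠ a) (h2 : c ≠ b)
    {x : Fin k} : X ≠ {x, c} := by
  intro h3
  have h4 : c ∈ X := by rw [h3]; simp
  rcases hX h4 with h5 | h5
  · exact h1 h5
  · exact h2 h5

/-- **(B3)** the circle about a two-pair point `v ∈ S(z)` with the mixed pair `{a, c}` of `z`: an
exact `ac`-arc ends at `z`, on the other side of `z` its palettes are inside `{b, d}` -/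
theorem Irr.border_arc460 (h : Irr U T) {z v : ℂ} {a b c d p q : Fin k} (hz : DPt T z a b c d)
    (hzv : dist z v = 1) (hD : DPt T v a c p q) : ∃ σ : ℝ, (σ = 1 ∨ σ = -1) ∧
      (∀ᶠ t : ℝ in 𝓝[>] 0, T (hb v z σ t) = {a, c}) ∧
      ∀ᶠ t : ℝ in 𝓝[>] 0, T (hb v z (-σ) t) ⊆ {b, d} := by
  have ha : a ∈ Pal U v := h.sub v (by rw [hD.pal]; simp)
  have hc : c ∈ Pal U v := h.sub v (by rw [hD.pal]; simp)
  have key : (∀ᶠ t : ℝ in 𝓝[>] 0, T (hb v z 1 t) ≠ {a, c}) →
      (∀ᶠ t : ℝ in 𝓝[>] 0, T (hb v z (-1) t) ≠ {a, c}) → False := by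
    intro h1 h2
    have h5 := hb_sphere460 (P := fun w => T w ≠ {a, c}) hzv h1 h2
    obtain ⟨w, hw, ⟨h6, h7⟩, h8⟩ := ((h.contact460 hz).and_eventually
      ((((h.on_circle460 hD hzv).and h5).filter_mono nhdsWithin_le_nhds).and
        (self_mem_nhdsWithin : ({z}ᶜ : Set ℂ) ∈ 𝓝[≠] z))).exists
    exact h7 (h6 (h.sub w (by rw [hw]; simp)) (h.sub w (by rw [hw]; simp))) h8 hw
  have k1 : ∀ X : Set (Fin k), X ⊆ {a, d} → X ≠ {a, c} := fun X hX =>
    pair_ne460 hX hz.ac.symm hz.cd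
  have k2 : ∀ X : Set (Fin k), X ⊆ {b, c} → X ≠ {a, c} := fun X hX => by
    rw [pair_comm]
    exact pair_ne460 hX hz.ab hz.ac
  rcases h.germ_branch hz hzv with hG | hG | hG | hG
  · exact ⟨1, Or.inl rfl, h.hb_exact hzv hG.1 ha hc, hG.2⟩
  · exact (key (hG.1.mono fun t ht => k1 _ ht) (hG.2.mono fun t ht => k2 _ ht)).elim
  · exact (key (hG.1.mono fun t ht => k2 _ ht) (hG.2.mono fun t ht => k1 _ ht)).elim
  · exact ⟨-1, Or.inr rfl, h.hb_exact hzv hG.2 ha hc, by rw [neg_neg]; exact hG.1⟩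

end Vale.Agent.P032.Six
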