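import Vale.Agent.P032.H987.Inst
import Vale.Agent.P032.H460.KApex
import Vale.Agent.P032.H597.W3

/-!
# P032: the one-circle data of a comp centre

`inst460` : names, zones and `CzE` for a centre with complementary ends.
`CzE.swap460`, `lb_swap460` : the other naming of the two pairs.
`lb_ore460` : the labels of the ends are the orientations.
-/

open Set Filter Topology Metric

noncomputable section

namespace Vale.Agent.P032.H460

open Vale.Agent.P032.Six Vale.Agent.P032.S5.H767 Vale.Agent.P032.S5.H349 Vale.Agent.P032.S5.H450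
open Vale.Agent.P032.H987 Vale.Agent.P032.S5.H358

variable {U : Fin 6 → Set ℂ} {T : ℂ → Set (Fin 6)} {z v q y : ℂ} {a b c d e f : Fin 6}

theorem nd_swap (nd : [a, b, c, d, e, f].Nodup) : [c, d, a, b, f, e].Nodup := by
  simp only [List.nodup_cons, List.mem_cons, List.not_mem_nil, or_false, not_or, List.nodup_nil,
    and_true, not_false_eq_true] at nd ⊢
  obtain ⟨⟨ab, ac, ad, ae, af⟩, ⟨bc, bd, be, bf⟩, ⟨cd, ce, cf⟩, ⟨de, df⟩, ef⟩ := nd
  exact ⟨⟨cd, Ne.symm ac, Ne.symm bc, cf, ce⟩, ⟨Ne.symm ad, Ne.symm bd, df, de⟩, ⟨ab, af, ae⟩,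
    ⟨bf, be⟩, Ne.symm ef⟩

theorem _root_.Vale.Agent.P032.H987.CzE.swap460 (S : CzE U T z a b c d e f) :
    CzE U T z c d a b f e where
  irr := S.irr
  dpt := S.dpt.swap
  nd := nd_swap S.nd
  hJ := S.hJ
  cln := fun y hy hT => S.cln y hy hT.symm
  nj := S.nj

/-- the labels in the other naming -/
def sw460 : Fin 7 → Fin 7 := ![0, 3, 4, 1, 2, 6, 5]

theorem three_ne (nd : [a, b, c, d, e, f].Nodup) : ({a, b, e} : Set (Fin 6)) ≠ {c, d, f} := by
  intro h1
  have h2 : a ∈ ({c, d, f} : Set (Fin 6)) := by rw [← h1]; simp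
  simp only [List.nodup_cons, List.mem_cons, List.not_mem_nil, or_false, not_or, List.nodup_nil,
    and_true, not_false_eq_true] at nd
  obtain ⟨⟨ab, ac, ad, ae, af⟩, -⟩ := nd
  rcases h2 with h2 | h2 | h2
  exacts [ac h2, ad h2, af h2]

theorem three_ne_z {w : ℂ} {x y t : Fin 6} (h4 : (T z).ncard = 4) (hw : T w = {x, y, t}) :
    T w ≠ T z := by
  intro h1
  have h2 : (T w).ncard ≤ 3 := by
    rw [hw]
    refine (Set.ncard_insert_le _ _).trans ?_
    have h3 := Set.ncard_insert_le y {t}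
    rw [Set.ncard_singleton] at h3
    omega
  rw [h1, h4] at h2
  omega

theorem lb_swap460 (S : CzE U T z a b c d e f) (hy : dist y z = 1) :
    lb T z c d a b f e y = sw460 (lb T z a b c d e f y) := by
  have hne := three_ne S.nd
  by_cases h1 : T y = T z
  · obtain ⟨τ, hτ, g1, g2⟩ := S.irr.j_sides S.dpt hy h1
    have hcd : ({a, b} : Set (Fin 6)) ≠ {c, d} := by
      intro h2
      have h3 : a ∈ ({c, d} : Set (Fin 6)) := by rw [← h2]; simp
      rcases h3 with h3 | h3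
      · exact S.dpt.ac h3
      · exact S.dpt.ad h3
    have key : ∀ {P Q : Set (Fin 6)}, P ≠ Q →
        (∀ᶠ t : ℝ in 𝓝[>] 0, T (hb z y (-1) t) = P) →
        ¬ ∀ᶠ t : ℝ in 𝓝[>] 0, T (hb z y (-1) t) = Q := by
      intro P Q hPQ k1 k2
      obtain ⟨t, ht1, ht2⟩ := (k1.and k2).exists
      exact hPQ (ht1.symm.trans ht2)
    unfold lb
    rw [if_pos h1, if_pos h1]
    rcases hτ with rfl | rfl
    · rw [if_pos g2, if_neg (key hcd.symm g2)]
      rfl
    · rw [if_pos g1, if_neg (key hcd g1)]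
      rfl
  · unfold lb
    rw [if_neg h1, if_neg h1]
    by_cases h2 : T y = {a, b, e}
    · have h3 : T y ≠ {c, d, f} := by rw [h2]; exact hne
      rw [if_pos h2, if_neg h3, if_pos h2]
      split_ifs <;> rfl
    · rw [if_neg h2]
      by_cases h3 : T y = {c, d, f}
      · rw [if_pos h3, if_pos h3]
        split_ifs <;> rfl
      · rw [if_neg h3, if_neg h3, if_neg h2]
        rfl

/-- the label of a `V`-end -/
theorem lb_V460 (S : CzE U T z a b c d e f) (hT : T y = {a, b, e}) :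
    lb T z a b c d e f y = if ore T z y = 1 then 1 else 2 := by
  have h4 : (T z).ncard = 4 := S.four
  have h1 : T y ≠ T z := three_ne_z h4 hT
  unfold lb ore
  rw [if_neg h1, if_pos hT]
  by_cases h2 : OEnd T z y 1
  · rw [if_pos h2, if_pos h2, if_pos rfl]
  · rw [if_neg h2, if_neg h2, if_neg (by norm_num)]

/-- the label of a `Q`-end -/
theorem lb_Q460 (S : CzE U T z a b c d e f) (hT : T y = {c, d, f}) :
    lb T z a b c d e f y = if ore T z y = 1 then 3 else 4 := by
  have h4 : (T z).ncard = 4 := S.four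
  have h1 : T y ≠ T z := three_ne_z h4 hT
  have h3 : T y ≠ {a, b, e} := by rw [hT]; exact (three_ne S.nd).symm
  unfold lb ore
  rw [if_neg h1, if_neg h3, if_pos hT]
  by_cases h2 : OEnd T z y 1
  · rw [if_pos h2, if_pos h2, if_pos rfl]
  · rw [if_neg h2, if_neg h2, if_neg (by norm_num)]

/-- the points with the labels 1, 2 are the `V`-ends, 3, 4 the `Q`-ends, 5, 6 the J-points -/
theorem lb_cases460 (T : ℂ → Set (Fin 6)) (z y : ℂ) (a b c d e f : Fin 6) :
    (lb T z a b c d e f y = 1 ∧ T y = {a, b, e}) ∨ (lb T z a b c d e f y = 2 ∧ T y = {a, b, e}) ∨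
    (lb T z a b c d e f y = 3 ∧ T y = {c, d, f}) ∨ (lb T z a b c d e f y = 4 ∧ T y = {c, d, f}) ∨
    (lb T z a b c d e f y = 5 ∧ T y = T z) ∨ (lb T z a b c d e f y = 6 ∧ T y = T z) ∨
    (lb T z a b c d e f y = 0 ∧ T y ≠ {a, b, e} ∧ T y ≠ {c, d, f} ∧ T y ≠ T z) := by
  unfold lb
  split_ifs <;> simp_all

/-- **the one-circle data of a comp centre** -/
theorem inst460 (h : Irr U T) (w0 : ∀ y, dist y z = 1 → (T y).ncard ≤ 3 ∨ T y = T z)
    (h5 : ∀ x y, dist x y = 1 → 5 ≤ (T x).ncard → 4 ≤ (T y).ncard → False)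
    (ev : EE T z v) (eq : EE T z q) (hc : T q = (T v)ᶜ) :
    ∃ a b c d e f p p' r r', ZnP824 U T z a b c d p p' r r' ∧ Zn T z a b c d p r ∧
      CzE U T z a b c d e f ∧ {y | dist y z = 1 ∧ lb T z a b c d e f y ≠ 0}.Finite ∧
      T v = {a, b, e} ∧ T q = {c, d, f} := by
  obtain ⟨a, b, hab, hTab⟩ := Set.ncard_eq_two.1 ev.card_i
  obtain ⟨c, d, hcd, hTcd⟩ := Set.ncard_eq_two.1 ev.card_s
  have D : DPt T z a b c d := ev.dpt h hTab hTcd
  -- after naming
  have main : ∀ a b c d e f : Fin 6, [a, b, c, d, e, f].Nodup → T v = {a, b, e} →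
      T q = {c, d, f} → ∀ p p' r r', ZnP824 U T z a b c d p p' r r' →
      ∃ a b c d e f p p' r r', ZnP824 U T z a b c d p p' r r' ∧ Zn T z a b c d p r ∧
        CzE U T z a b c d e f ∧ {y | dist y z = 1 ∧ lb T z a b c d e f y ≠ 0}.Finite ∧
        T v = {a, b, e} ∧ T q = {c, d, f} := by
    intro a b c d e f nd Tv Tq p p' r r' Z
    obtain ⟨S, hfin⟩ := czE_of h Z.dpt nd w0 h5 ev.dist Tv eq.dist Tq (ev.anti813 h eq hc)
    exact ⟨a, b, c, d, e, f, p, p', r, r', Z, zn_of Z, S, hfin, Tv, Tq⟩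
  have main2 : ∀ e f : Fin 6, [a, b, c, d, e, f].Nodup → T v = {a, b, e} →
      ∃ a b c d e f p p' r r', ZnP824 U T z a b c d p p' r r' ∧ Zn T z a b c d p r ∧
        CzE U T z a b c d e f ∧ {y | dist y z = 1 ∧ lb T z a b c d e f y ≠ 0}.Finite ∧
        T v = {a, b, e} ∧ T q = {c, d, f} := by
    intro e f nd Tv
    have C := ctr_of_dpt h D nd
    have Tq : T q = {c, d, f} := by
      have nd' := nd
      simp only [List.nodup_cons, List.mem_cons, List.not_mem_nil, or_false, not_or,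
        List.nodup_nil, and_true, not_false_eq_true] at nd'
      obtain ⟨⟨ab, ac, ad, ae, af⟩, ⟨bc, bd, be, bf⟩, ⟨cd, ce, cf⟩, ⟨de, df⟩, ef⟩ := nd'
      rw [hc, Tv]
      ext i
      simp only [mem_compl_iff, mem_insert_iff, mem_singleton_iff, not_or]
      constructor
      · rintro ⟨h1, h2, h3⟩
        rcases C.all i with h | h | h | h | h | h
        exacts [absurd h h1, absurd h h2, Or.inl h, Or.inr (Or.inl h), absurd h h3,
          Or.inr (Or.inr h)]
      · rintro (rfl | rfl | rfl)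
        exacts [⟨Ne.symm ac, Ne.symm bc, ce⟩, ⟨Ne.symm ad, Ne.symm bd, de⟩,
          ⟨Ne.symm af, Ne.symm bf, Ne.symm ef⟩]
    have nd' := nd
    simp only [List.nodup_cons, List.mem_cons, List.not_mem_nil, or_false, not_or,
      List.nodup_nil, and_true, not_false_eq_true] at nd'
    obtain ⟨⟨ab, ac, ad, ae, af⟩, ⟨bc, bd, be, bf⟩, ⟨cd, ce, cf⟩, ⟨de, df⟩, ef⟩ := nd'
    obtain ⟨p, p', r, r', Z | Z | Z | Z⟩ := h.exists_zonesP824 D
    · exact main a b c d e f nd Tv Tq p p' r r' Z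
    · refine main a b d c e f ?_ Tv (by rw [Tq]; exact Set.insert_comm _ _ _) p p' r r' Z
      simp [ab, ac, ad, ae, af, bc, bd, be, bf, Ne.symm cd, ce, cf, de, df, ef]
    · refine main b a c d e f ?_ (by rw [Tv]; exact Set.insert_comm _ _ _) Tq p p' r r' Z
      simp [Ne.symm ab, ac, ad, ae, af, bc, bd, be, bf, cd, ce, cf, de, df, ef]
    · refine main b a d c e f ?_ (by rw [Tv]; exact Set.insert_comm _ _ _)
        (by rw [Tq]; exact Set.insert_comm _ _ _) p p' r r' Z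
      simp [Ne.symm ab, ac, ad, ae, af, bc, bd, be, bf, Ne.symm cd, ce, cf, de, df, ef]
  -- the names of the free colours
  obtain ⟨e, f, nd⟩ := exists_free460 D
  have C := ctr_of_dpt h D nd
  have nd' := nd
  simp only [List.nodup_cons, List.mem_cons, List.not_mem_nil, or_false, not_or,
    List.nodup_nil, and_true, not_false_eq_true] at nd'
  obtain ⟨⟨ab, ac, ad, ae, af⟩, ⟨bc, bd, be, bf⟩, ⟨cd, ce, cf⟩, ⟨de, df⟩, ef⟩ := nd'
  have h1 : ({a, b} : Set (Fin 6)) ⊆ T v := by rw [← hTab]; exact inter_subset_right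
  obtain ⟨g, hg, hgn⟩ : ∃ g ∈ T v, g ∉ ({a, b} : Set (Fin 6)) := by
    by_contra hcon
    push Not at hcon
    have h2 : T v ⊆ {a, b} := hcon
    have h4 := Set.ncard_le_ncard h2 (Set.toFinite _)
    rw [ev.card_v, Set.ncard_pair ab] at h4
    omega
  have hgz : g ∉ T z := fun h2 => hgn (by rw [← hTab]; exact ⟨h2, hg⟩)
  have key : ∀ {x : Fin 6}, g = x → a ≠ x → b ≠ x → T v = {a, b, x} := by
    rintro x rfl hax hbx
    symm
    refine Set.eq_of_subset_of_ncard_le ?_ ?_ (Set.toFinite _)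
    · rintro i (rfl | rfl | rfl)
      exacts [h1 (by simp), h1 (by simp), hg]
    · rw [ev.card_v, Set.ncard_eq_three.2 ⟨a, b, g, ab, hax, hbx, rfl⟩]
  rcases C.miss hgz with h2 | h2
  · exact main2 e f nd (key h2 ae be)
  · refine main2 f e ?_ (key h2 af bf)
    simp [ab, ac, ad, ae, af, bc, bd, be, bf, cd, ce, cf, de, df, Ne.symm ef]

end Vale.Agent.P032.H460
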