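import Vale.Agent.P032.H546.Far
import Vale.Agent.P032.H460.Inst11
import Vale.Agent.P032.S5.H783.Frozen

/-!
# P032: the word of a comp centre counts the ends

`b = l.map (ec (lam u))`, `l` the times of the blocks.
`sV_eq460`, `sQ_eq460`, `sJ_eq460` : the counts of the word are the numbers of the ends.
`mem_endsR460` : the ends of the word are the points of the circle.
`farB_iff460` : `farB` means: at distance more than one.
-/

open Set Filter Topology Metric

noncomputable section

namespace Vale.Agent.P032.H460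

open Vale.Agent.P032.Six Vale.Agent.P032.S5.H767 Vale.Agent.P032.S5.H349 Vale.Agent.P032.S5.H450
open Vale.Agent.P032.H987 Vale.Agent.P032.S5.H358 Vale.Agent.P032.H546

variable {U : Fin 6 → Set ℂ} {T : ℂ → Set (Fin 6)} {z v q y : ℂ} {a b c d e f : Fin 6}

/-! ### Digits -/

theorem dig_ec460 (w : Fin 6 → Fin 7) (j : Fin 6) : dig (ec w) j.val = (w j).val := by
  have h0 := (w 0).isLt
  have h1 := (w 1).isLt
  have h2 := (w 2).isLt
  have h3 := (w 3).isLt
  have h4 := (w 4).isLt
  have h5 := (w 5).isLt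
  unfold dig ec
  fin_cases j <;> simp <;> omega

theorem cV_ec460 (w : Fin 6 → Fin 7) : cV (ec w) = ∑ j, isV (w j).val := by
  rw [Fin.sum_univ_six, ← dig_ec460 w 0, ← dig_ec460 w 1, ← dig_ec460 w 2, ← dig_ec460 w 3,
    ← dig_ec460 w 4, ← dig_ec460 w 5]
  rfl

theorem cQ_ec460 (w : Fin 6 → Fin 7) : cQ (ec w) = ∑ j, isQ (w j).val := by
  rw [Fin.sum_univ_six, ← dig_ec460 w 0, ← dig_ec460 w 1, ← dig_ec460 w 2, ← dig_ec460 w 3,
    ← dig_ec460 w 4, ← dig_ec460 w 5]
  rfl

theorem cJ_ec460 (w : Fin 6 → Fin 7) : cJ (ec w) = ∑ j, isJ (w j).val := by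
  rw [Fin.sum_univ_six, ← dig_ec460 w 0, ← dig_ec460 w 1, ← dig_ec460 w 2, ← dig_ec460 w 3,
    ← dig_ec460 w 4, ← dig_ec460 w 5]
  rfl

/-! ### Directions -/

theorem slot_inj460 {p u u' : ℝ} {j j' : Fin 6} (hu : 0 ≤ u ∧ u < 1) (hu' : 0 ≤ u' ∧ u' < 1)
    (h : qj z p u j = qj z p u' j') : u = u' ∧ j = j' := by
  obtain ⟨n, hn⟩ := pt_eq h
  have hj := j.isLt
  have hj' := j'.isLt
  have e1 : (u - u') = ((6 * n + j'.val - j.val : ℤ) : ℝ) := by push_cast; linarith
  have e2 : (6 * n + j'.val - j.val : ℤ) = 0 := by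
    have h1 : ((6 * n + j'.val - j.val : ℤ) : ℝ) < 1 := by rw [← e1]; linarith [hu.2, hu'.1]
    have h2 : (-1 : ℝ) < ((6 * n + j'.val - j.val : ℤ) : ℝ) := by
      rw [← e1]; linarith [hu.1, hu'.2]
    have h3 : (6 * n + j'.val - j.val : ℤ) < 1 := by exact_mod_cast h1
    have h4 : (-1 : ℤ) < (6 * n + j'.val - j.val : ℤ) := by exact_mod_cast h2
    omega
  rw [e2] at e1
  push_cast at e1
  refine ⟨by linarith, Fin.ext (by omega)⟩

theorem exists_slot460 (hy : dist y z = 1) (p : ℝ) :
    ∃ u j, 0 ≤ u ∧ u < 1 ∧ y = qj z p u j := by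
  obtain ⟨s, hs, rfl⟩ : ∃ s ∈ Ico p (p + 6), y = pt z s := by
    obtain ⟨V, rfl⟩ := exists_pt hy
    refine ⟨V + (-⌊(V - p) / 6⌋ : ℤ) * 6, ⟨?_, ?_⟩,
      ((show Function.Periodic (pt z) 6 from pt_six z).int_mul (-⌊(V - p) / 6⌋) V).symm⟩
    · have h1 := Int.floor_le ((V - p) / 6)
      push_cast
      linarith
    · have h1 := Int.lt_floor_add_one ((V - p) / 6)
      push_cast
      linarith
  have h0 : 0 ≤ s - p := by linarith [hs.1]
  have h6 : s - p < 6 := by linarith [hs.2]
  have hfl : ⌊s - p⌋₊ < 6 := (Nat.floor_lt h0).2 (by exact_mod_cast h6)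
  refine ⟨s - p - ⌊s - p⌋₊, ⟨⌊s - p⌋₊, hfl⟩, ?_, ?_, ?_⟩
  · linarith [Nat.floor_le h0]
  · linarith [Nat.lt_floor_add_one (s - p)]
  · show pt z s = pt z (p + (s - p - ⌊s - p⌋₊) + (⌊s - p⌋₊ : ℕ))
    congr 1
    ring

/-! ### Counting -/

/-- the list `l` of times contains all ends -/
structure Tms (T : ℂ → Set (Fin 6)) (z : ℂ) (a b c d e f : Fin 6) (p : ℝ) (l : List ℝ) : Prop where
  inc : l.Pairwise (· < ·)
  mem : ∀ u ∈ l, 0 ≤ u ∧ u < 1
  all : ∀ u, 0 ≤ u → u < 1 → (∃ j, lam T z a b c d e f p u j ≠ 0) → u ∈ l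

/-- the word -/
abbrev wrd (T : ℂ → Set (Fin 6)) (z : ℂ) (a b c d e f : Fin 6) (p : ℝ) (l : List ℝ) : List ℕ :=
  l.map fun u => ec (lam T z a b c d e f p u)

open Classical in
theorem Tms.count {p : ℝ} {l : List ℝ} (L : Tms T z a b c d e f p l) {g : ℕ → ℕ}
    (hg : ∀ x : Fin 7, g x.val = 0 ∨ g x.val = 1) (hg0 : g 0 = 0) :
    (l.map fun u => ∑ j, g (lam T z a b c d e f p u j).val).sum =
      {y | dist y z = 1 ∧ g (lb T z a b c d e f y).val = 1}.ncard := by
  have nd : l.Nodup := L.inc.imp fun h => ne_of_lt h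
  have e1 : (l.map fun u => ∑ j, g (lam T z a b c d e f p u j).val).sum =
      ∑ u ∈ l.toFinset, ∑ j, g (lam T z a b c d e f p u j).val := (List.sum_toFinset _ nd).symm
  have e2 : ∑ u ∈ l.toFinset, ∑ j, g (lam T z a b c d e f p u j).val =
      ∑ x ∈ l.toFinset ×ˢ (Finset.univ : Finset (Fin 6)),
        g (lam T z a b c d e f p x.1 x.2).val := by
    rw [Finset.sum_product]
  have e3 : ∑ x ∈ l.toFinset ×ˢ (Finset.univ : Finset (Fin 6)),
        g (lam T z a b c d e f p x.1 x.2).val =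
      ((l.toFinset ×ˢ (Finset.univ : Finset (Fin 6))).filter
        (fun x => g (lam T z a b c d e f p x.1 x.2).val = 1)).card := by
    rw [Finset.card_filter]
    refine Finset.sum_congr rfl fun x _ => ?_
    rcases hg (lam T z a b c d e f p x.1 x.2) with h1 | h1
    · rw [h1]; simp
    · rw [h1]; simp
  have e4 : (((l.toFinset ×ˢ (Finset.univ : Finset (Fin 6))).filter
        (fun x => g (lam T z a b c d e f p x.1 x.2).val = 1)).image
          fun x => qj z p x.1 x.2).card =
      ((l.toFinset ×ˢ (Finset.univ : Finset (Fin 6))).filter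
        (fun x => g (lam T z a b c d e f p x.1 x.2).val = 1)).card := by
    refine Finset.card_image_of_injOn ?_
    rintro ⟨u, j⟩ hx ⟨u', j'⟩ hx' hxx
    simp only [Finset.coe_filter, Finset.mem_product, List.mem_toFinset, Finset.mem_univ,
      and_true, mem_ofPred_eq] at hx hx'
    obtain ⟨h1, h2⟩ := slot_inj460 (L.mem u hx.1) (L.mem u' hx'.1) hxx
    exact Prod.ext h1 h2
  have e5 : {y | dist y z = 1 ∧ g (lb T z a b c d e f y).val = 1} =
      (((l.toFinset ×ˢ (Finset.univ : Finset (Fin 6))).filter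
        (fun x => g (lam T z a b c d e f p x.1 x.2).val = 1)).image
          fun x => qj z p x.1 x.2 : Finset ℂ) := by
    ext y
    simp only [mem_ofPred_eq, Finset.coe_image, Finset.coe_filter, Finset.mem_product,
      List.mem_toFinset, Finset.mem_univ, and_true, mem_image, Prod.exists]
    constructor
    · rintro ⟨hy, h1⟩
      obtain ⟨u, j, hu0, hu1, rfl⟩ := exists_slot460 hy p
      refine ⟨u, j, ⟨L.all u hu0 hu1 ⟨j, fun h0 => ?_⟩, h1⟩, rfl⟩
      have h2 : lb T z a b c d e f (qj z p u j) = 0 := h0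
      rw [h2] at h1
      have h3 : g 0 = 1 := h1
      rw [hg0] at h3
      exact absurd h3 (by norm_num)
    · rintro ⟨u, j, ⟨-, h1⟩, rfl⟩
      exact ⟨dist_qj z p u j, h1⟩
  rw [e1, e2, e3, ← e4, e5, Set.ncard_coe_finset]

theorem isV_or (x : Fin 7) : isV x.val = 0 ∨ isV x.val = 1 := by revert x; decide
theorem isQ_or (x : Fin 7) : isQ x.val = 0 ∨ isQ x.val = 1 := by revert x; decide
theorem isJ_or (x : Fin 7) : isJ x.val = 0 ∨ isJ x.val = 1 := by revert x; decide

theorem isV_iff (S : CzE U T z a b c d e f) (y : ℂ) :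
    isV (lb T z a b c d e f y).val = 1 ↔ T y = {a, b, e} := by
  have h4 : (T z).ncard = 4 := S.four
  have hne := three_ne S.nd
  rcases lb_cases460 T z y a b c d e f with ⟨h1, h2⟩ | ⟨h1, h2⟩ | ⟨h1, h2⟩ | ⟨h1, h2⟩ |
    ⟨h1, h2⟩ | ⟨h1, h2⟩ | ⟨h1, h2, h3, h5⟩ <;> rw [h1]
  · exact iff_of_true rfl h2
  · exact iff_of_true rfl h2
  · exact iff_of_false (by decide) (by rw [h2]; exact hne.symm)
  · exact iff_of_false (by decide) (by rw [h2]; exact hne.symm)
  · exact iff_of_false (by decide) fun h3 => three_ne_z h4 h3 h2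
  · exact iff_of_false (by decide) fun h3 => three_ne_z h4 h3 h2
  · exact iff_of_false (by decide) h2

theorem isQ_iff (S : CzE U T z a b c d e f) (y : ℂ) :
    isQ (lb T z a b c d e f y).val = 1 ↔ T y = {c, d, f} := by
  have h4 : (T z).ncard = 4 := S.four
  have hne := three_ne S.nd
  rcases lb_cases460 T z y a b c d e f with ⟨h1, h2⟩ | ⟨h1, h2⟩ | ⟨h1, h2⟩ | ⟨h1, h2⟩ |
    ⟨h1, h2⟩ | ⟨h1, h2⟩ | ⟨h1, h2, h3, h5⟩ <;> rw [h1]
  · exact iff_of_false (by decide) (by rw [h2]; exact hne)
  · exact iff_of_false (by decide) (by rw [h2]; exact hne)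
  · exact iff_of_true rfl h2
  · exact iff_of_true rfl h2
  · exact iff_of_false (by decide) fun h3 => three_ne_z h4 h3 h2
  · exact iff_of_false (by decide) fun h3 => three_ne_z h4 h3 h2
  · exact iff_of_false (by decide) h3

theorem isJ_iff (S : CzE U T z a b c d e f) (y : ℂ) :
    isJ (lb T z a b c d e f y).val = 1 ↔ T y = T z := by
  have h4 : (T z).ncard = 4 := S.four
  rcases lb_cases460 T z y a b c d e f with ⟨h1, h2⟩ | ⟨h1, h2⟩ | ⟨h1, h2⟩ | ⟨h1, h2⟩ |
    ⟨h1, h2⟩ | ⟨h1, h2⟩ | ⟨h1, h2, h3, h5⟩ <;> rw [h1]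
  · exact iff_of_false (by decide) (three_ne_z h4 h2)
  · exact iff_of_false (by decide) (three_ne_z h4 h2)
  · exact iff_of_false (by decide) (three_ne_z h4 h2)
  · exact iff_of_false (by decide) (three_ne_z h4 h2)
  · exact iff_of_true rfl h2
  · exact iff_of_true rfl h2
  · exact iff_of_false (by decide) h5

/-- **the `V`-count of the word is the number of `V`-ends** -/
theorem sV_eq460 (S : CzE U T z a b c d e f) {p : ℝ} {l : List ℝ} (L : Tms T z a b c d e f p l) :
    sV (wrd T z a b c d e f p l) = {y | dist y z = 1 ∧ T y = {a, b, e}}.ncard := by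
  have h1 := L.count isV_or rfl
  have e1 : (l.map fun u => ∑ j, isV (lam T z a b c d e f p u j).val) =
      (wrd T z a b c d e f p l).map cV := by
    rw [List.map_map]
    exact List.map_congr_left fun u _ => (cV_ec460 _).symm
  rw [e1] at h1
  unfold sV
  rw [h1]
  congr 1
  ext y
  simp only [mem_ofPred_eq, isV_iff S]

/-- **the `Q`-count of the word is the number of `Q`-ends** -/
theorem sQ_eq460 (S : CzE U T z a b c d e f) {p : ℝ} {l : List ℝ} (L : Tms T z a b c d e f p l) :
    sQ (wrd T z a b c d e f p l) = {y | dist y z = 1 ∧ T y = {c, d, f}}.ncard := by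
  have h1 := L.count isQ_or rfl
  have e1 : (l.map fun u => ∑ j, isQ (lam T z a b c d e f p u j).val) =
      (wrd T z a b c d e f p l).map cQ := by
    rw [List.map_map]
    exact List.map_congr_left fun u _ => (cQ_ec460 _).symm
  rw [e1] at h1
  unfold sQ
  rw [h1]
  congr 1
  ext y
  simp only [mem_ofPred_eq, isQ_iff S]

/-- **the J-count of the word is the number of J-partners** -/
theorem sJ_eq460 (S : CzE U T z a b c d e f) {p : ℝ} {l : List ℝ} (L : Tms T z a b c d e f p l) :
    sJ (wrd T z a b c d e f p l) = {y | dist y z = 1 ∧ T y = T z}.ncard := by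
  have h1 := L.count isJ_or rfl
  have e1 : (l.map fun u => ∑ j, isJ (lam T z a b c d e f p u j).val) =
      (wrd T z a b c d e f p l).map cJ := by
    rw [List.map_map]
    exact List.map_congr_left fun u _ => (cJ_ec460 _).symm
  rw [e1] at h1
  unfold sJ
  rw [h1]
  congr 1
  ext y
  simp only [mem_ofPred_eq, isJ_iff S]

theorem ncard_le_one460 {P : ℂ → Prop} (h : ∀ y, P y → y = v) : {y | P y}.ncard ≤ 1 := by
  have h1 : {y | P y} ⊆ {v} := fun y hy => h y hy
  exact (Set.ncard_le_ncard h1).trans (by rw [Set.ncard_singleton])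

theorem ncard_le_two460 {P : ℂ → Prop} {v v' : ℂ} (h : ∀ y, P y → y = v ∨ y = v') :
    {y | P y}.ncard ≤ 2 := by
  have h1 : {y | P y} ⊆ {v, v'} := fun y hy => h y hy
  refine (Set.ncard_le_ncard h1 (Set.toFinite _)).trans ((Set.ncard_insert_le _ _).trans ?_)
  rw [Set.ncard_singleton]

/-! ### The ends of the word -/

theorem mem_endsR460 {w : List ℕ} {t j x : ℕ} :
    (t, j, x) ∈ endsR w.reverse ↔ j < 6 ∧ x ≠ 0 ∧ ∃ m, w[t]? = some m ∧ dig m j = x := by
  induction w using List.reverseRecOn with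
  | nil => simp [endsR]
  | append_singleton w m ih =>
    rw [List.reverse_append, List.reverse_singleton, List.singleton_append]
    show (t, j, x) ∈ ([0, 1, 2, 3, 4, 5].filterMap fun j =>
      if dig m j = 0 then none else some (w.reverse.length, j, dig m j)) ++ endsR w.reverse ↔ _
    rw [List.mem_append, ih, List.mem_filterMap, List.length_reverse]
    constructor
    · rintro (⟨i, hi, h1⟩ | ⟨hj, hx, m', h1, h2⟩)
      · by_cases h0 : dig m i = 0
        · rw [if_pos h0] at h1; exact absurd h1 (by simp)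
        · rw [if_neg h0] at h1
          simp only [Option.some.injEq, Prod.mk.injEq] at h1
          obtain ⟨rfl, rfl, rfl⟩ := h1
          refine ⟨?_, h0, m, by simp, rfl⟩
          simp only [List.mem_cons, List.not_mem_nil, or_false] at hi
          omega
      · refine ⟨hj, hx, m', ?_, h2⟩
        have h3 : t < w.length := by
          rw [List.getElem?_eq_some_iff] at h1
          exact h1.1
        rw [List.getElem?_append_left h3]
        exact h1
    · rintro ⟨hj, hx, m', h1, h2⟩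
      rcases lt_trichotomy t w.length with h3 | h3 | h3
      · right
        refine ⟨hj, hx, m', ?_, h2⟩
        rw [List.getElem?_append_left h3] at h1
        exact h1
      · left
        subst h3
        rw [List.getElem?_append_right le_rfl] at h1
        simp only [Nat.sub_self, List.getElem?_cons_zero, Option.some.injEq] at h1
        subst h1
        refine ⟨j, ?_, ?_⟩
        · simp only [List.mem_cons, List.not_mem_nil, or_false]; omega
        · rw [if_neg (by rw [h2]; exact hx), h2]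
      · exfalso
        rw [List.getElem?_eq_some_iff] at h1
        obtain ⟨h4, -⟩ := h1
        simp at h4
        omega

/-- **the ends of the word are the points of the circle** -/
theorem ends_iff460 {p : ℝ} {l : List ℝ} {t j x : ℕ} :
    (t, j, x) ∈ endsR (wrd T z a b c d e f p l).reverse ↔
      ∃ (u : ℝ) (i : Fin 6), l[t]? = some u ∧ i.val = j ∧ x ≠ 0 ∧
        (lb T z a b c d e f (qj z p u i)).val = x := by
  rw [mem_endsR460]
  constructor
  · rintro ⟨hj, hx, m, h1, h2⟩
    rw [List.getElem?_map, Option.map_eq_some_iff] at h1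
    obtain ⟨u, hu, rfl⟩ := h1
    refine ⟨u, ⟨j, hj⟩, hu, rfl, hx, ?_⟩
    rw [← h2]
    exact (dig_ec460 (lam T z a b c d e f p u) ⟨j, hj⟩).symm
  · rintro ⟨u, i, hu, rfl, hx, h1⟩
    refine ⟨i.isLt, hx, ec (lam T z a b c d e f p u), ?_, ?_⟩
    · rw [List.getElem?_map, hu]; rfl
    · rw [dig_ec460]; exact h1

/-- every end is in the list -/
theorem Tms.exists_end {p : ℝ} {l : List ℝ} (L : Tms T z a b c d e f p l) (hy : dist y z = 1)
    (h0 : lb T z a b c d e f y ≠ 0) :
    ∃ (t : ℕ) (u : ℝ) (j : Fin 6), l[t]? = some u ∧ y = qj z p u j ∧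
      (t, j.val, (lb T z a b c d e f y).val) ∈ endsR (wrd T z a b c d e f p l).reverse := by
  obtain ⟨u, j, hu0, hu1, rfl⟩ := exists_slot460 hy p
  have h1 : u ∈ l := L.all u hu0 hu1 ⟨j, h0⟩
  obtain ⟨t, ht⟩ := List.mem_iff_getElem?.1 h1
  refine ⟨t, u, j, ht, rfl, ends_iff460.2 ⟨u, j, ht, rfl, ?_, rfl⟩⟩
  exact fun h2 => h0 (Fin.ext h2)

theorem Tms.lt_iff {p : ℝ} {l : List ℝ} (L : Tms T z a b c d e f p l) {t t' : ℕ} {u u' : ℝ}
    (h : l[t]? = some u) (h' : l[t']? = some u') : t < t' ↔ u < u' := by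
  have key : ∀ {s s' : ℕ} {x x' : ℝ}, l[s]? = some x → l[s']? = some x' → s < s' → x < x' := by
    intro s s' x x' hs hs' hlt
    rw [List.getElem?_eq_some_iff] at hs hs'
    obtain ⟨h1, rfl⟩ := hs
    obtain ⟨h2, rfl⟩ := hs'
    exact List.pairwise_iff_getElem.1 L.inc s s' h1 h2 hlt
  constructor
  · exact key h h'
  · intro hlt
    rcases lt_trichotomy t t' with h1 | h1 | h1
    · exact h1
    · subst h1
      rw [h] at h'
      simp only [Option.some.injEq] at h'
      subst h'
      exact absurd hlt (lt_irrefl _)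
    · exact absurd (key h' h h1) (not_lt.2 hlt.le)

/-! ### Distances -/

theorem cos_pt_iff {x : ℝ} (h1 : -1 < x) (h2 : x < 6) :
    Real.cos (x * (Real.pi / 3)) < 1 / 2 ↔ 1 < x ∧ x < 5 := by
  have hpi := Real.pi_pos
  have e3 : Real.cos (Real.pi / 3) = 1 / 2 := Real.cos_pi_div_three
  have key : ∀ t : ℝ, 0 ≤ t → t ≤ 3 → (Real.cos (t * (Real.pi / 3)) < 1 / 2 ↔ 1 < t) := by
    intro t h0 h3
    constructor
    · intro hlt
      by_contra hle
      push Not at hle
      have := Real.cos_le_cos_of_nonneg_of_le_pi (x := t * (Real.pi / 3)) (y := Real.pi / 3)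
        (by positivity) (by linarith) (by nlinarith)
      linarith
    · intro hlt
      have := Real.cos_lt_cos_of_nonneg_of_le_pi (x := Real.pi / 3) (y := t * (Real.pi / 3))
        (by positivity) (by nlinarith) (by nlinarith)
      linarith
  rcases lt_or_ge x 0 with h3 | h3
  · have h4 := key (-x) (by linarith) (by linarith)
    rw [neg_mul, Real.cos_neg] at h4
    rw [h4]
    constructor <;> intro h5
    · linarith
    · linarith [h5.1]
  rcases le_or_gt x 3 with h4 | h4
  · rw [key x h3 h4]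
    exact ⟨fun h5 => ⟨h5, by linarith⟩, fun h5 => h5.1⟩
  · have h5 := key (6 - x) (by linarith) (by linarith)
    have e6 : Real.cos ((6 - x) * (Real.pi / 3)) = Real.cos (x * (Real.pi / 3)) := by
      rw [show (6 - x) * (Real.pi / 3) = 2 * Real.pi - x * (Real.pi / 3) by ring,
        Real.cos_two_pi_sub]
    rw [e6] at h5
    rw [h5]
    exact ⟨fun h6 => ⟨by linarith, by linarith⟩, fun h6 => by linarith [h6.2]⟩

theorem dist_pt_sq460 (z : ℂ) (u u' : ℝ) :
    dist (pt z u) (pt z u') ^ 2 = 2 - 2 * Real.cos ((u - u') * (Real.pi / 3)) := by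
  have h1 := Vale.Agent.P032.S5.H783.dist_cis_sub (v := z) (u * (Real.pi / 3))
    (u' * (Real.pi / 3))
  rw [sub_mul]
  exact h1

/-- the distance of two slots: `k = j - j'` modulo six -/
theorem dist_slot460 (z : ℂ) {p u u' : ℝ} {j j' : Fin 6} (hu : 0 ≤ u ∧ u < 1)
    (hu' : 0 ≤ u' ∧ u' < 1) :
    1 < dist (qj z p u j) (qj z p u' j') ↔
      1 < (((j.val + 6 - j'.val) % 6 : ℕ) : ℝ) + (u - u') ∧
        (((j.val + 6 - j'.val) % 6 : ℕ) : ℝ) + (u - u') < 5 := by
  have hj := j.isLt
  have hj' := j'.isLt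
  set k := (j.val + 6 - j'.val) % 6 with hk
  have hk6 : k < 6 := Nat.mod_lt _ (by norm_num)
  have hk5 : (k : ℝ) ≤ 5 := by exact_mod_cast Nat.lt_succ_iff.1 hk6
  have hk0 : (0 : ℝ) ≤ k := Nat.cast_nonneg k
  have e1 : dist (qj z p u j) (qj z p u' j') ^ 2 =
      2 - 2 * Real.cos ((k + (u - u')) * (Real.pi / 3)) := by
    have h1 := dist_pt_sq460 z (p + u + j.val) (p + u' + j'.val)
    rw [show qj z p u j = pt z (p + u + j.val) from rfl,
      show qj z p u' j' = pt z (p + u' + j'.val) from rfl, h1]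
    congr 2
    obtain ⟨n, hn⟩ : ∃ n : ℤ, (j.val : ℤ) - j'.val = k + 6 * n := by
      refine ⟨((j.val : ℤ) - j'.val) / 6, ?_⟩
      have h2 : (k : ℤ) = ((j.val : ℤ) - j'.val) % 6 := by omega
      rw [h2]
      omega
    have hn' : (j.val : ℝ) - j'.val = k + 6 * n := by exact_mod_cast hn
    have e2 : (p + u + j.val - (p + u' + j'.val)) * (Real.pi / 3) =
        (k + (u - u')) * (Real.pi / 3) + n * (2 * Real.pi) := by
      linear_combination (Real.pi / 3) * hn'
    rw [e2, Real.cos_add_int_mul_two_pi]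
  rw [← cos_pt_iff (by linarith [hu.1, hu'.2]) (by linarith [hu.2, hu'.1])]
  have h0 := dist_nonneg (x := qj z p u j) (y := qj z p u' j')
  constructor
  · intro h1; nlinarith
  · intro h1; nlinarith

/-- **`farB` means: at distance more than one** -/
theorem farB_iff460 (z : ℂ) {p u u' : ℝ} {j j' : Fin 6} {t t' : ℕ} (hu : 0 ≤ u ∧ u < 1)
    (hu' : 0 ≤ u' ∧ u' < 1) (h1 : t < t' ↔ u < u') (h2 : t' < t ↔ u' < u) :
    farB t j.val t' j'.val = true ↔ 1 < dist (qj z p u j) (qj z p u' j') := by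
  rw [dist_slot460 z hu hu']
  unfold farB
  set k := (j.val + 6 - j'.val) % 6 with hk
  have hk6 : k < 6 := Nat.mod_lt _ (by norm_num)
  rcases lt_trichotomy t t' with h3 | h3 | h3
  · have h4 := h1.1 h3
    simp only [h3.ne, if_false, not_lt.2 h3.le, Bool.and_eq_true, bne_iff_ne, ne_eq]
    constructor
    · rintro ⟨h5, h6⟩
      have h7 : (2 : ℝ) ≤ k := by exact_mod_cast (by omega : 2 ≤ k)
      have h8 : (k : ℝ) ≤ 5 := by exact_mod_cast (by omega : k ≤ 5)
      constructor <;> linarith [hu.1, hu'.2]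
    · rintro ⟨h5, h6⟩
      have h7 : (1 : ℝ) < k := by linarith
      have h8 : 1 < k := by exact_mod_cast h7
      omega
  · subst h3
    have h4 : u = u' := by
      rcases lt_trichotomy u u' with h5 | h5 | h5
      · exact absurd (h1.2 h5) (lt_irrefl _)
      · exact h5
      · exact absurd (h2.2 h5) (lt_irrefl _)
    subst h4
    simp only [if_true, Bool.and_eq_true, bne_iff_ne, ne_eq, sub_self, add_zero]
    constructor
    · rintro ⟨⟨h5, h6⟩, h7⟩
      have h8 : 1 < k := by omega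
      have h9 : k < 5 := by omega
      exact ⟨by exact_mod_cast h8, by exact_mod_cast h9⟩
    · rintro ⟨h5, h6⟩
      have h7 : 1 < k := by exact_mod_cast h5
      have h8 : k < 5 := by exact_mod_cast h6
      omega
  · have h4 := h2.1 h3
    simp only [h3.ne', if_false, h3, if_true, Bool.and_eq_true, bne_iff_ne, ne_eq]
    constructor
    · rintro ⟨h5, h6⟩
      have h7 : (1 : ℝ) ≤ k := by exact_mod_cast (by omega : 1 ≤ k)
      have h8 : (k : ℝ) ≤ 4 := by exact_mod_cast (by omega : k ≤ 4)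
      constructor <;> linarith [hu.2, hu'.1]
    · rintro ⟨h5, h6⟩
      have h7 : (0 : ℝ) < k := by linarith [hu.2, hu'.1]
      have h8 : 0 < k := by exact_mod_cast h7
      have h9 : (k : ℝ) < 5 := by linarith
      have h10 : k < 5 := by exact_mod_cast h9
      omega

end Vale.Agent.P032.H460
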