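import Vale.Agent.P032.H460.Border

/-!
# P032: counting the borders of a two-pair point

`Bdr T z x y v` : `v ∈ S(z)` is a two-pair point with the pair `{x, y}`.  `z` a two-pair point with
the pairs `{a, b}`, `{c, d}`; the four mixed pairs are its borders.

* `Irr.bdr_uniq460` : a border has at most one centre.
* `Irr.j_border460` : a point of `S(z)` with the palette of `z` is the centre of two opposite borders.
* `Irr.k_border460` : a two-pair point of `S(z)` with exactly three colours of `z` is the centre of a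
  border.
* `Irr.border_count460` : number of centres + number of points with the palette of `z` is at most
  four (`#K + #E1 + 2 #J ≤ 4`).
* `Irr.border_of_two_J460` : if there are two points with the palette of `z`, there are no other
  centres; `Irr.no_K_of_two_J460` : then no two-pair point of `S(z)` has exactly three colours of `z`.
-/

open Set Filter Topology Metric

noncomputable section

namespace Vale.Agent.P032.Six

section general

variable {k : ℕ} {U : Fin k → Set ℂ} {T : ℂ → Set (Fin k)}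

/-- `v` is the centre of the border `x | y` of `z` -/
def Bdr (T : ℂ → Set (Fin k)) (z : ℂ) (x y : Fin k) (v : ℂ) : Prop :=
  dist v z = 1 ∧ ∃ p q, DPt T v x y p q

theorem Bdr.symm {z v : ℂ} {x y : Fin k} (h : Bdr T z x y v) : Bdr T z y x v := by
  obtain ⟨h1, p, q, h2⟩ := h
  exact ⟨h1, p, q, h2.swap12⟩

theorem Irr.bdr_ac460 (h : Irr U T) {z v v' : ℂ} {a b c d : Fin k} (hz : DPt T z a b c d)
    (h1 : Bdr T z a c v) (h2 : Bdr T z a c v') : v = v' := by
  obtain ⟨e1, p, q, hD⟩ := h1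
  obtain ⟨e2, p', q', hD'⟩ := h2
  exact h.border_uniq460 hz e1 e2 hD hD'

/-- **a border has at most one centre** -/
theorem Irr.bdr_uniq460 (h : Irr U T) {z v v' : ℂ} {a b c d x y : Fin k} (hz : DPt T z a b c d)
    (hx : x = a ∨ x = b) (hy : y = c ∨ y = d) (h1 : Bdr T z x y v) (h2 : Bdr T z x y v') :
    v = v' := by
  rcases hx with rfl | rfl <;> rcases hy with rfl | rfl
  · exact h.bdr_ac460 hz h1 h2
  · exact h.bdr_ac460 hz.swap34 h1 h2
  · exact h.bdr_ac460 hz.swap12 h1 h2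
  · exact h.bdr_ac460 hz.swap12.swap34 h1 h2

/-- a point of `S(z)` with the palette of `z` is the centre of two opposite borders -/
theorem Irr.j_border460 (h : Irr U T) {z v : ℂ} {a b c d : Fin k} (hz : DPt T z a b c d)
    (hv : dist v z = 1) (hT : T v = T z) : DPt T v a c b d ∨ DPt T v a d b c := by
  have hzv : dist z v = 1 := by rw [dist_comm]; exact hv
  have key : ∀ x y x' y' : Fin k, T z = {x, y, x', y'} → x ≠ x' → x ≠ y' → y ≠ x' → y ≠ y' →
      x ≠ y → x' ≠ y' → Gm T v z x y x' y' → DPt T v x y x' y' := by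
    intro x y x' y' hP h1 h2 h3 h4 h5 h6 hG
    have hx : x ∈ Pal U v := h.sub v (by rw [hT, hP]; simp)
    have hy : y ∈ Pal U v := h.sub v (by rw [hT, hP]; simp)
    have hx' : x' ∈ Pal U v := h.sub v (by rw [hT, hP]; simp)
    have hy' : y' ∈ Pal U v := h.sub v (by rw [hT, hP]; simp)
    obtain ⟨q, hq, hqT⟩ := hb_exists hzv (h.hb_exact hzv hG.1 hx hy)
    obtain ⟨q', hq', hqT'⟩ := hb_exists hzv (h.hb_exact hzv hG.2 hx' hy')
    exact ⟨by rw [hT, hP], h1, h2, h3, h4, h5, h6,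
      ⟨q, h.arc_of_eq h5 (by rw [hT, hP]; simp) (by rw [hT, hP]; simp) hq hqT⟩,
      ⟨q', h.arc_of_eq h6 (by rw [hT, hP]; simp) (by rw [hT, hP]; simp) hq' hqT'⟩⟩
  have hp := hz.pal
  rcases h.germ_branch hz hzv with hG | hG | hG | hG
  · left
    refine key a c b d ?_ hz.ab hz.ad hz.bc.symm hz.cd hz.ac hz.bd hG
    rw [hp]; ext x; simp only [mem_insert_iff, mem_singleton_iff]; tauto
  · right
    refine key a d b c ?_ hz.ab hz.ac hz.bd.symm hz.cd.symm hz.ad hz.bc hG
    rw [hp]; ext x; simp only [mem_insert_iff, mem_singleton_iff]; tauto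
  · right
    refine (key b c a d ?_ hz.ab.symm hz.bd hz.ac.symm hz.cd hz.bc hz.ad hG).swap
    rw [hp]; ext x; simp only [mem_insert_iff, mem_singleton_iff]; tauto
  · left
    refine (key b d a c ?_ hz.ab.symm hz.bc hz.ad.symm hz.cd.symm hz.bd hz.ac hG).swap
    rw [hp]; ext x; simp only [mem_insert_iff, mem_singleton_iff]; tauto

/-- the centres of the borders of `z` -/
def Cen (T : ℂ → Set (Fin k)) (z : ℂ) (a b c d : Fin k) : Set ℂ :=
  {v | ∃ x y, (x = a ∨ x = b) ∧ (y = c ∨ y = d) ∧ Bdr T z x y v}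

/-- the points of `S(z)` with the palette of `z` -/
def Jset (T : ℂ → Set (Fin k)) (z : ℂ) : Set ℂ := {v | dist v z = 1 ∧ T v = T z}

theorem Irr.jset_sub460 (h : Irr U T) {z : ℂ} {a b c d : Fin k} (hz : DPt T z a b c d) :
    Jset T z ⊆ ({v | Bdr T z a c v} ∩ {v | Bdr T z b d v}) ∪
      ({v | Bdr T z a d v} ∩ {v | Bdr T z b c v}) := by
  rintro v ⟨hv, hT⟩
  rcases h.j_border460 hz hv hT with hD | hD
  · exact Or.inl ⟨⟨hv, b, d, hD⟩, ⟨hv, a, c, hD.swap⟩⟩
  · exact Or.inr ⟨⟨hv, b, c, hD⟩, ⟨hv, a, d, hD.swap⟩⟩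

theorem ncard_two460 {A B : Set ℂ} (hA : A.Subsingleton) (hB : B.Subsingleton) :
    (A ∪ B).ncard + (A ∩ B).ncard ≤ 2 := by
  rw [Set.ncard_union_add_ncard_inter A B hA.finite hB.finite]
  have h1 : A.ncard ≤ 1 := Set.ncard_le_one hA.finite |>.2 fun a ha b hb => hA ha hb
  have h2 : B.ncard ≤ 1 := Set.ncard_le_one hB.finite |>.2 fun a ha b hb => hB ha hb
  omega

/-- **`#K + #E1 + 2 #J ≤ 4`**: the number of centres of borders plus the number of points of `S(z)`
with the palette of `z` is at most four -/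
theorem Irr.border_count460 (h : Irr U T) {z : ℂ} {a b c d : Fin k} (hz : DPt T z a b c d) :
    (Cen T z a b c d).Finite ∧ Jset T z ⊆ Cen T z a b c d ∧
      (Cen T z a b c d).ncard + (Jset T z).ncard ≤ 4 := by
  set A := {v | Bdr T z a c v} with hA
  set A' := {v | Bdr T z b d v} with hA'
  set B := {v | Bdr T z a d v} with hB
  set B' := {v | Bdr T z b c v} with hB'
  have sA : A.Subsingleton := fun v hv v' hv' => h.bdr_uniq460 hz (Or.inl rfl) (Or.inl rfl) hv hv'
  have sA' : A'.Subsingleton := fun v hv v' hv' =>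
    h.bdr_uniq460 hz (Or.inr rfl) (Or.inr rfl) hv hv'
  have sB : B.Subsingleton := fun v hv v' hv' => h.bdr_uniq460 hz (Or.inl rfl) (Or.inr rfl) hv hv'
  have sB' : B'.Subsingleton := fun v hv v' hv' =>
    h.bdr_uniq460 hz (Or.inr rfl) (Or.inl rfl) hv hv'
  have hC : Cen T z a b c d = (A ∪ A') ∪ (B ∪ B') := by
    ext v
    constructor
    · rintro ⟨x, y, rfl | rfl, rfl | rfl, hv⟩
      · exact Or.inl (Or.inl hv)
      · exact Or.inr (Or.inl hv)
      · exact Or.inr (Or.inr hv)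
      · exact Or.inl (Or.inr hv)
    · rintro ((hv | hv) | (hv | hv))
      · exact ⟨a, c, Or.inl rfl, Or.inl rfl, hv⟩
      · exact ⟨b, d, Or.inr rfl, Or.inr rfl, hv⟩
      · exact ⟨a, d, Or.inl rfl, Or.inr rfl, hv⟩
      · exact ⟨b, c, Or.inr rfl, Or.inl rfl, hv⟩
  have hfin : ((A ∪ A') ∪ (B ∪ B')).Finite :=
    (sA.finite.union sA'.finite).union (sB.finite.union sB'.finite)
  have hJ : Jset T z ⊆ (A ∩ A') ∪ (B ∩ B') := h.jset_sub460 hz
  have hJC : Jset T z ⊆ (A ∪ A') ∪ (B ∪ B') := by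
    intro v hv
    rcases hJ hv with h1 | h1
    · exact Or.inl (Or.inl h1.1)
    · exact Or.inr (Or.inl h1.1)
  rw [hC]
  refine ⟨hfin, hJC, ?_⟩
  have h1 := Set.ncard_union_le (A ∪ A') (B ∪ B')
  have h2 := Set.ncard_union_le (A ∩ A') (B ∩ B')
  have h3 : (Jset T z).ncard ≤ ((A ∩ A') ∪ (B ∩ B')).ncard :=
    Set.ncard_le_ncard hJ ((sA.finite.inter_of_left _).union (sB.finite.inter_of_left _))
  have h4 := ncard_two460 sA sA'
  have h5 := ncard_two460 sB sB'
  omega

/-- two points with the palette of `z`: there are no other centres of borders -/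
theorem Irr.border_of_two_J460 (h : Irr U T) {z v₁ v₂ v : ℂ} {a b c d x y : Fin k}
    (hz : DPt T z a b c d) (h1 : dist v₁ z = 1) (e1 : T v₁ = T z) (h2 : dist v₂ z = 1)
    (e2 : T v₂ = T z) (hne : v₁ ≠ v₂) (hx : x = a ∨ x = b) (hy : y = c ∨ y = d)
    (hv : Bdr T z x y v) : v = v₁ ∨ v = v₂ := by
  obtain ⟨hfin, hJC, hle⟩ := h.border_count460 hz
  have hJf : (Jset T z).Finite := hfin.subset hJC
  by_contra hcon
  push Not at hcon
  have m1 : v₁ ∈ Jset T z := ⟨h1, e1⟩
  have m2 : v₂ ∈ Jset T z := ⟨h2, e2⟩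
  have m : v ∈ Cen T z a b c d := ⟨x, y, hx, hy, hv⟩
  have k1 : ({v₁, v₂} : Set ℂ).ncard ≤ (Jset T z).ncard :=
    Set.ncard_le_ncard (by rintro w (rfl | rfl); exacts [m1, m2]) hJf
  have k2 : ({v, v₁, v₂} : Set ℂ).ncard ≤ (Cen T z a b c d).ncard :=
    Set.ncard_le_ncard (by rintro w (rfl | rfl | rfl); exacts [m, hJC m1, hJC m2]) hfin
  rw [Set.ncard_pair hne] at k1
  rw [Set.ncard_insert_of_notMem (by
    rintro (h3 | h3)
    · exact hcon.1 h3
    · exact hcon.2 h3), Set.ncard_pair hne] at k2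
  omega

end general

section six

variable {U : Fin 6 → Set ℂ} {T : ℂ → Set (Fin 6)}

/-- an exact arc of a two-pair point is one of its pairs -/
theorem Irr.dpt_of_arc460 (h : Irr U T) {v w : ℂ} {p q r s x y m : Fin 6} (hD : DPt T v p q r s)
    (hw : Arc T v w {x, y}) (hx : x ∈ T v) (hy : y ∈ T v) (hxy : x ≠ y) (hm : m ∈ T v)
    (hmx : m ≠ x) (hmy : m ≠ y) : ∃ e, DPt T v x y m e := by
  have key : ∀ p q r s : Fin 6, DPt T v p q r s → ({x, y} : Set (Fin 6)) = {p, q} →
      ∃ e, DPt T v x y m e := by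
    intro p q r s hD he
    have hp : p = x ∨ p = y := by
      have : p ∈ ({x, y} : Set (Fin 6)) := by rw [he]; simp
      exact this
    have hq : q = x ∨ q = y := by
      have : q ∈ ({x, y} : Set (Fin 6)) := by rw [he]; simp
      exact this
    have hxy' : DPt T v x y r s := by
      rcases hp with rfl | rfl <;> rcases hq with rfl | rfl
      · exact absurd rfl hD.ab
      · exact hD
      · exact hD.swap12
      · exact absurd rfl hD.ab
    have hm' := hm
    rw [hxy'.pal] at hm'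
    rcases hm' with rfl | rfl | rfl | h1
    · exact absurd rfl hmx
    · exact absurd rfl hmy
    · exact ⟨s, hxy'⟩
    · rw [mem_singleton_iff] at h1
      subst h1
      exact ⟨r, hxy'.swap34⟩
  have h1 := h.twoPairs hD w hw.1 (by rw [hw.mem]; exact hw.2) (by
    rw [hw.mem]
    rintro i (rfl | hi)
    · exact hx
    · rw [mem_singleton_iff] at hi; subst hi; exact hy)
  rw [hw.mem] at h1
  rcases h1 with h1 | h1
  · exact key p q r s hD h1
  · exact key r s p q hD.swap h1

/-- **a two-pair point of `S(z)` with the colours `a, b, c` of `z`, without `d`, is the centre of a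
border** -/
theorem Irr.k_border460 (h : Irr U T) {z v : ℂ} {a b c d p q r s : Fin 6} (hz : DPt T z a b c d)
    (hv : dist v z = 1) (hD : DPt T v p q r s) (ha : a ∈ T v) (hb' : b ∈ T v) (hc : c ∈ T v) :
    (∃ e, DPt T v a c b e) ∨ ∃ e, DPt T v b c a e := by
  have hzv : dist z v = 1 := by rw [dist_comm]; exact hv
  have key : ∀ (x m : Fin 6) (τ : ℝ), x ∈ T v → m ∈ T v → x ≠ c → m ≠ x → m ≠ c →
      (∀ᶠ t : ℝ in 𝓝[>] 0, T (hb v z τ t) ⊆ {x, c}) → ∃ e, DPt T v x c m e := by
    intro x m τ hx hm hxc hmx hmc h1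
    obtain ⟨w, hw, hwT⟩ := hb_exists hzv (h.hb_exact hzv h1 (h.sub _ hx) (h.sub _ hc))
    exact h.dpt_of_arc460 hD (h.arc_of_eq hxc hx hc hw hwT) hx hc hxc hm hmx hmc
  rcases h.germ_branch hz hzv with hG | hG | hG | hG
  · exact Or.inl (key a b 1 ha hb' hz.ac hz.ab.symm hz.bc hG.1)
  · exact Or.inr (key b a (-1) hb' ha hz.bc hz.ab hz.ac hG.2)
  · exact Or.inr (key b a 1 hb' ha hz.bc hz.ab hz.ac hG.1)
  · exact Or.inl (key a b (-1) ha hb' hz.ac hz.ab.symm hz.bc hG.2)

/-- **two points with the palette of `z`: no other two-pair point of `S(z)` has three colours of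
`z`** -/
theorem Irr.no_K_of_two_J460 (h : Irr U T) {z v₁ v₂ v : ℂ} {a b c d p q r s : Fin 6}
    (hz : DPt T z a b c d) (h1 : dist v₁ z = 1) (e1 : T v₁ = T z) (h2 : dist v₂ z = 1)
    (e2 : T v₂ = T z) (hne : v₁ ≠ v₂) (hv : dist v z = 1) (hD : DPt T v p q r s) (ha : a ∈ T v)
    (hb : b ∈ T v) (hc : c ∈ T v) : v = v₁ ∨ v = v₂ := by
  rcases h.k_border460 hz hv hD ha hb hc with ⟨e, he⟩ | ⟨e, he⟩
  · exact h.border_of_two_J460 hz h1 e1 h2 e2 hne (Or.inl rfl) (Or.inl rfl) ⟨hv, _, _, he⟩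
  · exact h.border_of_two_J460 hz h1 e1 h2 e2 hne (Or.inr rfl) (Or.inl rfl) ⟨hv, _, _, he⟩

end six

end Vale.Agent.P032.Six
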