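import Vale.Agent.P032.H695.Lift

/-!
# P032: the winding number of a quasi-full centre, K-ends allowed

`Cov.full_oddK` : 695's `Cov.full_odd` where at each end of the full arc the label `2` may be
followed by a label `i ≠ 2` which is absent at the outward apex (K-end).
-/

open Set Filter Topology

noncomputable section

namespace Vale.Agent.P032.H460

open Vale.Agent.P032.H180 Vale.Agent.P032.H695

/-- the end `t` of the full arc, with the outward apex `t'` : either only the label `2` at `t`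
(J-end), or one of the labels `0`, `1` is absent at `t` and present at `t'` (K-end) -/
def KEnd (Q : ℝ → Set (Fin 3)) (t t' : ℝ) : Prop :=
  Q t ⊆ {2} ∨ (1 ∉ Q t ∧ 1 ∈ Q t') ∨ (0 ∉ Q t ∧ 0 ∈ Q t')

variable {Q : ℝ → Set (Fin 3)}

theorem res_one {m : ℤ} (h0 : Res (m - 2 * ((1 : Fin 3) : ℕ))) :
    m % 6 = 1 ∨ m % 6 = 2 ∨ m % 6 = 3 := by
  simp [Res] at h0
  omega

theorem res_zero {m : ℤ} (h0 : Res (m - 2 * ((0 : Fin 3) : ℕ))) :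
    m % 6 = 5 ∨ m % 6 = 0 ∨ m % 6 = 1 := by
  simp [Res] at h0
  omega

theorem res_not_one {m : ℤ} (h0 : ¬ Res (m - 2 * ((1 : Fin 3) : ℕ))) :
    m % 6 = 4 ∨ m % 6 = 5 ∨ m % 6 = 0 := by
  simp [Res] at h0
  omega

theorem res_not_zero {m : ℤ} (h0 : ¬ Res (m - 2 * ((0 : Fin 3) : ℕ))) :
    m % 6 = 2 ∨ m % 6 = 3 ∨ m % 6 = 4 := by
  simp [Res] at h0
  omega

/-- a step of the height in `6 N + {2, 3, 4}` -/
def Stp (N x : ℤ) : Prop := (x - 2) / 6 = N ∧ (x % 6 = 2 ∨ x % 6 = 3 ∨ x % 6 = 4)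

theorem stp_iff {N x : ℤ} : Stp N x ↔ 6 * N + 2 ≤ x ∧ x ≤ 6 * N + 4 := by
  unfold Stp
  constructor
  · rintro ⟨h1, h2⟩; omega
  · rintro ⟨h1, h2⟩; constructor <;> omega

/-- a J-end -/
theorem endJ {m0 a1 a2 a3 N : ℤ} (h1 : Stp N (a1 - m0)) (h2 : Stp N (a2 - a1))
    (h3 : Stp N (a3 - a2))
    (h4 : (a3 - m0) % 6 = 2 ∨ (a3 - m0) % 6 = 3 ∨ (a3 - m0) % 6 = 4) : Stp (3 * N + 1) (a3 - m0) := by
  rw [stp_iff] at *
  obtain ⟨p1, p1'⟩ := h1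
  obtain ⟨p2, p2'⟩ := h2
  obtain ⟨p3, p3'⟩ := h3
  omega

/-- a K-end: `m0` on the arc, `p` at the end, `s` beyond the end, `as` the apex at the time of
`s`, `a1` the apex, `a2`, `a3` the next slots at the time of the end -/
theorem endK {m0 p s as a1 a2 a3 N : ℤ} (h4 : m0 % 6 = 4) (h1 : |m0 - p| ≤ 1) (h2 : |s - p| ≤ 1)
    (h3 : ((s % 6 = 4 ∨ s % 6 = 5 ∨ s % 6 = 0) ∧ (p % 6 = 4 ∨ p % 6 = 5 ∨ p % 6 = 0) ∧
        (a1 % 6 = 1 ∨ a1 % 6 = 2 ∨ a1 % 6 = 3)) ∨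
      ((s % 6 = 2 ∨ s % 6 = 3 ∨ s % 6 = 4) ∧ (p % 6 = 2 ∨ p % 6 = 3 ∨ p % 6 = 4) ∧
        (a1 % 6 = 5 ∨ a1 % 6 = 0 ∨ a1 % 6 = 1)))
    (h5 : |as - a1| ≤ 1) (hs : Stp N (as - s)) (h6 : Stp N (a2 - a1)) (h7 : Stp N (a3 - a2))
    (h8 : (a3 - m0) % 6 = 2 ∨ (a3 - m0) % 6 = 3 ∨ (a3 - m0) % 6 = 4) :
    Stp (3 * N + 1) (a3 - m0) := by
  rw [stp_iff] at *
  rw [abs_le] at h1 h2 h5
  obtain ⟨b1, b2⟩ := h1
  obtain ⟨b3, b4⟩ := h2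
  obtain ⟨b5, b6⟩ := h5
  obtain ⟨b7, b8⟩ := hs
  obtain ⟨b9, b10⟩ := h6
  obtain ⟨b11, b12⟩ := h7
  obtain ⟨q, hq⟩ : ∃ q, m0 = 6 * q + 4 := ⟨m0 / 6, by omega⟩
  subst hq
  rcases h3 with ⟨c1, c2, c3⟩ | ⟨c1, c2, c3⟩
  · have hp : p = 6 * q + 4 ∨ p = 6 * q + 5 := by omega
    have hs : s = 6 * q + 4 ∨ s = 6 * q + 5 ∨ s = 6 * q + 6 := by omega
    have ha : 6 * (q + N) + 7 ≤ a1 ∧ a1 ≤ 6 * (q + N) + 9 := by omega
    have h9 : 6 * (q + N) + 12 * N + 11 ≤ a3 ∧ a3 ≤ 6 * (q + N) + 12 * N + 17 := by omega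
    clear c1 c2 c3 hp hs b1 b2 b3 b4 b5 b6 b7 b8 b9 b10 b11 b12 ha
    omega
  · have hp : p = 6 * q + 4 ∨ p = 6 * q + 3 := by omega
    have hs : s = 6 * q + 4 ∨ s = 6 * q + 3 ∨ s = 6 * q + 2 := by omega
    have ha : 6 * (q + N) + 5 ≤ a1 ∧ a1 ≤ 6 * (q + N) + 7 := by omega
    have h9 : 6 * (q + N) + 12 * N + 9 ≤ a3 ∧ a3 ≤ 6 * (q + N) + 12 * N + 15 := by omega
    clear c1 c2 c3 hp hs b1 b2 b3 b4 b5 b6 b7 b8 b9 b10 b11 b12 ha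
    omega

/-- the mirror of `endJ` -/
theorem endJ' {m0 a1 a2 a3 N : ℤ} (h1 : Stp N (m0 - a1)) (h2 : Stp N (a1 - a2))
    (h3 : Stp N (a2 - a3))
    (h4 : (a3 - m0) % 6 = 2 ∨ (a3 - m0) % 6 = 3 ∨ (a3 - m0) % 6 = 4) : Stp (3 * N + 1) (m0 - a3) := by
  rw [stp_iff] at *
  obtain ⟨p1, p1'⟩ := h1
  obtain ⟨p2, p2'⟩ := h2
  obtain ⟨p3, p3'⟩ := h3
  omega

/-- the mirror of `endK` -/
theorem endK' {m0 p s as a1 a2 a3 N : ℤ} (h4 : m0 % 6 = 4) (h1 : |m0 - p| ≤ 1) (h2 : |s - p| ≤ 1)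
    (h3 : ((s % 6 = 4 ∨ s % 6 = 5 ∨ s % 6 = 0) ∧ (p % 6 = 4 ∨ p % 6 = 5 ∨ p % 6 = 0) ∧
        (a1 % 6 = 1 ∨ a1 % 6 = 2 ∨ a1 % 6 = 3)) ∨
      ((s % 6 = 2 ∨ s % 6 = 3 ∨ s % 6 = 4) ∧ (p % 6 = 2 ∨ p % 6 = 3 ∨ p % 6 = 4) ∧
        (a1 % 6 = 5 ∨ a1 % 6 = 0 ∨ a1 % 6 = 1)))
    (h5 : |as - a1| ≤ 1) (hs : Stp N (s - as)) (h6 : Stp N (a1 - a2)) (h7 : Stp N (a2 - a3))
    (h8 : (a3 - m0) % 6 = 2 ∨ (a3 - m0) % 6 = 3 ∨ (a3 - m0) % 6 = 4) :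
    Stp (3 * N + 1) (m0 - a3) := by
  rw [stp_iff] at *
  rw [abs_le] at h1 h2 h5
  obtain ⟨b1, b2⟩ := h1
  obtain ⟨b3, b4⟩ := h2
  obtain ⟨b5, b6⟩ := h5
  obtain ⟨b7, b8⟩ := hs
  obtain ⟨b9, b10⟩ := h6
  obtain ⟨b11, b12⟩ := h7
  obtain ⟨q, hq⟩ : ∃ q, m0 = 6 * q + 4 := ⟨m0 / 6, by omega⟩
  subst hq
  rcases h3 with ⟨c1, c2, c3⟩ | ⟨c1, c2, c3⟩
  · have hp : p = 6 * q + 4 ∨ p = 6 * q + 5 := by omega
    have hs : s = 6 * q + 4 ∨ s = 6 * q + 5 ∨ s = 6 * q + 6 := by omega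
    have ha : 6 * (q - N) + 1 ≤ a1 ∧ a1 ≤ 6 * (q - N) + 3 := by omega
    have h9 : 6 * (q - N) - 12 * N - 7 ≤ a3 ∧ a3 ≤ 6 * (q - N) - 12 * N - 1 := by omega
    clear c1 c2 c3 hp hs b1 b2 b3 b4 b5 b6 b7 b8 b9 b10 b11 b12 ha
    omega
  · have hp : p = 6 * q + 4 ∨ p = 6 * q + 3 := by omega
    have hs : s = 6 * q + 4 ∨ s = 6 * q + 3 ∨ s = 6 * q + 2 := by omega
    have ha : 6 * (q - N) - 1 ≤ a1 ∧ a1 ≤ 6 * (q - N) + 1 := by omega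
    have h9 : 6 * (q - N) - 12 * N - 9 ≤ a3 ∧ a3 ≤ 6 * (q - N) - 12 * N - 3 := by omega
    clear c1 c2 c3 hp hs b1 b2 b3 b4 b5 b6 b7 b8 b9 b10 b11 b12 ha
    omega

/-- **The winding number of a quasi-full centre with J- or K-ends is odd**; in particular there is
no periodic primitive. -/
theorem full_oddK (h : Cov Q) {α : ℝ} (hα0 : 0 < α) (hα1 : α ≤ 1)
    (hX : ∀ t ∈ Ioo (3 : ℝ) (3 + α), Q t ⊆ {2}) (hl : KEnd Q 3 2) (hr : KEnd Q (3 + α) (4 + α))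
    (hB : ∀ t ∈ Icc (6 : ℝ) (6 + α), 2 ∉ Q t)
    (hinc : ∀ t ∈ Ioo (3 + α) (8 : ℝ), ¬ Q t ⊆ Q (t + 1) ∧ ¬ Q (t + 1) ⊆ Q t)
    {g : ℝ → Fin 3 → ℤ} (hg : Sec (Icc (0 : ℝ) 6) Q (fun _ => dz) g)
    (hper : ∀ i ∈ Q 0, g 6 i = g 0 i) : False := by
  obtain ⟨ℓ, M, hℓ, hd, hM, hMloc, hMℓ⟩ := h.exM
  have hP := h.per_of_sec hg hper hℓ hM hMloc hMℓ
  have hloc : ∀ t ∈ Ioo (0 : ℝ) 12, ∀ᶠ s in 𝓝 t, s ∈ Ioo (0 : ℝ) 12 ∧ |M s - M t| ≤ 1 := by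
    intro t ht
    have h1 := hMloc t ⟨ht.1.le, ht.2.le⟩
    rw [nhdsWithin_eq_nhds.2 (Icc_mem_nhds ht.1 ht.2)] at h1
    filter_upwards [h1, Ioo_mem_nhds ht.1 ht.2] with s hs hs'
    exact ⟨hs', hs⟩
  have hM' : ∀ t ∈ Ioo (0 : ℝ) 12, ∀ l : Fin 3, l ∈ Q t ↔ Res (M t - 2 * (l : ℕ)) :=
    fun t ht => hM t ⟨ht.1.le, ht.2.le⟩
  -- residues
  have hr2 : ∀ t ∈ Ioo (0 : ℝ) 12, Q t ⊆ {2} → M t % 6 = 4 := by
    intro t ht hQ
    refine res_two (fun hc => ?_) fun hc => ?_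
    · have := hQ ((hM' t ht 0).2 hc)
      exact absurd this (by decide)
    · have := hQ ((hM' t ht 1).2 hc)
      exact absurd this (by decide)
  have hrn : ∀ t ∈ Ioo (0 : ℝ) 12, 2 ∉ Q t → M t % 6 = 0 ∨ M t % 6 = 1 ∨ M t % 6 = 2 := by
    intro t ht hQ
    exact res_not_two fun hc => hQ ((hM' t ht 2).2 hc)
  have hrn1 : ∀ t ∈ Ioo (0 : ℝ) 12, 1 ∉ Q t → M t % 6 = 4 ∨ M t % 6 = 5 ∨ M t % 6 = 0 := by
    intro t ht hQ
    exact res_not_one fun hc => hQ ((hM' t ht 1).2 hc)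
  have hrn0 : ∀ t ∈ Ioo (0 : ℝ) 12, 0 ∉ Q t → M t % 6 = 2 ∨ M t % 6 = 3 ∨ M t % 6 = 4 := by
    intro t ht hQ
    exact res_not_zero fun hc => hQ ((hM' t ht 0).2 hc)
  have e9 : Q 9 = Q 3 := by
    have := h.per 3
    norm_num at this
    exact this
  have e8 : Q 8 = Q 2 := by
    have := h.per 2
    norm_num at this
    exact this
  -- the height on the open arcs
  have hc : ∀ c d : ℝ, 0 ≤ c → d ≤ 12 → (∀ t ∈ Ioo c d, Q t ⊆ {2}) →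
      ∀ s ∈ Ioo c d, ∀ t ∈ Ioo c d, M s = M t := by
    intro c d hc hd hQ
    refine const_Ioo fun t ht => ?_
    have ht0 : t ∈ Ioo (0 : ℝ) 12 := ⟨by linarith [ht.1], by linarith [ht.2]⟩
    filter_upwards [hloc t ht0, Ioo_mem_nhds ht.1 ht.2] with s hs hs'
    have e1 := hr2 s hs.1 (hQ s hs')
    have e2 := hr2 t ht0 (hQ t ht)
    have e3 := hs.2
    rw [abs_le] at e3
    omega
  have hX9 : ∀ t ∈ Ioo (9 : ℝ) (9 + α), Q t ⊆ {2} := by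
    intro t ht
    have h1 := h.per (t - 6)
    rw [sub_add_cancel] at h1
    rw [h1]
    exact hX _ ⟨by linarith [ht.1], by linarith [ht.2]⟩
  set m0 := M (3 + α / 2) with hm0
  have hA : ∀ t ∈ Ioo (3 : ℝ) (3 + α), M t = m0 := fun t ht =>
    hc 3 (3 + α) (by norm_num) (by linarith) hX t ht _ ⟨by linarith, by linarith⟩
  have hA9 : ∀ t ∈ Ioo (9 : ℝ) (9 + α), M t = m0 := by
    intro t ht
    have h1 := hc 9 (9 + α) (by norm_num) (by linarith) hX9 t ht (9 + α / 2)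
      ⟨by linarith, by linarith⟩
    have h2 := hP (3 + α / 2) ⟨by linarith, by linarith⟩
    rw [show 3 + α / 2 + 6 = 9 + α / 2 by ring] at h2
    rw [h1, h2]
  have hm4 : m0 % 6 = 4 :=
    hr2 _ ⟨by linarith, by linarith⟩ (hX _ ⟨by linarith, by linarith⟩)
  -- the steps
  have hstep : ∀ t ∈ Ioo (3 + α) (8 : ℝ), (M (t + 1) - M t) % 6 = 2 ∨ (M (t + 1) - M t) % 6 = 3 ∨
      (M (t + 1) - M t) % 6 = 4 := by
    intro t ht
    have ht0 : t ∈ Ioo (0 : ℝ) 12 := ⟨by linarith [ht.1], by linarith [ht.2]⟩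
    have ht1 : t + 1 ∈ Ioo (0 : ℝ) 12 := ⟨by linarith [ht.1], by linarith [ht.2]⟩
    obtain ⟨i1, i2⟩ := hinc t ht
    apply incomparable_mod
    · rw [Set.not_subset] at i1
      obtain ⟨l, hl, hl'⟩ := i1
      exact ⟨l, (hM' t ht0 l).1 hl, fun hc => hl' ((hM' _ ht1 l).2 hc)⟩
    · rw [Set.not_subset] at i2
      obtain ⟨l, hl, hl'⟩ := i2
      exact ⟨l, (hM' _ ht1 l).1 hl, fun hc => hl' ((hM' _ ht0 l).2 hc)⟩
  have hN := const_Ioo (a := 3 + α) (b := 8) (f := fun t => (M (t + 1) - M t - 2) / 6) (by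
    intro t ht
    have ht0 : t ∈ Ioo (0 : ℝ) 12 := ⟨by linarith [ht.1], by linarith [ht.2]⟩
    have ht1 : t + 1 ∈ Ioo (0 : ℝ) 12 := ⟨by linarith [ht.1], by linarith [ht.2]⟩
    have h1 : ∀ᶠ s in 𝓝 t, s + 1 ∈ Ioo (0 : ℝ) 12 ∧ |M (s + 1) - M (t + 1)| ≤ 1 :=
      ((continuous_add_const 1).tendsto t).eventually (hloc _ ht1)
    filter_upwards [h1, hloc t ht0, Ioo_mem_nhds ht.1 ht.2] with s hs1 hs2 hs
    have e1 := hstep s hs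
    have e2 := hstep t ht
    have e3 := hs1.2
    have e4 := hs2.2
    rw [abs_le] at e3 e4
    omega)
  set N := (M (6 + 1) - M 6 - 2) / 6 with hNd
  have hS : ∀ t ∈ Ioo (3 + α) (8 : ℝ), Stp N (M (t + 1) - M t) := fun t ht =>
    ⟨hN t ht 6 ⟨by linarith, by norm_num⟩, hstep t ht⟩
  -- the back arc
  have hn2 : ∀ᶠ s in 𝓝 (6 + α), 2 ∉ Q s :=
    (h.usc (6 + α)).mono fun s hs h2 => hB _ ⟨by linarith, le_rfl⟩ (hs h2)
  have hn4 : ∀ᶠ s in 𝓝 (6 : ℝ), 2 ∉ Q s :=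
    (h.usc 6).mono fun s hs h2 => hB _ ⟨le_rfl, by linarith⟩ (hs h2)
  obtain ⟨ε2, hε2, k2⟩ := Metric.eventually_nhds_iff.1 hn2
  obtain ⟨ε4, hε4, k4⟩ := Metric.eventually_nhds_iff.1 hn4
  obtain ⟨ε, hε, hε', e2, e4⟩ : ∃ ε : ℝ, 0 < ε ∧ ε < 1 / 2 ∧ ε < ε2 ∧ ε < ε4 := by
    refine ⟨min (min ε2 ε4) (1 / 2) / 2, by positivity, ?_, ?_, ?_⟩
    all_goals
      have a5 := min_le_left (min ε2 ε4) (1 / 2)
      have a6 := min_le_right (min ε2 ε4) (1 / 2)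
      have a7 := min_le_left ε2 ε4
      have a8 := min_le_right ε2 ε4
      have a9 : 0 < min (min ε2 ε4) (1 / 2) := by positivity
      linarith
  have hB' : ∀ t ∈ Icc (6 - ε) (6 + α + ε), 2 ∉ Q t := by
    intro t ht
    rcases lt_or_ge t 6 with h6 | h6
    · exact k4 (by rw [Real.dist_eq, abs_of_neg] <;> linarith [ht.1])
    · rcases le_or_gt t (6 + α) with h7 | h7
      · exact hB t ⟨h6, h7⟩
      · exact k2 (by rw [Real.dist_eq, abs_of_pos] <;> linarith [ht.2])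
  have hBr : ∀ t ∈ Icc (6 - ε) (6 + α + ε), (M t - m0) % 6 = 2 ∨ (M t - m0) % 6 = 3 ∨
      (M t - m0) % 6 = 4 := by
    intro t ht
    have := hrn t ⟨by linarith [ht.1], by linarith [ht.2]⟩ (hB' t ht)
    omega
  have hBc := const_of_loc (a := 6 - ε) (b := 6 + α + ε) (f := fun t => (M t - m0 - 2) / 6) (by
    intro t ht
    have ht0 : t ∈ Ioo (0 : ℝ) 12 := ⟨by linarith [ht.1], by linarith [ht.2]⟩
    filter_upwards [mem_nhdsWithin_of_mem_nhds (hloc t ht0), self_mem_nhdsWithin] with s hs1 hs2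
    have e1 := hrn s hs1.1 (hB' s hs2)
    have e2 := hrn t ht0 (hB' t ht)
    have e3 := hs1.2
    rw [abs_le] at e3
    omega)
  -- the right end
  have hR : ∃ t ∈ Icc (6 - ε) (6 + α + ε), Stp (3 * N + 1) (M t - m0) := by
    have ht0 : (3 + α) ∈ Ioo (0 : ℝ) 12 := ⟨by linarith, by linarith⟩
    have hp : |m0 - M (3 + α)| ≤ 1 := by
      have h1 : ∀ᶠ s in 𝓝[<] (3 + α), s ∈ Ioo (3 : ℝ) (3 + α) := by
        filter_upwards [self_mem_nhdsWithin, mem_nhdsWithin_of_mem_nhds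
          (Ioi_mem_nhds (show (3 : ℝ) < 3 + α by linarith))] with s h1 h2
        exact ⟨h2, h1⟩
      obtain ⟨s, h2, h3⟩ := (h1.and ((hloc _ ht0).filter_mono nhdsWithin_le_nhds)).exists
      rw [← hA s h2]; exact h3.2
    have hsub : Tendsto (fun s : ℝ => s + 1) (𝓝 (3 + α)) (𝓝 (4 + α)) := by
      have := (continuous_add_const (1 : ℝ)).tendsto (3 + α)
      rwa [show 3 + α + 1 = 4 + α by ring] at this
    have ht4 : (4 + α) ∈ Ioo (0 : ℝ) 12 := ⟨by linarith, by linarith⟩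
    have hsm : ∀ᶠ s in 𝓝[>] (3 + α), 3 + α < s ∧ s < 3 + α + ε := by
      filter_upwards [self_mem_nhdsWithin, mem_nhdsWithin_of_mem_nhds
        (Iio_mem_nhds (show 3 + α < 3 + α + ε by linarith))] with s h1 h2
      exact ⟨h1, h2⟩
    obtain ⟨s, ⟨hs4, hs5⟩, hs1, hs2, hs3⟩ := (hsm.and (((hloc _ ht0).and ((h.usc (3 + α)).and
      (hsub.eventually (hloc _ ht4)))).filter_mono nhdsWithin_le_nhds)).exists
    have u1 := hS s ⟨hs4, by linarith⟩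
    have u2 := hS (s + 1) ⟨by linarith, by linarith⟩
    have u3 := hS (s + 1 + 1) ⟨by linarith, by linarith⟩
    rcases hr with h1 | h1
    · have e1 := hr2 s hs1.1 (hs2.trans h1)
      have e2 := hr2 _ ht0 h1
      have e3 : M s = m0 := by
        have := hs1.2
        rw [abs_le] at this hp
        omega
      rw [e3] at u1
      have hmem : s + 1 + 1 + 1 ∈ Icc (6 - ε) (6 + α + ε) := ⟨by linarith, by linarith⟩
      exact ⟨_, hmem, endJ u1 u2 u3 (hBr _ hmem)⟩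
    · have v2 := hS (4 + α) ⟨by linarith, by linarith⟩
      have v3 := hS (4 + α + 1) ⟨by linarith, by linarith⟩
      have hmem : 4 + α + 1 + 1 ∈ Icc (6 - ε) (6 + α + ε) := ⟨by linarith, by linarith⟩
      refine ⟨_, hmem, endK hm4 hp hs1.2 ?_ hs3.2 u1 v2 v3 (hBr _ hmem)⟩
      rcases h1 with ⟨h1, h2⟩ | ⟨h1, h2⟩
      · exact Or.inl ⟨hrn1 s hs1.1 fun hc => h1 (hs2 hc), hrn1 _ ht0 h1,
          res_one ((hM' _ ht4 1).1 h2)⟩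
      · exact Or.inr ⟨hrn0 s hs1.1 fun hc => h1 (hs2 hc), hrn0 _ ht0 h1,
          res_zero ((hM' _ ht4 0).1 h2)⟩
  -- the left end
  have hL : ∃ t ∈ Icc (6 - ε) (6 + α + ε), Stp (3 * N + 1) (m0 - M t) := by
    have ht0 : (9 : ℝ) ∈ Ioo (0 : ℝ) 12 := ⟨by norm_num, by norm_num⟩
    have ht8 : (8 : ℝ) ∈ Ioo (0 : ℝ) 12 := ⟨by norm_num, by norm_num⟩
    have hp : |m0 - M 9| ≤ 1 := by
      have h1 : ∀ᶠ s in 𝓝[>] (9 : ℝ), s ∈ Ioo (9 : ℝ) (9 + α) := by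
        filter_upwards [self_mem_nhdsWithin, mem_nhdsWithin_of_mem_nhds
          (Iio_mem_nhds (show (9 : ℝ) < 9 + α by linarith))] with s h1 h2
        exact ⟨h1, h2⟩
      obtain ⟨s, h2, h3⟩ := (h1.and ((hloc _ ht0).filter_mono nhdsWithin_le_nhds)).exists
      rw [← hA9 s h2]; exact h3.2
    have hsub : Tendsto (fun s : ℝ => s - 1) (𝓝 (9 : ℝ)) (𝓝 8) := by
      have := (continuous_sub_right (1 : ℝ)).tendsto 9
      rwa [show (9 : ℝ) - 1 = 8 by norm_num] at this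
    have hsm : ∀ᶠ s in 𝓝[<] (9 : ℝ), s < 9 ∧ 9 - ε < s := by
      filter_upwards [self_mem_nhdsWithin, mem_nhdsWithin_of_mem_nhds
        (Ioi_mem_nhds (show 9 - ε < 9 by linarith))] with s h1 h2
      exact ⟨h1, h2⟩
    obtain ⟨s, ⟨hs4, hs5⟩, hs1, hs2, hs3⟩ := (hsm.and (((hloc _ ht0).and ((h.usc 9).and
      (hsub.eventually (hloc _ ht8)))).filter_mono nhdsWithin_le_nhds)).exists
    rw [e9] at hs2
    have u1 := hS (s - 1) ⟨by linarith, by linarith⟩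
    have u2 := hS (s - 1 - 1) ⟨by linarith, by linarith⟩
    have u3 := hS (s - 1 - 1 - 1) ⟨by linarith, by linarith⟩
    rw [sub_add_cancel] at u1 u2 u3
    rcases hl with h1 | h1
    · have e1 := hr2 s hs1.1 (hs2.trans h1)
      have e2 := hr2 _ ht0 (by rw [e9]; exact h1)
      have e3 : M s = m0 := by
        have := hs1.2
        rw [abs_le] at this hp
        omega
      rw [e3] at u1
      have hmem : s - 1 - 1 - 1 ∈ Icc (6 - ε) (6 + α + ε) := ⟨by linarith, by linarith⟩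
      exact ⟨_, hmem, endJ' u1 u2 u3 (hBr _ hmem)⟩
    · have v2 := hS 7 ⟨by linarith, by norm_num⟩
      have v3 := hS 6 ⟨by linarith, by norm_num⟩
      rw [show (7 : ℝ) + 1 = 8 by norm_num] at v2
      rw [show (6 : ℝ) + 1 = 7 by norm_num] at v3
      have hmem : (6 : ℝ) ∈ Icc (6 - ε) (6 + α + ε) := ⟨by linarith, by linarith⟩
      refine ⟨_, hmem, endK' hm4 hp hs1.2 ?_ hs3.2 u1 v2 v3 (hBr _ hmem)⟩
      rcases h1 with ⟨h1, h2⟩ | ⟨h1, h2⟩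
      · exact Or.inl ⟨hrn1 s hs1.1 fun hc => h1 (hs2 hc), hrn1 _ ht0 (by rw [e9]; exact h1),
          res_one ((hM' _ ht8 1).1 (by rw [e8]; exact h2))⟩
      · exact Or.inr ⟨hrn0 s hs1.1 fun hc => h1 (hs2 hc), hrn0 _ ht0 (by rw [e9]; exact h1),
          res_zero ((hM' _ ht8 0).1 (by rw [e8]; exact h2))⟩
  obtain ⟨t, ht, h1⟩ := hR
  obtain ⟨t', ht', h2⟩ := hL
  have h3 := hBc t ht t' ht'
  have h4 := hBr t' ht'
  obtain ⟨h5, h6⟩ := h1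
  rw [h5] at h3
  have h7 : Stp (3 * N + 1) (M t' - m0) := ⟨h3.symm, h4⟩
  rw [stp_iff] at h2 h7
  obtain ⟨p1, p2⟩ := h2
  obtain ⟨p3, p4⟩ := h7
  clear h3 h4 h5 h6 hN
  omega

end Vale.Agent.P032.H460
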