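import Vale.Agent.P032.H538.State1

/-!
# P032, X-B (B3), first half: the four-term sum at a centre

`K` a palette with exceptional points `Z` (frame `Hm`), `x` a centre on whose circle each of the
four colours `a, b, p, q` can be avoided, and no exceptional point on the circle has both of the
other two colours `e, g`.  Then the sum of the four state values `{i, e, g}`, each read at the
colour `i`, is the number mod 2 of the `e|g` changes of the canonical labels on a fine mesh of the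
circle.
-/

open Set Filter Topology Metric Complex

noncomputable section

namespace Vale.Agent.P032.H460

open Vale.Agent.P032.S5 Vale.Agent.P032.Carr

variable {K : ℂ → Set (Fin 6)} {Z : Set ℂ} {f : ℂ → Set (Fin 6)} {δ δ₀ : ℝ} {x : ℂ}

open Classical in
/-- the canonical label: `e` or `g` if possible, else `a` -/
def can (K : ℂ → Set (Fin 6)) (e g a : Fin 6) (y : ℂ) : Fin 6 :=
  if e ∈ K y then e else if g ∈ K y then g else a

theorem can_e {e g a : Fin 6} {y : ℂ} (hge : g ≠ e) (hae : a ≠ e) :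
    can K e g a y = e ↔ e ∈ K y := by
  unfold can
  split_ifs with h1 h2
  · exact ⟨fun _ => h1, fun _ => rfl⟩
  · exact ⟨fun h => absurd h hge, fun h => absurd h h1⟩
  · exact ⟨fun h => absurd h hae, fun h => absurd h h1⟩

theorem can_g {e g a : Fin 6} {y : ℂ} (hge : g ≠ e) (hag : a ≠ g) :
    can K e g a y = g ↔ e ∉ K y ∧ g ∈ K y := by
  unfold can
  split_ifs with h1 h2
  · exact ⟨fun h => absurd h.symm hge, fun h => absurd h1 h.1⟩
  · exact ⟨fun _ => ⟨h1, h2⟩, fun _ => rfl⟩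
  · exact ⟨fun h => absurd h hag, fun h => absurd h.2 h2⟩

/-- the labels on the circle for the colour `i` -/
structure RSel (K : ℂ → Set (Fin 6)) (Z : Set ℂ) (f : ℂ → Set (Fin 6)) (δ : ℝ) (i e g : Fin 6)
    (x : ℂ) (b : ℂ → Fin 6) : Prop where
  mem : ∀ y, dist y x = 1 → b y ∈ apx K Z δ (hp K f {i}) y ∧ b y ≠ i
  near : ∀ y, dist y x = 1 → (∃ z ∈ Z, dist y z ≤ δ) → ∃ z ∈ Z, dist y z ≤ δ ∧ b y = hp K f {i} z
  far : ∀ y, dist y x = 1 → (∀ z ∈ Z, δ < dist y z) →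
    b y ∈ K y ∧ (b y = e ↔ e ∈ K y) ∧ (b y = g ↔ e ∉ K y ∧ g ∈ K y)

theorem exists_rsel (H : Hm K Z f δ₀) {i e g : Fin 6} (hie : i ≠ e) (hig : i ≠ g) (heg : e ≠ g)
    (hav : Av K x i) (δ : ℝ) : ∃ b : ℂ → Fin 6, RSel K Z f δ i e g x b := by
  have key : ∀ y, dist y x = 1 → ∃ t : Fin 6, (t ∈ apx K Z δ (hp K f {i}) y ∧ t ≠ i) ∧
      ((∃ z ∈ Z, dist y z ≤ δ) → ∃ z ∈ Z, dist y z ≤ δ ∧ t = hp K f {i} z) ∧
      ((∀ z ∈ Z, δ < dist y z) →
        t ∈ K y ∧ (t = e ↔ e ∈ K y) ∧ (t = g ↔ e ∉ K y ∧ g ∈ K y)) := by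
    intro y hy
    by_cases hn : ∃ z ∈ Z, dist y z ≤ δ
    · obtain ⟨z, hz, hyz⟩ := hn
      exact ⟨hp K f {i} z, ⟨Or.inr ⟨z, hz, hyz, rfl⟩, H.avoid hz i⟩, fun _ => ⟨z, hz, hyz, rfl⟩,
        fun h => absurd hyz (not_le.2 (h z hz))⟩
    · have hn' := hn
      push Not at hn'
      rw [apx_far hn']
      by_cases h1 : e ∈ K y
      · exact ⟨e, ⟨h1, hie.symm⟩, fun h => absurd h hn, fun _ => ⟨h1, ⟨fun _ => h1, fun _ => rfl⟩,
          ⟨fun h => absurd h heg, fun h => absurd h1 h.1⟩⟩⟩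
      · by_cases h2 : g ∈ K y
        · exact ⟨g, ⟨h2, hig.symm⟩, fun h => absurd h hn, fun _ => ⟨h2,
            ⟨fun h => absurd h.symm heg, fun h => absurd h h1⟩, ⟨fun _ => ⟨h1, h2⟩, fun _ => rfl⟩⟩⟩
        · obtain ⟨t, ht, hti⟩ := hav y hy
          exact ⟨t, ⟨ht, hti⟩, fun h => absurd h hn, fun _ => ⟨ht,
            ⟨fun h => h ▸ ht, fun h => absurd h h1⟩,
            ⟨fun h => absurd (h ▸ ht) h2, fun h => absurd h.2 h2⟩⟩⟩
  choose! b hb using key
  exact ⟨b, fun y hy => (hb y hy).1, fun y hy => (hb y hy).2.1, fun y hy => (hb y hy).2.2⟩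

/-- near an exceptional point the labels are colours of it -/
theorem RSel.memK (H : Hm K Z f δ₀) {i e g : Fin 6} {b : ℂ → Fin 6}
    (hb : RSel K Z f δ i e g x b) (hδ' : δ ≤ δ₀ / 4) {y z : ℂ} (hy : dist y x = 1) (hz : z ∈ Z)
    (hyz : dist y z ≤ 3 * δ₀ / 4) : b y ∈ K z := by
  have hδ₀ := H.pos
  by_cases hn : ∃ z ∈ Z, dist y z ≤ δ
  · obtain ⟨z', hz', hyz', e1⟩ := hb.near y hy hn
    rw [e1, ← (H.const z hz z' hz' (by
      have := dist_triangle_left z' z y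
      linarith)).1]
    exact (H.apex hz' {i}).1
  · push Not at hn
    exact H.sub z hz y (by linarith) (hb.far y hy hn).1

theorem sl_mem {K : ℂ → Set (Fin 6)} {c b : ℂ → Fin 6} (hc : ∀ p, c p ∈ K p)
    (hb : ∀ p, dist p x = 1 → b p ∈ K p) (j i k : ℕ) : sl x c b j i k ∈ K (pt x j i k) := by
  unfold sl
  split_ifs with h
  · subst h
    exact hb _ (pt_ring x j k)
  · exact hc _

/-- the union of two apex covers -/
theorem nice_union (H : Hm K Z f δ₀) (hr : Rg K Z x) (hδ : 0 < δ) (hδ' : δ ≤ δ₀ / 2)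
    (A A' : Set (Fin 6)) :
    Nice (fun y => apx K Z δ (hp K f A) y ∪ apx K Z δ (hp K f A') y) x := by
  have S := H.sc hδ hδ' A
  have S' := H.sc hδ hδ' A'
  refine ⟨fun y => ?_, fun y => ?_, fun u hu => ?_⟩
  · filter_upwards [(H.nice hr hδ hδ' A).usc y, (H.nice hr hδ hδ' A').usc y] with w hw hw'
    exact union_subset_union hw hw'
  · obtain ⟨i, hi⟩ := (H.nice hr hδ hδ' A).ne y
    exact ⟨i, Or.inl hi⟩
  · by_cases huZ : u ∈ Z
    · have h1 : apx K Z δ (hp K f A) u ∪ apx K Z δ (hp K f A') u ⊆ {hp K f A u, hp K f A' u} :=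
        union_subset ((S.sub_Z huZ).trans (by simp)) ((S'.sub_Z huZ).trans (by simp))
      have h2 := Set.ncard_le_ncard h1 (Set.toFinite _)
      have h3 : ({hp K f A u, hp K f A' u} : Set (Fin 6)).ncard ≤ 2 := by
        have := Set.ncard_insert_le (hp K f A u) ({hp K f A' u} : Set (Fin 6))
        rw [Set.ncard_singleton] at this
        exact this
      show (apx K Z δ (hp K f A) u ∪ apx K Z δ (hp K f A') u).ncard ≤ 3
      omega
    · by_cases hn : ∃ z ∈ Z, dist u z ≤ δ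
      · obtain ⟨z, hz, huz⟩ := hn
        refine (Set.ncard_le_ncard (union_subset ((S.sub hz huz).trans ?_)
          ((S'.sub hz huz).trans ?_)) (Set.toFinite _)).trans
          (H.union hδ' hδ' A A' z hz z hz u huz huz huZ)
        · exact insert_subset_insert (subset_insert _ _)
        · exact subset_insert _ _
      · push Not at hn
        show (apx K Z δ (hp K f A) u ∪ apx K Z δ (hp K f A') u).ncard ≤ 3
        rw [apx_far hn, apx_far hn, union_self]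
        exact hr u hu huZ

/-- comparison of the labelings for two colours -/
theorem cmp460 (H : Hm K Z f δ₀) (hr : Rg K Z x) (hδ : 0 < δ) (hδ' : δ ≤ δ₀ / 4)
    {i i' e g : Fin 6} (hie : i ≠ e) (hig : i ≠ g)
    (hnz : ∀ z ∈ Z, (∃ y, dist y x = 1 ∧ dist y z ≤ δ) → ¬ (e ∈ K z ∧ g ∈ K z))
    {b b' c c' : ℂ → Fin 6} (hb : RSel K Z f δ i e g x b) (hb' : RSel K Z f δ i' e g x b')
    (hc : ∀ p, c p ∈ apx K Z δ (hp K f {i}) p) (hc' : ∀ p, c' p ∈ apx K Z δ (hp K f {i'}) p) :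
    ∀ᶠ j : ℕ in atTop, Ch (sl x c b j) (2 ^ j) (6 * 2 ^ j) {i, e, g} =
      Ch (sl x c' b' j) (2 ^ j) (6 * 2 ^ j) {i, e, g} := by
  classical
  have hδ₀ := H.pos
  have hU := nice_union H hr hδ (show δ ≤ δ₀ / 2 by linarith) {i} {i'}
  obtain ⟨η, hη, hL⟩ := exists_leb hU.usc hU.three
  filter_upwards [(tendsto_order.1 tendsto_mesh).2 _
    (lt_min hη (show 0 < δ₀ / 2 by linarith))] with j hj
  have hjη : (3 : ℝ) / 2 ^ j < η := hj.trans_le (min_le_left _ _)
  have hjδ : (3 : ℝ) / 2 ^ j < δ₀ / 2 := hj.trans_le (min_le_right _ _)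
  have hlb : Lb (apx K Z δ (hp K f {i})) x 1 j (sl x c b j) :=
    sl_Lb (fun p _ => hc p) (fun p hp => (hb.mem p hp).1) one_pos j
  have hlb' : Lb (apx K Z δ (hp K f {i'})) x 1 j (sl x c' b' j) :=
    sl_Lb (fun p _ => hc' p) (fun p hp => (hb'.mem p hp).1) one_pos j
  refine Ch_eq (sl x c' b' j) (sl x c b j) (2 ^ j) (6 * 2 ^ j) hlb'.per hlb.per hlb'.cen hlb.cen
    (fun i₀ hi₀ k hk => ?_) (fun k hk => ?_)
  · obtain ⟨M, hM, hMw⟩ := hL (pt x j i₀ k) (pt_mem hi₀.le k)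
    refine ⟨M, Or.inl hM, fun i₁ k₁ h1 h2 => ?_⟩
    have hi1 : i₁ ≤ 2 ^ j := by omega
    have hd := dist_cell x hi1 h1 h2
    exact ⟨hMw _ (hd.trans_lt hjη) _ (Or.inr (sl_mem hc' (fun p hp => (hb'.mem p hp).1) j i₁ k₁)),
      hMw _ (hd.trans_lt hjη) _ (Or.inl (sl_mem hc (fun p hp => (hb.mem p hp).1) j i₁ k₁))⟩
  · have e0 := pt_ring x j k
    have e1 := pt_ring x j (k + 1)
    have hd : dist (pt x j (2 ^ j) (k + 1)) (pt x j (2 ^ j) k) ≤ 3 / 2 ^ j :=
      dist_cell x le_rfl (Or.inl rfl) (Or.inr rfl)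
    rw [sl_ring, sl_ring, sl_ring, sl_ring]
    by_cases hn : (∃ z ∈ Z, dist (pt x j (2 ^ j) k) z ≤ δ) ∨
        ∃ z ∈ Z, dist (pt x j (2 ^ j) (k + 1)) z ≤ δ
    · obtain ⟨z, hz, h1, h2, hnear⟩ : ∃ z ∈ Z, dist (pt x j (2 ^ j) k) z ≤ 3 * δ₀ / 4 ∧
          dist (pt x j (2 ^ j) (k + 1)) z ≤ 3 * δ₀ / 4 ∧
          ∃ y, dist y x = 1 ∧ dist y z ≤ δ := by
        rcases hn with ⟨z, hz, hyz⟩ | ⟨z, hz, hyz⟩
        · refine ⟨z, hz, by linarith, ?_, _, e0, hyz⟩
          have := dist_triangle (pt x j (2 ^ j) (k + 1)) (pt x j (2 ^ j) k) z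
          linarith
        · refine ⟨z, hz, ?_, by linarith, _, e1, hyz⟩
          have := dist_triangle_left (pt x j (2 ^ j) k) z (pt x j (2 ^ j) (k + 1))
          linarith
      refine ⟨(K z).toFinset, fun hs => hnz z hz hnear ⟨?_, ?_⟩, ?_, ?_, ?_, ?_⟩
      · exact Set.mem_toFinset.1 (hs (by simp))
      · exact Set.mem_toFinset.1 (hs (by simp))
      · exact Set.mem_toFinset.2 (hb'.memK H hδ' e0 hz h1)
      · exact Set.mem_toFinset.2 (hb'.memK H hδ' e1 hz h2)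
      · exact Set.mem_toFinset.2 (hb.memK H hδ' e0 hz h1)
      · exact Set.mem_toFinset.2 (hb.memK H hδ' e1 hz h2)
    · push Not at hn
      obtain ⟨hn0, hn1⟩ := hn
      obtain ⟨-, p0, q0⟩ := hb.far _ e0 hn0
      obtain ⟨-, p1, q1⟩ := hb.far _ e1 hn1
      obtain ⟨-, p0', q0'⟩ := hb'.far _ e0 hn0
      obtain ⟨-, p1', q1'⟩ := hb'.far _ e1 hn1
      have m0 := (hb.mem _ e0).2
      have m1 := (hb.mem _ e1).2
      refine ⟨{b' (pt x j (2 ^ j) k), b' (pt x j (2 ^ j) (k + 1)), b (pt x j (2 ^ j) k),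
        b (pt x j (2 ^ j) (k + 1))}, fun hs => ?_, by simp, by simp, by simp, by simp⟩
      have hi := hs (show i ∈ ({i, e, g} : Finset (Fin 6)) by simp)
      have he := hs (show e ∈ ({i, e, g} : Finset (Fin 6)) by simp)
      have hg := hs (show g ∈ ({i, e, g} : Finset (Fin 6)) by simp)
      simp only [Finset.mem_insert, Finset.mem_singleton] at hi he hg
      have hE : e ∈ K (pt x j (2 ^ j) k) ∨ e ∈ K (pt x j (2 ^ j) (k + 1)) := by
        rcases he with h | h | h | h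
        · exact Or.inl (p0'.1 h.symm)
        · exact Or.inr (p1'.1 h.symm)
        · exact Or.inl (p0.1 h.symm)
        · exact Or.inr (p1.1 h.symm)
      have hG : (e ∉ K (pt x j (2 ^ j) k) ∧ g ∈ K (pt x j (2 ^ j) k)) ∨
          (e ∉ K (pt x j (2 ^ j) (k + 1)) ∧ g ∈ K (pt x j (2 ^ j) (k + 1))) := by
        rcases hg with h | h | h | h
        · exact Or.inl (q0'.1 h.symm)
        · exact Or.inr (q1'.1 h.symm)
        · exact Or.inl (q0.1 h.symm)
        · exact Or.inr (q1.1 h.symm)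
      have hI : b' (pt x j (2 ^ j) k) = i ∨ b' (pt x j (2 ^ j) (k + 1)) = i := by
        rcases hi with h | h | h | h
        · exact Or.inl h.symm
        · exact Or.inr h.symm
        · exact absurd h.symm m0
        · exact absurd h.symm m1
      rcases hE with hE | hE
      · rcases hG with hG | hG
        · exact hG.1 hE
        · rcases hI with hI | hI
          · exact hie (hI.symm.trans (p0'.2 hE))
          · exact hig (hI.symm.trans (q1'.2 hG))
      · rcases hG with hG | hG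
        · rcases hI with hI | hI
          · exact hig (hI.symm.trans (q0'.2 hG))
          · exact hie (hI.symm.trans (p1'.2 hE))
        · exact hG.1 hE

theorem eps_congr460 {u w u' w' e g : Fin 6} (h1 : u = e ↔ u' = e) (h2 : u = g ↔ u' = g)
    (h3 : w = e ↔ w' = e) (h4 : w = g ↔ w' = g) : eps u w {e, g} = eps u' w' {e, g} := by
  have key : ∀ u w u' w' : Fin 6, (u = e ↔ u' = e) → (u = g ↔ u' = g) → (w = e ↔ w' = e) →
      (w = g ↔ w' = g) → u ≠ w ∧ ({e, g} : Finset (Fin 6)) = {u, w} →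
      u' ≠ w' ∧ ({e, g} : Finset (Fin 6)) = {u', w'} := by
    intro u w u' w' h1 h2 h3 h4 h
    obtain ⟨hne, he⟩ := h
    have hu : u ∈ ({e, g} : Finset (Fin 6)) := by rw [he]; simp
    have hw : w ∈ ({e, g} : Finset (Fin 6)) := by rw [he]; simp
    have eu : u' = u := by
      simp only [Finset.mem_insert, Finset.mem_singleton] at hu
      rcases hu with hu | hu
      · rw [hu, h1.1 hu]
      · rw [hu, h2.1 hu]
    have ew : w' = w := by
      simp only [Finset.mem_insert, Finset.mem_singleton] at hw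
      rcases hw with hw | hw
      · rw [hw, h3.1 hw]
      · rw [hw, h4.1 hw]
    rw [eu, ew]
    exact ⟨hne, he⟩
  unfold eps
  exact if_congr ⟨key u w u' w' h1 h2 h3 h4, key u' w' u w h1.symm h2.symm h3.symm h4.symm⟩
    rfl rfl

/-- **The four-term sum** at a centre `x` -/
theorem sum_four460 (H : Hm K Z f δ₀) (hr : Rg K Z x) {a b p q e g : Fin 6}
    (hnd : [a, b, p, q, e, g].Nodup) (hav : ∀ i ∈ ({a, b, p, q} : Set (Fin 6)), Av K x i)
    (hz : ∀ z ∈ Z, dist z x = 1 → ¬ (e ∈ K z ∧ g ∈ K z)) {v : ZMod 2}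
    (hW : ∃ᶠ j : ℕ in atTop, ∑ k ∈ Finset.range (6 * 2 ^ j),
      eps (can K e g a (pt x j (2 ^ j) k)) (can K e g a (pt x j (2 ^ j) (k + 1))) {e, g} = v) :
    lamH K Z f δ₀ a x {a, e, g} + lamH K Z f δ₀ b x {b, e, g} + lamH K Z f δ₀ p x {p, e, g} +
      lamH K Z f δ₀ q x {q, e, g} = v := by
  classical
  have hnd' := hnd
  simp only [List.nodup_cons, List.mem_cons, List.not_mem_nil, or_false, not_or] at hnd'
  obtain ⟨⟨hab, hap, haq, hae, hag⟩, ⟨hbp, hbq, hbe, hbg⟩, ⟨hpq, hpe, hpg⟩, ⟨hqe, hqg⟩, heg, -⟩ :=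
    hnd'
  have hδ₀ := H.pos
  obtain ⟨δ₁, hδ₁, hδ₁', hd⟩ := H.scale (x := x) (P := fun S F => ¬ (e ∈ S ∧ g ∈ S)) hz
  obtain ⟨δ, hδ, hδe, hδf⟩ : ∃ δ > 0, δ ≤ δ₀ / 4 ∧ δ ≤ δ₁ :=
    ⟨min δ₁ (δ₀ / 4), lt_min hδ₁ (by linarith), min_le_right _ _, min_le_left _ _⟩
  have hδ2 : δ ≤ δ₀ / 2 := by linarith
  have hnz : ∀ z ∈ Z, (∃ y, dist y x = 1 ∧ dist y z ≤ δ) → ¬ (e ∈ K z ∧ g ∈ K z) :=
    fun z hz ⟨y, hy, hyz⟩ => hd z hz ⟨y, hy, hyz.trans hδf⟩
  have hva := hav a (by simp)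
  have hvb := hav b (by simp)
  have hvp := hav p (by simp)
  have hvq := hav q (by simp)
  obtain ⟨ra, hra⟩ := exists_rsel H hae hag heg hva δ
  obtain ⟨rb, hrb⟩ := exists_rsel H hbe hbg heg hvb δ
  obtain ⟨rp, hrp⟩ := exists_rsel H hpe hpg heg hvp δ
  obtain ⟨rq, hrq⟩ := exists_rsel H hqe hqg heg hvq δ
  have hsel : ∀ i : Fin 6, ∃ c : ℂ → Fin 6, ∀ y, c y ∈ apx K Z δ (hp K f {i}) y := fun i => by
    choose c hc using (H.nice hr hδ hδ2 {i}).ne
    exact ⟨c, hc⟩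
  obtain ⟨ca, hca⟩ := hsel a
  obtain ⟨cb, hcb⟩ := hsel b
  obtain ⟨cp, hcp⟩ := hsel p
  obtain ⟨cq, hcq⟩ := hsel q
  -- the values
  have hval : ∀ (i : Fin 6) (c r : ℂ → Fin 6), Av K x i → RSel K Z f δ i e g x r →
      (∀ y, c y ∈ apx K Z δ (hp K f {i}) y) → ∀ᶠ j : ℕ in atTop,
        Ch (sl x c r j) (2 ^ j) (6 * 2 ^ j) {i, e, g} = lamH K Z f δ₀ i x {i, e, g} := by
    intro i c r hi hri hci
    have hA : Av (apx K Z δ (hp K f {i})) x i := H.av hi δ
    obtain ⟨ε, hε, hs⟩ := lamS_spec (H.nice hr hδ hδ2 {i}) hA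
      (show i ∈ ({i, e, g} : Finset (Fin 6)) by simp)
    filter_upwards [(tendsto_order.1 tendsto_mesh).2 _ hε] with j hj
    rw [← H.lam_eq hr hi hδ hδ2 hA (show i ∈ ({i, e, g} : Finset (Fin 6)) by simp)]
    refine hs j hj _ (sl_Lb (fun p _ => hci p) (fun p hp => (hri.mem p hp).1) hε j) fun k _ => ?_
    rw [sl_ring]
    exact (hri.mem _ (pt_ring x j k)).2
  obtain ⟨j, hjW, ⟨hjδ, hVa, hVb, hVp, hVq, hCb, hCp, hCq⟩⟩ :=
    (hW.and_eventually (((tendsto_order.1 tendsto_mesh).2 _ (show 0 < δ₀ / 2 by linarith)).and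
      ((hval a ca ra hva hra hca).and ((hval b cb rb hvb hrb hcb).and
      ((hval p cp rp hvp hrp hcp).and ((hval q cq rq hvq hrq hcq).and
      ((cmp460 H hr hδ hδe hbe hbg hnz hrb hra hcb hca).and
      ((cmp460 H hr hδ hδe hpe hpg hnz hrp hra hcp hca).and
        (cmp460 H hr hδ hδe hqe hqg hnz hrq hra hcq hca))))))))).exists
  have hlb : Lb (apx K Z δ (hp K f {a})) x 1 j (sl x ca ra j) :=
    sl_Lb (fun p _ => hca p) (fun p hp => (hra.mem p hp).1) one_pos j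
  have e1 := bd_Ch (sl x ca ra j) (2 ^ j) (6 * 2 ^ j) hlb.per hlb.cen (Finset.card_pair heg)
  have e2 : ∑ k ∈ Finset.range (6 * 2 ^ j), eps (sl x ca ra j (2 ^ j) k)
      (sl x ca ra j (2 ^ j) (k + 1)) {e, g} = v := by
    rw [← hjW]
    refine Finset.sum_congr rfl fun k _ => ?_
    have f0 := pt_ring x j k
    have f1 := pt_ring x j (k + 1)
    have hd : dist (pt x j (2 ^ j) (k + 1)) (pt x j (2 ^ j) k) ≤ 3 / 2 ^ j :=
      dist_cell x le_rfl (Or.inl rfl) (Or.inr rfl)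
    rw [sl_ring, sl_ring]
    by_cases hn : (∃ z ∈ Z, dist (pt x j (2 ^ j) k) z ≤ δ) ∨
        ∃ z ∈ Z, dist (pt x j (2 ^ j) (k + 1)) z ≤ δ
    · obtain ⟨z, hz, h1, h2, hnear⟩ : ∃ z ∈ Z, dist (pt x j (2 ^ j) k) z ≤ 3 * δ₀ / 4 ∧
          dist (pt x j (2 ^ j) (k + 1)) z ≤ 3 * δ₀ / 4 ∧
          ∃ y, dist y x = 1 ∧ dist y z ≤ δ := by
        rcases hn with ⟨z, hz, hyz⟩ | ⟨z, hz, hyz⟩
        · refine ⟨z, hz, by linarith, ?_, _, f0, hyz⟩
          have := dist_triangle (pt x j (2 ^ j) (k + 1)) (pt x j (2 ^ j) k) z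
          linarith
        · refine ⟨z, hz, ?_, by linarith, _, f1, hyz⟩
          have := dist_triangle_left (pt x j (2 ^ j) k) z (pt x j (2 ^ j) (k + 1))
          linarith
      have hne := hnz z hz hnear
      have t1 : eps (ra (pt x j (2 ^ j) k)) (ra (pt x j (2 ^ j) (k + 1))) {e, g} = 0 := by
        refine eps_of_sub (A := (K z).toFinset) (Set.mem_toFinset.2 (hra.memK H hδe f0 hz h1))
          (Set.mem_toFinset.2 (hra.memK H hδe f1 hz h2)) fun hs => hne ⟨?_, ?_⟩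
        · exact Set.mem_toFinset.1 (hs (by simp))
        · exact Set.mem_toFinset.1 (hs (by simp))
      have hcan : ∀ y, dist y z ≤ 3 * δ₀ / 4 → can K e g a y ∈ insert a (K z).toFinset := by
        intro y hy
        have hs := H.sub z hz y (by linarith)
        unfold can
        split_ifs with c1 c2
        · exact Finset.mem_insert_of_mem (Set.mem_toFinset.2 (hs c1))
        · exact Finset.mem_insert_of_mem (Set.mem_toFinset.2 (hs c2))
        · exact Finset.mem_insert_self _ _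
      have t2 : eps (can K e g a (pt x j (2 ^ j) k)) (can K e g a (pt x j (2 ^ j) (k + 1)))
          {e, g} = 0 := by
        refine eps_of_sub (hcan _ h1) (hcan _ h2) fun hs => hne ⟨?_, ?_⟩
        · exact Set.mem_toFinset.1 ((Finset.mem_insert.1 (hs (show e ∈ ({e, g} : Finset (Fin 6)) by
            simp))).resolve_left (Ne.symm hae))
        · exact Set.mem_toFinset.1 ((Finset.mem_insert.1 (hs (show g ∈ ({e, g} : Finset (Fin 6)) by
            simp))).resolve_left (Ne.symm hag))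
      rw [t1, t2]
    · push Not at hn
      obtain ⟨hn0, hn1⟩ := hn
      obtain ⟨-, p0, q0⟩ := hra.far _ f0 hn0
      obtain ⟨-, p1, q1⟩ := hra.far _ f1 hn1
      exact eps_congr460 (p0.trans (can_e (Ne.symm heg) hae).symm) (q0.trans (can_g (Ne.symm heg) hag).symm)
        (p1.trans (can_e (Ne.symm heg) hae).symm) (q1.trans (can_g (Ne.symm heg) hag).symm)
  rw [e2] at e1
  unfold bd at e1
  rw [setlem a b p e g q (by
      simp only [List.nodup_cons, List.mem_cons, List.not_mem_nil, or_false, not_or,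
        List.nodup_nil, and_true, not_false_eq_true]
      tauto), Finset.sum_insert (by
      simp only [Finset.mem_insert, Finset.mem_singleton]; tauto), Finset.sum_insert (by
      simp only [Finset.mem_insert, Finset.mem_singleton]; tauto), Finset.sum_insert (by
      simp only [Finset.mem_singleton]; tauto), Finset.sum_singleton] at e1
  rw [← hVa, ← hVb, ← hVp, ← hVq, hCb, hCp, hCq, ← e1]
  ring

/-- the same for `lamT` -/
theorem sum_four_T (H : Hm K Z f δ₀) (hr : Rg K Z x) {a b p q e g : Fin 6}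
    (hnd : [a, b, p, q, e, g].Nodup) (hav : ∀ i ∈ ({a, b, p, q} : Set (Fin 6)), Av K x i)
    (hz : ∀ z ∈ Z, dist z x = 1 → ¬ (e ∈ K z ∧ g ∈ K z)) {v : ZMod 2}
    (hW : ∃ᶠ j : ℕ in atTop, ∑ k ∈ Finset.range (6 * 2 ^ j),
      eps (can K e g a (pt x j (2 ^ j) k)) (can K e g a (pt x j (2 ^ j) (k + 1))) {e, g} = v) :
    lamT K Z f δ₀ a x e g + lamT K Z f δ₀ b x e g + lamT K Z f δ₀ p x e g +
      lamT K Z f δ₀ q x e g = v := by
  have hnd' := hnd
  simp only [List.nodup_cons, List.mem_cons, List.not_mem_nil, or_false, not_or] at hnd'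
  obtain ⟨⟨hab, hap, haq, hae, hag⟩, ⟨hbp, hbq, hbe, hbg⟩, ⟨hpq, hpe, hpg⟩, ⟨hqe, hqg⟩, heg, -⟩ :=
    hnd'
  rw [lamT_eq ⟨hae, hag, heg⟩, lamT_eq ⟨hbe, hbg, heg⟩, lamT_eq ⟨hpe, hpg, heg⟩,
    lamT_eq ⟨hqe, hqg, heg⟩]
  exact sum_four460 H hr hnd hav hz hW

end Vale.Agent.P032.H460

namespace Vale.Agent.P032.Six

open Vale.Agent.P032.S5 Vale.Agent.P032.Carr Vale.Agent.P032.H460

variable {U : Fin 6 → Set ℂ} {T : ℂ → Set (Fin 6)} {f : ℂ → Set (Fin 6)} {Z : Set ℂ} {c : ℂ}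
  {R δ₀ : ℝ}

/-- **The four-term sum in the world `DSt`**: at a point `V` with the four colours `a, b, p, q`, if
no point of order at least four of `S(V)` has both other colours `e, g` -/
theorem DSt.sum_four (D : DSt U T Z f c R δ₀) {V : ℂ} (hV : dist V c ≤ R - 1)
    {a b p q e g : Fin 6} (hnd : [a, b, p, q, e, g].Nodup)
    (hT : ∀ i ∈ ({a, b, p, q} : Set (Fin 6)), i ∈ T V)
    (h4 : ∀ y, dist y V = 1 → 4 ≤ (T y).ncard → ¬ (e ∈ T y ∧ g ∈ T y)) {v : ZMod 2}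
    (hW : ∃ᶠ j : ℕ in atTop, ∑ k ∈ Finset.range (6 * 2 ^ j),
      eps (can T e g a (S5.pt V j (2 ^ j) k)) (can T e g a (S5.pt V j (2 ^ j) (k + 1)))
        {e, g} = v) :
    lamT T Z f δ₀ a V e g + lamT T Z f δ₀ b V e g + lamT T Z f δ₀ p V e g +
      lamT T Z f δ₀ q V e g = v :=
  sum_four_T D.hm (D.rg hV) hnd (fun i hi => av_T D.df.irr (hT i hi))
    (fun z hz hzV => h4 z hzV (D.zs.four z hz)) hW

end Vale.Agent.P032.Six
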