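import Vale.Agent.P032.H460.ParQ
import Vale.Agent.P032.H460.SumV

/-!
# P032, X-B (B3), second half: the winding number of a quasi-full centre

`Cov.wind` : the height of a covering of the circle by three sets without common point gains `6 w`
on one turn.  `windK` : in the situation of `full_oddK` the number `w` is odd.  `ring_oddK` : hence
every fine selection has an odd number of `0|1` steps.
-/

open Set Filter Topology

noncomputable section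

namespace Vale.Agent.P032.H460

open Vale.Agent.P032.H180 Vale.Agent.P032.H695

variable {Q : ℝ → Set (Fin 3)}

/-- the winding number -/
theorem Cov.wind (h : Cov Q) {M : ℝ → ℤ}
    (hM : ∀ t ∈ Icc (0 : ℝ) 12, ∀ l : Fin 3, l ∈ Q t ↔ Res (M t - 2 * (l : ℕ)))
    (hMloc : ∀ t ∈ Icc (0 : ℝ) 12, ∀ᶠ s in 𝓝[Icc (0 : ℝ) 12] t, |M s - M t| ≤ 1) :
    ∃ w : ℤ, ∀ t ∈ Icc (0 : ℝ) 6, M (t + 6) = M t + 6 * w := by
  have hD : ∀ t ∈ Icc (0 : ℝ) 6, (M (t + 6) - M t) % 6 = 0 := by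
    intro t ht
    have ht0 : t ∈ Icc (0 : ℝ) 12 := ⟨ht.1, by linarith [ht.2]⟩
    have ht1 : t + 6 ∈ Icc (0 : ℝ) 12 := ⟨by linarith [ht.1], by linarith [ht.2]⟩
    apply eq_mod_of_res
    intro l
    rw [← hM t ht0 l, ← hM _ ht1 l, h.per]
  have hDloc : ∀ t ∈ Icc (0 : ℝ) 6, ∀ᶠ s in 𝓝[Icc (0 : ℝ) 6] t,
      M (s + 6) - M s = M (t + 6) - M t := by
    intro t ht
    have ht0 : t ∈ Icc (0 : ℝ) 12 := ⟨ht.1, by linarith [ht.2]⟩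
    have ht1 : t + 6 ∈ Icc (0 : ℝ) 12 := ⟨by linarith [ht.1], by linarith [ht.2]⟩
    have h1 := (tendsto_add_Icc (t := t) (a := 0) (b := 6) (a' := 0) (b' := 12) (c := 6)
      fun s hs => ⟨by linarith [hs.1], by linarith [hs.2]⟩).eventually (hMloc _ ht1)
    have h2 := nhdsWithin_mono t (Icc_subset_Icc le_rfl (by norm_num : (6 : ℝ) ≤ 12))
      (hMloc t ht0)
    filter_upwards [h1, h2, self_mem_nhdsWithin] with s hs1 hs2 hs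
    have e1 := hD s hs
    have e2 := hD t ht
    rw [abs_le] at hs1 hs2
    omega
  have hW := const_of_loc hDloc
  refine ⟨(M (0 + 6) - M 0) / 6, fun t ht => ?_⟩
  have e1 := hW t ht 0 ⟨le_rfl, by norm_num⟩
  have e2 := hD 0 ⟨le_rfl, by norm_num⟩
  omega

/-- **The winding number of a quasi-full centre with J- or K-ends is odd** -/
theorem windK (h : Cov Q) {α : ℝ} (hα0 : 0 < α) (hα1 : α ≤ 1)
    (hX : ∀ t ∈ Ioo (3 : ℝ) (3 + α), Q t ⊆ {2}) (hl : KEnd Q 3 2) (hr : KEnd Q (3 + α) (4 + α))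
    (hB : ∀ t ∈ Icc (6 : ℝ) (6 + α), 2 ∉ Q t)
    (hinc : ∀ t ∈ Ioo (3 + α) (8 : ℝ), ¬ Q t ⊆ Q (t + 1) ∧ ¬ Q (t + 1) ⊆ Q t)
    {M : ℝ → ℤ} (hM : ∀ t ∈ Icc (0 : ℝ) 12, ∀ l : Fin 3, l ∈ Q t ↔ Res (M t - 2 * (l : ℕ)))
    (hMloc : ∀ t ∈ Icc (0 : ℝ) 12, ∀ᶠ s in 𝓝[Icc (0 : ℝ) 12] t, |M s - M t| ≤ 1) {w : ℤ}
    (hP : ∀ t ∈ Icc (0 : ℝ) 6, M (t + 6) = M t + 6 * w) : w % 2 = 1 := by
  have hloc : ∀ t ∈ Ioo (0 : ℝ) 12, ∀ᶠ s in 𝓝 t, s ∈ Ioo (0 : ℝ) 12 ∧ |M s - M t| ≤ 1 := by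
    intro t ht
    have h1 := hMloc t ⟨ht.1.le, ht.2.le⟩
    rw [nhdsWithin_eq_nhds.2 (Icc_mem_nhds ht.1 ht.2)] at h1
    filter_upwards [h1, Ioo_mem_nhds ht.1 ht.2] with s hs hs'
    exact ⟨hs', hs⟩
  have hM' : ∀ t ∈ Ioo (0 : ℝ) 12, ∀ l : Fin 3, l ∈ Q t ↔ Res (M t - 2 * (l : ℕ)) :=
    fun t ht => hM t ⟨ht.1.le, ht.2.le⟩
  -- residues
  have hr2 : ∀ t ∈ Ioo (0 : ℝ) 12, Q t ⊆ {2} → M t % 6 = 4 := by
    intro t ht hQ
    refine res_two (fun hc => ?_) fun hc => ?_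
    · have := hQ ((hM' t ht 0).2 hc)
      exact absurd this (by decide)
    · have := hQ ((hM' t ht 1).2 hc)
      exact absurd this (by decide)
  have hrn : ∀ t ∈ Ioo (0 : ℝ) 12, 2 ∉ Q t → M t % 6 = 0 ∨ M t % 6 = 1 ∨ M t % 6 = 2 := by
    intro t ht hQ
    exact res_not_two fun hc => hQ ((hM' t ht 2).2 hc)
  have hrn1 : ∀ t ∈ Ioo (0 : ℝ) 12, 1 ∉ Q t → M t % 6 = 4 ∨ M t % 6 = 5 ∨ M t % 6 = 0 := by
    intro t ht hQ
    exact res_not_one fun hc => hQ ((hM' t ht 1).2 hc)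
  have hrn0 : ∀ t ∈ Ioo (0 : ℝ) 12, 0 ∉ Q t → M t % 6 = 2 ∨ M t % 6 = 3 ∨ M t % 6 = 4 := by
    intro t ht hQ
    exact res_not_zero fun hc => hQ ((hM' t ht 0).2 hc)
  have e9 : Q 9 = Q 3 := by
    have := h.per 3
    norm_num at this
    exact this
  have e8 : Q 8 = Q 2 := by
    have := h.per 2
    norm_num at this
    exact this
  -- the height on the open arcs
  have hc : ∀ c d : ℝ, 0 ≤ c → d ≤ 12 → (∀ t ∈ Ioo c d, Q t ⊆ {2}) →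
      ∀ s ∈ Ioo c d, ∀ t ∈ Ioo c d, M s = M t := by
    intro c d hc hd hQ
    refine const_Ioo fun t ht => ?_
    have ht0 : t ∈ Ioo (0 : ℝ) 12 := ⟨by linarith [ht.1], by linarith [ht.2]⟩
    filter_upwards [hloc t ht0, Ioo_mem_nhds ht.1 ht.2] with s hs hs'
    have e1 := hr2 s hs.1 (hQ s hs')
    have e2 := hr2 t ht0 (hQ t ht)
    have e3 := hs.2
    rw [abs_le] at e3
    omega
  have hX9 : ∀ t ∈ Ioo (9 : ℝ) (9 + α), Q t ⊆ {2} := by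
    intro t ht
    have h1 := h.per (t - 6)
    rw [sub_add_cancel] at h1
    rw [h1]
    exact hX _ ⟨by linarith [ht.1], by linarith [ht.2]⟩
  set m0 := M (3 + α / 2) with hm0
  have hA : ∀ t ∈ Ioo (3 : ℝ) (3 + α), M t = m0 := fun t ht =>
    hc 3 (3 + α) (by norm_num) (by linarith) hX t ht _ ⟨by linarith, by linarith⟩
  obtain ⟨m1, hm1⟩ : ∃ m1, m1 = m0 + 6 * w := ⟨_, rfl⟩
  have hA9 : ∀ t ∈ Ioo (9 : ℝ) (9 + α), M t = m1 := by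
    intro t ht
    have h1 := hc 9 (9 + α) (by norm_num) (by linarith) hX9 t ht (9 + α / 2)
      ⟨by linarith, by linarith⟩
    have h2 := hP (3 + α / 2) ⟨by linarith, by linarith⟩
    rw [show 3 + α / 2 + 6 = 9 + α / 2 by ring] at h2
    rw [h1, h2, hm1]
  have hm4 : m0 % 6 = 4 :=
    hr2 _ ⟨by linarith, by linarith⟩ (hX _ ⟨by linarith, by linarith⟩)
  have hm5 : m1 % 6 = 4 := by omega
  -- the steps
  have hstep : ∀ t ∈ Ioo (3 + α) (8 : ℝ), (M (t + 1) - M t) % 6 = 2 ∨ (M (t + 1) - M t) % 6 = 3 ∨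
      (M (t + 1) - M t) % 6 = 4 := by
    intro t ht
    have ht0 : t ∈ Ioo (0 : ℝ) 12 := ⟨by linarith [ht.1], by linarith [ht.2]⟩
    have ht1 : t + 1 ∈ Ioo (0 : ℝ) 12 := ⟨by linarith [ht.1], by linarith [ht.2]⟩
    obtain ⟨i1, i2⟩ := hinc t ht
    apply incomparable_mod
    · rw [Set.not_subset] at i1
      obtain ⟨l, hl, hl'⟩ := i1
      exact ⟨l, (hM' t ht0 l).1 hl, fun hc => hl' ((hM' _ ht1 l).2 hc)⟩
    · rw [Set.not_subset] at i2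
      obtain ⟨l, hl, hl'⟩ := i2
      exact ⟨l, (hM' _ ht1 l).1 hl, fun hc => hl' ((hM' _ ht0 l).2 hc)⟩
  have hN := const_Ioo (a := 3 + α) (b := 8) (f := fun t => (M (t + 1) - M t - 2) / 6) (by
    intro t ht
    have ht0 : t ∈ Ioo (0 : ℝ) 12 := ⟨by linarith [ht.1], by linarith [ht.2]⟩
    have ht1 : t + 1 ∈ Ioo (0 : ℝ) 12 := ⟨by linarith [ht.1], by linarith [ht.2]⟩
    have h1 : ∀ᶠ s in 𝓝 t, s + 1 ∈ Ioo (0 : ℝ) 12 ∧ |M (s + 1) - M (t + 1)| ≤ 1 :=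
      ((continuous_add_const 1).tendsto t).eventually (hloc _ ht1)
    filter_upwards [h1, hloc t ht0, Ioo_mem_nhds ht.1 ht.2] with s hs1 hs2 hs
    have e1 := hstep s hs
    have e2 := hstep t ht
    have e3 := hs1.2
    have e4 := hs2.2
    rw [abs_le] at e3 e4
    omega)
  set N := (M (6 + 1) - M 6 - 2) / 6 with hNd
  have hS : ∀ t ∈ Ioo (3 + α) (8 : ℝ), Stp N (M (t + 1) - M t) := fun t ht =>
    ⟨hN t ht 6 ⟨by linarith, by norm_num⟩, hstep t ht⟩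
  -- the back arc
  have hn2 : ∀ᶠ s in 𝓝 (6 + α), 2 ∉ Q s :=
    (h.usc (6 + α)).mono fun s hs h2 => hB _ ⟨by linarith, le_rfl⟩ (hs h2)
  have hn4 : ∀ᶠ s in 𝓝 (6 : ℝ), 2 ∉ Q s :=
    (h.usc 6).mono fun s hs h2 => hB _ ⟨le_rfl, by linarith⟩ (hs h2)
  obtain ⟨ε2, hε2, k2⟩ := Metric.eventually_nhds_iff.1 hn2
  obtain ⟨ε4, hε4, k4⟩ := Metric.eventually_nhds_iff.1 hn4
  obtain ⟨ε, hε, hε', e2, e4⟩ : ∃ ε : ℝ, 0 < ε ∧ ε < 1 / 2 ∧ ε < ε2 ∧ ε < ε4 := by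
    refine ⟨min (min ε2 ε4) (1 / 2) / 2, by positivity, ?_, ?_, ?_⟩
    all_goals
      have a5 := min_le_left (min ε2 ε4) (1 / 2)
      have a6 := min_le_right (min ε2 ε4) (1 / 2)
      have a7 := min_le_left ε2 ε4
      have a8 := min_le_right ε2 ε4
      have a9 : 0 < min (min ε2 ε4) (1 / 2) := by positivity
      linarith
  have hB' : ∀ t ∈ Icc (6 - ε) (6 + α + ε), 2 ∉ Q t := by
    intro t ht
    rcases lt_or_ge t 6 with h6 | h6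
    · exact k4 (by rw [Real.dist_eq, abs_of_neg] <;> linarith [ht.1])
    · rcases le_or_gt t (6 + α) with h7 | h7
      · exact hB t ⟨h6, h7⟩
      · exact k2 (by rw [Real.dist_eq, abs_of_pos] <;> linarith [ht.2])
  have hBr : ∀ t ∈ Icc (6 - ε) (6 + α + ε), (M t - m0) % 6 = 2 ∨ (M t - m0) % 6 = 3 ∨
      (M t - m0) % 6 = 4 := by
    intro t ht
    have := hrn t ⟨by linarith [ht.1], by linarith [ht.2]⟩ (hB' t ht)
    omega
  have hBc := const_of_loc (a := 6 - ε) (b := 6 + α + ε) (f := fun t => (M t - m0 - 2) / 6) (by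
    intro t ht
    have ht0 : t ∈ Ioo (0 : ℝ) 12 := ⟨by linarith [ht.1], by linarith [ht.2]⟩
    filter_upwards [mem_nhdsWithin_of_mem_nhds (hloc t ht0), self_mem_nhdsWithin] with s hs1 hs2
    have e1 := hrn s hs1.1 (hB' s hs2)
    have e2 := hrn t ht0 (hB' t ht)
    have e3 := hs1.2
    rw [abs_le] at e3
    omega)
  -- the right end
  have hR : ∃ t ∈ Icc (6 - ε) (6 + α + ε), Stp (3 * N + 1) (M t - m0) := by
    have ht0 : (3 + α) ∈ Ioo (0 : ℝ) 12 := ⟨by linarith, by linarith⟩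
    have hp : |m0 - M (3 + α)| ≤ 1 := by
      have h1 : ∀ᶠ s in 𝓝[<] (3 + α), s ∈ Ioo (3 : ℝ) (3 + α) := by
        filter_upwards [self_mem_nhdsWithin, mem_nhdsWithin_of_mem_nhds
          (Ioi_mem_nhds (show (3 : ℝ) < 3 + α by linarith))] with s h1 h2
        exact ⟨h2, h1⟩
      obtain ⟨s, h2, h3⟩ := (h1.and ((hloc _ ht0).filter_mono nhdsWithin_le_nhds)).exists
      rw [← hA s h2]; exact h3.2
    have hsub : Tendsto (fun s : ℝ => s + 1) (𝓝 (3 + α)) (𝓝 (4 + α)) := by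
      have := (continuous_add_const (1 : ℝ)).tendsto (3 + α)
      rwa [show 3 + α + 1 = 4 + α by ring] at this
    have ht4 : (4 + α) ∈ Ioo (0 : ℝ) 12 := ⟨by linarith, by linarith⟩
    have hsm : ∀ᶠ s in 𝓝[>] (3 + α), 3 + α < s ∧ s < 3 + α + ε := by
      filter_upwards [self_mem_nhdsWithin, mem_nhdsWithin_of_mem_nhds
        (Iio_mem_nhds (show 3 + α < 3 + α + ε by linarith))] with s h1 h2
      exact ⟨h1, h2⟩
    obtain ⟨s, ⟨hs4, hs5⟩, hs1, hs2, hs3⟩ := (hsm.and (((hloc _ ht0).and ((h.usc (3 + α)).and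
      (hsub.eventually (hloc _ ht4)))).filter_mono nhdsWithin_le_nhds)).exists
    have u1 := hS s ⟨hs4, by linarith⟩
    have u2 := hS (s + 1) ⟨by linarith, by linarith⟩
    have u3 := hS (s + 1 + 1) ⟨by linarith, by linarith⟩
    rcases hr with h1 | h1
    · have e1 := hr2 s hs1.1 (hs2.trans h1)
      have e2 := hr2 _ ht0 h1
      have e3 : M s = m0 := by
        have := hs1.2
        rw [abs_le] at this hp
        omega
      rw [e3] at u1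
      have hmem : s + 1 + 1 + 1 ∈ Icc (6 - ε) (6 + α + ε) := ⟨by linarith, by linarith⟩
      exact ⟨_, hmem, endJ u1 u2 u3 (hBr _ hmem)⟩
    · have v2 := hS (4 + α) ⟨by linarith, by linarith⟩
      have v3 := hS (4 + α + 1) ⟨by linarith, by linarith⟩
      have hmem : 4 + α + 1 + 1 ∈ Icc (6 - ε) (6 + α + ε) := ⟨by linarith, by linarith⟩
      refine ⟨_, hmem, endK hm4 hp hs1.2 ?_ hs3.2 u1 v2 v3 (hBr _ hmem)⟩
      rcases h1 with ⟨h1, h2⟩ | ⟨h1, h2⟩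
      · exact Or.inl ⟨hrn1 s hs1.1 fun hc => h1 (hs2 hc), hrn1 _ ht0 h1,
          res_one ((hM' _ ht4 1).1 h2)⟩
      · exact Or.inr ⟨hrn0 s hs1.1 fun hc => h1 (hs2 hc), hrn0 _ ht0 h1,
          res_zero ((hM' _ ht4 0).1 h2)⟩
  have hBr1 : ∀ t ∈ Icc (6 - ε) (6 + α + ε), (M t - m1) % 6 = 2 ∨ (M t - m1) % 6 = 3 ∨
      (M t - m1) % 6 = 4 := by
    intro t ht
    have := hBr t ht
    omega
  -- the left end
  have hL : ∃ t ∈ Icc (6 - ε) (6 + α + ε), Stp (3 * N + 1) (m1 - M t) := by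
    have ht0 : (9 : ℝ) ∈ Ioo (0 : ℝ) 12 := ⟨by norm_num, by norm_num⟩
    have ht8 : (8 : ℝ) ∈ Ioo (0 : ℝ) 12 := ⟨by norm_num, by norm_num⟩
    have hp : |m1 - M 9| ≤ 1 := by
      have h1 : ∀ᶠ s in 𝓝[>] (9 : ℝ), s ∈ Ioo (9 : ℝ) (9 + α) := by
        filter_upwards [self_mem_nhdsWithin, mem_nhdsWithin_of_mem_nhds
          (Iio_mem_nhds (show (9 : ℝ) < 9 + α by linarith))] with s h1 h2
        exact ⟨h1, h2⟩
      obtain ⟨s, h2, h3⟩ := (h1.and ((hloc _ ht0).filter_mono nhdsWithin_le_nhds)).exists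
      rw [← hA9 s h2]; exact h3.2
    have hsub : Tendsto (fun s : ℝ => s - 1) (𝓝 (9 : ℝ)) (𝓝 8) := by
      have := (continuous_sub_right (1 : ℝ)).tendsto 9
      rwa [show (9 : ℝ) - 1 = 8 by norm_num] at this
    have hsm : ∀ᶠ s in 𝓝[<] (9 : ℝ), s < 9 ∧ 9 - ε < s := by
      filter_upwards [self_mem_nhdsWithin, mem_nhdsWithin_of_mem_nhds
        (Ioi_mem_nhds (show 9 - ε < 9 by linarith))] with s h1 h2
      exact ⟨h1, h2⟩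
    obtain ⟨s, ⟨hs4, hs5⟩, hs1, hs2, hs3⟩ := (hsm.and (((hloc _ ht0).and ((h.usc 9).and
      (hsub.eventually (hloc _ ht8)))).filter_mono nhdsWithin_le_nhds)).exists
    rw [e9] at hs2
    have u1 := hS (s - 1) ⟨by linarith, by linarith⟩
    have u2 := hS (s - 1 - 1) ⟨by linarith, by linarith⟩
    have u3 := hS (s - 1 - 1 - 1) ⟨by linarith, by linarith⟩
    rw [sub_add_cancel] at u1 u2 u3
    rcases hl with h1 | h1
    · have e1 := hr2 s hs1.1 (hs2.trans h1)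
      have e2 := hr2 _ ht0 (by rw [e9]; exact h1)
      have e3 : M s = m1 := by
        have := hs1.2
        rw [abs_le] at this hp
        omega
      rw [e3] at u1
      have hmem : s - 1 - 1 - 1 ∈ Icc (6 - ε) (6 + α + ε) := ⟨by linarith, by linarith⟩
      exact ⟨_, hmem, endJ' u1 u2 u3 (hBr1 _ hmem)⟩
    · have v2 := hS 7 ⟨by linarith, by norm_num⟩
      have v3 := hS 6 ⟨by linarith, by norm_num⟩
      rw [show (7 : ℝ) + 1 = 8 by norm_num] at v2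
      rw [show (6 : ℝ) + 1 = 7 by norm_num] at v3
      have hmem : (6 : ℝ) ∈ Icc (6 - ε) (6 + α + ε) := ⟨by linarith, by linarith⟩
      refine ⟨_, hmem, endK' hm5 hp hs1.2 ?_ hs3.2 u1 v2 v3 (hBr1 _ hmem)⟩
      rcases h1 with ⟨h1, h2⟩ | ⟨h1, h2⟩
      · exact Or.inl ⟨hrn1 s hs1.1 fun hc => h1 (hs2 hc), hrn1 _ ht0 (by rw [e9]; exact h1),
          res_one ((hM' _ ht8 1).1 (by rw [e8]; exact h2))⟩
      · exact Or.inr ⟨hrn0 s hs1.1 fun hc => h1 (hs2 hc), hrn0 _ ht0 (by rw [e9]; exact h1),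
          res_zero ((hM' _ ht8 0).1 (by rw [e8]; exact h2))⟩
  obtain ⟨t, ht, h1⟩ := hR
  obtain ⟨t', ht', h2⟩ := hL
  have h3 := hBc t ht t' ht'
  have h4 := hBr t' ht'
  obtain ⟨h5, h6⟩ := h1
  rw [h5] at h3
  have h7 : Stp (3 * N + 1) (M t' - m0) := ⟨h3.symm, h4⟩
  rw [stp_iff] at h2 h7
  obtain ⟨p1, p2⟩ := h2
  obtain ⟨p3, p4⟩ := h7
  clear h3 h4 h5 h6 hN
  omega

/-- **the gain of the integer lift** -/
theorem lift_oddK (h : Cov Q) {α : ℝ} (hα0 : 0 < α) (hα1 : α ≤ 1)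
    (hX : ∀ t ∈ Ioo (3 : ℝ) (3 + α), Q t ⊆ {2}) (hl : KEnd Q 3 2) (hr : KEnd Q (3 + α) (4 + α))
    (hB : ∀ t ∈ Icc (6 : ℝ) (6 + α), 2 ∉ Q t)
    (hinc : ∀ t ∈ Ioo (3 + α) (8 : ℝ), ¬ Q t ⊆ Q (t + 1) ∧ ¬ Q (t + 1) ⊆ Q t) :
    ∃ ℓ : ℝ → Fin 3 → ℤ, Sec (Icc (0 : ℝ) 12) Q (fun _ => dz) ℓ ∧
      (∀ t ∈ Icc (0 : ℝ) 12, ∀ i ∈ Q t, (3 : ℤ) ∣ ℓ t i - (i : ℕ)) ∧
      ∀ t ∈ Icc (0 : ℝ) 6, ∀ i ∈ Q t, ((ℓ (t + 6) i + 2) / 3 - (ℓ t i + 2) / 3) % 2 = 1 := by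
  obtain ⟨ℓ, M, hℓ, hd, hM, hMloc, hMℓ⟩ := h.exM
  obtain ⟨w, hw⟩ := Cov.wind h hM hMloc
  have hodd := windK h hα0 hα1 hX hl hr hB hinc hM hMloc hw
  refine ⟨ℓ, hℓ, hd, fun t ht i hi => ?_⟩
  have ht0 : t ∈ Icc (0 : ℝ) 12 := ⟨ht.1, by linarith [ht.2]⟩
  have ht1 : t + 6 ∈ Icc (0 : ℝ) 12 := ⟨by linarith [ht.1], by linarith [ht.2]⟩
  have hi6 : i ∈ Q (t + 6) := by rw [h.per]; exact hi
  obtain ⟨k0, hk0⟩ := hd t ht0 i hi
  obtain ⟨k6, hk6⟩ := hd _ ht1 i hi6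
  have b0 := hMℓ t ht0 i hi
  have b6 := hMℓ _ ht1 i hi6
  have c0 := hw t ht
  rw [abs_le] at b0 b6
  omega

/-- the mod 2 primitive from the integer lift -/
theorem sec2K {ℓ : ℝ → Fin 3 → ℤ} (hℓ : Sec (Icc (0 : ℝ) 12) Q (fun _ => dz) ℓ)
    (hd : ∀ t ∈ Icc (0 : ℝ) 12, ∀ i ∈ Q t, (3 : ℤ) ∣ ℓ t i - (i : ℕ)) :
    Sec (Icc (0 : ℝ) 12) Q (fun _ => f2) fun t i => (((ℓ t i + 2) / 3 : ℤ) : ZMod 2) := by
  refine ⟨fun t ht i hi j hj => ?_, fun t ht => ?_⟩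
  · exact f2_lift (hd t ht i hi) (hℓ.diff t ht i hi j hj).symm
  · filter_upwards [hℓ.loc t ht] with s hs i hi
    rw [hs i hi]

/-- **Ring form** -/
theorem ring_oddK (h : Cov Q) {α : ℝ} (hα0 : 0 < α) (hα1 : α ≤ 1)
    (hX : ∀ t ∈ Ioo (3 : ℝ) (3 + α), Q t ⊆ {2}) (hl : KEnd Q 3 2) (hr : KEnd Q (3 + α) (4 + α))
    (hB : ∀ t ∈ Icc (6 : ℝ) (6 + α), 2 ∉ Q t)
    (hinc : ∀ t ∈ Ioo (3 + α) (8 : ℝ), ¬ Q t ⊆ Q (t + 1) ∧ ¬ Q (t + 1) ⊆ Q t) :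
    ∃ δ > 0, ∀ c ∈ Icc (0 : ℝ) 6, ∀ (n : ℕ) (s : ℕ → ℝ) (lab : ℕ → Fin 3),
      (∀ k ≤ n, s k ∈ Icc (0 : ℝ) 12) → s 0 = c → s n = c + 6 →
      (∀ k < n, |s k - s (k + 1)| < δ) → (∀ k ≤ n, lab k ∈ Q (s k)) → lab n = lab 0 →
      ∑ k ∈ Finset.range n, f2 (lab k) (lab (k + 1)) = 1 := by
  obtain ⟨ℓ, hℓ, hd, hor⟩ := lift_oddK h hα0 hα1 hX hl hr hB hinc
  have hT2 : Tor (Icc (0 : ℝ) 12) Q fun _ => f2 :=
    h.tor f2 (by intro i j l hijl; revert i j l; unfold f2; decide) _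
  obtain ⟨δ, hδ, hu⟩ := unif hT2 (sec2K hℓ hd)
  refine ⟨δ, hδ, fun c hc n s lab hs s0 sn hst hlab hn => ?_⟩
  have e1 : ∀ k ∈ Finset.range n, f2 (lab k) (lab (k + 1)) =
      (((ℓ (s (k + 1)) (lab (k + 1)) + 2) / 3 : ℤ) : ZMod 2) -
        (((ℓ (s k) (lab k) + 2) / 3 : ℤ) : ZMod 2) := by
    intro k hk
    have hk' := Finset.mem_range.1 hk
    exact (hu _ (hs k hk'.le) _ (hs (k + 1) hk') (hst k hk') _ (hlab k hk'.le) _
      (hlab (k + 1) hk')).symm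
  rw [Finset.sum_congr rfl e1,
    Finset.sum_range_sub fun k => (((ℓ (s k) (lab k) + 2) / 3 : ℤ) : ZMod 2)]
  rw [s0, sn, hn]
  have e2 := hlab 0 (Nat.zero_le n)
  rw [s0] at e2
  have e3 := hor c hc _ e2
  have e4 : ((((ℓ (c + 6) (lab 0) + 2) / 3 - (ℓ c (lab 0) + 2) / 3 : ℤ)) : ZMod 2) = 1 := by
    have : (ℓ (c + 6) (lab 0) + 2) / 3 - (ℓ c (lab 0) + 2) / 3 =
        2 * (((ℓ (c + 6) (lab 0) + 2) / 3 - (ℓ c (lab 0) + 2) / 3) / 2) + 1 := by omega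
    rw [this]
    push_cast
    have h2 : (2 : ZMod 2) = 0 := rfl
    rw [h2, zero_mul, zero_add]
  push_cast at e4
  exact e4

end Vale.Agent.P032.H460
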