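import Vale.Agent.P032.H597.W3
import Vale.Agent.P032.H492.TwoJ

/-!
# P032: a comp centre whose network is (1,1), with one far J-partner

`z` a two-pair centre (pairs `ab | cd`, other colours `e, f`), the points of order at least four of
`S(z)` have the palette of `z`.  `v` the only point of palette `abe`, `q` the only point of palette
`cdf`, `y` the only point with the palette of `z`, at distance more than one from `v` and `q`.

`geo11` : the exact arcs at `v`, `q` end in points `V'`, `Q'` of palettes `abf`, `cde`; the arcs at `y`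
end in points `V'' ≠ V'`, `Q'' ≠ Q'` of the same palettes; there are no others.
-/

open Set Filter Topology Metric

noncomputable section

namespace Vale.Agent.P032.H460

open Vale.Agent.P032.Six Vale.Agent.P032.S5.H767 Vale.Agent.P032.S5.H349 Vale.Agent.P032.S5.H450
open Vale.Agent.P032.S5.H358 Vale.Agent.P032.H597

variable {U : Fin 6 → Set ℂ} {T : ℂ → Set (Fin 6)} {z v u v' u' q q' y : ℂ}
  {a b c d e f : Fin 6}

/-- an exact arc of `S(z)` from the point `y` (any palette) to the end `u` of three colours -/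
def AJ (T : ℂ → Set (Fin 6)) (z y u : ℂ) : Prop :=
  ∃ o l : ℝ, 0 < l ∧ l ≤ Real.pi / 3 ∧ (o = 1 ∨ o = -1) ∧ OEnd T z u (-o) ∧
    u = z + (y - z) * cis (-(o * l)) ∧
    ∀ t ∈ Ioo 0 l, T (z + (y - z) * cis (-(o * t))) = T z ∩ T u

theorem _root_.Vale.Agent.P032.Six.AA.aj460 (h : AA T z v u) : AJ T z v u := by
  have hp := h.pair'
  obtain ⟨o, l, hl0, hl, hv, hv', e, harc⟩ := h
  exact ⟨o, l, hl0, hl, hv.1, hv', e, by rw [hp]; exact harc⟩

theorem norm_cis_sub_one_le {s : ℝ} (hs : |s| ≤ Real.pi / 3) : ‖cis s - 1‖ ≤ 1 := by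
  have h1 : ‖cis s - 1‖ ^ 2 = 2 - 2 * Real.cos s := by
    rw [← Complex.normSq_eq_norm_sq, Complex.normSq_apply]
    rw [cis]
    simp only [Complex.sub_re, Complex.sub_im, Complex.exp_ofReal_mul_I_re,
      Complex.exp_ofReal_mul_I_im, Complex.one_re, Complex.one_im]
    nlinarith [Real.sin_sq_add_cos_sq s]
  have h2 : 1 / 2 ≤ Real.cos s := by
    rw [← Real.cos_abs s, ← Real.cos_pi_div_three]
    exact Real.cos_le_cos_of_nonneg_of_le_pi (abs_nonneg s) (by linarith [Real.pi_pos]) hs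
  nlinarith [norm_nonneg (cis s - 1)]

theorem abs_o {o l : ℝ} (ho : o = 1 ∨ o = -1) (hl0 : 0 < l) : |-(o * l)| = l := by
  rcases ho with rfl | rfl
  · rw [one_mul, abs_neg, abs_of_pos hl0]
  · rw [neg_one_mul, neg_neg, abs_of_pos hl0]

theorem AJ.dist_le (h : AJ T z y u) (hy : dist y z = 1) : dist y u ≤ 1 := by
  obtain ⟨o, l, hl0, hl, ho, -, e, -⟩ := h
  have hn : ‖y - z‖ = 1 := by rw [← dist_eq_norm]; exact hy
  rw [dist_comm, dist_eq_norm, e,
    show z + (y - z) * cis (-(o * l)) - y = (y - z) * (cis (-(o * l)) - 1) by ring, norm_mul, hn,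
    one_mul]
  exact norm_cis_sub_one_le (by rw [abs_o ho hl0]; exact hl)

theorem AJ.ne (h : AJ T z y u) (hy : dist y z = 1) : u ≠ y := by
  obtain ⟨o, l, hl0, hl, ho, -, e, -⟩ := h
  intro hc
  have hn : ‖y - z‖ = 1 := by rw [← dist_eq_norm]; exact hy
  have hne : y - z ≠ 0 := by intro h0; rw [h0, norm_zero] at hn; exact one_ne_zero hn.symm
  have h1 : (y - z) * cis (-(o * l)) = (y - z) * 1 := by
    rw [hc] at e; linear_combination -e
  have h2 := mul_left_cancel₀ hne h1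
  have h3 := congrArg Complex.im h2
  rw [cis, Complex.exp_ofReal_mul_I_im, Complex.one_im, Real.sin_neg] at h3
  have h4 : 0 < Real.sin l := Real.sin_pos_of_pos_of_lt_pi hl0 (by linarith [Real.pi_gt_three])
  rcases ho with rfl | rfl
  · rw [one_mul] at h3; linarith
  · rw [neg_one_mul, Real.sin_neg] at h3; linarith

/-- **the end of an exact arc**, the points of order at least four have the palette of `z` -/
theorem exists_endJ (h : Irr U T) (hz : DPt T z a b c d)
    (w0 : ∀ y, dist y z = 1 → (T y).ncard ≤ 3 ∨ T y = T z) {o ε : ℝ} (ho : o = 1 ∨ o = -1)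
    (hy : dist y z = 1) (hε : 0 < ε)
    (hg : ∀ t ∈ Ioo 0 ε, T (z + (y - z) * cis (-(o * t))) = {a, b}) :
    ∃ l, 0 < l ∧ l ≤ Real.pi / 3 ∧
      (∀ t ∈ Ioo 0 l, T (z + (y - z) * cis (-(o * t))) = {a, b}) ∧
      (T (z + (y - z) * cis (-(o * l))) = T z ∨
        ∃ g, T (z + (y - z) * cis (-(o * l))) = insert g {a, b} ∧ g ∉ T z) := by
  have hP : ({a, b} : Set (Fin 6)).ncard = 2 := Set.ncard_pair hz.ab
  have hPz : ({a, b} : Set (Fin 6)) ⊆ T z := by
    rw [hz.pal]; rintro i (rfl | rfl) <;> simp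
  obtain ⟨θ, hθ⟩ := exists_cis (u := y - z) (by rw [← dist_eq_norm]; exact hy)
  have key : ∀ t : ℝ, z + (y - z) * cis (-(o * t)) = z + cis (θ - o * t) := by
    intro t
    rw [hθ, sub_eq_add_neg θ, cis_add394]
  obtain ⟨l, hl0, -, hl, hlt, hss⟩ := h.exists_arc ho hP hPz hε
    (fun t ht => by rw [← key]; exact hg t ht)
  refine ⟨l, hl0, hl, fun t ht => by rw [key]; exact hlt t ht, ?_⟩
  rw [key]
  set w := z + cis (θ - o * l) with hw
  have hwz : dist w z = 1 := dist_add_cis z _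
  rcases w0 w hwz with h3 | h3
  · right
    obtain ⟨g, hgw, hgP⟩ := exists_of_ssubset hss
    have hT : T w = insert g {a, b} := by
      symm
      refine Set.eq_of_subset_of_ncard_le (insert_subset hgw hss.1) ?_ (Set.toFinite _)
      rw [Set.ncard_insert_of_notMem hgP (Set.toFinite _), hP]
      exact h3
    refine ⟨g, hT, fun hgz => ?_⟩
    -- the fourth colour
    obtain ⟨m, hm, hcov⟩ : ∃ m ∈ ({c, d} : Set (Fin 6)), T z ⊆ insert m (T w) := by
      rw [hz.pal] at hgz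
      rcases hgz with h4 | h4 | h4 | h4
      · exact absurd (Or.inl h4) hgP
      · exact absurd (Or.inr h4) hgP
      · refine ⟨d, by simp, ?_⟩
        rw [hz.pal, hT, h4]
        rintro i (rfl | rfl | rfl | rfl) <;> simp
      · rw [mem_singleton_iff] at h4
        refine ⟨c, by simp, ?_⟩
        rw [hz.pal, hT, h4]
        rintro i (rfl | rfl | rfl | rfl) <;> simp
    obtain ⟨p2, hp2⟩ := hz.arc2
    obtain ⟨q2, hq2, hne, hop⟩ := hp2.exists_off_line (y := p2)
    have m1 : m ∈ T q2 := by rw [hq2.mem]; exact hm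
    have m2 : m ∈ T p2 := by rw [hp2.mem]; exact hm
    by_cases h1 : q2 ≠ w ∧ q2 + w ≠ 2 * z
    · exact h.third_notMem hwz h3 hcov hq2.1 (h.sub _ m1) h1.1 h1.2
    · refine h.third_notMem hwz h3 hcov hp2.1 (h.sub _ m2) (fun h5 => ?_) fun h5 => ?_
      · by_cases h6 : q2 = w
        · exact hne (h6.trans h5.symm)
        · push Not at h1
          exact hop (by rw [h5]; exact h1 h6)
      · by_cases h6 : q2 = w
        · exact hop (by rw [h6, add_comm]; exact h5)
        · push Not at h1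
          exact hne (by linear_combination (h1 h6) - h5)
  · exact Or.inl h3

/-- the third colour -/
theorem cap_insert (hz : DPt T z a b c d) {w : ℂ} {g : Fin 6} (hw : T w = insert g {a, b})
    (hg : g ∉ T z) : T z ∩ T w = {a, b} ∧ (T w).ncard = 3 := by
  constructor
  · rw [hw]
    ext i
    simp only [mem_inter_iff, mem_insert_iff, mem_singleton_iff]
    constructor
    · rintro ⟨h5, rfl | h6⟩
      · exact absurd h5 hg
      · exact h6
    · intro h5
      refine ⟨?_, Or.inr h5⟩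
      rw [hz.pal]
      rcases h5 with rfl | rfl <;> simp
  · rw [hw, Set.ncard_insert_of_notMem _ (Set.toFinite _), Set.ncard_pair hz.ab]
    intro h5
    refine hg ?_
    rw [hz.pal]
    rcases h5 with h5 | h5
    · rw [h5]; simp
    · rw [mem_singleton_iff.1 h5]; simp

/-- the exact arc from a point `y` of `S(z)`, all J's being further than `1` away from `y` -/
theorem exists_aj (h : Irr U T) (hz : DPt T z a b c d)
    (w0 : ∀ y, dist y z = 1 → (T y).ncard ≤ 3 ∨ T y = T z) {o ε : ℝ} (ho : o = 1 ∨ o = -1)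
    (hy : dist y z = 1) (hε : 0 < ε)
    (hg : ∀ t ∈ Ioo 0 ε, T (z + (y - z) * cis (-(o * t))) = {a, b})
    (hJ : ∀ w, dist w z = 1 → T w = T z → w = y ∨ 1 < dist w y) :
    ∃ l, 0 < l ∧ l ≤ Real.pi / 3 ∧ OEnd T z (z + (y - z) * cis (-(o * l))) (-o) ∧
      T z ∩ T (z + (y - z) * cis (-(o * l))) = {a, b} ∧
      ∀ t ∈ Ioo 0 l, T (z + (y - z) * cis (-(o * t))) = {a, b} := by
  obtain ⟨l, hl0, hl, harc, hend⟩ := exists_endJ h hz w0 ho hy hε hg
  set w := z + (y - z) * cis (-(o * l)) with hw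
  have hwz : dist w z = 1 := dist_rot hy _
  have hn : ‖y - z‖ = 1 := by rw [← dist_eq_norm]; exact hy
  have hwy : w ≠ y ∧ dist w y ≤ 1 := by
    constructor
    · intro hc
      have hne : y - z ≠ 0 := by intro h0; rw [h0, norm_zero] at hn; exact one_ne_zero hn.symm
      have h1 : (y - z) * cis (-(o * l)) = (y - z) * 1 := by
        rw [hc] at hw; linear_combination -hw
      have h2 := mul_left_cancel₀ hne h1
      have h3 := congrArg Complex.im h2
      rw [cis, Complex.exp_ofReal_mul_I_im, Complex.one_im, Real.sin_neg] at h3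
      have h4 : 0 < Real.sin l :=
        Real.sin_pos_of_pos_of_lt_pi hl0 (by linarith [Real.pi_gt_three])
      rcases ho with rfl | rfl
      · rw [one_mul] at h3; linarith
      · rw [neg_one_mul, Real.sin_neg] at h3; linarith
    · rw [dist_eq_norm, hw,
        show z + (y - z) * cis (-(o * l)) - y = (y - z) * (cis (-(o * l)) - 1) by ring, norm_mul,
        hn, one_mul]
      exact norm_cis_sub_one_le (by rw [abs_o ho hl0]; exact hl)
  rcases hend with h5 | ⟨g, h5, hgz⟩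
  · rcases hJ w hwz h5 with h6 | h6
    · exact absurd h6 hwy.1
    · exact absurd hwy.2 (not_le.2 h6)
  · obtain ⟨k1, k2⟩ := cap_insert hz h5 hgz
    refine ⟨l, hl0, hl, ⟨?_, hwz, ncard_T hz, k2, ?_, l, hl0, fun t ht => ?_⟩, k1, harc⟩
    · rcases ho with rfl | rfl
      · exact Or.inr rfl
      · left; ring
    · rw [k1, Set.ncard_pair hz.ab]
    · rw [k1, ← harc (l - t) ⟨by linarith [ht.2], by linarith [ht.1]⟩]
      congr 1
      rw [add_sub_cancel_left, mul_assoc, ← cis_add394]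
      congr 3
      ring

/-- two arcs which end at the same clean end from different starts -/
theorem aj_start (hc : Cln T z u) (h1 : AJ T z v u) (h2 : AJ T z y u)
    (hv : (T z ∩ T u) ≠ T v) (hy : (T z ∩ T u) ≠ T y) : v = y := by
  obtain ⟨o, l, hl0, hl, ho, hE, e, harc⟩ := h1
  obtain ⟨o', l', hl0', hl', ho', hE', e', harc'⟩ := h2
  have h3 : -o = -o' := cln_o_eq hc hE hE'
  have ho'' : o' = o := by linarith
  subst ho''
  have b1 : ∀ s, z + (u - z) * cis (o' * s) = z + (v - z) * cis (-(o' * (l - s))) := by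
    intro s
    rw [e, add_sub_cancel_left, mul_assoc, ← cis_add394]
    congr 3; ring
  have b2 : ∀ s, z + (u - z) * cis (o' * s) = z + (y - z) * cis (-(o' * (l' - s))) := by
    intro s
    rw [e', add_sub_cancel_left, mul_assoc, ← cis_add394]
    congr 3; ring
  have c1 : z + (u - z) * cis (o' * l) = v := by
    rw [b1, sub_self, mul_zero, neg_zero, cis_zero394]; ring
  have c2 : z + (u - z) * cis (o' * l') = y := by
    rw [b2, sub_self, mul_zero, neg_zero, cis_zero394]; ring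
  rcases lt_trichotomy l l' with h4 | h4 | h4
  · exfalso
    apply hv
    rw [← harc' (l' - l) ⟨by linarith, by linarith⟩, ← b2, c1]
  · rw [← c1, ← c2, h4]
  · exfalso
    apply hy
    rw [← harc (l - l') ⟨by linarith, by linarith⟩, ← b1, c2]

/-- the `ab`-half of `geo11` -/
theorem half11 (h : Irr U T) (C : Ctr U T z a b c d e f) (hz : DPt T z a b c d)
    (w0 : ∀ y, dist y z = 1 → (T y).ncard ≤ 3 ∨ T y = T z) (hv : dist v z = 1)
    (Tv : T v = {a, b, e}) (hcl : Cln T z v)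
    (huv : ∀ v', dist v' z = 1 → T v' = {a, b, e} → v' = v) (hy : dist y z = 1)
    (Ty : T y = T z) (huy : ∀ w, dist w z = 1 → T w = T z → w = y) (hyv : 1 < dist y v) :
    ∃ u u', AA T z v u ∧ AJ T z y u' ∧ T u = {a, b, f} ∧ T u' = {a, b, f} := by
  have iX : T z ∩ {a, b, e} = {a, b} := inter_abe C
  have hz4 := ncard_T hz
  obtain ⟨⟨ab, ac, ad, ae, af⟩, ⟨bc, bd, be, bf⟩, ⟨cd, ce, cf⟩, ⟨de, df⟩, ef⟩ := nd_ne C.nd
  have nX : ({a, b, e} : Set (Fin 6)).ncard = 3 := Set.ncard_eq_three.2 ⟨a, b, e, ab, ae, be, rfl⟩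
  have nab : ({a, b} : Set (Fin 6)).ncard = 2 := Set.ncard_pair ab
  obtain ⟨o, ho⟩ := cln_oend hcl hz4 hv (by rw [Tv, nX]) (by rw [Tv, iX, nab])
  obtain ⟨ho1, -, -, -, -, ε, hε, harc⟩ := id ho
  rw [Tv, iX] at harc
  obtain ⟨l, hl0, hl, hE, hcap, hlt⟩ := exists_aj h hz w0 ho1 hv hε harc
    (fun w hw hTw => Or.inr (by rw [huy w hw hTw]; exact hyv))
  have hAA : AA T z v (z + (v - z) * cis (-(o * l))) :=
    ⟨o, l, hl0, hl, ho, hE, rfl, fun t ht => by rw [Tv, iX]; exact hlt t ht⟩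
  -- from the J
  obtain ⟨τ, hτ, g1, -⟩ := h.j_sides hz hy Ty
  obtain ⟨ε', hε', hg'⟩ : ∃ ε' > 0, ∀ t ∈ Ioo 0 ε', T (z + (y - z) * cis (-(-τ * t))) = {a, b} := by
    rw [eventually_nhdsWithin_iff, Metric.eventually_nhds_iff] at g1
    obtain ⟨ε', hε', hg⟩ := g1
    refine ⟨ε', hε', fun t ht => ?_⟩
    have := hg (y := t) (by rw [Real.dist_eq, sub_zero, abs_of_pos ht.1]; exact ht.2) ht.1
    rw [neg_mul, neg_neg]
    exact this
  have hτ' : -τ = 1 ∨ -τ = -1 := by
    rcases hτ with rfl | rfl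
    · exact Or.inr rfl
    · left; ring
  obtain ⟨l', hl0', hl', hE', hcap', hlt'⟩ := exists_aj h hz w0 hτ' hy hε' hg'
    (fun w hw hTw => Or.inl (huy w hw hTw))
  have hAJ : AJ T z y (z + (y - z) * cis (-(-τ * l'))) :=
    ⟨-τ, l', hl0', hl', hτ', hE', rfl, fun t ht => by rw [hcap']; exact hlt' t ht⟩
  refine ⟨_, _, hAA, hAJ, ?_, ?_⟩
  · rcases third_type C hE.2.2.2.1 hcap with h5 | h5
    · exact absurd (huv _ hE.2.1 h5) hAA.ne
    · exact h5
  · rcases third_type C hE'.2.2.2.1 hcap' with h5 | h5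
    · have h6 := huv _ hE'.2.1 h5
      have h7 := hAJ.dist_le hy
      rw [h6] at h7
      exact absurd h7 (not_le.2 hyv)
    · exact h5

/-- **(1,1)-network with one far J** -/
theorem geo11 (h : Irr U T) (hz : DPt T z a b c d) (nd : [a, b, c, d, e, f].Nodup)
    (w0 : ∀ y, dist y z = 1 → (T y).ncard ≤ 3 ∨ T y = T z) (hv : dist v z = 1)
    (Tv : T v = {a, b, e}) (hq : dist q z = 1) (Tq : T q = {c, d, f}) (hop : v + q ≠ 2 * z)
    (huv : ∀ v', dist v' z = 1 → T v' = {a, b, e} → v' = v)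
    (huq : ∀ q', dist q' z = 1 → T q' = {c, d, f} → q' = q) (hy : dist y z = 1)
    (Ty : T y = T z) (huy : ∀ w, dist w z = 1 → T w = T z → w = y) (hyv : 1 < dist y v)
    (hyq : 1 < dist y q) :
    ∃ V V' Q Q', T V = {a, b, f} ∧ T V' = {a, b, f} ∧ T Q = {c, d, e} ∧ T Q' = {c, d, e} ∧
      V ≠ V' ∧ Q ≠ Q' ∧ AA T z v V ∧ AA T z q Q ∧ AJ T z y V' ∧ AJ T z y Q' ∧
      (∀ p, dist p z = 1 → T p = {a, b, f} → p = V ∨ p = V') ∧
      (∀ p, dist p z = 1 → T p = {c, d, e} → p = Q ∨ p = Q') ∧ V + Q ≠ 2 * z := by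
  obtain ⟨⟨ab, ac, ad, ae, af⟩, ⟨bc, bd, be, bf⟩, ⟨cd, ce, cf⟩, ⟨de, df⟩, ef⟩ := nd_ne nd
  have C := ctr_of_dpt h hz nd
  have hz4 := ncard_T hz
  have he : e ∉ T z := by
    rw [hz.pal]
    simp only [mem_insert_iff, mem_singleton_iff, not_or]
    exact ⟨ae.symm, be.symm, ce.symm, de.symm⟩
  have hf : f ∉ T z := by
    rw [hz.pal]
    simp only [mem_insert_iff, mem_singleton_iff, not_or]
    exact ⟨af.symm, bf.symm, cf.symm, df.symm⟩
  have cX : ({a, b, e} : Set (Fin 6))ᶜ = {c, d, f} := compl_abe C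
  have cY : ({a, b, f} : Set (Fin 6))ᶜ = {c, d, e} := compl_abe C.swapEF
  have nX : ({a, b, e} : Set (Fin 6)).ncard = 3 := Set.ncard_eq_three.2 ⟨a, b, e, ab, ae, be, rfl⟩
  have nY : ({a, b, f} : Set (Fin 6)).ncard = 3 := Set.ncard_eq_three.2 ⟨a, b, f, ab, af, bf, rfl⟩
  have heX : e ∈ ({a, b, e} : Set (Fin 6)) := by simp
  have hfX : f ∈ ({a, b, e} : Set (Fin 6))ᶜ := by rw [cX]; simp
  have hfY : f ∈ ({a, b, f} : Set (Fin 6)) := by simp
  have heY : e ∈ ({a, b, f} : Set (Fin 6))ᶜ := by rw [cY]; simp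
  have heX' : e ∈ ({a, b, e} : Set (Fin 6))ᶜᶜ := by rw [compl_compl]; exact heX
  have hfY' : f ∈ ({a, b, f} : Set (Fin 6))ᶜᶜ := by rw [compl_compl]; exact hfY
  have iX : T z ∩ {a, b, e} = {a, b} := inter_abe C
  have iY : T z ∩ {a, b, f} = {a, b} := inter_abe C.swapEF
  have iXc : T z ∩ {c, d, f} = {c, d} := inter_abe C.swapAC.swapEF
  have iYc : T z ∩ {c, d, e} = {c, d} := inter_abe C.swapAC
  have dX : T z \ {a, b, e} = {c, d} := by rw [← iXc, ← cX]; rfl
  have dY : T z \ {a, b, f} = {c, d} := by rw [← iYc, ← cY]; rfl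
  have dXc : T z \ {c, d, f} = {a, b} := by
    rw [← iX, ← cX, Set.sdiff_compl]
  have dYc : T z \ {c, d, e} = {a, b} := by
    rw [← iY, ← cY, Set.sdiff_compl]
  have nab : ({a, b} : Set (Fin 6)).ncard = 2 := Set.ncard_pair ab
  have ncd : ({c, d} : Set (Fin 6)).ncard = 2 := Set.ncard_pair cd
  -- the network
  have N : Nd T {a, b, e} z v q :=
    ⟨nX, by rw [dist_comm]; exact hv, by rw [dist_comm]; exact hq, Tv, by rw [Tq, cX], hop⟩
  have clv : Cln T z v := N.cln471 h hfX hf (N.node_x h hfX hf hv Tv) heX he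
  have clq : Cln T z q :=
    N.swap.cln471 h heX' he (N.node_y h heX he hq (by rw [Tq, cX])).swap hfX hf
  obtain ⟨V, V', hVA, hVJ, TV, TV'⟩ := half11 h C hz w0 hv Tv clv huv hy Ty huy hyv
  obtain ⟨Q, Q', hQA, hQJ, TQ, TQ'⟩ := half11 h C.swapAC.swapEF hz.swap w0 hq Tq clq huq hy Ty huy
    hyq
  -- ends
  have hVz : dist V z = 1 := by obtain ⟨o, l, -, -, -, h5, -⟩ := hVA; exact h5.2.1
  have hVz' : dist V' z = 1 := by obtain ⟨o, l, -, -, -, h5, -⟩ := hVJ; exact h5.2.1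
  have hQz : dist Q z = 1 := by obtain ⟨o, l, -, -, -, h5, -⟩ := hQA; exact h5.2.1
  have hQz' : dist Q' z = 1 := by obtain ⟨o, l, -, -, -, h5, -⟩ := hQJ; exact h5.2.1
  have eV : EE T z V := by
    obtain ⟨o, l, -, -, -, h5, -⟩ := hVA
    exact ⟨⟨_, h5⟩, by rw [TV, dY]; exact hz.arc2⟩
  have eQ : EE T z Q := by
    obtain ⟨o, l, -, -, -, h5, -⟩ := hQA
    exact ⟨⟨_, h5⟩, by rw [TQ, dYc]; exact hz.arc1⟩
  have hVQ : V + Q ≠ 2 * z := eV.anti813 h eQ (by rw [TQ, TV, cY])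
  have M : Nd T {a, b, f} z V Q :=
    ⟨nY, by rw [dist_comm]; exact hVz, by rw [dist_comm]; exact hQz, TV, by rw [TQ, cY], hVQ⟩
  have clV : Cln T z V := M.cln471 h heY he (M.node_x h heY he hVz TV) hfY hf
  have clQ : Cln T z Q :=
    M.swap.cln471 h hfY' hf (M.node_y h hfY hf hQz (by rw [TQ, cY])).swap heY he
  have TzV : T z ∩ T V = {a, b} := by rw [TV, iY]
  have TzQ : T z ∩ T Q = {c, d} := by rw [TQ, iYc]
  have hne3 : ∀ {x y g : Fin 6} {w : ℂ}, x ≠ y → x ≠ g → y ≠ g → T w = {x, y, g} →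
      ({x, y} : Set (Fin 6)) ≠ T w := by
    intro x y g w h1 h2 h3 h4 h5
    have h6 := congrArg Set.ncard h5
    rw [h4, Set.ncard_pair h1, Set.ncard_eq_three.2 ⟨x, y, g, h1, h2, h3, rfl⟩] at h6
    omega
  have hneJ : ∀ {x y : Fin 6}, x ≠ y → ({x, y} : Set (Fin 6)) ≠ T z := by
    intro x y h1 h5
    have h6 := congrArg Set.ncard h5
    rw [Set.ncard_pair h1, hz4] at h6
    omega
  have hvy : v ≠ y := by
    rintro rfl
    rw [dist_self] at hyv
    linarith
  have hqy : q ≠ y := by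
    rintro rfl
    rw [dist_self] at hyq
    linarith
  have hVV : V ≠ V' := by
    intro h5
    rw [← h5] at hVJ
    exact hvy (aj_start clV hVA.aj460 hVJ (by rw [TzV]; exact hne3 ab ae be Tv)
      (by rw [TzV, Ty]; exact hneJ ab))
  have hQQ : Q ≠ Q' := by
    intro h5
    rw [← h5] at hQJ
    exact hqy (aj_start clQ hQA.aj460 hQJ (by rw [TzQ]; exact hne3 cd cf df Tq)
      (by rw [TzQ, Ty]; exact hneJ cd))
  have M1 : Nd T {a, b, f} z V Q' := M.node_y h hfY hf hQz' (by rw [TQ', cY])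
  have M2 : Nd T {a, b, f} z V' Q := M.node_x h heY he hVz' TV'
  refine ⟨V, V', Q, Q', TV, TV', TQ, TQ', hVV, hQQ, hVA, hQA, hVJ, hQJ, fun p hp Tp => ?_,
    fun p hp Tp => ?_, hVQ⟩
  · exact M.swap.ends_z h M2.swap hVV heY he hfY' hf hp (by rw [compl_compl]; exact Tp)
  · exact M.ends_z h M1 hQQ hfY hf heY he hp (by rw [Tp, cY])

end Vale.Agent.P032.H460
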