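import Vale.Agent.P032.H460.Count
import Vale.Agent.P032.H169.Full

/-!
# P032: a full point has no other border centres

`Full.border460` : all centres of borders of a full point have its palette.
`Irr.three_border460` : a two-pair point of `S(z)` with three colours of the two-pair point `z` is the
centre of a border of `z`.
`Full.three460` : on the circle about a full point a two-pair point with at least three of its
colours has its palette (no K-neighbours).
-/

open Set Filter Topology Metric

noncomputable section

namespace Vale.Agent.P032.Six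

theorem Full.border460 {k : ℕ} {U : Fin k → Set ℂ} {T : ℂ → Set (Fin k)} (h : Irr U T) {z v : ℂ}
    (hF : Full T z) {a b c d x y : Fin k} (hz : DPt T z a b c d) (hx : x = a ∨ x = b)
    (hy : y = c ∨ y = d) (hv : Bdr T z x y v) : T v = T z := by
  obtain ⟨_, _, _, _, α, β, -, hne, hle, hα, hβ, -, -, -⟩ := hF
  have hne' : z + cis α ≠ z + cis β := by
    intro h1
    have h2 : cis (β - α) = 1 := by
      have h3 : cis β = cis α := by linear_combination -h1
      have h4 : cis (β - α) * cis α = cis β := by
        rw [← cis_add169, sub_add_cancel]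
      have h5 : cis α ≠ 0 := by
        intro h6
        have := norm_cis α
        rw [h6, norm_zero] at this
        norm_num at this
      rw [h3] at h4
      exact mul_right_cancel₀ h5 (by rw [h4, one_mul])
    have h3 : Real.cos (β - α) = 1 := by rw [← cis_re, h2]; simp
    have h4 : Real.cos |β - α| = 1 := by rw [Real.cos_abs]; exact h3
    have h5 : 0 < |β - α| := abs_pos.2 (sub_ne_zero.2 hne)
    have h6 := Real.cos_lt_cos_of_nonneg_of_le_pi le_rfl (by linarith [Real.pi_pos]) h5
    rw [Real.cos_zero] at h6
    linarith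
  rcases h.border_of_two_J460 hz (dist_add_cis z α) hα (dist_add_cis z β) hβ hne' hx hy hv
    with h1 | h1
  · rw [h1]; exact hα
  · rw [h1]; exact hβ

variable {U : Fin 6 → Set ℂ} {T : ℂ → Set (Fin 6)}

/-- a two-pair point of `S(z)` with three colours of `z` is the centre of a border of `z` -/
theorem Irr.three_border460 (h : Irr U T) {z v : ℂ} {a b c d p q r s : Fin 6}
    (hz : DPt T z a b c d) (hv : dist v z = 1) (hD : DPt T v p q r s)
    (h3 : 3 ≤ (T z ∩ T v).ncard) : v ∈ Cen T z a b c d := by
  have key : ∀ a b c d : Fin 6, DPt T z a b c d → a ∈ T v → b ∈ T v → c ∈ T v →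
      Bdr T z a c v ∨ Bdr T z b c v := by
    intro a b c d hz ha hb hc
    rcases h.k_border460 hz hv hD ha hb hc with ⟨e, he⟩ | ⟨e, he⟩
    · exact Or.inl ⟨hv, _, _, he⟩
    · exact Or.inr ⟨hv, _, _, he⟩
  -- at most one colour of `z` is missing in `T v`
  have hmiss : ∀ i j : Fin 6, i ∈ T z → j ∈ T z → i ≠ j → i ∉ T v → j ∉ T v → False := by
    intro i j hi hj hij hi' hj'
    have h4 : (T z).ncard = 4 := by
      rw [hz.pal, Set.ncard_insert_of_notMem, Set.ncard_insert_of_notMem, Set.ncard_pair hz.cd]
      · simp [hz.bc, hz.bd]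
      · simp [hz.ab, hz.ac, hz.ad]
    have h5 : (T z ∩ T v) ∪ {i, j} ⊆ T z := by
      rintro x (hx | rfl | hx)
      · exact hx.1
      · exact hi
      · rw [mem_singleton_iff] at hx; subst hx; exact hj
    have h6 := Set.ncard_le_ncard h5 (Set.toFinite _)
    rw [Set.ncard_union_eq (by
      rw [Set.disjoint_left]
      rintro x hx (rfl | hx')
      · exact hi' hx.2
      · rw [mem_singleton_iff] at hx'; subst hx'; exact hj' hx.2) (Set.toFinite _)
      (Set.toFinite _), Set.ncard_pair hij, h4] at h6
    omega
  have ma : a ∈ T z := by rw [hz.pal]; simp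
  have mb : b ∈ T z := by rw [hz.pal]; simp
  have mc : c ∈ T z := by rw [hz.pal]; simp
  have md : d ∈ T z := by rw [hz.pal]; simp
  by_cases ha : a ∈ T v
  · by_cases hb : b ∈ T v
    · by_cases hc : c ∈ T v
      · rcases key a b c d hz ha hb hc with h1 | h1
        · exact ⟨a, c, Or.inl rfl, Or.inl rfl, h1⟩
        · exact ⟨b, c, Or.inr rfl, Or.inl rfl, h1⟩
      · have hd : d ∈ T v := by
          by_contra hd
          exact hmiss c d mc md hz.cd hc hd
        rcases key a b d c hz.swap34 ha hb hd with h1 | h1
        · exact ⟨a, d, Or.inl rfl, Or.inr rfl, h1⟩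
        · exact ⟨b, d, Or.inr rfl, Or.inr rfl, h1⟩
    · have hc : c ∈ T v := by
        by_contra hc
        exact hmiss b c mb mc hz.bc hb hc
      have hd : d ∈ T v := by
        by_contra hd
        exact hmiss b d mb md hz.bd hb hd
      rcases key c d a b hz.swap hc hd ha with h1 | h1
      · exact ⟨a, c, Or.inl rfl, Or.inl rfl, h1.symm⟩
      · exact ⟨a, d, Or.inl rfl, Or.inr rfl, h1.symm⟩
  · have hb : b ∈ T v := by
      by_contra hb
      exact hmiss a b ma mb hz.ab ha hb
    have hc : c ∈ T v := by
      by_contra hc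
      exact hmiss a c ma mc hz.ac ha hc
    have hd : d ∈ T v := by
      by_contra hd
      exact hmiss a d ma md hz.ad ha hd
    rcases key c d b a hz.swap.swap34 hc hd hb with h1 | h1
    · exact ⟨b, c, Or.inr rfl, Or.inl rfl, h1.symm⟩
    · exact ⟨b, d, Or.inr rfl, Or.inr rfl, h1.symm⟩

/-- **a full point has no K-neighbour** -/
theorem Full.three460 (h : Irr U T) {z v : ℂ} (hF : Full T z) {p q r s : Fin 6}
    (hv : dist v z = 1) (hD : DPt T v p q r s) (h3 : 3 ≤ (T z ∩ T v).ncard) : T v = T z := by
  have hF' := hF
  obtain ⟨a, b, c, d, _, _, hz, -⟩ := hF'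
  obtain ⟨x, y, hx, hy, hB⟩ := h.three_border460 hz hv hD h3
  exact Full.border460 h hF hz hx hy hB

end Vale.Agent.P032.Six
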