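import Vale.Agent.P032.H460.RingF

/-!
# P032, X-B (B3) with arbitrary order-4 points on the circle: the four-term sum

`DSt.sum_four_gen` : `V` a centre with the colours `a, b, p, q`, the exact `ab`-arcs form one arc of
length at most `60` degrees with J- or K-ends, and the order-4 points `y` of `S(V)` satisfy
(S1) `e, g ∈ T y` only outside the closed pair arcs, (S2) no swaps, (S3) `f y ≠ {e, g}`.
Then the sum of the four state values `{i, e, g}`, `i = a, b, p, q`, is `1`.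
-/

open Set Filter Topology Metric

noncomputable section

namespace Vale.Agent.P032.H460

open Vale.Agent.P032.Six Vale.Agent.P032.S5.H767 Vale.Agent.P032.H695 Vale.Agent.P032.Carr
open Vale.Agent.P032.H180 (f2)
open Vale.Agent.P032.S5 (eps)

/-! ### rotations -/

/-- rotation about `z`, angle in units of `60` degrees -/
def rot (z : ℂ) (r : ℝ) (y : ℂ) : ℂ := z + (y - z) * cis (r * (Real.pi / 3))

theorem cis_add460 (s t : ℝ) : cis (s + t) = cis s * cis t := by
  unfold cis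
  rw [← Complex.exp_add]
  congr 1
  push_cast
  ring

theorem norm_cis460 (t : ℝ) : ‖cis t‖ = 1 := Complex.norm_exp_ofReal_mul_I t

theorem rot_pt (z : ℂ) (u r : ℝ) : rot z r (pt z u) = pt z (u + r) := by
  unfold rot pt
  rw [add_sub_cancel_left, ← cis_add460]
  congr 2
  ring

theorem rot_zero (z y : ℂ) : rot z 0 y = y := by
  unfold rot cis
  simp

theorem dist_rot {z y : ℂ} (hy : dist y z = 1) (r : ℝ) : dist (rot z r y) z = 1 := by
  unfold rot
  rw [dist_eq_norm, add_sub_cancel_left, norm_mul, norm_cis460, mul_one, ← dist_eq_norm]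
  exact hy

theorem dist_rot_self {z y : ℂ} (hy : dist y z = 1) (r : ℝ) : dist (rot z r y) y ≤ 2 * |r| := by
  unfold rot
  have e : z + (y - z) * cis (r * (Real.pi / 3)) - y =
      (y - z) * (Complex.exp (Complex.I * ((r * (Real.pi / 3) : ℝ) : ℂ)) - 1) := by
    unfold cis
    rw [mul_comm Complex.I]
    ring
  rw [dist_eq_norm, e, norm_mul, ← dist_eq_norm, hy, one_mul]
  refine Real.norm_exp_I_mul_ofReal_sub_one_le.trans ?_
  rw [Real.norm_eq_abs, abs_mul, abs_of_pos (show (0 : ℝ) < Real.pi / 3 by positivity), mul_comm]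
  have h1 := Real.pi_le_four
  have h2 := abs_nonneg r
  have h3 : Real.pi / 3 ≤ 2 := by linarith
  exact mul_le_mul_of_nonneg_right h3 h2

theorem exists_rot {z y y' : ℂ} (hy : dist y z = 1) (hy' : dist y' z = 1) :
    ∃ r : ℝ, rot z r y = y' ∧ |r| ≤ 3 / 2 * dist y y' := by
  have hpi := Real.pi_pos
  have hyz : y - z ≠ 0 := by
    intro h
    rw [dist_eq_norm, h, norm_zero] at hy
    exact zero_ne_one hy
  obtain ⟨w, hw⟩ : ∃ w, w = (y' - z) / (y - z) := ⟨_, rfl⟩
  have hwn : ‖w‖ = 1 := by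
    rw [hw, norm_div, ← dist_eq_norm, ← dist_eq_norm, hy, hy', div_one]
  have hcis : cis (Complex.arg w) = w := by
    unfold cis
    have := Complex.norm_mul_exp_arg_mul_I w
    rwa [hwn, Complex.ofReal_one, one_mul] at this
  have hyw : y' = z + (y - z) * w := by
    rw [hw, mul_div_cancel₀ _ hyz]
    ring
  refine ⟨Complex.arg w * 3 / Real.pi, ?_, ?_⟩
  · unfold rot
    rw [show Complex.arg w * 3 / Real.pi * (Real.pi / 3) = Complex.arg w by field_simp, hcis]
    exact hyw.symm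
  · have h1 : dist y y' = ‖Complex.exp (Complex.I * (Complex.arg w : ℂ)) - 1‖ := by
      have e : y' - y = (y - z) * (Complex.exp (Complex.I * (Complex.arg w : ℂ)) - 1) := by
        have h2 : Complex.exp (Complex.I * (Complex.arg w : ℂ)) = w := by
          rw [mul_comm]
          exact hcis
        rw [h2]
        linear_combination hyw
      rw [dist_comm, dist_eq_norm, e, norm_mul, ← dist_eq_norm, hy, one_mul]
    have h3 : |Complex.arg w| ≤ Real.pi := Complex.abs_arg_le_pi w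
    have h4 : |Complex.arg w / 2| = |Complex.arg w| / 2 := by
      rw [abs_div, abs_of_pos (show (0 : ℝ) < 2 by norm_num)]
    have h5 := Real.mul_le_sin (x := |Complex.arg w / 2|) (abs_nonneg _) (by rw [h4]; linarith)
    have h6 : |Real.sin (Complex.arg w / 2)| = Real.sin |Complex.arg w / 2| :=
      Real.abs_sin_eq_sin_abs_of_abs_le_pi (by rw [h4]; linarith)
    rw [h1, Complex.norm_exp_I_mul_ofReal_sub_one, Real.norm_eq_abs, abs_mul,
      abs_of_pos (show (0 : ℝ) < 2 by norm_num), h6]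
    rw [h4] at h5 ⊢
    have h7 : 2 / Real.pi * (|Complex.arg w| / 2) = |Complex.arg w| / Real.pi := by
      field_simp
    rw [h7] at h5
    rw [abs_div, abs_mul, abs_of_pos (show (0 : ℝ) < 3 by norm_num), abs_of_pos hpi]
    have h8 : |Complex.arg w| * 3 / Real.pi = 3 * (|Complex.arg w| / Real.pi) := by ring
    rw [h8]
    linarith

/-! ### the scale -/

variable {K : ℂ → Set (Fin 6)} {Z : Set ℂ} {f : ℂ → Set (Fin 6)} {δ δ₀ : ℝ} {x : ℂ}

/-- exceptional points near the circle are near exceptional points of the circle -/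
theorem exists_scale460 (H : Hm K Z f δ₀) (x : ℂ) {η : ℝ} (hη : 0 < η) : ∃ δ > 0, ∀ z ∈ Z,
    (∃ y, dist y x = 1 ∧ dist y z ≤ δ) → ∃ z' ∈ Z, dist z' x = 1 ∧ dist z z' < η := by
  have hc : IsCompact (Z \ thickening η (Z ∩ sphere x 1)) := H.compact.diff isOpen_thickening
  have hd : Disjoint (Z \ thickening η (Z ∩ sphere x 1)) (sphere x 1) := by
    rw [Set.disjoint_left]
    intro z hz hzS
    exact hz.2 (self_subset_thickening hη _ ⟨hz.1, hzS⟩)
  obtain ⟨ε, hε, hdis⟩ := hd.exists_thickenings hc isClosed_sphere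
  refine ⟨ε / 2, by linarith, ?_⟩
  rintro z hz ⟨y, hy, hyz⟩
  by_contra hcon
  have h1 : z ∈ Z \ thickening η (Z ∩ sphere x 1) := by
    refine ⟨hz, fun h => ?_⟩
    rw [mem_thickening_iff] at h
    obtain ⟨z', hz', hd'⟩ := h
    exact hcon ⟨z', hz'.1, mem_sphere.1 hz'.2, hd'⟩
  have h2 : y ∈ thickening ε (Z \ thickening η (Z ∩ sphere x 1)) := by
    rw [mem_thickening_iff]
    exact ⟨z, h1, by linarith⟩
  have h3 : y ∈ thickening ε (sphere x 1) := self_subset_thickening hε _ (mem_sphere.2 hy)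
  exact Set.disjoint_left.1 hdis h2 h3

theorem apF_far460 {u : ℂ} (hu : ∀ z ∈ Z, δ < dist u z) : apF758 K Z f δ u = K u := by
  ext i
  constructor
  · rintro (⟨hi, -⟩ | ⟨z', hz', h1, -⟩)
    · exact hi
    · exact absurd h1 (not_le.2 (hu z' hz'))
  · exact fun hi => Or.inl ⟨hi, fun z hz => (hu z hz).le⟩

/-! ### the ring -/

variable {U : Fin 6 → Set ℂ} {T : ℂ → Set (Fin 6)} {V : ℂ} {a b p q e g : Fin 6}

/-- **The ring in the full apex cover** : from any winding form of the three-letter cover -/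
theorem ringF460 (C : Ctr U T V a b p q e g) (H : Hm T Z f δ₀)
    (hf : ∀ y ∈ Z, dist y V = 1 → f y ≠ {e, g}) {v : ZMod 2}
    (hring : ∃ δ > 0, ∀ (n : ℕ) (s : ℕ → ℝ) (lab : ℕ → Fin 3), s n = s 0 + 6 →
      (∀ k < n, |s k - s (k + 1)| < δ) →
      (∀ k ≤ n, lab k ∈ Q3 T V a b p q e g (pt V (s k))) → lab n = lab 0 →
      ∑ k ∈ Finset.range n, f2 (lab k) (lab (k + 1)) = v) :
    ∃ δ > 0, δ ≤ δ₀ / 2 ∧ ∀ᶠ j : ℕ in atTop, ∑ k ∈ Finset.range (6 * 2 ^ j),
      eps (can (apF758 T Z f δ) e g a (S5.pt V j (2 ^ j) k))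
        (can (apF758 T Z f δ) e g a (S5.pt V j (2 ^ j) (k + 1))) {e, g} = v := by
  have hn := C.nd
  simp only [List.nodup_cons, List.mem_cons, List.not_mem_nil, or_false, not_or, List.nodup_nil,
    and_true, not_false_eq_true] at hn
  obtain ⟨⟨ab, ap, aq, ae, ag⟩, ⟨bp, bq, be, bg⟩, ⟨pq, pe, pg⟩, ⟨qe, qg⟩, eg⟩ := hn
  obtain ⟨δ₁, hδ₁, hring⟩ := hring
  have hδ₀ := H.pos
  obtain ⟨ρ, hρ, hρ1, hρ0⟩ : ∃ ρ : ℝ, 0 < ρ ∧ ρ ≤ δ₁ / 8 ∧ ρ ≤ δ₀ / 16 :=
    ⟨min (δ₁ / 8) (δ₀ / 16), lt_min (by linarith) (by linarith), min_le_left _ _, min_le_right _ _⟩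
  obtain ⟨δ₂, hδ₂, hsc⟩ := exists_scale460 H V (show 0 < ρ / 4 by linarith)
  obtain ⟨δ, hδ, hδ2, hδρ, hδ0⟩ : ∃ δ : ℝ, 0 < δ ∧ δ ≤ δ₂ ∧ δ ≤ ρ / 4 ∧ δ ≤ δ₀ / 2 := by
    refine ⟨min δ₂ (ρ / 4), lt_min hδ₂ (by linarith), min_le_left _ _, min_le_right _ _, ?_⟩
    have := min_le_right δ₂ (ρ / 4)
    linarith
  refine ⟨δ, hδ, hδ0, ?_⟩
  -- pointwise labels
  have claim : ∀ y, dist y V = 1 → ∃ (l : Fin 3) (r : ℝ), |r| < ρ ∧
      l ∈ Q3 T V a b p q e g (rot V r y) ∧
      (can (apF758 T Z f δ) e g a y = e → l = 0) ∧ (can (apF758 T Z f δ) e g a y = g → l = 1) ∧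
      (l = 0 → can (apF758 T Z f δ) e g a y ≠ e → ∃ z' ∈ Z, dist y z' ≤ ρ ∧ g ∉ T z') ∧
      (l = 1 → can (apF758 T Z f δ) e g a y ≠ g → ∃ z' ∈ Z, dist y z' ≤ ρ ∧ e ∉ T z') := by
    intro y hy
    have ce := can_e (K := apF758 T Z f δ) (y := y) (Ne.symm eg) ae
    have cg := can_g (K := apF758 T Z f δ) (y := y) (Ne.symm eg) ag
    by_cases hn : ∃ z ∈ Z, dist y z ≤ δ
    · obtain ⟨z, hz, hyz⟩ := hn
      obtain ⟨z', hz', hz'V, hzz'⟩ := hsc z hz ⟨y, hy, hyz.trans hδ2⟩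
      obtain ⟨eT, ef⟩ := H.const z' hz' z hz (by linarith)
      have hyz' : dist y z' ≤ ρ / 2 := by
        have := dist_triangle y z z'
        linarith
      obtain ⟨r, hr, hr'⟩ := exists_rot hy hz'V
      have hrρ : |r| < ρ := by linarith
      have hin : ∀ i, i ∈ apF758 T Z f δ y → i ∈ T z' := by
        rintro i (⟨hi, -⟩ | ⟨z₂, hz₂, hyz₂, hi, -⟩)
        · exact H.sub z' hz' y (by linarith) hi
        · rw [← (H.const z' hz' z₂ hz₂ (by
            have := dist_triangle_left z₂ z' y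
            linarith)).1]
          exact hi
      have hout : ∀ i, i ∉ apF758 T Z f δ y → i ∈ T z' → i ∈ f z' := by
        intro i hi hiT
        by_contra hif
        exact hi (Or.inr ⟨z, hz, hyz, by rw [eT]; exact hiT, by rw [ef]; exact hif⟩)
      by_cases he : e ∈ apF758 T Z f δ y
      · refine ⟨0, r, hrρ, by rw [hr]; exact Q3_zero.2 ⟨hz'V, hin e he⟩, fun _ => rfl,
          fun h => absurd he (cg.1 h).1, fun _ h => absurd (ce.2 he) h,
          fun h => absurd h (by decide)⟩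
      · by_cases hg : g ∈ apF758 T Z f δ y
        · refine ⟨1, r, hrρ, by rw [hr]; exact Q3_one.2 ⟨hz'V, hin g hg⟩,
            fun h => absurd (ce.1 h) he, fun _ => rfl, fun h => absurd h (by decide),
            fun _ h => absurd (cg.2 ⟨he, hg⟩) h⟩
        · by_cases hcl : z' ∈ closure (Ex T V {a, b}) ∨ z' ∈ closure (Ex T V {p, q})
          · exact ⟨2, r, hrρ, by rw [hr]; exact Q3_two.2 hcl, fun h => absurd (ce.1 h) he,
              fun h => absurd (cg.1 h).2 hg, fun h => absurd h (by decide),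
              fun h => absurd h (by decide)⟩
          · push Not at hcl
            have hnot : ¬ (e ∈ T z' ∧ g ∈ T z') := by
              rintro ⟨h1, h2⟩
              refine hf z' hz' hz'V ?_
              symm
              refine Set.eq_of_subset_of_ncard_le ?_ ?_ (Set.toFinite _)
              · rintro i (rfl | rfl)
                · exact hout _ he h1
                · exact hout _ hg h2
              · rw [H.two z' hz', Set.ncard_pair eg]
            obtain ⟨l, hl⟩ := C.cover hz'V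
            have h3 := Lt_col C.irr hl
            fin_cases l
            · have h4 : e ∈ T z' := h3 rfl
              exact ⟨0, r, hrρ, by rw [hr]; exact Q3_zero.2 ⟨hz'V, h4⟩, fun _ => rfl,
                fun h => absurd (cg.1 h).2 hg,
                fun _ _ => ⟨z', hz', by linarith, fun h5 => hnot ⟨h4, h5⟩⟩,
                fun h => absurd h (by decide)⟩
            · have h4 : g ∈ T z' := h3 rfl
              exact ⟨1, r, hrρ, by rw [hr]; exact Q3_one.2 ⟨hz'V, h4⟩,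
                fun h => absurd (ce.1 h) he, fun _ => rfl, fun h => absurd h (by decide),
                fun _ _ => ⟨z', hz', by linarith, fun h5 => hnot ⟨h5, h4⟩⟩⟩
            · exact absurd hl hcl.1
            · exact absurd hl hcl.2
    · push Not at hn
      have hfar := apF_far460 (K := T) (f := f) hn
      rw [hfar] at ce cg
      by_cases he : e ∈ T y
      · exact ⟨0, 0, by rw [abs_zero]; exact hρ, by rw [rot_zero]; exact Q3_zero.2 ⟨hy, he⟩,
          fun _ => rfl, fun h => absurd he (cg.1 h).1, fun _ h => absurd (ce.2 he) h,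
          fun h => absurd h (by decide)⟩
      · by_cases hg : g ∈ T y
        · exact ⟨1, 0, by rw [abs_zero]; exact hρ, by rw [rot_zero]; exact Q3_one.2 ⟨hy, hg⟩,
            fun h => absurd (ce.1 h) he, fun _ => rfl, fun h => absurd h (by decide),
            fun _ h => absurd (cg.2 ⟨he, hg⟩) h⟩
        · refine ⟨2, 0, by rw [abs_zero]; exact hρ, ?_, fun h => absurd (ce.1 h) he,
            fun h => absurd (cg.1 h).2 hg, fun h => absurd h (by decide),
            fun h => absurd h (by decide)⟩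
          rw [rot_zero]
          obtain ⟨l, hl⟩ := C.cover hy
          have h3 := Lt_col C.irr hl
          fin_cases l
          · exact absurd (h3 rfl) he
          · exact absurd (h3 rfl) hg
          · exact Q3_two.2 (Or.inl hl)
          · exact Q3_two.2 (Or.inr hl)
  choose! lb r hr hQ h0 h1 h2 h3 using claim
  have hlp : ∀ y y', dist y' V = 1 → dist y y' ≤ δ₀ / 8 → ∀ z' ∈ Z, dist y z' ≤ ρ → ∀ i,
      i ∈ T (rot V (r y') y') → i ∈ T z' := by
    intro y y' hy' hyy z' hz' hyz i hi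
    refine H.sub z' hz' _ ?_ hi
    have t1 := dist_rot_self hy' (r y')
    have t2 := dist_triangle (rot V (r y') y') y' z'
    have t3 := dist_triangle_left y' z' y
    have t4 := hr y' hy'
    linarith
  filter_upwards [(tendsto_order.1 S5.tendsto_mesh).2 _
    (lt_min (show 0 < δ₁ / 2 by linarith) (show 0 < δ₀ / 8 by linarith))] with j hj
  have hj1 : (3 : ℝ) / 2 ^ j < δ₁ / 2 := hj.trans_le (min_le_left _ _)
  have hj0 : (3 : ℝ) / 2 ^ j < δ₀ / 8 := hj.trans_le (min_le_right _ _)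
  have hj2 : (0 : ℝ) < 2 ^ j := by positivity
  have H1 : ((6 * 2 ^ j : ℕ) : ℝ) / 2 ^ j + r (S5.pt V j (2 ^ j) (6 * 2 ^ j)) =
      ((0 : ℕ) : ℝ) / 2 ^ j + r (S5.pt V j (2 ^ j) 0) + 6 := by
    rw [S5.pt_per]
    push_cast
    field_simp
    ring
  have H2 : ∀ k : ℕ, k < 6 * 2 ^ j → |(k : ℝ) / 2 ^ j + r (S5.pt V j (2 ^ j) k) -
      (((k + 1 : ℕ) : ℝ) / 2 ^ j + r (S5.pt V j (2 ^ j) (k + 1)))| < δ₁ := by
    intro k _
    have e0 := hr _ (S5.pt_ring V j k)
    have e1 := hr _ (S5.pt_ring V j (k + 1))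
    have e2 : (k : ℝ) / 2 ^ j + r (S5.pt V j (2 ^ j) k) -
        (((k + 1 : ℕ) : ℝ) / 2 ^ j + r (S5.pt V j (2 ^ j) (k + 1))) =
        -(1 / 2 ^ j) + r (S5.pt V j (2 ^ j) k) - r (S5.pt V j (2 ^ j) (k + 1)) := by
      push_cast
      ring
    have e3 : (1 : ℝ) / 2 ^ j ≤ 3 / 2 ^ j := div_le_div_of_nonneg_right (by norm_num) hj2.le
    have e4 : (0 : ℝ) < 1 / 2 ^ j := by positivity
    rw [e2]
    rw [abs_lt] at e0 e1 ⊢
    constructor <;> linarith [e0.1, e0.2, e1.1, e1.2]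
  have H3 : ∀ k : ℕ, k ≤ 6 * 2 ^ j → lb (S5.pt V j (2 ^ j) k) ∈ Q3 T V a b p q e g
      (pt V ((k : ℝ) / 2 ^ j + r (S5.pt V j (2 ^ j) k))) := by
    intro k _
    rw [← rot_pt, ← s5pt460]
    exact hQ _ (S5.pt_ring V j k)
  have H4 : lb (S5.pt V j (2 ^ j) (6 * 2 ^ j)) = lb (S5.pt V j (2 ^ j) 0) := by
    rw [S5.pt_per]
  have hR := hring (6 * 2 ^ j) (fun k => (k : ℝ) / 2 ^ j + r (S5.pt V j (2 ^ j) k))
    (fun k => lb (S5.pt V j (2 ^ j) k)) H1 H2 H3 H4
  rw [← hR]
  refine Finset.sum_congr rfl fun k _ => ?_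
  have e0 := S5.pt_ring V j k
  have e1 := S5.pt_ring V j (k + 1)
  have hd : dist (S5.pt V j (2 ^ j) (k + 1)) (S5.pt V j (2 ^ j) k) ≤ 3 / 2 ^ j :=
    S5.dist_cell V le_rfl (Or.inl rfl) (Or.inr rfl)
  rw [eps_pair460 eg]
  unfold H180.f2
  refine if_congr ⟨?_, ?_⟩ rfl rfl
  · rintro (⟨c1, c2⟩ | ⟨c1, c2⟩)
    · exact Or.inl ⟨h0 _ e0 c1, h1 _ e1 c2⟩
    · exact Or.inr ⟨h1 _ e0 c1, h0 _ e1 c2⟩
  · rintro (⟨c1, c2⟩ | ⟨c1, c2⟩)
    · left
      constructor
      · by_contra hcon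
        obtain ⟨z', hz', hd', hg⟩ := h2 _ e0 c1 hcon
        have m1 := hQ _ e1
        rw [c2] at m1
        exact hg (hlp _ _ e1 (by rw [dist_comm]; linarith) z' hz' hd' g (Q3_one.1 m1).2)
      · by_contra hcon
        obtain ⟨z', hz', hd', hg⟩ := h3 _ e1 c2 hcon
        have m1 := hQ _ e0
        rw [c1] at m1
        exact hg (hlp _ _ e0 (by linarith) z' hz' hd' e (Q3_zero.1 m1).2)
    · right
      constructor
      · by_contra hcon
        obtain ⟨z', hz', hd', hg⟩ := h3 _ e0 c1 hcon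
        have m1 := hQ _ e1
        rw [c2] at m1
        exact hg (hlp _ _ e1 (by rw [dist_comm]; linarith) z' hz' hd' e (Q3_zero.1 m1).2)
      · by_contra hcon
        obtain ⟨z', hz', hd', hg⟩ := h2 _ e1 c2 hcon
        have m1 := hQ _ e0
        rw [c1] at m1
        exact hg (hlp _ _ e0 (by linarith) z' hz' hd' g (Q3_one.1 m1).2)

end Vale.Agent.P032.H460

namespace Vale.Agent.P032.Six

open Vale.Agent.P032.S5.H767 Vale.Agent.P032.Carr Vale.Agent.P032.H460 Vale.Agent.P032.H695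

variable {U : Fin 6 → Set ℂ} {T : ℂ → Set (Fin 6)} {f : ℂ → Set (Fin 6)} {Z : Set ℂ} {c : ℂ}
  {R δ₀ : ℝ}

/-- the four-term sum from any winding form of the three-letter cover -/
theorem DSt.sum_four_ring (D : DSt U T Z f c R δ₀) {V : ℂ} (hV : dist V c ≤ R - 1)
    {a b p q e g : Fin 6} (C : Ctr U T V a b p q e g)
    (hf : ∀ y, dist y V = 1 → 4 ≤ (T y).ncard → f y ≠ {e, g}) {v : ZMod 2}
    (hring : ∃ δ > 0, ∀ (n : ℕ) (s : ℕ → ℝ) (lab : ℕ → Fin 3), s n = s 0 + 6 →
      (∀ k < n, |s k - s (k + 1)| < δ) →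
      (∀ k ≤ n, lab k ∈ Q3 T V a b p q e g (pt V (s k))) → lab n = lab 0 →
      ∑ k ∈ Finset.range n, H180.f2 (lab k) (lab (k + 1)) = v) :
    lamT T Z f δ₀ a V e g + lamT T Z f δ₀ b V e g + lamT T Z f δ₀ p V e g +
      lamT T Z f δ₀ q V e g = v := by
  have hn := C.nd
  simp only [List.nodup_cons, List.mem_cons, List.not_mem_nil, or_false, not_or, List.nodup_nil,
    and_true, not_false_eq_true] at hn
  obtain ⟨⟨ab, ap, aq, ae, ag⟩, ⟨bp, bq, be, bg⟩, ⟨pq, pe, pg⟩, ⟨qe, qg⟩, eg⟩ := hn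
  obtain ⟨δ, hδ, hδ', hW⟩ := ringF460 C D.hm (fun y hy hyV => hf y hyV (D.zs.four y hy)) hring
  refine D.sum_four_full hV C.nd (fun i hi => ?_) hδ hδ' (eg_can ae ag) hW.frequently
  rw [C.pal]
  exact hi

/-- **X-B (B3), general form.** The four-term sum at a quasi-full centre with J- or K-ends;
the order-4 points of the circle satisfy (S1) `htr`, (S2) `hsw`, (S3) `hf` -/
theorem DSt.sum_four_gen (D : DSt U T Z f c R δ₀) {V : ℂ} (hV : dist V c ≤ R - 1)
    {a b p q e g : Fin 6} (C : Ctr U T V a b p q e g) {u0 α : ℝ} (hα0 : 0 < α) (hα1 : α ≤ 1)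
    (hX : ∀ t ∈ Ioo (0 : ℝ) α, e ∉ T (pt V (u0 + t)) ∧ g ∉ T (pt V (u0 + t)))
    (hl : PEnd T e g (pt V u0) (pt V (u0 - 1)))
    (hr : PEnd T e g (pt V (u0 + α)) (pt V (u0 + α + 1)))
    (hXonly : ∀ t ∈ Ioo α (6 : ℝ), pt V (u0 + t) ∉ closure (Ex T V {a, b}))
    (hback : ∀ t ∈ Icc (0 : ℝ) α, pt V (u0 + 3 + t) ∉ closure (Ex T V {p, q}))
    (htr : ∀ y, dist y V = 1 → e ∈ T y → g ∈ T y → y ∉ closure (Ex T V {a, b}) ∧
        y ∉ closure (Ex T V {p, q}))
    (hsw : ∀ y y', dist y V = 1 → dist y' V = 1 → dist y y' = 1 → y ∉ closure (Ex T V {a, b}) →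
        y' ∉ closure (Ex T V {a, b}) → ¬ Swp T V a b p q e g y y')
    (hf : ∀ y, dist y V = 1 → 4 ≤ (T y).ncard → f y ≠ {e, g}) :
    lamT T Z f δ₀ a V e g + lamT T Z f δ₀ b V e g + lamT T Z f δ₀ p V e g +
      lamT T Z f δ₀ q V e g = 1 :=
  D.sum_four_ring hV C hf (ring_q3K C hα0 hα1 hX hl hr hXonly hback htr hsw)

end Vale.Agent.P032.Six
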