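import Vale.Agent.P032.H460.Far11
import Vale.Agent.P032.H460.KApex
import Vale.Agent.P032.H533.Two22

/-!
# P032: hypothesis `hB` of `no_22` from a far J-partner

`hB460` : at a centre `w` with complementary ends `v`, `q`, each the only point of its palette, whose
points of order at least four have the palette of `w`, and with exactly one such point `y`, further
than `1` from `v` and `q`, the exact arcs at `v`, `q` end in plain ends of the other network, which is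
an `Is22`.
-/

open Set Filter Topology Metric

noncomputable section

namespace Vale.Agent.P032.H460

open Vale.Agent.P032.Six Vale.Agent.P032.S5.H767 Vale.Agent.P032.S5.H349 Vale.Agent.P032.S5.H450
open Vale.Agent.P032.S5.H358 Vale.Agent.P032.H597 Vale.Agent.P032.H533

variable {U : Fin 6 → Set ℂ} {T : ℂ → Set (Fin 6)} {w v q : ℂ}

theorem hB460 (h : Irr U T) (w0 : ∀ y, dist y w = 1 → (T y).ncard ≤ 3 ∨ T y = T w)
    (O : Is11 T w v q)
    (hJ : ∃ y, dist y w = 1 ∧ T y = T w ∧ (∀ x, dist x w = 1 → T x = T w → x = y) ∧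
      1 < dist y v ∧ 1 < dist y q) :
    (∃ y, dist y w = 1 ∧ 4 ≤ (T y).ncard) ∧
      ∃ v1 v2 q1 q2, AA T w v v1 ∧ AA T w q q1 ∧ Is22 T w v1 v2 q1 q2 := by
  obtain ⟨y, hy, Ty, huy, hyv, hyq⟩ := hJ
  have hw4 : (T w).ncard = 4 := O.ev.card_z
  refine ⟨⟨y, hy, by rw [Ty, hw4]⟩, ?_⟩
  have hwq : T w ∩ T q = T w \ T v := by rw [O.c]; rfl
  obtain ⟨a, b, hab, hTab⟩ := Set.ncard_eq_two.1 O.ev.card_i
  obtain ⟨c, d, hcd, hTcd⟩ := Set.ncard_eq_two.1 O.ev.card_s
  have D : DPt T w a b c d := O.ev.dpt h hTab hTcd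
  obtain ⟨e, f, hnd⟩ := exists_free460 D
  have C := ctr_of_dpt h D hnd
  -- names
  have main : ∀ e f : Fin 6, [a, b, c, d, e, f].Nodup → T v = {a, b, e} →
      ∃ v1 v2 q1 q2, AA T w v v1 ∧ AA T w q q1 ∧ Is22 T w v1 v2 q1 q2 := by
    intro e f hnd Tv
    have C := ctr_of_dpt h D hnd
    have Tq : T q = {c, d, f} := by rw [O.c, Tv, compl_abe C]
    obtain ⟨V, V', Q, Q', TV, TV', TQ, TQ', hVV, hQQ, hVA, hQA, hVJ, hQJ, -, -, -⟩ :=
      geo11 h D hnd w0 O.ev.dist Tv O.eq.dist Tq (O.ev.anti813 h O.eq O.c)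
        (fun v' h1 h2 => O.uv v' h1 (by rw [h2, Tv])) (fun q' h1 h2 => O.uq q' h1 (by rw [h2, Tq]))
        hy Ty huy hyv hyq
    have cY : ({a, b, f} : Set (Fin 6))ᶜ = {c, d, e} := compl_abe C.swapEF
    have iY : T w ∩ {a, b, f} = {a, b} := inter_abe C.swapEF
    have iYc : T w ∩ {c, d, e} = {c, d} := inter_abe C.swapAC
    have dY : T w \ {a, b, f} = {c, d} := by rw [← iYc, ← cY]; rfl
    have dYc : T w \ {c, d, e} = {a, b} := by
      rw [← iY, ← cY, Set.sdiff_compl]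
    have eJ : ∀ {p u : ℂ}, AJ T w p u → ∃ o, OEnd T w u o := by
      rintro p u ⟨o, l, -, -, -, h5, -⟩
      exact ⟨_, h5⟩
    refine ⟨V, V', Q, Q', hVA, hQA, ⟨⟨eJ hVA.aj460, ?_⟩, ⟨eJ hVJ, ?_⟩, ⟨eJ hQA.aj460, ?_⟩,
      ⟨eJ hQJ, ?_⟩, by rw [TV', TV], by rw [TQ', TQ], by rw [TQ, TV, cY], hVV, hQQ⟩⟩
    · rw [TV, dY]; exact D.arc2
    · rw [TV', dY]; exact D.arc2
    · rw [TQ, dYc]; exact D.arc1
    · rw [TQ', dYc]; exact D.arc1
  rcases third_type C O.ev.card_v hTab with h5 | h5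
  · exact main e f hnd h5
  · exact main f e C.swapEF.nd h5

end Vale.Agent.P032.H460
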