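import Vale.Agent.P032.H546.RecG
import Vale.Agent.P032.H460.Cnt
import Vale.Agent.P032.H460.HB

/-!
# P032: the centre with two ends of one palette pair

`exists_word460` : the word of a comp centre, with its list of times.
`far11_460` : one end of each palette: exactly one J-partner, further than one from both ends.
`hB_460` : hypothesis `hB` of `no_22`.
-/

open Set Filter Topology Metric

noncomputable section

namespace Vale.Agent.P032.H460

open Vale.Agent.P032.Six Vale.Agent.P032.S5.H767 Vale.Agent.P032.S5.H349 Vale.Agent.P032.S5.H450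
open Vale.Agent.P032.S5.H358 Vale.Agent.P032.H597 Vale.Agent.P032.H533
open Vale.Agent.P032.H987 Vale.Agent.P032.H546

variable {U : Fin 6 → Set ℂ} {T : ℂ → Set (Fin 6)} {z w v q : ℂ} {a b c d e f : Fin 6}

theorem exists_word460 (S : CzE U T z a b c d e f) {p r : ℝ} (Z : Zn T z a b c d p r)
    (hfin : {y | dist y z = 1 ∧ H987.lb T z a b c d e f y ≠ 0}.Finite) :
    ∃ l, Tms T z a b c d e f p l ∧ Clo (wrd T z a b c d e f p l) := by
  obtain ⟨l, l1, l2, l3, h1⟩ := CzE.clo S Z hfin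
  exact ⟨l, ⟨l1, l2, l3⟩, h1⟩

theorem sV_reverse (w : List ℕ) : sV w.reverse = sV w := by
  unfold sV; rw [List.map_reverse, List.sum_reverse]

theorem sQ_reverse (w : List ℕ) : sQ w.reverse = sQ w := by
  unfold sQ; rw [List.map_reverse, List.sum_reverse]

theorem sJ_reverse (w : List ℕ) : sJ w.reverse = sJ w := by
  unfold sJ; rw [List.map_reverse, List.sum_reverse]

theorem ncard_one460 {P : ℂ → Prop} (hv : P v) (h : ∀ y, P y → y = v) : {y | P y}.ncard = 1 := by
  rw [Set.ncard_eq_one]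
  refine ⟨v, Set.ext fun y => ⟨fun hy => h y hy, fun hy => ?_⟩⟩
  rw [mem_singleton_iff] at hy
  rw [hy]; exact hv

/-- distances of two labelled points of the circle by `farB` -/
theorem Tms.far_of {p : ℝ} {l : List ℝ} (L : Tms T z a b c d e f p l) {t t' : ℕ} {u u' : ℝ}
    {j j' : Fin 6} (h : l[t]? = some u) (h' : l[t']? = some u') :
    farB t j.val t' j'.val = true ↔ 1 < dist (qj z p u j) (qj z p u' j') :=
  farB_iff460 z (L.mem u (List.mem_of_getElem? h)) (L.mem u' (List.mem_of_getElem? h'))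
    (L.lt_iff h h') (L.lt_iff h' h)

/-- **one end of each palette**: exactly one J-partner, far from both ends -/
theorem far11_460 (h : Irr U T) (w0 : ∀ y, dist y w = 1 → (T y).ncard ≤ 3 ∨ T y = T w)
    (h5 : ∀ x y, dist x y = 1 → 5 ≤ (T x).ncard → 4 ≤ (T y).ncard → False)
    (O : Is11 T w v q) :
    ∃ y, dist y w = 1 ∧ T y = T w ∧ (∀ x, dist x w = 1 → T x = T w → x = y) ∧
      1 < dist y v ∧ 1 < dist y q := by
  obtain ⟨a, b, c, d, e, f, p, p', r, r', -, Z, S, hfin, Tv, Tq⟩ := inst460 h w0 h5 O.ev O.eq O.c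
  obtain ⟨l, L, hclo⟩ := exists_word460 S Z hfin
  have hV : sV (wrd T w a b c d e f p l) = 1 := by
    rw [sV_eq460 S L]
    exact ncard_one460 (P := fun y => dist y w = 1 ∧ T y = {a, b, e}) ⟨O.ev.dist, Tv⟩
      fun y hy => O.uv y hy.1 (by rw [hy.2, Tv])
  have hQ : sQ (wrd T w a b c d e f p l) = 1 := by
    rw [sQ_eq460 S L]
    exact ncard_one460 (P := fun y => dist y w = 1 ∧ T y = {c, d, f}) ⟨O.eq.dist, Tq⟩
      fun y hy => O.uq y hy.1 (by rw [hy.2, Tq])
  have hP := clo_test all11 hclo hV.le hQ.le fun _ _ _ => rfl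
  unfold P11 at hP
  rw [if_pos ⟨by rw [sV_reverse]; exact hV, by rw [sQ_reverse]; exact hQ⟩, Bool.and_eq_true,
    sJ_reverse, beq_iff_eq, sJ_eq460 S L, Set.ncard_eq_one, List.all_eq_true] at hP
  obtain ⟨⟨y, hy⟩, hall⟩ := hP
  have hmem : ∀ x, x ∈ {x | dist x w = 1 ∧ T x = T w} ↔ x = y := fun x => by
    rw [hy]; exact mem_singleton_iff
  obtain ⟨hyw, hTy⟩ := (hmem y).2 rfl
  refine ⟨y, hyw, hTy, fun x h1 h2 => (hmem x).1 ⟨h1, h2⟩, ?_⟩
  -- the label of `y`
  have hy0 : H987.lb T w a b c d e f y ≠ 0 := by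
    intro h1
    have h2 := (isJ_iff S y).2 hTy
    rw [h1] at h2
    exact absurd h2 (by decide)
  have hyJ : (H987.lb T w a b c d e f y).val = 5 ∨ (H987.lb T w a b c d e f y).val = 6 := by
    have h2 := (isJ_iff S y).2 hTy
    revert h2
    generalize H987.lb T w a b c d e f y = k
    revert k
    decide
  obtain ⟨t, u, j, ht, ey, hte⟩ := L.exists_end hyw hy0
  have key : ∀ x, dist x w = 1 → H987.lb T w a b c d e f x ≠ 0 →
      (H987.lb T w a b c d e f x).val ≠ 5 → (H987.lb T w a b c d e f x).val ≠ 6 →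
      1 < dist y x := by
    intro x hx hx0 hx5 hx6
    obtain ⟨t', u', j', ht', ex, hte'⟩ := L.exists_end hx hx0
    have h3 := hall _ hte
    rw [if_pos hyJ, List.all_eq_true] at h3
    have h4 := h3 _ hte'
    rw [Bool.or_eq_true, Bool.or_eq_true, beq_iff_eq, beq_iff_eq] at h4
    rcases h4 with (h4 | h4) | h4
    · exact absurd h4 hx5
    · exact absurd h4 hx6
    · rw [ey, ex]; exact (L.far_of ht ht').1 h4
  constructor
  · refine key v O.ev.dist ?_ ?_ ?_ <;> rw [lb_V460 S Tv] <;> split_ifs <;> decide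
  · refine key q O.eq.dist ?_ ?_ ?_ <;> rw [lb_Q460 S Tq] <;> split_ifs <;> decide

/-- **hypothesis `hB` of `no_22`** -/
theorem hB_460 (h : Irr U T) (w0 : ∀ y, dist y w = 1 → (T y).ncard ≤ 3 ∨ T y = T w)
    (h5 : ∀ x y, dist x y = 1 → 5 ≤ (T x).ncard → 4 ≤ (T y).ncard → False)
    (O : Is11 T w v q) :
    (∃ y, dist y w = 1 ∧ 4 ≤ (T y).ncard) ∧
      ∃ v1 v2 q1 q2, AA T w v v1 ∧ AA T w q q1 ∧ Is22 T w v1 v2 q1 q2 :=
  hB460 h w0 O (far11_460 h w0 h5 O)

end Vale.Agent.P032.H460
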