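import Vale.Agent.P032.H460.ParQ
import Vale.Agent.P032.H383.Alt

/-!
# P032: the apex at a K-neighbour when the apex is a harmless point

`z` a two-pair point with the pairs `{a, b}`, `{c, d}`, `v ∈ S(z)` a two-pair point with the pairs
`{a, c}`, `{b, e}`, `p` a common point of `S(z)`, `S(v)` which is harmless; near `v` the circle
`S(z)` is exact `ab` outside `D(p)` and not exact `ab` inside `D(p)`: then `f ∈ T p`.
-/

open Set Filter Topology Metric

noncomputable section

namespace Vale.Agent.P032.H460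

open Vale.Agent.P032.Six Vale.Agent.P032.S5.H767 Vale.Agent.P032.H695
open Vale.Agent.P032.H383 (br br_zero br_cont dist_br br_tendsto br_within)

/-! ### sectors -/

section Sector

variable {k : ℕ} {U : Fin k → Set ℂ} {T : ℂ → Set (Fin k)}

/-- inner product -/
def ipr (x y : ℂ) : ℝ := x.re * y.re + x.im * y.im

theorem sq_dist460 (w o : ℂ) : dist w o ^ 2 = ipr (w - o) (w - o) := by
  rw [dist_eq_norm, Complex.sq_norm, Complex.normSq_apply]
  rfl

theorem sq_seg460 (w x o : ℂ) (t : ℝ) : dist (w + t * (x - w)) o ^ 2 =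
    dist w o ^ 2 + 2 * t * ipr (x - w) (w - o) + t ^ 2 * dist x w ^ 2 := by
  rw [sq_dist460, sq_dist460, sq_dist460]
  simp only [ipr, Complex.sub_re, Complex.sub_im, Complex.add_re, Complex.add_im, Complex.mul_re,
    Complex.mul_im, Complex.ofReal_re, Complex.ofReal_im]
  ring

/-- a segment leaving a disc -/
theorem seg_out460 {w x o : ℂ} (hw : 1 ≤ dist w o) (hi : 0 < ipr (x - w) (w - o)) {t : ℝ}
    (ht : 0 < t) : 1 < dist (w + t * (x - w)) o := by
  have h1 := sq_seg460 w x o t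
  have h2 : 0 < 2 * t * ipr (x - w) (w - o) := by positivity
  have h3 : 0 ≤ t ^ 2 * dist x w ^ 2 := by positivity
  have h4 : 1 ≤ dist w o ^ 2 := by nlinarith
  by_contra hcon
  push Not at hcon
  have h5 : dist (w + t * (x - w)) o ^ 2 ≤ 1 := by
    have := dist_nonneg (x := w + t * (x - w)) (y := o)
    nlinarith
  linarith

/-- a segment into a disc -/
theorem seg_in460 {w x o : ℂ} (hw : dist w o ≤ 1) (hx : dist x o < 1) {t : ℝ}
    (ht : 0 < t) (ht1 : t ≤ 1) : dist (w + t * (x - w)) o < 1 := by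
  have h1 : w + t * (x - w) - o = ((1 - t : ℝ) : ℂ) * (w - o) + (t : ℂ) * (x - o) := by
    push_cast; ring
  rw [dist_eq_norm, h1]
  refine lt_of_le_of_lt (norm_add_le _ _) ?_
  rw [norm_mul, norm_mul, Complex.norm_real, Complex.norm_real, Real.norm_eq_abs, Real.norm_eq_abs,
    abs_of_nonneg (by linarith : (0 : ℝ) ≤ 1 - t), abs_of_pos ht, ← dist_eq_norm, ← dist_eq_norm]
  nlinarith

/-- along a segment whose points (the first one excepted) have one of the two colours `i`, `j` only,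
a colour absent at the first point is absent at the last one -/
theorem seg_col460 (h : Irr U T) {w x : ℂ} {i j : Fin k}
    (hs : ∀ t : ℝ, 0 < t → t ≤ 1 → T (w + t * (x - w)) ⊆ {i, j} ∧
      ¬ (i ∈ T (w + t * (x - w)) ∧ j ∈ T (w + t * (x - w)))) (hj : j ∉ T w) : j ∉ T x := by
  have hc : Continuous fun t : ℝ => w + (t : ℂ) * (x - w) := by fun_prop
  obtain ⟨g, hg⟩ : ∃ g : ℝ → ℂ, g = fun t : ℝ => w + (t : ℂ) * (x - w) := ⟨_, rfl⟩
  have hgc : Continuous g := by rw [hg]; exact hc
  have g0 : g 0 = w := by rw [hg]; simp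
  have g1 : g 1 = x := by rw [hg]; simp
  have hgt : ∀ t, g t = w + (t : ℂ) * (x - w) := fun t => by rw [hg]
  intro hjx
  have o1 : IsOpen {t : ℝ | j ∉ T (g t)} := (h.closed j).isOpen_compl.preimage hgc
  have o2 : IsOpen {t : ℝ | T (g t) ⊆ {j}} := by
    have : IsOpen {y : ℂ | T y ⊆ {j}} := by
      rw [isOpen_iff_mem_nhds]
      intro y hy
      have hy : T y ⊆ {j} := hy
      filter_upwards [h.nhd y] with y' hy'
      exact hy'.trans hy
    exact this.preimage hgc
  have hcase : ∀ t : ℝ, 0 < t → t ≤ 1 → j ∈ T (g t) → T (g t) ⊆ {j} := by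
    intro t ht ht1 hjt l hl
    obtain ⟨k1, k2⟩ := hs t ht ht1
    rw [← hgt t] at k1 k2
    rcases k1 hl with h1 | h1
    · exact absurd ⟨h1 ▸ hl, hjt⟩ k2
    · exact h1
  obtain ⟨t, ht, h1, h2⟩ := isPreconnected_Icc (a := (0 : ℝ)) (b := 1)
    {t : ℝ | j ∉ T (g t)} {t : ℝ | T (g t) ⊆ {j}} o1 o2 (fun t ht => by
      by_cases hjt : j ∈ T (g t)
      · right
        rcases ht.1.eq_or_lt with h4 | h4
        · rw [← h4, g0] at hjt
          exact absurd hjt hj
        · exact hcase t h4 ht.2 hjt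
      · exact Or.inl hjt)
    ⟨0, ⟨le_rfl, zero_le_one⟩, by
      show j ∉ T (g 0)
      rw [g0]; exact hj⟩
    ⟨1, ⟨zero_le_one, le_rfl⟩, by
      refine hcase 1 one_pos le_rfl ?_
      rw [g1]; exact hjx⟩
  obtain ⟨l, hl⟩ := h.ne (g t)
  have h4 : l = j := h2 hl
  exact h1 (h4 ▸ hl)

/-- **a sector carries one colour**: outside `D(o₁)`, outside (`σ = 1`) or inside (`σ = -1`) `D(o₂)`
near `p` -/
theorem sector460 (h : Irr U T) {p o₁ o₂ u : ℂ} {i j : Fin k} {σ : ℝ} (hσ : σ = 1 ∨ σ = -1)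
    (h1 : dist p o₁ = 1) (h2 : dist p o₂ = 1) (hu1 : 0 < ipr u (p - o₁))
    (hu2 : 0 < σ * ipr u (p - o₂))
    (hsec : ∀ᶠ w in 𝓝 p, 1 < dist w o₁ → 0 < σ * (dist w o₂ - 1) →
      T w ⊆ {i, j} ∧ ¬ (i ∈ T w ∧ j ∈ T w))
    (hi : ∃ᶠ w in 𝓝 p, 1 ≤ dist w o₁ ∧ 0 ≤ σ * (dist w o₂ - 1) ∧ j ∉ T w)
    (hj : ∃ᶠ w in 𝓝 p, 1 ≤ dist w o₁ ∧ 0 ≤ σ * (dist w o₂ - 1) ∧ i ∉ T w) : False := by
  obtain ⟨r, hr, hball⟩ := Metric.eventually_nhds_iff_ball.1 hsec
  -- the point `x`
  have hx0 : ∃ s : ℝ, 0 < s ∧ p + s * u ∈ ball p r ∧ 1 < dist (p + s * u) o₁ ∧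
      0 < σ * (dist (p + s * u) o₂ - 1) := by
    have e1 : ∀ᶠ s : ℝ in 𝓝[>] 0, p + s * u ∈ ball p r := by
      have : Tendsto (fun s : ℝ => p + s * u) (𝓝 0) (𝓝 p) := by
        have hc : Continuous fun s : ℝ => p + (s : ℂ) * u := by fun_prop
        have := hc.tendsto 0
        simpa using this
      exact (this.mono_left nhdsWithin_le_nhds).eventually (ball_mem_nhds p hr)
    have sq : ∀ (s : ℝ) (o : ℂ), dist p o = 1 → dist (p + s * u) o ^ 2 =
        1 + s * (2 * ipr u (p - o) + s * ipr u u) := by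
      intro s o ho
      have h5 : ipr (p - o) (p - o) = 1 := by rw [← sq_dist460, ho]; norm_num
      rw [sq_dist460, ← h5]
      simp only [ipr, Complex.sub_re, Complex.sub_im, Complex.add_re, Complex.add_im,
        Complex.mul_re, Complex.mul_im, Complex.ofReal_re, Complex.ofReal_im]
      ring
    have lim : ∀ x : ℝ, 0 < x → ∀ᶠ s : ℝ in 𝓝[>] 0, 0 < 2 * x + s * ipr u u ∧
        0 < 2 * x - s * ipr u u := by
      intro x hx
      have t1 : Tendsto (fun s : ℝ => 2 * x + s * ipr u u) (𝓝[>] 0) (𝓝 (2 * x)) := by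
        have hc : Continuous fun s : ℝ => 2 * x + s * ipr u u := by fun_prop
        have := hc.tendsto 0
        simp only [zero_mul, add_zero] at this
        exact this.mono_left nhdsWithin_le_nhds
      have t2 : Tendsto (fun s : ℝ => 2 * x - s * ipr u u) (𝓝[>] 0) (𝓝 (2 * x)) := by
        have hc : Continuous fun s : ℝ => 2 * x - s * ipr u u := by fun_prop
        have := hc.tendsto 0
        simp only [zero_mul, sub_zero] at this
        exact this.mono_left nhdsWithin_le_nhds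
      filter_upwards [t1.eventually (lt_mem_nhds (by linarith : 0 < 2 * x)),
        t2.eventually (lt_mem_nhds (by linarith : 0 < 2 * x))] with s a1 a2
      exact ⟨a1, a2⟩
    obtain ⟨s, s1, s2, s3, s4⟩ := (e1.and ((lim _ hu1).and ((lim _ hu2).and
      (self_mem_nhdsWithin : ∀ᶠ s : ℝ in 𝓝[>] 0, s ∈ Ioi 0)))).exists
    have s4 : 0 < s := s4
    refine ⟨s, s4, s1, ?_, ?_⟩
    · have h5 := sq s o₁ h1
      have h6 : 0 < s * (2 * ipr u (p - o₁) + s * ipr u u) := mul_pos s4 s2.1
      by_contra hcon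
      push Not at hcon
      have := dist_nonneg (x := p + s * u) (y := o₁)
      nlinarith
    · have h5 := sq s o₂ h2
      have hnn := dist_nonneg (x := p + s * u) (y := o₂)
      rcases hσ with rfl | rfl
      · have h6 : 0 < s * (2 * ipr u (p - o₂) + s * ipr u u) := by
          refine mul_pos s4 ?_
          have := s3.1
          linarith
        by_contra hcon
        push Not at hcon
        nlinarith
      · have h6 : 0 < s * (2 * (-1 * ipr u (p - o₂)) - s * ipr u u) := mul_pos s4 s3.2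
        by_contra hcon
        push Not at hcon
        nlinarith
  obtain ⟨s, hs, hxb, hx1, hx2⟩ := hx0
  obtain ⟨x, hx⟩ : ∃ x : ℂ, x = p + s * u := ⟨_, rfl⟩
  rw [← hx] at hxb hx1 hx2
  -- segments from points near `p`
  have key : ∀ᶠ w in 𝓝 p, 1 ≤ dist w o₁ → 0 ≤ σ * (dist w o₂ - 1) → ∀ t : ℝ, 0 < t → t ≤ 1 →
      T (w + t * (x - w)) ⊆ {i, j} ∧ ¬ (i ∈ T (w + t * (x - w)) ∧ j ∈ T (w + t * (x - w))) := by
    have c1 : Continuous fun w : ℂ => ipr (x - w) (w - o₁) := by
      unfold ipr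
      fun_prop
    have c2 : Continuous fun w : ℂ => σ * ipr (x - w) (w - o₂) := by
      unfold ipr
      fun_prop
    have e1 : ipr (x - p) (p - o₁) = s * ipr u (p - o₁) := by
      rw [hx]
      simp only [ipr, Complex.sub_re, Complex.sub_im, Complex.add_re, Complex.add_im,
        Complex.mul_re, Complex.mul_im, Complex.ofReal_re, Complex.ofReal_im]
      ring
    have e2 : σ * ipr (x - p) (p - o₂) = s * (σ * ipr u (p - o₂)) := by
      rw [hx]
      simp only [ipr, Complex.sub_re, Complex.sub_im, Complex.add_re, Complex.add_im,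
        Complex.mul_re, Complex.mul_im, Complex.ofReal_re, Complex.ofReal_im]
      ring
    have f1 : ∀ᶠ w in 𝓝 p, 0 < ipr (x - w) (w - o₁) :=
      c1.continuousAt.eventually (lt_mem_nhds
        (show 0 < ipr (x - p) (p - o₁) by rw [e1]; exact mul_pos hs hu1))
    have f2 : ∀ᶠ w in 𝓝 p, 0 < σ * ipr (x - w) (w - o₂) :=
      c2.continuousAt.eventually (lt_mem_nhds
        (show 0 < σ * ipr (x - p) (p - o₂) by rw [e2]; exact mul_pos hs hu2))
    filter_upwards [f1, f2, ball_mem_nhds p hr] with w k1 k2 k3 k4 k5 t ht ht1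
    refine hball _ ?_ (seg_out460 k4 k1 ht) ?_
    · have := (convex_ball p r).add_smul_sub_mem k3 hxb ⟨ht.le, ht1⟩
      simpa [Complex.real_smul] using this
    · rcases hσ with rfl | rfl
      · have := seg_out460 (w := w) (x := x) (o := o₂) (by linarith) (by linarith) ht
        linarith
      · have := seg_in460 (w := w) (x := x) (o := o₂) (by linarith) (by linarith) ht ht1
        linarith
  have hjx : j ∉ T x := by
    obtain ⟨w, ⟨k1, k2, k3⟩, k4⟩ := (hi.and_eventually key).exists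
    exact seg_col460 h (k4 k1 k2) k3
  have hix : i ∉ T x := by
    obtain ⟨w, ⟨k1, k2, k3⟩, k4⟩ := (hj.and_eventually key).exists
    refine seg_col460 h (i := j) (j := i) (fun t ht ht1 => ?_) k3
    obtain ⟨m1, m2⟩ := k4 k1 k2 t ht ht1
    exact ⟨by rwa [Set.pair_comm], fun m3 => m2 ⟨m3.2, m3.1⟩⟩
  obtain ⟨l, hl⟩ := h.ne x
  rcases (hball x hxb hx1 hx2).1 hl with h4 | h4
  · exact hix (h4 ▸ hl)
  · exact hjx (h4 ▸ hl)

/-- the colours of a half branch inside `D(q)` are near `q` inside the closed disc -/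
theorem trans_in460 (h : Irr U T) {c p q : ℂ} {i : Fin k} {τ : ℝ}
    (hbr : ∀ᶠ s : ℝ in 𝓝[>] 0, i ∈ T (br c p τ s))
    (hin : ∀ᶠ s : ℝ in 𝓝[>] 0, dist (br c p τ s) q < 1) :
    ∀ᶠ w in 𝓝 q, i ∈ T w → dist w p ≤ 1 := by
  obtain ⟨δ, hδ, hδ'⟩ := mem_nhdsGT_iff_exists_Ioo_subset.1 (hbr.and hin)
  rw [mem_Ioi] at hδ
  have hp : i ∈ T p := by
    have h1 : p ∈ closure {x | i ∈ T x} := mem_closure_of_tendsto (br_tendsto c p τ) hbr
    rwa [(h.closed i).closure_eq] at h1
  have h1 := h.sweep_in (Q := (fun s : ℝ => br c p τ s) '' Icc 0 (δ / 2)) (z := p) (v := q)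
    (x := br c p τ (δ / 2)) (i := i)
    (isPreconnected_Icc.image _ (br_cont c p τ).continuousOn)
    ⟨0, ⟨le_rfl, by linarith⟩, br_zero c p τ⟩ ⟨δ / 2, ⟨by linarith, le_rfl⟩, rfl⟩ (by
      rintro _ ⟨s, hs, rfl⟩
      rcases hs.1.eq_or_lt with h4 | h4
      · rw [← h4]
        show i ∈ T (br c p τ 0)
        rw [br_zero]; exact hp
      · exact (hδ' ⟨h4, by linarith [hs.2]⟩).1)
    (hδ' ⟨by linarith, by linarith⟩).2
  filter_upwards [h1] with w hw hi
  rw [dist_comm]; exact hw hi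

/-- the colours of a half branch outside `D(q)` are near `q` outside the open disc -/
theorem trans_out460 (h : Irr U T) {c p q : ℂ} {i : Fin k} {τ : ℝ}
    (hbr : ∀ᶠ s : ℝ in 𝓝[>] 0, i ∈ T (br c p τ s))
    (hout : ∀ᶠ s : ℝ in 𝓝[>] 0, 1 < dist (br c p τ s) q) :
    ∀ᶠ w in 𝓝 q, i ∈ T w → 1 ≤ dist w p := by
  obtain ⟨δ, hδ, hδ'⟩ := mem_nhdsGT_iff_exists_Ioo_subset.1 (hbr.and hout)
  rw [mem_Ioi] at hδ
  have hp : i ∈ T p := by
    have h1 : p ∈ closure {x | i ∈ T x} := mem_closure_of_tendsto (br_tendsto c p τ) hbr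
    rwa [(h.closed i).closure_eq] at h1
  have h1 := h.sweep_out (Q := (fun s : ℝ => br c p τ s) '' Icc 0 (δ / 2)) (z := p) (v := q)
    (x := br c p τ (δ / 2)) (i := i)
    (isPreconnected_Icc.image _ (br_cont c p τ).continuousOn)
    ⟨0, ⟨le_rfl, by linarith⟩, br_zero c p τ⟩ ⟨δ / 2, ⟨by linarith, le_rfl⟩, rfl⟩ (by
      rintro _ ⟨s, hs, rfl⟩
      rcases hs.1.eq_or_lt with h4 | h4
      · rw [← h4]
        show i ∈ T (br c p τ 0)
        rw [br_zero]; exact hp
      · exact (hδ' ⟨h4, by linarith [hs.2]⟩).1)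
    (hδ' ⟨by linarith, by linarith⟩).2
  filter_upwards [h1] with w hw hi
  rw [dist_comm]; exact hw hi

end Sector

/-! ### the apex -/

variable {U : Fin 6 → Set ℂ} {T : ℂ → Set (Fin 6)} {z v p : ℂ} {a b c d e f : Fin 6}
  {A : Set (Fin 6)}

theorem card2_460 {i j : Fin 6} : ({i, j} : Set (Fin 6)).ncard ≤ 2 := by
  have := Set.ncard_insert_le i ({j} : Set (Fin 6))
  rw [Set.ncard_singleton] at this
  exact this

theorem card3_460 {i j l : Fin 6} : ({i, j, l} : Set (Fin 6)).ncard ≤ 3 := by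
  have := Set.ncard_insert_le i ({j, l} : Set (Fin 6))
  have := card2_460 (i := j) (j := l)
  omega

/-- both colours of the pair of a harmless point: at least four colours -/
theorem harm_four460 (h : Irr U T) (H : Harm T p A) : ∀ᶠ w in 𝓝 p, A ⊆ T w → 4 ≤ (T w).ncard := by
  obtain ⟨q, hq, hJ⟩ := H.arc
  have hqA : T q = A := hJ.self_of_nhdsWithin hq
  have h1 := h.no_layer hq
  rwa [hqA] at h1

/-- inner products in a unit triangle -/
theorem ipr_tri460 {x y z : ℂ} (hxz : dist x z = 1) (hyz : dist y z = 1) (hxy : dist x y = 1) :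
    ipr (x - z) (y - z) = 1 / 2 := by
  have h1 : ipr (x - z) (x - z) = 1 := by rw [← sq_dist460, hxz]; norm_num
  have h2 : ipr (y - z) (y - z) = 1 := by rw [← sq_dist460, hyz]; norm_num
  have h3 : ipr (x - y) (x - y) = 1 := by rw [← sq_dist460, hxy]; norm_num
  simp only [ipr, Complex.sub_re, Complex.sub_im] at h1 h2 h3 ⊢
  nlinarith

/-- **the configuration `T p = {b, c, d, e}`** -/
theorem kill5_460 (h : Irr U T) (hz : DPt T z a b c d) (hnd : [a, b, c, d, e, f].Nodup)
    (hv : DPt T v a c b e) (hvz : dist v z = 1) (hpz : dist p z = 1) (hpv : dist p v = 1)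
    (H : Harm T p {b, c}) (hT : T p = {b, c, d, e})
    (hout : ∀ᶠ w in 𝓝[sphere z 1] v, 1 < dist w p → b ∈ T w)
    (hin : ∀ᶠ w in 𝓝[sphere z 1] v, dist w p < 1 → e ∈ T w) : False := by
  have hn := hnd
  simp only [List.nodup_cons, List.mem_cons, List.not_mem_nil, or_false, not_or, List.nodup_nil,
    and_true, not_false_eq_true] at hn
  obtain ⟨⟨ab, ac, ad, ae, af⟩, ⟨bc, bd, be, bf⟩, ⟨cd, ce, cf⟩, ⟨de, df⟩, ef⟩ := hn
  have hzv : dist z v = 1 := by rw [dist_comm]; exact hvz
  have hzp : dist z p = 1 := by rw [dist_comm]; exact hpz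
  have hvp : dist v p = 1 := by rw [dist_comm]; exact hpv
  have Cz := ctr_of h hz hnd
  have hnd' : [a, c, b, e, d, f].Nodup := by
    simp only [List.nodup_cons, List.mem_cons, List.not_mem_nil, or_false, not_or, List.nodup_nil,
      and_true, not_false_eq_true]
    exact ⟨⟨ac, ab, ae, ad, af⟩, ⟨Ne.symm bc, ce, cd, cf⟩, ⟨be, bd, bf⟩, ⟨Ne.symm de, ef⟩, df⟩
  have Cv := ctr_of h hv hnd'
  have hfp : f ∉ T p := by rw [hT]; simp [Ne.symm bf, Ne.symm cf, Ne.symm df, Ne.symm ef]
  have hap : a ∉ T p := by rw [hT]; simp [ab, ac, ad, ae]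
  have hbrk := harm_four460 h H
  -- near `p` : `b`, `c` are not together in at most three colours
  have hbc : ∀ᶠ w in 𝓝 p, (T w).ncard ≤ 3 → ¬ (b ∈ T w ∧ c ∈ T w) := by
    filter_upwards [hbrk] with w hw h3 hbc
    have := hw (by rintro i (rfl | rfl); exacts [hbc.1, hbc.2])
    omega
  -- `S(z)` at `v`
  obtain ⟨t1, ht1, -, o1, i1⟩ := branch_sides (q := z) (y := v) (z := p) hvz hvp
    (fun e1 => by rw [e1, dist_self] at hzp; exact zero_ne_one hzp)
    (fun e1 => (tri (z := z) (y := v) (y' := p) hvz hpz).2 e1)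
  have F1 : ∀ᶠ w in 𝓝 p, b ∈ T w → 1 ≤ dist w v := by
    refine trans_out460 h (c := z) (τ := t1) ?_ o1
    filter_upwards [(br_within hzv t1).eventually hout, o1] with s k1 k2
    exact k1 k2
  have F2 : ∀ᶠ w in 𝓝 p, e ∈ T w → dist w v ≤ 1 := by
    refine trans_in460 h (c := z) (τ := -t1) ?_ i1
    filter_upwards [(br_within hzv (-t1)).eventually hin, i1] with s k1 k2
    exact k1 k2
  -- `S(v)` at `z`
  obtain ⟨X, Y, hXY, t2, ht2, b1, b2⟩ := h.side_split hz hzv
  have lv : ∀ τ : ℝ, ∀ᶠ t : ℝ in 𝓝[>] 0, d ∈ T (v + (z - v) * cis (τ * t)) ∨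
      (a ∈ T (v + (z - v) * cis (τ * t)) ∧ c ∈ T (v + (z - v) * cis (τ * t))) := by
    intro τ
    have h1 := (br_within hvz τ).eventually (letters460 Cv z)
    have hez : e ∉ T z := by rw [hz.pal]; simp [Ne.symm ae, Ne.symm be, Ne.symm ce, Ne.symm de]
    have hfz : f ∉ T z := by rw [hz.pal]; simp [Ne.symm af, Ne.symm bf, Ne.symm cf, Ne.symm df]
    filter_upwards [h1] with t ht
    rcases ht.2 with k1 | k1 | k1 | k1
    · exact Or.inl k1
    · exact absurd (ht.1 k1) hfz
    · exact Or.inr (pair_sub460 k1)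
    · exact absurd (ht.1 (pair_sub460 k1).2) hez
  have hc1 : ∀ᶠ t : ℝ in 𝓝[>] 0, c ∈ T (v + (z - v) * cis (t2 * t)) := by
    rcases hXY with ⟨rfl, rfl⟩ | ⟨rfl, rfl⟩
    · filter_upwards [b1, lv t2] with t k1 k2
      rcases k2 with k2 | k2
      · rcases k1 k2 with k3 | k3
        · exact absurd k3 (Ne.symm ad)
        · exact absurd k3 (Ne.symm cd)
      · exact k2.2
    · exfalso
      obtain ⟨t, k1, k2⟩ := (b2.and (lv (-t2))).exists
      rcases k2 with k2 | k2
      · rcases k1 k2 with k3 | k3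
        · exact bd (show d = b from k3).symm
        · exact cd (show d = c from k3).symm
      · rcases k1 k2.1 with k3 | k3
        · exact ab k3
        · exact ac k3
  have hd1 : ∀ᶠ t : ℝ in 𝓝[>] 0, d ∈ T (v + (z - v) * cis (-t2 * t)) := by
    rcases hXY with ⟨rfl, rfl⟩ | ⟨rfl, rfl⟩
    · filter_upwards [b2, lv (-t2)] with t k1 k2
      rcases k2 with k2 | k2
      · exact k2
      · rcases k1 k2.1 with k3 | k3
        · exact absurd k3 ab
        · exact absurd k3 ad
    · exfalso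
      obtain ⟨t, k1, k2⟩ := (b2.and (lv (-t2))).exists
      rcases k2 with k2 | k2
      · rcases k1 k2 with k3 | k3
        · exact bd (show d = b from k3).symm
        · exact cd (show d = c from k3).symm
      · rcases k1 k2.1 with k3 | k3
        · exact ab k3
        · exact ac k3
  obtain ⟨t3, ht3, -, o3, i3⟩ := branch_sides (q := v) (y := z) (z := p) hzv hzp
    (fun e1 => by rw [e1, dist_self] at hvp; exact zero_ne_one hvp)
    (fun e1 => (tri (z := v) (y := z) (y' := p) hzv hpv).2 e1)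
  -- branches of `S(z)` and `S(v)` at `p`
  obtain ⟨t4, ht4, -, o4, i4⟩ := branch_sides (q := z) (y := p) (z := v) hpz hpv
    (fun e1 => by rw [e1, dist_self] at hzv; exact zero_ne_one hzv)
    (fun e1 => (tri (z := z) (y := p) (y' := v) hpz hvz).2 e1)
  obtain ⟨t5, ht5, -, o5, i5⟩ := branch_sides (q := v) (y := p) (z := z) hpv hpz
    (fun e1 => by rw [e1, dist_self] at hvz; exact zero_ne_one hvz)
    (fun e1 => (tri (z := v) (y := p) (y' := z) hpv hzv).2 e1)
  -- a point of `S(z)` outside `D(v)`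
  have Wi : ∀ σ : ℝ, ∃ᶠ w in 𝓝 p, 1 ≤ dist w v ∧ 0 ≤ σ * (dist w z - 1) ∧ b ∉ T w := by
    intro σ
    have e1 : ∀ᶠ s : ℝ in 𝓝[>] 0, 1 ≤ dist (br z p t4 s) v ∧
        0 ≤ σ * (dist (br z p t4 s) z - 1) ∧ b ∉ T (br z p t4 s) := by
      filter_upwards [o4, (br_tendsto z p t4).eventually F2, (br_tendsto z p t4).eventually hbc,
        (br_within hzp t4).eventually (letters460 Cz p)] with s k1 k2 k3 k4
      have k1 : 1 < dist (br z p t4 s) v := k1
      have hd : dist (br z p t4 s) z = 1 := dist_br hzp t4 s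
      refine ⟨k1.le, by rw [hd]; simp, fun hb => ?_⟩
      have he : e ∉ T (br z p t4 s) := fun he => by
        have := k2 he
        linarith
      have hcd : c ∈ T (br z p t4 s) := by
        rcases k4.2 with k5 | k5 | k5 | k5
        · exact absurd k5 he
        · exact absurd (k4.1 k5) hfp
        · exact absurd (k4.1 (pair_sub460 k5).1) hap
        · exact (pair_sub460 k5).1
      refine k3 ?_ ⟨hb, hcd⟩
      refine (Set.ncard_le_ncard (t := {b, c, d}) (fun i hi => ?_) (Set.toFinite _)).trans card3_460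
      have := k4.1 hi
      rw [hT] at this
      rcases this with rfl | rfl | rfl | h6
      · simp
      · simp
      · simp
      · rw [mem_singleton_iff] at h6
        exact absurd (h6 ▸ hi) he
    exact (br_tendsto z p t4).frequently e1.frequently
  -- points of `S(v)` without `d`
  have Wj : ∀ (σ τ : ℝ), (∀ᶠ s : ℝ in 𝓝[>] 0, 0 < σ * (dist (br v p τ s) z - 1)) →
      (∀ᶠ w in 𝓝 p, d ∈ T w → σ * (dist w z - 1) ≤ 0) →
      ∃ᶠ w in 𝓝 p, 1 ≤ dist w v ∧ 0 ≤ σ * (dist w z - 1) ∧ c ∉ T w := by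
    intro σ τ hs hd
    have e1 : ∀ᶠ s : ℝ in 𝓝[>] 0, 1 ≤ dist (br v p τ s) v ∧
        0 ≤ σ * (dist (br v p τ s) z - 1) ∧ c ∉ T (br v p τ s) := by
      filter_upwards [hs, (br_tendsto v p τ).eventually hd, (br_tendsto v p τ).eventually hbc,
        (br_within hvp τ).eventually (letters460 Cv p)] with s k1 k2 k3 k4
      have hdv : dist (br v p τ s) v = 1 := dist_br hvp τ s
      refine ⟨hdv.ge, k1.le, fun hc => ?_⟩
      have hd : d ∉ T (br v p τ s) := fun hd => by
        have := k2 hd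
        linarith
      have hb : b ∈ T (br v p τ s) := by
        rcases k4.2 with k5 | k5 | k5 | k5
        · exact absurd k5 hd
        · exact absurd (k4.1 k5) hfp
        · exact absurd (k4.1 (pair_sub460 k5).1) hap
        · exact (pair_sub460 k5).1
      refine k3 ?_ ⟨hb, hc⟩
      refine (Set.ncard_le_ncard (t := {b, c, e}) (fun i hi => ?_) (Set.toFinite _)).trans card3_460
      have := k4.1 hi
      rw [hT] at this
      rcases this with rfl | rfl | rfl | h6
      · simp
      · simp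
      · exact absurd hi hd
      · rw [mem_singleton_iff] at h6
        rw [h6]; simp
    exact (br_tendsto v p τ).frequently e1.frequently
  -- the sector
  have Sec : ∀ σ : ℝ, (∀ᶠ w in 𝓝 p, d ∈ T w → σ * (dist w z - 1) ≤ 0) →
      ∀ᶠ w in 𝓝 p, 1 < dist w v → 0 < σ * (dist w z - 1) →
        T w ⊆ {c, b} ∧ ¬ (c ∈ T w ∧ b ∈ T w) := by
    intro σ hd
    filter_upwards [hd, F2, hbc, h.nhd p] with w k1 k2 k3 k4 k5 k6
    have hsub : T w ⊆ {c, b} := by
      intro i hi
      have := k4 hi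
      rw [hT] at this
      rcases this with rfl | rfl | rfl | h6
      · simp
      · simp
      · have := k1 hi
        linarith
      · rw [mem_singleton_iff] at h6
        have := k2 (h6 ▸ hi)
        linarith
    refine ⟨hsub, fun h7 => k3 ?_ ⟨h7.2, h7.1⟩⟩
    refine (Set.ncard_le_ncard hsub (Set.toFinite _)).trans ?_
    have := card2_460 (i := c) (j := b)
    omega
  have hip1 := ipr_tri460 hpv hzv hpz
  have hip2 := ipr_tri460 hpz hvz hpv
  have hip3 : ipr (p - v) (p - v) = 1 := by rw [← sq_dist460, hpv]; norm_num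
  have hip4 : ipr (p - z) (p - z) = 1 := by rw [← sq_dist460, hpz]; norm_num
  have hcase : t2 = t3 ∨ t2 = -t3 := by
    rcases ht2 with rfl | rfl <;> rcases ht3 with rfl | rfl
    · exact Or.inl rfl
    · right; norm_num
    · exact Or.inr rfl
    · exact Or.inl rfl
  rcases hcase with rfl | rfl
  · -- `c` outside, `d` inside
    have F4 : ∀ᶠ w in 𝓝 p, d ∈ T w → (1 : ℝ) * (dist w z - 1) ≤ 0 := by
      filter_upwards [trans_in460 h (c := v) (p := z) (q := p) (τ := -t2) hd1 i3] with w hw hd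
      have := hw hd
      linarith
    refine sector460 h (i := c) (j := b) (o₁ := v) (o₂ := z) (u := (p - v) + (p - z))
      (Or.inl rfl) hpv hpz ?_ ?_ (Sec 1 F4) (Wi 1) (Wj 1 t5 ?_ F4)
    · simp only [ipr, Complex.sub_re, Complex.sub_im, Complex.add_re, Complex.add_im] at *
      nlinarith
    · simp only [ipr, Complex.sub_re, Complex.sub_im, Complex.add_re, Complex.add_im] at *
      nlinarith
    · filter_upwards [o5] with s hs
      have hs : 1 < dist (br v p t5 s) z := hs
      linarith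
  · -- `c` inside, `d` outside
    rw [neg_neg] at hd1
    have F4 : ∀ᶠ w in 𝓝 p, d ∈ T w → (-1 : ℝ) * (dist w z - 1) ≤ 0 := by
      filter_upwards [trans_out460 h (c := v) (p := z) (q := p) (τ := t3) hd1 o3] with w hw hd
      have := hw hd
      linarith
    refine sector460 h (i := c) (j := b) (o₁ := v) (o₂ := z) (u := z - v)
      (Or.inr rfl) hpv hpz ?_ ?_ (Sec (-1) F4) (Wi (-1)) (Wj (-1) (-t5) ?_ F4)
    · simp only [ipr, Complex.sub_re, Complex.sub_im] at *
      nlinarith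
    · simp only [ipr, Complex.sub_re, Complex.sub_im] at *
      nlinarith
    · filter_upwards [i5] with s hs
      have hs : dist (br v p (-t5) s) z < 1 := hs
      linarith

/-- **K-apex rule at a harmless apex** -/
theorem kapexH460 (h : Irr U T) (hz : DPt T z a b c d) (hnd : [a, b, c, d, e, f].Nodup)
    (hv : DPt T v a c b e) (hvz : dist v z = 1) (hpz : dist p z = 1) (hpv : dist p v = 1)
    (H : Harm T p A) (hout : ∀ᶠ w in 𝓝[sphere z 1] v, 1 < dist w p → b ∈ T w)
    (hin : ∀ᶠ w in 𝓝[sphere z 1] v, dist w p < 1 → e ∈ T w) : f ∈ T p := by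
  have hn := hnd
  simp only [List.nodup_cons, List.mem_cons, List.not_mem_nil, or_false, not_or, List.nodup_nil,
    and_true, not_false_eq_true] at hn
  obtain ⟨⟨ab, ac, ad, ae, af⟩, ⟨bc, bd, be, bf⟩, ⟨cd, ce, cf⟩, ⟨de, df⟩, ef⟩ := hn
  have hzv : dist z v = 1 := by rw [dist_comm]; exact hvz
  have hzp : dist z p = 1 := by rw [dist_comm]; exact hpz
  have hvp : dist v p = 1 := by rw [dist_comm]; exact hpv
  have Cz := ctr_of h hz hnd
  have hnd' : [a, c, b, e, d, f].Nodup := by
    simp only [List.nodup_cons, List.mem_cons, List.not_mem_nil, or_false, not_or, List.nodup_nil,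
      and_true, not_false_eq_true]
    exact ⟨⟨ac, ab, ae, ad, af⟩, ⟨Ne.symm bc, ce, cd, cf⟩, ⟨be, bd, bf⟩, ⟨Ne.symm de, ef⟩, df⟩
  have Cv := ctr_of h hv hnd'
  by_contra hf
  have hall : ∀ i : Fin 6, i = a ∨ i = b ∨ i = c ∨ i = d ∨ i = e ∨ i = f := Cz.all
  have zp := hz.pal
  have vp := hv.pal
  have za : a ∈ T z := by rw [zp]; simp
  have zb : b ∈ T z := by rw [zp]; simp
  have zc : c ∈ T z := by rw [zp]; simp
  have zd : d ∈ T z := by rw [zp]; simp
  have va : a ∈ T v := by rw [vp]; simp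
  have vb : b ∈ T v := by rw [vp]; simp
  have vc : c ∈ T v := by rw [vp]; simp
  have ve : e ∈ T v := by rw [vp]; simp
  have ze : e ∉ T z := by rw [zp]; simp [Ne.symm ae, Ne.symm be, Ne.symm ce, Ne.symm de]
  have vd : d ∉ T v := by rw [vp]; simp [Ne.symm ad, Ne.symm cd, Ne.symm bd, de]
  have zf : f ∉ T z := by rw [zp]; simp [Ne.symm af, Ne.symm bf, Ne.symm cf, Ne.symm df]
  have vf : f ∉ T v := by rw [vp]; simp [Ne.symm af, Ne.symm bf, Ne.symm cf, Ne.symm ef]
  have hbrk := harm_four460 h H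
  obtain ⟨A1, A2, hA12, hA⟩ := Set.ncard_eq_two.1 H.cardA
  have hA1 : A1 ∈ A := by rw [hA]; simp
  have hA2 : A2 ∈ A := by rw [hA]; simp
  -- five colours do not fit
  have five : ∀ X : Fin 6, X ∉ T p → X ≠ f → ∀ i, i ≠ X → i ≠ f → i ∈ T p := by
    intro X hX hXf i hiX hif
    by_contra hip
    have h1 : T p ⊆ (({X, f, i} : Finset (Fin 6))ᶜ : Finset (Fin 6)) := by
      intro j hj
      rw [Finset.mem_coe, Finset.mem_compl]
      simp only [Finset.mem_insert, Finset.mem_singleton, not_or]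
      exact ⟨fun e1 => hX (e1 ▸ hj), fun e1 => hf (e1 ▸ hj), fun e1 => hip (e1 ▸ hj)⟩
    have h2 := Set.ncard_le_ncard h1 (Set.toFinite _)
    rw [H.card, Set.ncard_coe_finset, Finset.card_compl] at h2
    have h3 : ({X, f, i} : Finset (Fin 6)).card = 3 := by
      rw [Finset.card_insert_of_notMem, Finset.card_insert_of_notMem, Finset.card_singleton]
      · simp [Ne.symm hif]
      · simp [hXf, Ne.symm hiX]
    rw [h3] at h2
    norm_num at h2
  have four : ∃ X : Fin 6, X ∉ T p ∧ X ≠ f := by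
    by_contra hcon
    push Not at hcon
    have h1 : ((({f} : Finset (Fin 6))ᶜ : Finset (Fin 6)) : Set (Fin 6)) ⊆ T p := by
      intro j hj
      rw [Finset.mem_coe, Finset.mem_compl, Finset.mem_singleton] at hj
      by_contra hjp
      exact hj (hcon j hjp)
    have h2 := Set.ncard_le_ncard h1 (Set.toFinite _)
    rw [H.card, Set.ncard_coe_finset, Finset.card_compl, Finset.card_singleton] at h2
    norm_num at h2
  obtain ⟨X, hXp, hXf⟩ := four
  have hp := five X hXp hXf
  -- near `z` and near `v` on `S(p)`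
  have nz : ∀ᶠ w in 𝓝[sphere p 1] z, T w ⊆ T z ∧ (X ∉ T w → A ⊆ T w) := by
    filter_upwards [mem_nhdsWithin_of_mem_nhds (h.nhd z), self_mem_nhdsWithin] with w h1 h2
    refine ⟨h1, fun h3 => H.h1 w h2 fun i hi => hp i (fun e1 => h3 (e1 ▸ hi))
      (fun e1 => zf (e1 ▸ h1 hi))⟩
  have nv : ∀ᶠ w in 𝓝[sphere p 1] v, T w ⊆ T v ∧ (X ∉ T w → A ⊆ T w) := by
    filter_upwards [mem_nhdsWithin_of_mem_nhds (h.nhd v), self_mem_nhdsWithin] with w h1 h2
    refine ⟨h1, fun h3 => H.h1 w h2 fun i hi => hp i (fun e1 => h3 (e1 ▸ hi))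
      (fun e1 => vf (e1 ▸ h1 hi))⟩
  have Az : (X ∈ T z → X ∈ T v) → A ⊆ T z := by
    intro hX
    by_contra hcon
    have hall : ∀ᶠ w in 𝓝[sphere p 1] z, X ∈ T w := by
      filter_upwards [nz] with w h1
      by_contra h2
      exact hcon ((h1.2 h2).trans h1.1)
    have hXz : X ∈ T z := hall.self_of_nhdsWithin (show z ∈ sphere p 1 from hzp)
    exact apex460 h hvp hzp hzv hall (hX hXz)
  have Av : (X ∈ T v → X ∈ T z) → A ⊆ T v := by
    intro hX
    by_contra hcon
    have hall : ∀ᶠ w in 𝓝[sphere p 1] v, X ∈ T w := by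
      filter_upwards [nv] with w h1
      by_contra h2
      exact hcon ((h1.2 h2).trans h1.1)
    have hXv : X ∈ T v := hall.self_of_nhdsWithin (show v ∈ sphere p 1 from hvp)
    exact apex460 h hzp hvp hvz hall (hX hXv)
  -- `X = e` : the pair is absent at `v`
  have Xe : X ≠ e := by
    rintro rfl
    have h1 : ∀ᶠ w in 𝓝[sphere p 1] z, A ⊆ T w := by
      filter_upwards [nz] with w h1
      exact h1.2 fun h2 => ze (h1.1 h2)
    have h2 : A ⊆ T z := h1.self_of_nhdsWithin (show z ∈ sphere p 1 from hzp)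
    have key : ∀ i ∈ A, i = d := by
      intro i hi
      have h3 : i ∉ T v := fun h4 => apex460 h hvp hzp hzv (h1.mono fun w hw => hw hi) h4
      have h4 := h2 hi
      rw [zp] at h4
      rcases h4 with rfl | rfl | rfl | h4
      exacts [absurd va h3, absurd vb h3, absurd vc h3, h4]
    exact hA12 ((key A1 hA1).trans (key A2 hA2).symm)
  have Xd : X ≠ d := by
    rintro rfl
    have h1 : ∀ᶠ w in 𝓝[sphere p 1] v, A ⊆ T w := by
      filter_upwards [nv] with w h1
      exact h1.2 fun h2 => vd (h1.1 h2)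
    have h2 : A ⊆ T v := h1.self_of_nhdsWithin (show v ∈ sphere p 1 from hvp)
    have key : ∀ i ∈ A, i = e := by
      intro i hi
      have h3 : i ∉ T z := fun h4 => apex460 h hzp hvp hvz (h1.mono fun w hw => hw hi) h4
      have h4 := h2 hi
      rw [vp] at h4
      rcases h4 with rfl | rfl | rfl | h4
      exacts [absurd za h3, absurd zc h3, absurd zb h3, h4]
    exact hA12 ((key A1 hA1).trans (key A2 hA2).symm)
  -- the pair is the rest of `a, b, c`
  have hXabc : X = a ∨ X = b ∨ X = c := by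
    rcases hall X with h1 | h1 | h1 | h1 | h1 | h1
    exacts [Or.inl h1, Or.inr (Or.inl h1), Or.inr (Or.inr h1), absurd h1 Xd, absurd h1 Xe,
      absurd h1 hXf]
  have hXz : X ∈ T z := by rcases hXabc with h1 | h1 | h1 <;> rw [h1] <;> assumption
  have hXv : X ∈ T v := by rcases hXabc with h1 | h1 | h1 <;> rw [h1] <;> assumption
  have hAz := Az fun _ => hXv
  have hAv := Av fun _ => hXz
  have hAsub : ∀ i ∈ A, (i = a ∨ i = b ∨ i = c) ∧ i ≠ X := by
    intro i hi
    refine ⟨?_, fun e1 => hXp (e1 ▸ H.sub hi)⟩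
    have h1 := hAz hi
    have h2 := hAv hi
    rw [zp] at h1
    rcases h1 with h1 | h1 | h1 | h1
    · exact Or.inl h1
    · exact Or.inr (Or.inl h1)
    · exact Or.inr (Or.inr h1)
    · rw [mem_singleton_iff] at h1
      exact absurd (h1 ▸ h2) vd
  have hAeq : ∀ i j : Fin 6, i ≠ j → (∀ l ∈ A, l = i ∨ l = j) → A = {i, j} := by
    intro i j hij hl
    refine Set.eq_of_subset_of_ncard_le (fun l hl' => ?_) ?_ (Set.toFinite _)
    · rcases hl l hl' with h1 | h1
      · exact Or.inl h1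
      · exact Or.inr h1
    · rw [H.cardA, Set.ncard_pair hij]
  have lz := letters460 Cz p
  have lv := letters460 Cv p
  rcases hXabc with rfl | rfl | rfl
  · -- `X = a`
    have hAbc : A = {b, c} := hAeq b c bc fun l hl => by
      obtain ⟨h1, h2⟩ := hAsub l hl
      rcases h1 with h1 | h1 | h1
      exacts [absurd h1 h2, Or.inl h1, Or.inr h1]
    subst hAbc
    refine kill5_460 h hz hnd hv hvz hpz hpv H ?_ hout hin
    symm
    refine Set.eq_of_subset_of_ncard_le ?_ ?_ (Set.toFinite _)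
    · rintro i (rfl | rfl | rfl | rfl)
      exacts [hp _ (Ne.symm ab) bf, hp _ (Ne.symm ac) cf, hp _ (Ne.symm ad) df,
        hp _ (Ne.symm ae) ef]
    · rw [H.card]
      have e1 : ({b, c, d, e} : Set (Fin 6)) = (({b, c, d, e} : Finset (Fin 6)) : Set (Fin 6)) := by
        ext t; simp
      rw [e1, Set.ncard_coe_finset, Finset.card_insert_of_notMem, Finset.card_insert_of_notMem,
        Finset.card_insert_of_notMem, Finset.card_singleton]
      · simp [de]
      · simp [cd, ce]
      · simp [bc, bd, be]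
  · -- `X = b` : the colour `d` on `S(v)`
    have hAac : A = {a, c} := hAeq a c ac fun l hl => by
      obtain ⟨h1, h2⟩ := hAsub l hl
      rcases h1 with h1 | h1 | h1
      exacts [Or.inl h1, absurd h1 h2, Or.inr h1]
    subst hAac
    refine apex460 h hzv hpv hpz (t := d) ?_ zd
    filter_upwards [lv, mem_nhdsWithin_of_mem_nhds hbrk] with w h1 h2
    by_contra hd
    rcases h1.2 with h3 | h3 | h3 | h3
    · exact hd h3
    · exact hf (h1.1 h3)
    · have h4 := h2 h3
      have h5 : T w ⊆ {a, c, e} := by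
        intro i hi
        rcases hall i with rfl | rfl | rfl | rfl | rfl | rfl
        · simp
        · exact absurd (h1.1 hi) hXp
        · simp
        · exact absurd hi hd
        · simp
        · exact absurd (h1.1 hi) hf
      have h6 := Set.ncard_le_ncard h5 (Set.toFinite _)
      have h7 := card3_460 (i := a) (j := c) (l := e)
      omega
    · exact hXp (h1.1 (pair_sub460 h3).1)
  · -- `X = c` : the colour `e` on `S(z)`
    have hAab : A = {a, b} := hAeq a b ab fun l hl => by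
      obtain ⟨h1, h2⟩ := hAsub l hl
      rcases h1 with h1 | h1 | h1
      exacts [Or.inl h1, Or.inr h1, absurd h1 h2]
    subst hAab
    refine apex460 h hvz hpz hpv (t := e) ?_ ve
    filter_upwards [lz, mem_nhdsWithin_of_mem_nhds hbrk] with w h1 h2
    by_contra he
    rcases h1.2 with h3 | h3 | h3 | h3
    · exact he h3
    · exact hf (h1.1 h3)
    · have h4 := h2 h3
      have h5 : T w ⊆ {a, b, d} := by
        intro i hi
        rcases hall i with rfl | rfl | rfl | rfl | rfl | rfl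
        · simp
        · simp
        · exact absurd (h1.1 hi) hXp
        · simp
        · exact absurd hi he
        · exact absurd (h1.1 hi) hf
      have h6 := Set.ncard_le_ncard h5 (Set.toFinite _)
      have h7 := card3_460 (i := a) (j := b) (l := d)
      omega
    · exact hXp (h1.1 (pair_sub460 h3).1)

/-- **J- and K-ends with an apex of order at most three or a harmless apex** -/
theorem JKEnd.pendH460 (h : Irr U T) (hz : DPt T z a b c d) (hnd : [a, b, c, d, e, f].Nodup)
    (hv : JKEnd T z a b c d e f v) (hvz : dist v z = 1) (hpz : dist p z = 1)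
    (hpv : dist p v = 1) (hp : (T p).ncard ≤ 3 ∨ ∃ A, Harm T p A)
    (harc : ∀ᶠ w in 𝓝[sphere z 1] v, 1 < dist w p → T w = {a, b})
    (hno : ∀ᶠ w in 𝓝[sphere z 1] v, dist w p < 1 → w ∉ closure (Ex T z {a, b})) :
    PEnd T e f v p := by
  rcases hp with h3 | ⟨A, H⟩
  · exact hv.pend h hz hnd hvz hpz hpv h3
  have hn := hnd
  simp only [List.nodup_cons, List.mem_cons, List.not_mem_nil, or_false, not_or, List.nodup_nil,
    and_true, not_false_eq_true] at hn
  obtain ⟨⟨ab, ac, ad, ae, af⟩, ⟨bc, bd, be, bf⟩, ⟨cd, ce, cf⟩, ⟨de, df⟩, ef⟩ := hn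
  rcases hv with hv | ⟨x, x', y, g, hx, hy, hg, hD⟩
  · left
    rw [hv, hz.pal]
    simp [Ne.symm ae, Ne.symm be, Ne.symm ce, Ne.symm de, Ne.symm af, Ne.symm bf, Ne.symm cf,
      Ne.symm df]
  have harc' : ∀ᶠ w in 𝓝[sphere z 1] v, 1 < dist w p → T w = {b, a} :=
    harc.mono fun w hw h1 => by rw [Set.pair_comm]; exact hw h1
  have hno' : ∀ᶠ w in 𝓝[sphere z 1] v, dist w p < 1 → w ∉ closure (Ex T z {b, a}) :=
    hno.mono fun w hw h1 => by rw [Set.pair_comm]; exact hw h1
  -- one K-type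
  have key : ∀ a b c d e f : Fin 6, [a, b, c, d, e, f].Nodup → DPt T z a b c d → DPt T v a c b e →
      (∀ᶠ w in 𝓝[sphere z 1] v, 1 < dist w p → T w = {a, b}) →
      (∀ᶠ w in 𝓝[sphere z 1] v, dist w p < 1 → w ∉ closure (Ex T z {a, b})) →
      f ∉ T v ∧ f ∈ T p := by
    intro a b c d e f hnd hz hD h1 h2
    have hn := hnd
    simp only [List.nodup_cons, List.mem_cons, List.not_mem_nil, or_false, not_or, List.nodup_nil,
      and_true, not_false_eq_true] at hn
    obtain ⟨⟨ab, ac, ad, ae, af⟩, ⟨bc, bd, be, bf⟩, ⟨cd, ce, cf⟩, ⟨de, df⟩, ef⟩ := hn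
    have hfv : f ∉ T v := by
      rw [hD.pal]
      simp [Ne.symm af, Ne.symm bf, Ne.symm cf, Ne.symm ef]
    have hdv : d ∉ T v := by
      rw [hD.pal]
      simp [Ne.symm ad, Ne.symm bd, Ne.symm cd, de]
    have C := ctr_of h hz hnd
    refine ⟨hfv, kapexH460 h hz hnd hD hvz hpz hpv H (h1.mono fun w hw h3 => ?_) ?_⟩
    · rw [hw h3]; simp
    · filter_upwards [h2, mem_nhdsWithin_of_mem_nhds (h.nhd v), self_mem_nhdsWithin]
        with w k1 k2 k3 k4
      obtain ⟨l, hl⟩ := C.cover (mem_sphere.1 k3)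
      have k5 := Lt_col h hl
      fin_cases l
      · exact k5 rfl
      · exact absurd (k2 (k5 rfl)) hfv
      · exact absurd hl (k1 k4)
      · exact absurd (k2 (pair_sub460 k5).2) hdv
  rcases hx with ⟨rfl, rfl⟩ | ⟨rfl, rfl⟩ <;> rcases hy with rfl | rfl <;>
    rcases hg with rfl | rfl
  · exact Or.inr (Or.inl (key _ _ _ _ _ _ hnd hz hD harc hno))
  · exact Or.inr (Or.inr (key _ _ _ _ _ _ (by
      simp [ab, ac, ad, ae, af, bc, bd, be, bf, cd, ce, cf, de, df, Ne.symm ef]) hz hD harc hno))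
  · exact Or.inr (Or.inl (key _ _ _ _ _ _ (by
      simp [ab, ac, ad, ae, af, bc, bd, be, bf, Ne.symm cd, ce, cf, de, df, ef]) hz.swap34 hD
      harc hno))
  · exact Or.inr (Or.inr (key _ _ _ _ _ _ (by
      simp [ab, ac, ad, ae, af, bc, bd, be, bf, Ne.symm cd, ce, cf, de, df, Ne.symm ef])
      hz.swap34 hD harc hno))
  · exact Or.inr (Or.inl (key _ _ _ _ _ _ (by
      simp [Ne.symm ab, ac, ad, ae, af, bc, bd, be, bf, cd, ce, cf, de, df, ef]) hz.swap12 hD
      harc' hno'))
  · exact Or.inr (Or.inr (key _ _ _ _ _ _ (by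
      simp [Ne.symm ab, ac, ad, ae, af, bc, bd, be, bf, cd, ce, cf, de, df, Ne.symm ef])
      hz.swap12 hD harc' hno'))
  · exact Or.inr (Or.inl (key _ _ _ _ _ _ (by
      simp [Ne.symm ab, ac, ad, ae, af, bc, bd, be, bf, Ne.symm cd, ce, cf, de, df, ef])
      hz.swap12.swap34 hD harc' hno'))
  · exact Or.inr (Or.inr (key _ _ _ _ _ _ (by
      simp [Ne.symm ab, ac, ad, ae, af, bc, bd, be, bf, Ne.symm cd, ce, cf, de, df, Ne.symm ef])
      hz.swap12.swap34 hD harc' hno'))

end Vale.Agent.P032.H460
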