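import Vale.Agent.P032.H460.Count

/-!
# P032: the sides of a J- or K-link

`z` a two-pair point with the pairs `{a, b}`, `{c, d}`, `y ∈ S(z)` a two-pair point with the pairs
`{a, c}`, `{b, q}` (`q = d` : J-link, otherwise K-link).  `Irr.link460` : an exact `ab`-arc of `S(z)`
ends at `y`, an exact `ac`-arc of `S(y)` ends at `z`; they are on the same side of the line `zy` if
and only if the common colour `a` is inside at both ends (STAY), on opposite sides if and only if it
is outside at both ends (SWITCH).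
-/

open Set Filter Topology Metric

noncomputable section

namespace Vale.Agent.P032.Six

variable {k : ℕ} {U : Fin k → Set ℂ} {T : ℂ → Set (Fin k)}

theorem Sd.eventually460 {z y : ℂ} {a b : Fin k} (h : Sd U z y a b) : ∀ᶠ g in 𝓝 y, Sd U z g a b :=
  eventually_eventually_nhds.2 h

theorem sg_hb460 {z y : ℂ} (hyz : dist y z = 1) (τ t : ℝ) :
    sg y z (hb z y τ t) = Real.sin (τ * t) := by
  have h1 := ip_sq (n := y - z) (by rw [← dist_eq_norm]; exact hyz)
  unfold sg hb cr
  simp only [Complex.sub_re, Complex.sub_im, Complex.add_re, Complex.add_im, Complex.mul_re,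
    Complex.mul_im, cis_re, cis_im]
  simp only [Complex.sub_re, Complex.sub_im] at h1
  linear_combination Real.sin (τ * t) * h1

theorem sin_sign460 {τ t : ℝ} (hτ : τ = 1 ∨ τ = -1) : Real.sin (τ * t) = τ * Real.sin t := by
  rcases hτ with rfl | rfl
  · rw [one_mul, one_mul]
  · rw [neg_one_mul, Real.sin_neg]; ring

/-- the side of the arc of `S(y)` with the colour `a` at `z`, from the side of `a` at `y` -/
theorem Irr.link_aux460 (h : Irr U T) {z y : ℂ} {a b : Fin k} (hab : a ≠ b) (haz : a ∈ T z)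
    (hbz : b ∈ T z) (hyz : dist y z = 1) {τ σ : ℝ} (hτ : τ = 1 ∨ τ = -1)
    (hσ : σ = 1 ∨ σ = -1) (h1 : ∀ᶠ t : ℝ in 𝓝[>] 0, T (hb z y τ t) = {a, b})
    (h2 : ∀ᶠ t : ℝ in 𝓝[>] 0, a ∈ T (hb y z σ t)) :
    (Sd U z y a b → σ = -τ) ∧ (Sd U z y b a → σ = τ) := by
  have hzy : dist z y = 1 := by rw [dist_comm]; exact hyz
  have hsmall : ∀ᶠ t : ℝ in 𝓝[>] 0, 0 < t ∧ t < Real.pi := by
    filter_upwards [self_mem_nhdsWithin, mem_nhdsWithin_of_mem_nhds (Iio_mem_nhds Real.pi_pos)]
      with t h1 h2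
    exact ⟨h1, h2⟩
  constructor
  · intro hs
    obtain ⟨t, ht, hst, ht0, ht1⟩ := (h1.and (((tendsto_hb z y τ).eventually
      hs.eventually460).and hsmall)).exists
    have hg : Arc T z (hb z y τ t) {a, b} := h.arc_of_eq hab haz hbz (dist_hb hyz τ t) ht
    have hc := h.sd_center hg hst
    have hsin := Real.sin_pos_of_pos_of_lt_pi ht0 ht1
    by_contra hne
    have hστ : σ * τ = 1 := by
      rcases hσ with rfl | rfl <;> rcases hτ with rfl | rfl
      · norm_num
      · exact absurd (by norm_num) hne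
      · exact absurd rfl hne
      · norm_num
    have ho := hb_out (z := y) (v := z) (g := hb z y τ t) (τ := σ) (dist_hb hyz τ t) (by
      rw [sg_hb460 hyz, sin_sign460 hτ, ← mul_assoc, hστ, one_mul]; exact hsin)
    obtain ⟨s, e1, e2, e3⟩ := (ho.and (((tendsto_hb y z σ).eventually hc).and h2)).exists
    exact e2.1 e1 (h.sub _ e3)
  · intro hs
    obtain ⟨t, ht, hst, ht0, ht1⟩ := (h1.and (((tendsto_hb z y τ).eventually
      hs.eventually460).and hsmall)).exists
    have hg : Arc T z (hb z y τ t) {b, a} := by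
      rw [pair_comm]
      exact h.arc_of_eq hab haz hbz (dist_hb hyz τ t) ht
    have hc := h.sd_center hg hst
    have hsin := Real.sin_pos_of_pos_of_lt_pi ht0 ht1
    by_contra hne
    have hστ : σ * τ = -1 := by
      rcases hσ with rfl | rfl <;> rcases hτ with rfl | rfl
      · exact absurd rfl hne
      · norm_num
      · norm_num
      · exact absurd rfl hne
    have ho := hb_in (z := y) (v := z) (g := hb z y τ t) (τ := σ) (dist_hb hyz τ t) (by
      rw [sg_hb460 hyz, sin_sign460 hτ, ← mul_assoc, hστ, neg_one_mul]; linarith)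
    obtain ⟨s, e1, e2, e3⟩ := (ho.and (((tendsto_hb y z σ).eventually hc).and h2)).exists
    exact e2.2 e1 (h.sub _ e3)

/-- **sides of a J- or K-link** -/
theorem Irr.link460 (h : Irr U T) {z y : ℂ} {a b c d q : Fin k} (hz : DPt T z a b c d)
    (hy : DPt T y a c b q) (hyz : dist y z = 1) : ∃ τ σ : ℝ, (τ = 1 ∨ τ = -1) ∧
      (σ = 1 ∨ σ = -1) ∧
      (∀ᶠ t : ℝ in 𝓝[>] 0, T (hb z y τ t) = {a, b}) ∧
      (∀ᶠ t : ℝ in 𝓝[>] 0, T (hb z y (-τ) t) ⊆ {c, q}) ∧
      (∀ᶠ t : ℝ in 𝓝[>] 0, T (hb y z σ t) = {a, c}) ∧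
      (∀ᶠ t : ℝ in 𝓝[>] 0, T (hb y z (-σ) t) ⊆ {b, d}) ∧
      ((σ = -τ ∧ Sd U z y a b ∧ Sd U y z a c) ∨ (σ = τ ∧ Sd U z y b a ∧ Sd U y z c a)) := by
  have hzy : dist z y = 1 := by rw [dist_comm]; exact hyz
  obtain ⟨τ, hτ, t1, t2⟩ := h.border_arc460 hy hyz hz
  obtain ⟨σ, hσ, s1, s2⟩ := h.border_arc460 hz hzy hy
  have haz : a ∈ T z := by rw [hz.pal]; simp
  have hbz : b ∈ T z := by rw [hz.pal]; simp
  have hay : a ∈ T y := by rw [hy.pal]; simp
  have hcy : c ∈ T y := by rw [hy.pal]; simp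
  have k1 := h.link_aux460 hz.ab haz hbz hyz hτ hσ t1 (s1.mono fun t ht => by rw [ht]; simp)
  have k2 := h.link_aux460 hz.ac hay hcy hzy hσ hτ s1 (t1.mono fun t ht => by rw [ht]; simp)
  have hne : ¬ (σ = -τ ∧ σ = τ) := by
    rintro ⟨e1, e2⟩
    rcases hτ with rfl | rfl <;> linarith
  refine ⟨τ, σ, hτ, hσ, t1, t2, s1, s2, ?_⟩
  rcases h.sides hz hyz with hs | hs
  · have e1 := k1.1 hs
    left
    refine ⟨e1, hs, ?_⟩
    rcases h.sides hy hzy with hs' | hs'
    · exact hs'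
    · exact absurd ⟨e1, (k2.2 hs').symm⟩ hne
  · have e1 := k1.2 hs
    right
    refine ⟨e1, hs, ?_⟩
    rcases h.sides hy hzy with hs' | hs'
    · refine absurd ⟨?_, e1⟩ hne
      have := k2.1 hs'
      linarith
    · exact hs'

end Vale.Agent.P032.Six
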