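import Mathlib

/-! The one-circle theorem for M circles, abstract form (letters f, e, A, C = 0, 1, 2, 3); nothing is
asked at the times at which both pair letters occur (`PP`). -/

open Set

namespace Vale.Agent.P032.H460.P

/-- `U X Y`: the letter climbs from `X` to `Y` (heights f = -1, e = 0, A = C = 1). -/
def Up (X Y : Set (Fin 4)) : Prop :=
  (0 ∈ X ∧ (1 ∈ Y ∨ 2 ∈ Y ∨ 3 ∈ Y)) ∨ (1 ∈ X ∧ (2 ∈ Y ∨ 3 ∈ Y))

/-- Both letters `A` and `C` occur. -/
def PP (X Y : Set (Fin 4)) : Prop := (2 ∈ X ∧ 3 ∈ Y) ∨ (3 ∈ X ∧ 2 ∈ Y)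

/-- A good pair of neighbouring letter sets. -/
structure Gd (X Y : Set (Fin 4)) : Prop where
  n1 : ¬ X ⊆ Y
  n2 : ¬ Y ⊆ X
  fx : 0 ∈ X → 2 ∉ X ∧ 3 ∉ X
  fy : 0 ∈ Y → 2 ∉ Y ∧ 3 ∉ Y

theorem Gd.symm {X Y : Set (Fin 4)} (h : Gd X Y) : Gd Y X := ⟨h.n2, h.n1, h.fy, h.fx⟩

theorem PP.symm {X Y : Set (Fin 4)} (h : PP X Y) : PP Y X := by
  rcases h with h | h
  · exact Or.inr ⟨h.2, h.1⟩
  · exact Or.inl ⟨h.2, h.1⟩

theorem exf {X Y : Set (Fin 4)} (h : ¬ X ⊆ Y) :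
    (0 ∈ X ∧ 0 ∉ Y) ∨ (1 ∈ X ∧ 1 ∉ Y) ∨ (2 ∈ X ∧ 2 ∉ Y) ∨ (3 ∈ X ∧ 3 ∉ Y) := by
  obtain ⟨i, h1, h2⟩ := Set.not_subset.1 h
  fin_cases i
  · exact Or.inl ⟨h1, h2⟩
  · exact Or.inr (Or.inl ⟨h1, h2⟩)
  · exact Or.inr (Or.inr (Or.inl ⟨h1, h2⟩))
  · exact Or.inr (Or.inr (Or.inr ⟨h1, h2⟩))

theorem Gd.or {X Y : Set (Fin 4)} (h : Gd X Y) (hp : ¬ PP X Y) : Up X Y ∨ Up Y X := by
  have h1 := exf h.n1
  have h2 := exf h.n2
  unfold PP at hp
  unfold Up
  by_contra hn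
  obtain ⟨n1, n2⟩ := not_or.1 hn
  obtain ⟨n3, n4⟩ := not_or.1 n1
  obtain ⟨n5, n6⟩ := not_or.1 n2
  obtain ⟨n7, n8⟩ := not_or.1 hp
  clear hn n1 n2 hp
  rcases h1 with h1 | h1 | h1 | h1 <;> rcases h2 with h2 | h2 | h2 | h2 <;> tauto

theorem Gd.not {X Y : Set (Fin 4)} (h : Gd X Y) (hp : ¬ PP X Y) (u : Up X Y) : ¬ Up Y X := by
  have h1 := exf h.n1
  have h2 := exf h.n2
  have h3 := h.fx
  have h4 := h.fy
  unfold PP at hp
  unfold Up at *
  tauto

theorem Gd.s3l {X Y : Set (Fin 4)} (h : Gd X Y) (hp : ¬ PP X Y) (k : 2 ∈ X ∨ 3 ∈ X) :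
    Up Y X := by
  have h1 := exf h.n1
  have h2 := exf h.n2
  have h3 := h.fx
  have h4 := h.fy
  unfold PP at hp
  unfold Up at *
  tauto

theorem s2 {X Y Z W : Set (Fin 4)} (h1 : Gd X Y) (h2 : Gd Y Z) (h3 : Gd Z W)
    (_p1 : ¬ PP X Y) (p2 : ¬ PP Y Z) (p3 : ¬ PP Z W)
    (u1 : Up X Y) (u2 : Up Y Z) (u3 : Up Z W) : False := by
  -- `Z` has no pair letter, `Y` has no pair letter
  have a1 : ¬ (2 ∈ Z ∨ 3 ∈ Z) := fun k => h3.not p3 u3 (h3.s3l p3 k)
  have a2 : ¬ (2 ∈ Y ∨ 3 ∈ Y) := fun k => h2.not p2 u2 (h2.s3l p2 k)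
  have b1 := exf h2.n1
  have b2 := exf h2.n2
  have h4 := h1.fx
  unfold Up at u1 u2
  tauto

/-- Zones. `a, c` are the two pair letters, `A` in `[p1,q0]`, `C` in `[q1,p0+3]` modulo 3. -/
structure MC (X : ℝ → Set (Fin 4)) (a c : Fin 4) (p0 p1 q0 q1 : ℝ) : Prop where
  cl : ∀ l, IsClosed {t | l ∈ X t}
  ac : (a = 2 ∧ c = 3) ∨ (a = 3 ∧ c = 2)
  zA : ∀ t, a ∈ X t → ∃ k : ℤ, p1 + 3 * k ≤ t ∧ t ≤ q0 + 3 * k
  zC : ∀ t, c ∈ X t → ∃ k : ℤ, q1 + 3 * k ≤ t ∧ t ≤ p0 + 3 + 3 * k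
  h1 : p0 < p1
  h2 : p1 ≤ q0
  h3 : q0 < q1
  h4 : q1 ≤ p0 + 3

variable {X : ℝ → Set (Fin 4)} {a c : Fin 4} {p0 p1 q0 q1 : ℝ}

theorem MC.rot (m : MC X a c p0 p1 q0 q1) : MC X c a q0 q1 (p0 + 3) (p1 + 3) where
  cl := m.cl
  ac := by rcases m.ac with h | h <;> tauto
  zA := by
    intro t ht
    obtain ⟨k, h1, h2⟩ := m.zC t ht
    exact ⟨k, h1, h2⟩
  zC := by
    intro t ht
    obtain ⟨k, h1, h2⟩ := m.zA t ht
    refine ⟨k - 1, ?_, ?_⟩ <;> push_cast <;> linarith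
  h1 := m.h3
  h2 := m.h4
  h3 := by linarith [m.h1]
  h4 := by linarith [m.h2]

theorem MC.pp_iff (m : MC X a c p0 p1 q0 q1) (s t : ℝ) :
    PP (X s) (X t) ↔ (a ∈ X s ∧ c ∈ X t) ∨ (c ∈ X s ∧ a ∈ X t) := by
  unfold PP
  rcases m.ac with ⟨rfl, rfl⟩ | ⟨rfl, rfl⟩ <;> tauto

theorem MC.or_iff (m : MC X a c p0 p1 q0 q1) (s : ℝ) :
    (2 ∈ X s ∨ 3 ∈ X s) ↔ (a ∈ X s ∨ c ∈ X s) := by
  rcases m.ac with ⟨rfl, rfl⟩ | ⟨rfl, rfl⟩ <;> tauto

/-- Position of the `PP` times. -/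
theorem MC.pp_loc (m : MC X a c p0 p1 q0 q1) {t : ℝ} (h : PP (X t) (X (t + 1))) :
    ∃ k : ℤ, (a ∈ X t ∧ c ∈ X (t + 1) ∧ p1 + 3 * k ≤ t ∧ q1 - 1 + 3 * k ≤ t ∧
        t ≤ q0 + 3 * k ∧ t ≤ p0 + 2 + 3 * k) ∨
      (c ∈ X t ∧ a ∈ X (t + 1) ∧ q1 + 3 * k ≤ t ∧ p1 + 2 + 3 * k ≤ t ∧
        t ≤ p0 + 3 + 3 * k ∧ t ≤ q0 + 2 + 3 * k) := by
  have e1 := m.h1
  have e2 := m.h2
  have e3 := m.h3
  have e4 := m.h4
  rcases (m.pp_iff _ _).1 h with ⟨ha, hc⟩ | ⟨hc, ha⟩
  · obtain ⟨k, k1, k2⟩ := m.zA _ ha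
    obtain ⟨j, j1, j2⟩ := m.zC _ hc
    have i1 : (k : ℝ) < j + 1 := by linarith
    have i2 : (j : ℝ) < k + 1 := by linarith
    have i3 : k < j + 1 := by exact_mod_cast i1
    have i4 : j < k + 1 := by exact_mod_cast i2
    have i5 : j = k := by omega
    subst i5
    exact ⟨j, Or.inl ⟨ha, hc, k1, by linarith, k2, by linarith⟩⟩
  · obtain ⟨j, j1, j2⟩ := m.zC _ hc
    obtain ⟨k, k1, k2⟩ := m.zA _ ha
    have i1 : (k : ℝ) < j + 2 := by linarith
    have i2 : (j : ℝ) < k := by linarith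
    have i3 : k < j + 2 := by exact_mod_cast i1
    have i4 : j < k := by exact_mod_cast i2
    have i5 : k = j + 1 := by omega
    subst i5
    push_cast at k1 k2
    exact ⟨j, Or.inr ⟨hc, ha, j1, by linarith, j2, by linarith⟩⟩

/-- Closed sets. -/
theorem MC.cl_up (m : MC X a c p0 p1 q0 q1) : IsClosed {t | Up (X t) (X (t + 1))} := by
  have c1 : ∀ l, IsClosed {t : ℝ | l ∈ X (t + 1)} := fun l =>
    (m.cl l).preimage (by fun_prop : Continuous fun t : ℝ => t + 1)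
  have : {t | Up (X t) (X (t + 1))} =
      ({t | 0 ∈ X t} ∩ ({t | 1 ∈ X (t + 1)} ∪ ({t | 2 ∈ X (t + 1)} ∪ {t | 3 ∈ X (t + 1)}))) ∪
      ({t | 1 ∈ X t} ∩ ({t | 2 ∈ X (t + 1)} ∪ {t | 3 ∈ X (t + 1)})) := by
    ext t
    rfl
  rw [this]
  exact ((m.cl 0).inter ((c1 1).union ((c1 2).union (c1 3)))).union
    ((m.cl 1).inter ((c1 2).union (c1 3)))

theorem MC.cl_dn (m : MC X a c p0 p1 q0 q1) : IsClosed {t | Up (X (t + 1)) (X t)} := by
  have c1 : ∀ l, IsClosed {t : ℝ | l ∈ X (t + 1)} := fun l =>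
    (m.cl l).preimage (by fun_prop : Continuous fun t : ℝ => t + 1)
  have : {t | Up (X (t + 1)) (X t)} =
      ({t | 0 ∈ X (t + 1)} ∩ ({t | 1 ∈ X t} ∪ ({t | 2 ∈ X t} ∪ {t | 3 ∈ X t}))) ∪
      ({t | 1 ∈ X (t + 1)} ∩ ({t | 2 ∈ X t} ∪ {t | 3 ∈ X t})) := by
    ext t
    rfl
  rw [this]
  exact ((c1 0).inter ((m.cl 1).union ((m.cl 2).union (m.cl 3)))).union
    ((c1 1).inter ((m.cl 2).union (m.cl 3)))

/-- The sign is constant on an interval of good times without `PP`. -/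
theorem MC.const (m : MC X a c p0 p1 q0 q1) {x y : ℝ}
    (g : ∀ t, x < t → t < y → Gd (X t) (X (t + 1)) ∧ ¬ PP (X t) (X (t + 1)))
    {s t : ℝ} (s1 : x < s) (s2 : s < y) (t1 : x < t) (t2 : t < y)
    (h : Up (X s) (X (s + 1))) : Up (X t) (X (t + 1)) := by
  by_contra hn
  have hd : Up (X (t + 1)) (X t) := ((g t t1 t2).1.or (g t t1 t2).2).resolve_left hn
  have hpc : IsPreconnected (Ioo x y) := isPreconnected_Ioo
  rw [isPreconnected_closed_iff] at hpc
  obtain ⟨r, hr, hr1, hr2⟩ := hpc _ _ m.cl_up m.cl_dn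
    (fun r hr => (g r hr.1 hr.2).1.or (g r hr.1 hr.2).2) ⟨s, ⟨s1, s2⟩, h⟩ ⟨t, ⟨t1, t2⟩, hd⟩
  exact (g r hr.1 hr.2).1.not (g r hr.1 hr.2).2 hr1 hr2

theorem MC.constD (m : MC X a c p0 p1 q0 q1) {x y : ℝ}
    (g : ∀ t, x < t → t < y → Gd (X t) (X (t + 1)) ∧ ¬ PP (X t) (X (t + 1)))
    {s t : ℝ} (s1 : x < s) (s2 : s < y) (t1 : x < t) (t2 : t < y)
    (h : Up (X (s + 1)) (X s)) : Up (X (t + 1)) (X t) := by
  refine ((g t t1 t2).1.or (g t t1 t2).2).resolve_left (fun hu => ?_)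
  exact (g s s1 s2).1.not (g s s1 s2).2 (m.const g t1 t2 s1 s2 hu) h

/-- **Gap lemma.** -/
theorem MC.gap (m : MC X a c p0 p1 q0 q1)
    (g : ∀ t, p0 < t → t < p1 + 2 → ¬ PP (X t) (X (t + 1)) → Gd (X t) (X (t + 1))) :
    (∀ t, p0 < t → t < p1 → Up (X t) (X (t + 1))) ∧
      (∀ t, p0 + 2 < t → t < p1 + 2 → Up (X (t + 1)) (X t)) := by
  have e1 := m.h1
  have e2 := m.h2
  have e3 := m.h3
  have e4 := m.h4
  -- all `PP` times in the range
  have loc : ∀ t, p0 < t → t < p1 + 2 → PP (X t) (X (t + 1)) →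
      a ∈ X t ∧ c ∈ X (t + 1) ∧ p1 ≤ t ∧ q1 - 1 ≤ t ∧ t ≤ q0 ∧ t ≤ p0 + 2 := by
    intro t t1 t2 hp
    obtain ⟨k, ⟨k1, k2, k3, k4, k5, k6⟩ | ⟨k1, k2, k3, k4, k5, k6⟩⟩ := m.pp_loc hp
    · have i1 : (k : ℝ) < 1 := by linarith
      have i2 : (-1 : ℝ) < k := by linarith
      have i3 : k < 1 := by exact_mod_cast i1
      have i4 : -1 < k := by exact_mod_cast i2
      have i5 : k = 0 := by omega
      subst i5
      simp only [Int.cast_zero, mul_zero, add_zero] at k3 k4 k5 k6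
      exact ⟨k1, k2, k3, k4, k5, k6⟩
    · have i1 : (k : ℝ) < 0 := by linarith
      have i2 : (-1 : ℝ) < k := by linarith
      have i3 : k < 0 := by exact_mod_cast i1
      have i4 : -1 < k := by exact_mod_cast i2
      omega
  set τ := (p0 + p1) / 2 with hτ
  have u1 : p0 < τ := by rw [hτ]; linarith
  have u2 : τ < p1 := by rw [hτ]; linarith
  have G0 := g τ (by linarith) (by linarith)
  have G1 := g (τ + 1) (by linarith) (by linarith)
  have G2 := g (τ + 1 + 1) (by linarith) (by linarith)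
  set S : Set ℝ := ({t | a ∈ X t} ∩ {t | c ∈ X (t + 1)}) ∩ Icc p1 (p0 + 2) with hS
  have hSc : IsCompact S := by
    refine IsCompact.inter_left isCompact_Icc ((m.cl a).inter ?_)
    exact (m.cl c).preimage (by fun_prop : Continuous fun t : ℝ => t + 1)
  rcases S.eq_empty_or_nonempty with hE | hN
  · exfalso
    have g' : ∀ t, p0 < t → t < p1 + 2 → Gd (X t) (X (t + 1)) ∧ ¬ PP (X t) (X (t + 1)) := by
      intro t t1 t2
      have hnp : ¬ PP (X t) (X (t + 1)) := by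
        intro hp
        obtain ⟨k1, k2, k3, k4, k5, k6⟩ := loc t t1 t2 hp
        have : t ∈ S := ⟨⟨k1, k2⟩, k3, k6⟩
        rw [hE] at this
        exact this
      exact ⟨g t t1 t2 hnp, hnp⟩
    have P0 := (g' τ (by linarith) (by linarith)).2
    have P1 := (g' (τ + 1) (by linarith) (by linarith)).2
    have P2 := (g' (τ + 1 + 1) (by linarith) (by linarith)).2
    replace G0 := G0 P0
    replace G1 := G1 P1
    replace G2 := G2 P2
    rcases G0.or P0 with h | h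
    · exact s2 G0 G1 G2 P0 P1 P2 h
        (m.const g' (by linarith) (by linarith) (by linarith) (by linarith) h)
        (m.const g' (by linarith) (by linarith) (by linarith) (by linarith) h)
    · exact s2 G2.symm G1.symm G0.symm (fun q => P2 q.symm) (fun q => P1 q.symm)
        (fun q => P0 q.symm)
        (m.constD g' (by linarith) (by linarith) (by linarith) (by linarith) h)
        (m.constD g' (by linarith) (by linarith) (by linarith) (by linarith) h) h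
  · obtain ⟨t1, ⟨⟨m1a, m1c⟩, m1l, m1r⟩, min1⟩ := hSc.exists_isLeast hN
    obtain ⟨t2, ⟨⟨m2a, m2c⟩, m2l, m2r⟩, max2⟩ := hSc.exists_isGreatest hN
    simp only [Set.mem_ofPred_eq] at m1a m1c m2a m2c
    have t12 : t1 ≤ t2 := max2 ⟨⟨m1a, m1c⟩, m1l, m1r⟩
    have L1 := loc t1 (by linarith) (by linarith) ((m.pp_iff _ _).2 (Or.inl ⟨m1a, m1c⟩))
    have L2 := loc t2 (by linarith) (by linarith) ((m.pp_iff _ _).2 (Or.inl ⟨m2a, m2c⟩))
    obtain ⟨-, -, -, L1q, -, -⟩ := L1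
    obtain ⟨-, -, -, -, L2q, -⟩ := L2
    -- left and right intervals
    have gl : ∀ t, p0 < t → t < t1 → Gd (X t) (X (t + 1)) ∧ ¬ PP (X t) (X (t + 1)) := by
      intro t r1 r2
      have hnp : ¬ PP (X t) (X (t + 1)) := by
        intro hp
        obtain ⟨k1, k2, k3, k4, k5, k6⟩ := loc t r1 (by linarith) hp
        have : t1 ≤ t := min1 ⟨⟨k1, k2⟩, k3, k6⟩
        linarith
      exact ⟨g t r1 (by linarith) hnp, hnp⟩
    have gr : ∀ t, t2 < t → t < p1 + 2 → Gd (X t) (X (t + 1)) ∧ ¬ PP (X t) (X (t + 1)) := by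
      intro t r1 r2
      have hnp : ¬ PP (X t) (X (t + 1)) := by
        intro hp
        obtain ⟨k1, k2, k3, k4, k5, k6⟩ := loc t (by linarith) r2 hp
        have : t ≤ t2 := max2 ⟨⟨k1, k2⟩, k3, k6⟩
        linarith
      exact ⟨g t (by linarith) r2 hnp, hnp⟩
    have hA : t1 < p1 + 1 → ∀ t, t2 < t → t < p1 + 2 → Up (X (t + 1)) (X t) := by
      intro h t r1 r2
      have g1 := gr (t1 + 1) (by linarith) (by linarith)
      have hd := g1.1.s3l g1.2 ((m.or_iff _).2 (Or.inr m1c))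
      exact m.constD gr (by linarith) (by linarith) r1 r2 hd
    have hB : p0 + 1 < t2 → ∀ t, p0 < t → t < t1 → Up (X t) (X (t + 1)) := by
      intro h t r1 r2
      have g1 := gl (t2 - 1) (by linarith) (by linarith)
      have e : t2 - 1 + 1 = t2 := by ring
      rw [e] at g1
      have hd := g1.1.symm.s3l (fun q => g1.2 q.symm) ((m.or_iff _).2 (Or.inl m2a))
      refine m.const gl (s := t2 - 1) (by linarith) (by linarith) r1 r2 ?_
      rw [e]
      exact hd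
    by_cases cA : t1 < p1 + 1
    · by_cases cB : p0 + 1 < t2
      · exact ⟨fun t r1 r2 => hB cB t r1 (by linarith), fun t r1 r2 => hA cA t (by linarith) r2⟩
      · push Not at cB
        refine ⟨fun t r1 r2 => ?_, fun t r1 r2 => hA cA t (by linarith) r2⟩
        have P0 := (gl τ (by linarith) (by linarith)).2
        have P1 := (gr (τ + 1) (by linarith) (by linarith)).2
        have P2 := (gr (τ + 1 + 1) (by linarith) (by linarith)).2
        replace G0 := G0 P0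
        replace G1 := G1 P1
        replace G2 := G2 P2
        rcases G0.or P0 with h | h
        · exact m.const gl (by linarith) (by linarith) r1 (by linarith) h
        · exact (s2 G2.symm G1.symm G0.symm (fun q => P2 q.symm) (fun q => P1 q.symm)
            (fun q => P0 q.symm) (hA cA _ (by linarith) (by linarith))
            (hA cA _ (by linarith) (by linarith)) h).elim
    · push Not at cA
      have cB : p0 + 1 < t2 := by linarith
      refine ⟨fun t r1 r2 => hB cB t r1 (by linarith), fun t r1 r2 => ?_⟩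
      have P0 := (gl τ (by linarith) (by linarith)).2
      have P1 := (gl (τ + 1) (by linarith) (by linarith)).2
      have P2 := (gr (τ + 1 + 1) (by linarith) (by linarith)).2
      replace G0 := G0 P0
      replace G1 := G1 P1
      replace G2 := G2 P2
      rcases G2.or P2 with h | h
      · exact (s2 G0 G1 G2 P0 P1 P2 (hB cB _ (by linarith) (by linarith))
          (hB cB _ (by linarith) (by linarith)) h).elim
      · exact m.constD gr (by linarith) (by linarith) (by linarith) r2 h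

/-- No `PP` time between the two windows. -/
theorem MC.nopp (m : MC X a c p0 p1 q0 q1) {t : ℝ} (t1 : q0 < t ∨ p0 + 2 < t)
    (t2 : t < q1 ∨ t < p1 + 2) : ¬ PP (X t) (X (t + 1)) := by
  intro hp
  have e1 := m.h1
  have e2 := m.h2
  have e3 := m.h3
  have e4 := m.h4
  obtain ⟨k, ⟨k1, k2, k3, k4, k5, k6⟩ | ⟨k1, k2, k3, k4, k5, k6⟩⟩ := m.pp_loc hp
  · rcases lt_or_ge 0 k with hk | hk
    · have : (1 : ℝ) ≤ k := by exact_mod_cast hk
      rcases t2 with h | h <;> linarith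
    · have : (k : ℝ) ≤ 0 := by exact_mod_cast hk
      rcases t1 with h | h <;> linarith
  · rcases lt_or_ge k 0 with hk | hk
    · have : (k : ℝ) ≤ -1 := by exact_mod_cast (by omega : k ≤ -1)
      rcases t1 with h | h <;> linarith
    · have : (0 : ℝ) ≤ k := by exact_mod_cast hk
      rcases t2 with h | h <;> linarith

/-- Two consecutive gaps without bad times are impossible. -/
theorem MC.R (m : MC X a c p0 p1 q0 q1)
    (g : ∀ t, p0 < t → t < q1 + 2 → ¬ PP (X t) (X (t + 1)) → Gd (X t) (X (t + 1))) : False := by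
  have e1 := m.h1
  have e2 := m.h2
  have e3 := m.h3
  have e4 := m.h4
  have G1 := (m.gap (fun t r1 r2 => g t r1 (by linarith))).2
  have G2 := (m.rot.gap (fun t r1 r2 => g t (by linarith) (by linarith))).1
  have g' : ∀ t, min q0 (p0 + 2) < t → t < max q1 (p1 + 2) →
      Gd (X t) (X (t + 1)) ∧ ¬ PP (X t) (X (t + 1)) := by
    intro t r1 r2
    rw [min_lt_iff] at r1
    rw [lt_max_iff] at r2
    refine ⟨g t ?_ ?_ (m.nopp r1 r2), m.nopp r1 r2⟩
    · rcases r1 with h | h <;> linarith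
    · rcases r2 with h | h <;> linarith
  have a1 : min q0 (p0 + 2) < (p0 + p1) / 2 + 2 := by
    rw [min_lt_iff]; right; linarith
  have a2 : (p0 + p1) / 2 + 2 < max q1 (p1 + 2) := by
    rw [lt_max_iff]; right; linarith
  have b1 : min q0 (p0 + 2) < (q0 + q1) / 2 := by
    rw [min_lt_iff]; left; linarith
  have b2 : (q0 + q1) / 2 < max q1 (p1 + 2) := by
    rw [lt_max_iff]; left; linarith
  have h1 := G1 ((p0 + p1) / 2 + 2) (by linarith) (by linarith)
  have h2 := G2 ((q0 + q1) / 2) (by linarith) (by linarith)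
  have h3 := m.const g' b1 b2 a1 a2 h2
  exact (g' _ a1 a2).1.not (g' _ a1 a2).2 h3 h1

/-- No pair letter in the gaps. -/
theorem MC.ngap (m : MC X a c p0 p1 q0 q1) {t : ℝ} (k : ℤ) (t1 : p0 + 3 * k < t)
    (t2 : t < p1 + 3 * k) : ¬ (2 ∈ X t ∨ 3 ∈ X t) := by
  rw [m.or_iff]
  have e1 := m.h1
  have e2 := m.h2
  have e3 := m.h3
  have e4 := m.h4
  rintro (h | h)
  · obtain ⟨j, j1, j2⟩ := m.zA _ h
    have i1 : (j : ℝ) < k := by linarith
    have i2 : (k : ℝ) < j + 1 := by linarith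
    have i3 : j < k := by exact_mod_cast i1
    have i4 : k < j + 1 := by exact_mod_cast i2
    omega
  · obtain ⟨j, j1, j2⟩ := m.zC _ h
    have i1 : (j : ℝ) < k := by linarith
    have i2 : (k : ℝ) < j + 1 := by linarith
    have i3 : j < k := by exact_mod_cast i1
    have i4 : k < j + 1 := by exact_mod_cast i2
    omega

theorem up_f {X Y Z : Set (Fin 4)} (h1 : Gd X Y) (h2 : Gd Y Z) (hz : ¬ (2 ∈ Z ∨ 3 ∈ Z))
    (u : Up Y Z) : 0 ∉ X := by
  intro hf
  have b2 := exf h1.n2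
  have b4 := exf h2.n2
  have b5 := h1.fy
  obtain ⟨z2, z3⟩ := not_or.1 hz
  have k : 0 ∈ Y ∧ 1 ∈ Z := by
    unfold Up at u
    rcases u with ⟨u1, u2 | u2 | u2⟩ | ⟨u1, u2 | u2⟩
    · exact ⟨u1, u2⟩
    · exact absurd u2 z2
    · exact absurd u2 z3
    · exact absurd u2 z2
    · exact absurd u2 z3
  obtain ⟨y2, y3⟩ := b5 k.1
  have y1 : 1 ∉ Y := by
    intro y1
    rcases b4 with q | q | q | q
    · exact q.2 k.1
    · exact q.2 y1
    · exact z2 q.1
    · exact z3 q.1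
  rcases b2 with q | q | q | q
  · exact q.2 hf
  · exact y1 q.1
  · exact y2 q.1
  · exact y3 q.1

theorem up_gap {X Y : Set (Fin 4)} (h1 : Gd X Y) (hx : ¬ (2 ∈ X ∨ 3 ∈ X)) (hy : 0 ∉ Y) :
    Up X Y := by
  have b1 := exf h1.n1
  have b2 := exf h1.n2
  unfold Up
  tauto

/-- One flip point in an open gap is impossible. -/
theorem MC.flip (m : MC X a c p0 p1 q0 q1) {u : ℝ} (hu : p0 < u) (hu' : u < p1)
    (g : ∀ t, u < t → t < u + 5 → ¬ PP (X t) (X (t + 1)) → Gd (X t) (X (t + 1))) : False := by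
  have e1 := m.h1
  have e2 := m.h2
  have e3 := m.h3
  have e4 := m.h4
  have G2 := (m.rot.gap (fun t r1 r2 => g t (by linarith) (by linarith))).1
  set τ := (u + p1) / 2 with hτ
  have v1 : u < τ := by rw [hτ]; linarith
  have v2 : τ < p1 := by rw [hτ]; linarith
  have g' : ∀ t, max u (min q0 (p0 + 2)) < t → t < max q1 (p1 + 2) →
      Gd (X t) (X (t + 1)) ∧ ¬ PP (X t) (X (t + 1)) := by
    intro t r1 r2
    rw [max_lt_iff, min_lt_iff] at r1
    rw [lt_max_iff] at r2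
    refine ⟨g t r1.1 ?_ (m.nopp r1.2 r2), m.nopp r1.2 r2⟩
    rcases r2 with h | h <;> linarith
  have a1 : ∀ r, p0 + 2 < r → u < r → max u (min q0 (p0 + 2)) < r := by
    intro r h1 h2
    rw [max_lt_iff, min_lt_iff]
    exact ⟨h2, Or.inr h1⟩
  have a1' : ∀ r, q0 < r → u < r → max u (min q0 (p0 + 2)) < r := by
    intro r h1 h2
    rw [max_lt_iff, min_lt_iff]
    exact ⟨h2, Or.inl h1⟩
  have a2 : ∀ r, r < p1 + 2 → r < max q1 (p1 + 2) := by
    intro r h1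
    rw [lt_max_iff]; right; exact h1
  have b1 : max u (min q0 (p0 + 2)) < (q0 + q1) / 2 := a1' _ (by linarith) (by linarith)
  have b2 : (q0 + q1) / 2 < max q1 (p1 + 2) := by
    rw [lt_max_iff]; left; linarith
  have hq := G2 ((q0 + q1) / 2) (by linarith) (by linarith)
  -- `U` at `τ + 2`
  have U2 : Up (X (τ + 1 + 1)) (X (τ + 1 + 1 + 1)) :=
    m.const g' b1 b2 (a1 _ (by linarith) (by linarith)) (a2 _ (by linarith)) hq
  have ng3 : ¬ (2 ∈ X (τ + 1 + 1 + 1) ∨ 3 ∈ X (τ + 1 + 1 + 1)) :=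
    m.ngap 1 (by push_cast; linarith) (by push_cast; linarith)
  have ng0 : ¬ (2 ∈ X τ ∨ 3 ∈ X τ) :=
    m.ngap 0 (by push_cast; linarith) (by push_cast; linarith)
  have npp0 : ¬ PP (X τ) (X (τ + 1)) := by
    rintro (hh | hh)
    · exact ng0 (Or.inl hh.1)
    · exact ng0 (Or.inr hh.1)
  have Gd0 := g τ (by linarith) (by linarith) npp0
  have Gd2' := g' (τ + 1 + 1) (a1 _ (by linarith) (by linarith)) (a2 _ (by linarith))
  have Gd2 := Gd2'.1
  have npp1 : ¬ PP (X (τ + 1)) (X (τ + 1 + 1)) := by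
    have hh2 : ¬ (2 ∈ X (τ + 1 + 1) ∨ 3 ∈ X (τ + 1 + 1)) := fun k =>
      Gd2.not Gd2'.2 U2 (Gd2.s3l Gd2'.2 k)
    rintro (hh | hh)
    · exact hh2 (Or.inr hh.2)
    · exact hh2 (Or.inl hh.2)
  have Gd1 := g (τ + 1) (by linarith) (by linarith) npp1
  have nf : 0 ∉ X (τ + 1) := up_f Gd1 Gd2 ng3 U2
  have U0 : Up (X τ) (X (τ + 1)) := up_gap Gd0 ng0 nf
  -- no `PP` on `(u, p1 + 1)`
  have g'' : ∀ t, u < t → t < p1 + 1 → Gd (X t) (X (t + 1)) ∧ ¬ PP (X t) (X (t + 1)) := by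
    intro t r1 r2
    suffices hnp : ¬ PP (X t) (X (t + 1)) from ⟨g t r1 (by linarith) hnp, hnp⟩
    intro hp
    obtain ⟨k, ⟨k1, k2, k3, k4, k5, k6⟩ | ⟨k1, k2, k3, k4, k5, k6⟩⟩ := m.pp_loc hp
    · have i1 : (k : ℝ) < 1 := by linarith
      have i2 : (-1 : ℝ) < k := by linarith
      have i3 : k < 1 := by exact_mod_cast i1
      have i4 : -1 < k := by exact_mod_cast i2
      have i5 : k = 0 := by omega
      subst i5
      simp only [Int.cast_zero, mul_zero, add_zero] at k3 k4 k5 k6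
      have w1 : max u (min q0 (p0 + 2)) < t + 1 := a1' _ (by linarith) (by linarith)
      have w2 : t + 1 < max q1 (p1 + 2) := a2 _ (by linarith)
      have w3 := m.const g' b1 b2 w1 w2 hq
      have w4 := g' _ w1 w2
      exact w4.1.not w4.2 w3 (w4.1.s3l w4.2 ((m.or_iff _).2 (Or.inr k2)))
    · have i1 : (k : ℝ) < 0 := by linarith
      have i2 : (-1 : ℝ) < k := by linarith
      have i3 : k < 0 := by exact_mod_cast i1
      have i4 : -1 < k := by exact_mod_cast i2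
      omega
  have U1 : Up (X (τ + 1)) (X (τ + 1 + 1)) :=
    m.const g'' (by linarith) (by linarith) (by linarith) (by linarith) U0
  exact s2 Gd0 Gd1 Gd2 (g'' τ (by linarith) (by linarith)).2
    (g'' (τ + 1) (by linarith) (by linarith)).2
    (g' (τ + 1 + 1) (a1 _ (by linarith) (by linarith)) (a2 _ (by linarith))).2 U0 U1 U2

/-- **At most one flip point: impossible.** Bad times only `u - 1` and `u` modulo 6. -/
theorem MC.mcirc460 (m : MC X a c p0 p1 q0 q1) (u : ℝ)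
    (good : ∀ t, (∀ k : ℤ, t ≠ u + 6 * k ∧ t + 1 ≠ u + 6 * k) → ¬ PP (X t) (X (t + 1)) →
      Gd (X t) (X (t + 1))) : False := by
  have e1 := m.h1
  have e2 := m.h2
  have e3 := m.h3
  have e4 := m.h4
  -- a representative of `u` in `[p0, p0 + 6)`
  obtain ⟨n, v, hv, hv1, hv2⟩ : ∃ (n : ℤ) (v : ℝ), v = u + 6 * n ∧ p0 ≤ v ∧ v < p0 + 6 := by
    refine ⟨-⌊(u - p0) / 6⌋, u - 6 * ⌊(u - p0) / 6⌋, by push_cast; ring, ?_, ?_⟩
    · have := Int.floor_le ((u - p0) / 6)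
      linarith
    · have := Int.lt_floor_add_one ((u - p0) / 6)
      linarith
  have g : ∀ t, v < t → t < v + 5 → ¬ PP (X t) (X (t + 1)) → Gd (X t) (X (t + 1)) := by
    intro t r1 r2
    refine good t (fun k => ⟨fun h => ?_, fun h => ?_⟩)
    · have h1 : t = v + 6 * ((k - n : ℤ) : ℝ) := by rw [hv, h]; push_cast; ring
      have i1 : (0 : ℝ) < ((k - n : ℤ) : ℝ) := by linarith
      have i2 : ((k - n : ℤ) : ℝ) < 1 := by linarith
      have i3 : 0 < k - n := by exact_mod_cast i1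
      have i4 : k - n < 1 := by exact_mod_cast i2
      omega
    · have h1 : t + 1 = v + 6 * ((k - n : ℤ) : ℝ) := by rw [hv, h]; push_cast; ring
      have i1 : (0 : ℝ) < ((k - n : ℤ) : ℝ) := by linarith
      have i2 : ((k - n : ℤ) : ℝ) < 1 := by linarith
      have i3 : 0 < k - n := by exact_mod_cast i1
      have i4 : k - n < 1 := by exact_mod_cast i2
      omega
  have m1 := m.rot
  have m2 := m1.rot
  have m3 := m2.rot
  have m4 := m3.rot
  rcases eq_or_lt_of_le hv1 with h | h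
  · exact m.R (fun t r1 r2 => g t (by linarith) (by linarith))
  rcases lt_or_ge v p1 with h' | h'
  · exact m.flip h h' g
  rcases le_or_gt v q0 with h | h
  · exact m1.R (fun t r1 r2 => g t (by linarith) (by linarith))
  rcases lt_or_ge v q1 with h' | h'
  · exact m1.flip h h' g
  rcases le_or_gt v (p0 + 3) with h | h
  · exact m2.R (fun t r1 r2 => g t (by linarith) (by linarith))
  rcases lt_or_ge v (p1 + 3) with h' | h'
  · exact m2.flip h h' g
  rcases le_or_gt v (q0 + 3) with h | h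
  · exact m3.R (fun t r1 r2 => g t (by linarith) (by linarith))
  rcases lt_or_ge v (q1 + 3) with h' | h'
  · exact m3.flip h h' g
  · exact m4.R (fun t r1 r2 => g t (by linarith) (by linarith))

end Vale.Agent.P032.H460.P
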