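import Vale.Agent.P032.H460.MList
import Vale.Agent.P032.H273.TriTop

/-!
# P032: the real flips at the neighbours of an `Md98` point (helper460)

World `XC U T`, `M : Md98 T V a b c d e f`, `y` of order at least four on `S(V)`:
* `real460` : a real flip at `y`, seen by a plain apex.
* `excE460` : if `y` is in no closed pair arc of `V`, some plain apex has both letters `e`, `f`.
* `excK460` : if `y` is not in a closed `cd`-arc of `V`, some plain apex is in no closed `cd`-arc.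
* `flipE460 : FlipE273`.
-/

open Set Filter Topology Metric

noncomputable section

namespace Vale.Agent.P032.H460

open Vale.Agent.P032.Six Vale.Agent.P032.S5.H767 Vale.Agent.P032.H800
  Vale.Agent.P032.H98 Vale.Agent.P032.H987 Vale.Agent.P032.H815 Vale.Agent.P032.H273

variable {U : Fin 6 → Set ℂ} {T : ℂ → Set (Fin 6)} {V y y1 y2 : ℂ} {a b c d e f : Fin 6}

/-- a real flip, seen by a plain apex -/
theorem real460 (X : XC U T) (M : Md98 T V a b c d e f) (hy : dist y V = 1)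
    (h4 : 4 ≤ (T y).ncard) :
    ∃ x, dist x V = 1 ∧ dist x y = 1 ∧ (T x).ncard ≤ 3 ∧ ¬ PX T V a b c d e f y x ∧
      RF T V a b c d e f y x := by
  have h := X.df.irr
  have hV4 : 4 ≤ (T V).ncard := M.dpt.ncard.ge
  obtain ⟨y2, o1⟩ := second273 hy h4 fun y1 y2 y3 => X.n3 V y1 y2 y3 hV4
  obtain ⟨p, q, Z⟩ := exists_zn815 h M.dpt
  have S := czM_of_mode815 X.df M.dpt M.nd M.hA M.hC
  obtain ⟨⟨ab, ac, ad, ae, af⟩, ⟨bc, bd, be, bf⟩, ⟨cd, ce, cf⟩, ⟨de, df⟩, ef⟩ := S.nd'
  refine mlist_zn460 S Z ?_ ?_ ?_ o1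
  · obtain ⟨w, hw, hT⟩ := M.exA
    exact ⟨w, hw, by rw [hT]; exact (ncard3_815 ab ae be).le⟩
  · obtain ⟨w, hw, hT⟩ := M.exC
    exact ⟨w, hw, by rw [hT]; exact (ncard3_815 cd ce de).le⟩
  · intro w hA hC
    have k1 := sub_of_closure h hA
    have k2 := sub_of_closure h hC
    have h5 := four_le (k1 (Or.inl rfl)) (k1 (Or.inr rfl)) (k2 (Or.inl rfl)) (k2 (Or.inr rfl))
      (by simp [ab, ac, ad, bc, bd, cd])
    have hf := mem_f273 X M (dist_of_closure hA) h5
    have h6 : ({a, b, c, d, f} : Set (Fin 6)) ⊆ T w := by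
      rintro i (rfl | rfl | rfl | rfl | rfl)
      · exact k1 (Or.inl rfl)
      · exact k1 (Or.inr rfl)
      · exact k2 (Or.inl rfl)
      · exact k2 (Or.inr rfl)
      · exact hf
    have h7 := Set.ncard_le_ncard h6 (Set.toFinite _)
    have h8 : ({a, b, c, d, f} : Set (Fin 6)).ncard = 5 := by
      rw [Set.ncard_insert_of_notMem (by simp [ab, ac, ad, af]),
        Set.ncard_insert_of_notMem (by simp [bc, bd, bf]),
        Set.ncard_insert_of_notMem (by simp [cd, cf]), Set.ncard_pair df]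
    have h9 := X.df.le4 w
    omega

/-- the letters as colours -/
theorem LL2_460 (h : Irr U T) (hy : y ∈ closure (LL T V a b c d e f 2)) :
    y ∈ closure (Ex T V {a, b}) := LL_Lt (l := 2) h hy

theorem LL3_460 (h : Irr U T) (hy : y ∈ closure (LL T V a b c d e f 3)) :
    y ∈ closure (Ex T V {c, d}) := LL_Lt (l := 3) h hy

/-- **(E)** -/
theorem excE460 (X : XC U T) (M : Md98 T V a b c d e f) (hy : dist y V = 1)
    (h4 : 4 ≤ (T y).ncard) (hA : y ∉ closure (Ex T V {a, b})) (hC : y ∉ closure (Ex T V {c, d})) :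
    ∃ p, dist p V = 1 ∧ dist p y = 1 ∧ (T p).ncard ≤ 3 ∧ e ∈ T p ∧ f ∈ T p := by
  obtain ⟨x, h1, h2, h3, -, ⟨-, h5 | h5⟩ | ⟨h5, h6, -, -⟩⟩ := real460 X M hy h4
  · exact absurd (LL2_460 X.df.irr h5) hA
  · exact absurd (LL3_460 X.df.irr h5) hC
  · exact ⟨x, h1, h2, h3, h5, h6⟩

/-- **(K)** -/
theorem excK460 (X : XC U T) (M : Md98 T V a b c d e f) (hy : dist y V = 1)
    (h4 : 4 ≤ (T y).ncard) (hC : y ∉ closure (Ex T V {c, d})) :
    ∃ p, dist p V = 1 ∧ dist p y = 1 ∧ (T p).ncard ≤ 3 ∧ p ∉ closure (Ex T V {c, d}) := by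
  obtain ⟨⟨ab, ac, ad, ae, af⟩, ⟨bc, bd, be, bf⟩, ⟨cd, ce, cf⟩, ⟨de, df⟩, ef⟩ :=
    (czM_of_mode815 X.df M.dpt M.nd M.hA M.hC).nd'
  obtain ⟨x, h1, h2, h3, h7, ⟨-, h5 | h5⟩ | ⟨h5, h6, -, -⟩⟩ := real460 X M hy h4
  · refine ⟨x, h1, h2, h3, fun hx => h7 (Or.inl ⟨h5, ?_⟩)⟩
    have hw : x ∈ LL T V a b c d e f 3 := ⟨h3, hx⟩
    exact subset_closure hw
  · exact absurd (LL3_460 X.df.irr h5) hC
  · refine ⟨x, h1, h2, h3, fun hx => ?_⟩
    have k2 := sub_of_closure X.df.irr hx
    have h8 := four_le (k2 (Or.inl rfl)) (k2 (Or.inr rfl)) h5 h6 (by simp [cd, ce, cf, de, df, ef])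
    omega

theorem sq_one460 {p q : ℂ} (h : dist p q = 1) :
    (p.re - q.re) ^ 2 + (p.im - q.im) ^ 2 = 1 := by
  have h1 : ‖p - q‖ ^ 2 = 1 := by rw [← dist_eq_norm, h]; norm_num
  rw [← Complex.normSq_eq_norm_sq, Complex.normSq_apply] at h1
  simp only [Complex.sub_re, Complex.sub_im] at h1
  linear_combination h1

/-- the two apexes -/
theorem apexm460 {x V y y2 : ℂ} (a1 : dist x V = 1) (a2 : dist x y = 1) (a3 : dist y2 V = 1)
    (a4 : dist y2 y = 1) (a5 : dist y V = 1) (hx : x ≠ y2) : x = V + y - y2 := by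
  -- both are roots of `t² - w t + w² = 0`, `t = x - V`, `w = y - V`
  have key : ∀ {x : ℂ}, dist x V = 1 → dist x y = 1 →
      (x - V) ^ 2 - (y - V) * (x - V) + (y - V) ^ 2 = 0 := by
    intro x a1 a2
    have b1 := sq_one460 a1
    have b2 := sq_one460 a2
    have b5 := sq_one460 a5
    obtain ⟨r, hr⟩ : ∃ r, r = x.re - V.re := ⟨_, rfl⟩
    obtain ⟨s, hs⟩ : ∃ s, s = x.im - V.im := ⟨_, rfl⟩
    obtain ⟨g, hg⟩ : ∃ g, g = y.re - V.re := ⟨_, rfl⟩
    obtain ⟨k, hk⟩ : ∃ k, k = y.im - V.im := ⟨_, rfl⟩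
    have c2 : (r - g) ^ 2 + (s - k) ^ 2 = 1 := by rw [hr, hs, hg, hk]; linear_combination b2
    rw [← hr, ← hs] at b1
    rw [← hg, ← hk] at b5
    have c3 : 2 * (r * g + s * k) = 1 := by linear_combination b1 + b5 - c2
    have c4 : (2 * (r * k - s * g)) ^ 2 = 3 := by
      have : (2 * (r * k - s * g)) ^ 2 + (2 * (r * g + s * k)) ^ 2 =
          4 * ((r ^ 2 + s ^ 2) * (g ^ 2 + k ^ 2)) := by ring
      rw [c3, b1, b5] at this
      linear_combination this
    apply Complex.ext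
    · simp only [Complex.sub_re, Complex.add_re, Complex.mul_re, Complex.sub_im, pow_two,
        Complex.zero_re]
      rw [← hr, ← hs, ← hg, ← hk]
      -- `r² - s² - (g r - k s) + g² - k² = 0`
      have e1 : (r * g + s * k) * g = r * g ^ 2 + s * k * g := by ring
      -- `r = (g ± √3 k)/2` form: multiply by `g² + k² = 1`
      have f1 : r = (r * g + s * k) * g + (r * k - s * g) * k := by
        linear_combination (-r) * b5
      have f2 : s = (r * g + s * k) * k - (r * k - s * g) * g := by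
        linear_combination (-s) * b5
      obtain ⟨m, hm⟩ : ∃ m, m = r * k - s * g := ⟨_, rfl⟩
      have c5 : r * g + s * k = 1 / 2 := by linear_combination c3 / 2
      rw [c5, ← hm] at f1 f2
      rw [← hm] at c4
      rw [f1, f2]
      linear_combination (k ^ 2 - g ^ 2) / 4 * c4
    · simp only [Complex.sub_re, Complex.add_im, Complex.mul_im, Complex.sub_im, pow_two,
        Complex.zero_im]
      rw [← hr, ← hs, ← hg, ← hk]
      have f1 : r = (r * g + s * k) * g + (r * k - s * g) * k := by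
        linear_combination (-r) * b5
      have f2 : s = (r * g + s * k) * k - (r * k - s * g) * g := by
        linear_combination (-s) * b5
      obtain ⟨m, hm⟩ : ∃ m, m = r * k - s * g := ⟨_, rfl⟩
      have c5 : r * g + s * k = 1 / 2 := by linear_combination c3 / 2
      rw [c5, ← hm] at f1 f2
      rw [← hm] at c4
      rw [f1, f2]
      linear_combination (-(g * k) / 2) * c4
  have k1 := key a1 a2
  have k2 := key a3 a4
  have k3 : (x - y2) * (x + y2 - V - y) = 0 := by linear_combination k1 - k2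
  rcases mul_eq_zero.1 k3 with k4 | k4
  · exact absurd (sub_eq_zero.1 k4) hx
  · linear_combination k4

/-- **the flips at a unit triangle** -/
theorem flipE460 : FlipE273 := by
  intro U T X V a b c d e f M y y2 hy hy2 hyy h4 h42 hA hC
  obtain ⟨p, h1, h2, h3, h5, h6⟩ := excE460 X M hy h4 hA hC
  have hne : p ≠ y2 := by rintro rfl; omega
  have hp := apexm460 h1 h2 hy2 (by rw [dist_comm]; exact hyy) hy hne
  rw [hp] at h5 h6
  exact ⟨h5, h6⟩

/-- **row T from row HA** -/
theorem rowTri460 (hH : H98.RowHarm98) : H98.RowTri98 := rowTri273 flipE460 hH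

end Vale.Agent.P032.H460
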