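import Vale.Agent.P032.H460.MCircP
import Vale.Agent.P032.H815.CzMOf
import Vale.Agent.P032.H98.MRow

/-!
# P032: the circle of a point in the mode `e` has two real flips (helper460)

`LL T V a b c d e f l` : the points of order at most three of `S(V)` with the letter `l` (`0 = e`,
`1 = f`, `2 = A`, `3 = C`).  `NF .. y` : `y` is no real flip: not (`f` and `A | C` both limits at `y`),
no apex of order at most three with `e, f` if `e`, `f` are limits at `y`.

`CzM.mlist460` : mode `e`, all points of order at least four in `{y1, y2}`, no point with both `A` and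
`C` as limits, `y1` no real flip: impossible.
-/

open Set Filter Topology Metric

noncomputable section

namespace Vale.Agent.P032.H460

open Vale.Agent.P032.Six Vale.Agent.P032.S5.H767
open Vale.Agent.P032.H987 (CzM Zn)

variable {U : Fin 6 → Set ℂ} {T : ℂ → Set (Fin 6)} {V y y' y1 y2 : ℂ} {a b c d e f : Fin 6}
  {p q : ℝ}

/-- the points of order at most three with the letter `l` -/
def LL (T : ℂ → Set (Fin 6)) (V : ℂ) (a b c d e f : Fin 6) (l : Fin 4) : Set ℂ :=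
  {w | (T w).ncard ≤ 3 ∧ w ∈ Lt T V a b c d e f l}

/-- one of the two points shows `A`, the other one `C` -/
def PX (T : ℂ → Set (Fin 6)) (V : ℂ) (a b c d e f : Fin 6) (y x : ℂ) : Prop :=
  (y ∈ closure (LL T V a b c d e f 2) ∧ x ∈ closure (LL T V a b c d e f 3)) ∨
    (y ∈ closure (LL T V a b c d e f 3) ∧ x ∈ closure (LL T V a b c d e f 2))

/-- a real flip at `y`, seen by the apex `x` -/
def RF (T : ℂ → Set (Fin 6)) (V : ℂ) (a b c d e f : Fin 6) (y x : ℂ) : Prop :=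
  (y ∈ closure (LL T V a b c d e f 1) ∧
    (y ∈ closure (LL T V a b c d e f 2) ∨ y ∈ closure (LL T V a b c d e f 3))) ∨
  (e ∈ T x ∧ f ∈ T x ∧ y ∈ closure (LL T V a b c d e f 0) ∧ y ∈ closure (LL T V a b c d e f 1))

/-- no real flip: for every plain apex -/
def NF (T : ℂ → Set (Fin 6)) (V : ℂ) (a b c d e f : Fin 6) (y : ℂ) : Prop :=
  ∀ x, dist x V = 1 → dist x y = 1 → (T x).ncard ≤ 3 → PX T V a b c d e f y x ∨
    ¬ RF T V a b c d e f y x

theorem LL_Lt (h : Irr U T) {l : Fin 4} (hy : y ∈ closure (LL T V a b c d e f l)) :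
    y ∈ Lt T V a b c d e f l :=
  (closure_minimal (fun _ hw => hw.2) (Lt_closed h l) : closure (LL T V a b c d e f l) ⊆ _) hy

/-- near `y` all other points of the circle have order at most three -/
theorem iso460 (h2 : ∀ y, dist y V = 1 → 4 ≤ (T y).ncard → y = y1 ∨ y = y2) (y : ℂ) :
    ∀ᶠ w in 𝓝 y, dist w V = 1 → w ≠ y → (T w).ncard ≤ 3 := by
  have ho : IsOpen (({y1, y2} \ {y} : Set ℂ)ᶜ) := (Set.toFinite _).isClosed.isOpen_compl
  filter_upwards [ho.mem_nhds (fun hh => hh.2 rfl)] with w hw hwV hwy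
  by_contra hc
  push Not at hc
  rcases h2 w hwV (by omega) with h | h
  · exact hw ⟨Or.inl h, hwy⟩
  · exact hw ⟨Or.inr h, hwy⟩

theorem cis_eq2_460 {x y : ℝ} (h : cis x = cis y) : ∃ n : ℤ, x = y + n * (2 * Real.pi) := by
  unfold cis at h
  obtain ⟨n, hn⟩ := Complex.exp_eq_exp_iff_exists_int.1 h
  refine ⟨n, ?_⟩
  have h1 : ((x : ℝ) : ℂ) * Complex.I = ((y + n * (2 * Real.pi) : ℝ) : ℂ) * Complex.I := by
    rw [hn]; push_cast; ring
  have h2 := mul_right_cancel₀ Complex.I_ne_zero h1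
  exact_mod_cast h2

theorem pt_inj2_460 {u u' : ℝ} (h : pt V u = pt V u') : ∃ n : ℤ, u = u' + 6 * n := by
  unfold pt at h
  obtain ⟨n, hn⟩ := cis_eq2_460 (add_left_cancel h)
  refine ⟨n, ?_⟩
  have hpi := Real.pi_pos
  have h1 : (u - (u' + 6 * n)) * (Real.pi / 3) = 0 := by linear_combination hn
  rcases mul_eq_zero.1 h1 with h2 | h2
  · linarith
  · exfalso; linarith

theorem pt_per2_460 (z : ℂ) (u : ℝ) (n : ℤ) : pt z (u + 6 * n) = pt z u := by
  unfold pt cis
  congr 1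
  have h1 : (((u + 6 * n) * (Real.pi / 3) : ℝ) : ℂ) * Complex.I =
      ((u * (Real.pi / 3) : ℝ) : ℂ) * Complex.I + (n : ℂ) * (2 * Real.pi * Complex.I) := by
    push_cast
    ring
  rw [h1, Complex.exp_add, Complex.exp_int_mul_two_pi_mul_I, mul_one]

theorem exists_pt2_460 {q z : ℂ} (hq : dist q z = 1) : ∃ s : ℝ, q = pt z s := by
  obtain ⟨θ, hθ⟩ := exists_cis (u := q - z) (by rw [← dist_eq_norm]; exact hq)
  refine ⟨θ / (Real.pi / 3), ?_⟩
  have hpi : (0 : ℝ) < Real.pi / 3 := by positivity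
  have e0 : θ / (Real.pi / 3) * (Real.pi / 3) = θ := by field_simp
  unfold pt
  rw [e0, ← hθ]; ring

/-- if only `l` is a limit letter at `y`, all the points near `y` have the letter `l` -/
theorem only460 (C : Ctr U T V a b c d e f)
    (h2 : ∀ y, dist y V = 1 → 4 ≤ (T y).ncard → y = y1 ∨ y = y2) {l : Fin 4}
    (hl : y ∈ Lt T V a b c d e f l)
    (hn : ∀ m, m ≠ l → y ∉ closure (LL T V a b c d e f m)) :
    ∀ᶠ w in 𝓝[sphere V 1] y, w ∈ Lt T V a b c d e f l := by
  have k1 : ∀ᶠ w in 𝓝 y, ∀ m, m ≠ l → w ∉ closure (LL T V a b c d e f m) := by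
    rw [eventually_all]
    intro m
    by_cases hm : m = l
    · exact Eventually.of_forall fun q h4 => absurd hm h4
    · filter_upwards [isClosed_closure.isOpen_compl.mem_nhds (hn m hm)] with w hw _
      exact hw
  filter_upwards [mem_nhdsWithin_of_mem_nhds k1, mem_nhdsWithin_of_mem_nhds (iso460 h2 y),
    self_mem_nhdsWithin] with w hw hw3 hwV
  by_cases hwy : w = y
  · rw [hwy]; exact hl
  obtain ⟨m, hm⟩ := C.cover (y := w) hwV
  by_cases hml : m = l
  · rw [← hml]; exact hm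
  · have hw4 : w ∈ LL T V a b c d e f m := ⟨hw3 hwV hwy, hm⟩
    exact absurd (subset_closure hw4) (hw m hml)

theorem int460 (C : Ctr U T V a b c d e f) {l : Fin 4} (hy : dist y V = 1)
    (h1 : ∀ᶠ w in 𝓝[sphere V 1] y, w ∈ Lt T V a b c d e f l) (hyy : dist y y' = 1)
    (hl' : y' ∈ Lt T V a b c d e f l) : False := by
  obtain ⟨t, ht⟩ := col_nonempty (a := a) (b := b) (c := c) (d := d) (e := e) (f := f) l
  obtain ⟨k1, k2⟩ := tri hy (Lt_dist hl')
  refine line_free C.irr hy (t := t) ?_ hyy (fun h => k1 h.symm)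
    (fun h => k2 (by rw [← h]; ring)) (C.irr.sub _ (Lt_col C.irr hl' ht))
  filter_upwards [h1] with w hw
  exact Lt_col C.irr hw ht

/-- every point has a limit letter -/
theorem exl460 (C : Ctr U T V a b c d e f)
    (h2 : ∀ y, dist y V = 1 → 4 ≤ (T y).ncard → y = y1 ∨ y = y2) (hy : dist y V = 1) :
    ∃ l, y ∈ closure (LL T V a b c d e f l) := by
  by_contra hcon
  push Not at hcon
  obtain ⟨t, rfl⟩ := exists_pt2_460 hy
  have k1 : ∀ᶠ w in 𝓝 (pt V t), ∀ m, w ∉ closure (LL T V a b c d e f m) := by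
    rw [eventually_all]
    intro m
    exact isClosed_closure.isOpen_compl.mem_nhds (hcon m)
  have k2 : ∀ᶠ s in 𝓝 t, (∀ m, pt V s ∉ closure (LL T V a b c d e f m)) ∧
      (dist (pt V s) V = 1 → pt V s ≠ pt V t → (T (pt V s)).ncard ≤ 3) :=
    ((continuous_pt V).continuousAt (x := t)).eventually (k1.and (iso460 h2 (pt V t)))
  have k3 : ∀ᶠ s in 𝓝[≠] t, False := by
    filter_upwards [mem_nhdsWithin_of_mem_nhds k2, self_mem_nhdsWithin,
      mem_nhdsWithin_of_mem_nhds (Ioo_mem_nhds (show t - 1 < t by linarith)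
        (show t < t + 1 by linarith))] with s hs hst hs1
    have hne : pt V s ≠ pt V t := by
      intro h
      obtain ⟨n, hn⟩ := pt_inj2_460 h
      have i1 : (-1 : ℝ) < n := by linarith [hs1.1]
      have i2 : (n : ℝ) < 1 := by linarith [hs1.2]
      have i3 : -1 < n := by exact_mod_cast i1
      have i4 : n < 1 := by exact_mod_cast i2
      have i5 : n = 0 := by omega
      subst i5
      exact hst (by rw [hn]; simp)
    obtain ⟨m, hm⟩ := C.cover (dist_pt V s)
    have hw4 : pt V s ∈ LL T V a b c d e f m := ⟨hs.2 (dist_pt V s) hne, hm⟩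
    exact hs.1 m (subset_closure hw4)
  obtain ⟨s, hs⟩ := k3.exists
  exact hs

/-- the limit letters of unit neighbours are incomparable -/
theorem ninc460 (S : CzM U T V a b c d e f)
    (h2 : ∀ y, dist y V = 1 → 4 ≤ (T y).ncard → y = y1 ∨ y = y2)
    (nf : NF T V a b c d e f y1) (hy : dist y V = 1) (hy' : dist y' V = 1) (hyy : dist y y' = 1)
    (k : (T y).ncard ≤ 3 ∨ y = y1) (k' : (T y').ncard ≤ 3 ∨ y' = y1)
    (np : ¬ PX T V a b c d e f y y')
    (hs : ∀ l, y ∈ closure (LL T V a b c d e f l) → y' ∈ closure (LL T V a b c d e f l)) :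
    False := by
  have np' : ¬ PX T V a b c d e f y' y := by
    rintro (h | h)
    · exact np (Or.inr ⟨h.2, h.1⟩)
    · exact np (Or.inl ⟨h.2, h.1⟩)
  have C := S.ctr
  have hyy' : dist y' y = 1 := by rw [dist_comm]; exact hyy
  obtain ⟨l, hl⟩ := exl460 C h2 hy
  by_cases hm : ∃ m, m ≠ l ∧ y ∈ closure (LL T V a b c d e f m)
  · obtain ⟨m, hml, hm⟩ := hm
    have L1 := LL_Lt S.irr hl
    have M1 := LL_Lt S.irr hm
    have L2 := LL_Lt S.irr (hs l hl)
    have M2 := LL_Lt S.irr (hs m hm)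
    have c4 : ∀ l m : Fin 4, m ≠ l → (l = 0 ∨ m = 0) ∧ (l = 1 ∨ m = 1) →
        (l = 0 ∧ m = 1) ∨ (l = 1 ∧ m = 0) := by decide
    by_cases k3 : (T y).ncard ≤ 3
    · by_cases k3' : (T y').ncard ≤ 3
      · exact C.noswap hml.symm hyy k3 k3' L1 M1 L2 M2
      · obtain rfl := k'.resolve_left k3'
        have hx := S.mixed hy' (by omega) hy k3 hyy hml.symm L2 M2 L1 M1
        have nf' := (nf y hy hyy k3).resolve_left np'
        rcases c4 l m hml hx with ⟨rfl, rfl⟩ | ⟨rfl, rfl⟩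
        · exact nf' (Or.inr ⟨L1.2, M1.2, hs _ hl, hs _ hm⟩)
        · exact nf' (Or.inr ⟨M1.2, L1.2, hs _ hm, hs _ hl⟩)
    · obtain rfl := k.resolve_left k3
      rcases k' with k3' | rfl
      · have hx := S.mixed hy (by omega) hy' k3' hyy' hml.symm L1 M1 L2 M2
        have nf' := (nf y' hy' hyy' k3').resolve_left np
        rcases c4 l m hml hx with ⟨rfl, rfl⟩ | ⟨rfl, rfl⟩
        · exact nf' (Or.inr ⟨L2.2, M2.2, hl, hm⟩)
        · exact nf' (Or.inr ⟨M2.2, L2.2, hm, hl⟩)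
      · rw [dist_self] at hyy
        exact zero_ne_one hyy
  · push Not at hm
    exact int460 C hy (only460 C h2 (LL_Lt S.irr hl) hm) hyy (LL_Lt S.irr (hs l hl))

/-- exchange of the letters `e` and `f` -/
def sg : Fin 4 → Fin 4 := ![1, 0, 2, 3]

theorem sg_sg : ∀ l, sg (sg l) = l := by decide

/-- the limit letters (numbers of `MCirc`) in the direction `t` -/
def XL (T : ℂ → Set (Fin 6)) (V : ℂ) (a b c d e f : Fin 6) (t : ℝ) : Set (Fin 4) :=
  {l | pt V t ∈ closure (LL T V a b c d e f (sg l))}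

theorem XL_per (t : ℝ) (n : ℤ) : XL T V a b c d e f (t + 6 * n) = XL T V a b c d e f t := by
  unfold XL
  rw [pt_per2_460]

theorem XL_three {l : Fin 4} (t : ℝ) (k : ℤ) (hl : l ∈ XL T V a b c d e f (t + 3 * k)) :
    l ∈ XL T V a b c d e f t ∨ l ∈ XL T V a b c d e f (t + 3) := by
  rcases Int.even_or_odd' k with ⟨j, rfl | rfl⟩
  · left
    have e1 : t + 3 * ((2 * j : ℤ) : ℝ) = t + 6 * (j : ℝ) := by push_cast; ring
    rw [e1, XL_per] at hl
    exact hl
  · right
    have e1 : t + 3 * ((2 * j + 1 : ℤ) : ℝ) = t + 3 + 6 * (j : ℝ) := by push_cast; ring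
    rw [e1, XL_per] at hl
    exact hl

theorem XL_cl (l : Fin 4) : IsClosed {t | l ∈ XL T V a b c d e f t} :=
  isClosed_closure.preimage (continuous_pt V)

/-- the good times -/
theorem gd460 (S : CzM U T V a b c d e f)
    (h2 : ∀ y, dist y V = 1 → 4 ≤ (T y).ncard → y = y1 ∨ y = y2)
    (nf : NF T V a b c d e f y1) {t : ℝ} (n1 : pt V t ≠ y2) (n2 : pt V (t + 1) ≠ y2)
    (hpp : ¬ P.PP (XL T V a b c d e f t) (XL T V a b c d e f (t + 1))) :
    P.Gd (XL T V a b c d e f t) (XL T V a b c d e f (t + 1)) := by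
  have d1 := dist_pt V t
  have d2 := dist_pt V (t + 1)
  have d3 : dist (pt V t) (pt V (t + 1)) = 1 := dist_pt_one V t
  have k1 : (T (pt V t)).ncard ≤ 3 ∨ pt V t = y1 := by
    by_cases h : (T (pt V t)).ncard ≤ 3
    · exact Or.inl h
    · exact Or.inr ((h2 _ d1 (by omega)).resolve_right n1)
  have k2 : (T (pt V (t + 1))).ncard ≤ 3 ∨ pt V (t + 1) = y1 := by
    by_cases h : (T (pt V (t + 1))).ncard ≤ 3
    · exact Or.inl h
    · exact Or.inr ((h2 _ d2 (by omega)).resolve_right n2)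
  have np : ¬ PX T V a b c d e f (pt V t) (pt V (t + 1)) := hpp
  have np' : ¬ PX T V a b c d e f (pt V (t + 1)) (pt V t) := by
    rintro (h | h)
    · exact np (Or.inr ⟨h.2, h.1⟩)
    · exact np (Or.inl ⟨h.2, h.1⟩)
  have key : ∀ {y y' : ℂ}, dist y V = 1 → dist y' V = 1 → dist y y' = 1 →
      ((T y).ncard ≤ 3 ∨ y = y1) → ((T y').ncard ≤ 3 ∨ y' = y1) → ¬ PX T V a b c d e f y y' →
      y ∈ closure (LL T V a b c d e f 1) →
      y ∉ closure (LL T V a b c d e f 2) ∧ y ∉ closure (LL T V a b c d e f 3) := by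
    intro y y' hy hy' hyy k k' np hf
    rcases k with k | rfl
    · constructor
      · intro hA
        rcases S.plain hy k (LL_Lt S.irr hf) (LL_Lt S.irr hA) with h | h | h <;>
          exact absurd h (by decide)
      · intro hA
        rcases S.plain hy k (LL_Lt S.irr hf) (LL_Lt S.irr hA) with h | h | h <;>
          exact absurd h (by decide)
    · rcases k' with k' | rfl
      · have nf' := (nf y' hy' (by rw [dist_comm]; exact hyy) k').resolve_left np
        exact ⟨fun hA => nf' (Or.inl ⟨hf, Or.inl hA⟩), fun hA => nf' (Or.inl ⟨hf, Or.inr hA⟩)⟩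
      · rw [dist_self] at hyy
        exact absurd hyy zero_ne_one
  have sub : ∀ {s s' : ℝ}, XL T V a b c d e f s ⊆ XL T V a b c d e f s' → ∀ l,
      pt V s ∈ closure (LL T V a b c d e f l) → pt V s' ∈ closure (LL T V a b c d e f l) := by
    intro s s' hs l hl
    have h1 : sg l ∈ XL T V a b c d e f s := by
      change pt V s ∈ closure (LL T V a b c d e f (sg (sg l)))
      rw [sg_sg]; exact hl
    have h3 : pt V s' ∈ closure (LL T V a b c d e f (sg (sg l))) := hs h1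
    rw [sg_sg] at h3
    exact h3
  have d4 : dist (pt V (t + 1)) (pt V t) = 1 := by rw [dist_comm]; exact d3
  refine ⟨fun hs => ?_, fun hs => ?_, fun h0 => key d1 d2 d3 k1 k2 np h0,
    fun h0 => key d2 d1 d4 k2 k1 np' h0⟩
  · exact ninc460 S h2 nf d1 d2 d3 k1 k2 np (sub hs)
  · exact ninc460 S h2 nf d2 d1 d4 k2 k1 np' (sub hs)

/-- the exact zones with positive gaps -/
theorem exists_mc460 (S : CzM U T V a b c d e f) (Z : Zn T V a b c d p q)
    (exA : ∃ t, 2 ∈ XL T V a b c d e f t) (exC : ∃ t, 3 ∈ XL T V a b c d e f t)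
    (hJ : ∀ t, 2 ∈ XL T V a b c d e f t → 3 ∉ XL T V a b c d e f t) :
    ∃ p0 p1 q0 q1, P.MC (XL T V a b c d e f) 2 3 p0 p1 q0 q1 := by
  have hA : ∀ t, 2 ∈ XL T V a b c d e f t → pt V t ∈ closure (Ex T V {a, b}) := fun t ht =>
    LL_Lt (l := 2) S.irr ht
  have hC : ∀ t, 3 ∈ XL T V a b c d e f t → pt V t ∈ closure (Ex T V {c, d}) := fun t ht =>
    LL_Lt (l := 3) S.irr ht
  have anti : ∀ t, 2 ∈ XL T V a b c d e f t → 3 ∉ XL T V a b c d e f (t + 3) := by
    intro t h2 h3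
    have k2 := hA t h2
    have k3 := hC _ h3
    have hsub : ({c, d} : Set (Fin 6)) ⊆ T (pt V (t + 3)) := sub_of_closure S.irr k3
    refine S.irr.anti_clo S.dpt (dist_pt V (t + 3)) (hsub (by simp)) (hsub (by simp)) ?_
    rw [pt_three, sub_sub_cancel]
    exact k2
  have anti' : ∀ t, 2 ∈ XL T V a b c d e f (t + 3) → 3 ∉ XL T V a b c d e f t := by
    intro t h2 h3
    have h4 := anti (t + 3) h2
    have e1 : t + 3 + 3 = t + 6 * ((1 : ℤ) : ℝ) := by push_cast; ring
    rw [e1, XL_per] at h4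
    exact h4 h3
  have c3 : ∀ l, IsClosed {t : ℝ | l ∈ XL T V a b c d e f (t + 3)} := fun l =>
    (XL_cl l).preimage (by fun_prop : Continuous fun t : ℝ => t + 3)
  set SA : Set ℝ := ({t | 2 ∈ XL T V a b c d e f t} ∪ {t | 2 ∈ XL T V a b c d e f (t + 3)}) ∩
    Icc p q with hSA
  set SC : Set ℝ := ({t | 3 ∈ XL T V a b c d e f t} ∪ {t | 3 ∈ XL T V a b c d e f (t + 3)}) ∩
    Icc q (p + 3) with hSC
  have cA : IsCompact SA := IsCompact.inter_left isCompact_Icc ((XL_cl 2).union (c3 2))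
  have cC : IsCompact SC := IsCompact.inter_left isCompact_Icc ((XL_cl 3).union (c3 3))
  have inA : ∀ t, 2 ∈ XL T V a b c d e f t → ∃ n : ℤ, t + 3 * n ∈ SA := by
    intro t ht
    obtain ⟨n, n1, n2⟩ := Z.zA t (hA t ht)
    refine ⟨n, XL_three (t + 3 * n) (-n) ?_, n1, n2⟩
    have e1 : t + 3 * (n : ℝ) + 3 * ((-n : ℤ) : ℝ) = t := by push_cast; ring
    rw [e1]; exact ht
  have inC : ∀ t, 3 ∈ XL T V a b c d e f t → ∃ n : ℤ, t + 3 * n ∈ SC := by
    intro t ht
    obtain ⟨n, n1, n2⟩ := Z.zC t (hC t ht)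
    refine ⟨n, XL_three (t + 3 * n) (-n) ?_, n1, n2⟩
    have e1 : t + 3 * (n : ℝ) + 3 * ((-n : ℤ) : ℝ) = t := by push_cast; ring
    rw [e1]; exact ht
  obtain ⟨tA, htA⟩ := exA
  obtain ⟨tC, htC⟩ := exC
  have nA : SA.Nonempty := by obtain ⟨n, hn⟩ := inA tA htA; exact ⟨_, hn⟩
  have nC : SC.Nonempty := by obtain ⟨n, hn⟩ := inC tC htC; exact ⟨_, hn⟩
  obtain ⟨p1, hp1, mp1⟩ := cA.exists_isLeast nA
  obtain ⟨q0, hq0, mq0⟩ := cA.exists_isGreatest nA
  obtain ⟨q1, hq1, mq1⟩ := cC.exists_isLeast nC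
  obtain ⟨r, hr, mr⟩ := cC.exists_isGreatest nC
  have o1 : p1 ≤ q0 := mp1 hq0
  have o2 : q1 ≤ r := mq1 hr
  have l1 := hp1.2.1
  have l2 := hq0.2.2
  have l3 := hq1.2.1
  have l4 := hr.2.2
  refine ⟨r - 3, p1, q0, q1, XL_cl, Or.inl ⟨rfl, rfl⟩, ?_, ?_, ?_, o1, ?_, by linarith⟩
  · intro t ht
    obtain ⟨n, hn⟩ := inA t ht
    have h1 : p1 ≤ t + 3 * n := mp1 hn
    have h2 : t + 3 * n ≤ q0 := mq0 hn
    exact ⟨-n, by push_cast; linarith, by push_cast; linarith⟩
  · intro t ht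
    obtain ⟨n, hn⟩ := inC t ht
    have h1 : q1 ≤ t + 3 * n := mq1 hn
    have h2 : t + 3 * n ≤ r := mr hn
    exact ⟨-n, by push_cast; linarith, by push_cast; linarith⟩
  · rcases lt_or_eq_of_le (show r - 3 ≤ p1 by linarith) with h | h
    · exact h
    exfalso
    have e2 : r = p1 + 3 := by linarith
    have hr1 := hr.1
    rw [e2] at hr1
    have e3 : p1 + 3 + 3 = p1 + 6 * ((1 : ℤ) : ℝ) := by push_cast; ring
    rcases hp1.1 with hA1 | hA1 <;> rcases hr1 with hC1 | hC1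
    · exact anti p1 hA1 hC1
    · have hC1 : 3 ∈ XL T V a b c d e f (p1 + 3 + 3) := hC1
      rw [e3, XL_per] at hC1
      exact hJ p1 hA1 hC1
    · exact hJ (p1 + 3) hA1 hC1
    · have hC1 : 3 ∈ XL T V a b c d e f (p1 + 3 + 3) := hC1
      rw [e3, XL_per] at hC1
      exact anti' p1 hA1 hC1
  · rcases lt_or_eq_of_le (show q0 ≤ q1 by linarith) with h | h
    · exact h
    exfalso
    have hc := hq1.1
    rw [← h] at hc
    rcases hq0.1 with hA1 | hA1 <;> rcases hc with hC1 | hC1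
    · exact hJ q0 hA1 hC1
    · exact anti q0 hA1 hC1
    · exact anti' q0 hA1 hC1
    · exact hJ (q0 + 3) hA1 hC1

/-- **the circle of a point in the mode `e` with at most one real flip: impossible** -/
theorem mlist_aux460 (S : CzM U T V a b c d e f) (Z : Zn T V a b c d p q)
    (exA : ∃ t, 2 ∈ XL T V a b c d e f t) (exC : ∃ t, 3 ∈ XL T V a b c d e f t)
    (hJ : ∀ t, 2 ∈ XL T V a b c d e f t → 3 ∉ XL T V a b c d e f t)
    (h2 : ∀ y, dist y V = 1 → 4 ≤ (T y).ncard → y = y1 ∨ y = y2)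
    (nf : NF T V a b c d e f y1) : False := by
  obtain ⟨p0, p1, q0, q1, m⟩ := exists_mc460 S Z exA exC hJ
  obtain ⟨u, hu⟩ : ∃ u : ℝ, dist y2 V = 1 → pt V u = y2 := by
    by_cases h : dist y2 V = 1
    · obtain ⟨u, hu⟩ := exists_pt2_460 h
      exact ⟨u, fun _ => hu.symm⟩
    · exact ⟨0, fun h' => absurd h' h⟩
  refine m.mcirc460 u (fun t ht hpp => gd460 S h2 nf ?_ ?_ hpp)
  · intro h
    have h3 := hu (by rw [← h]; exact dist_pt V t)
    obtain ⟨n, hn⟩ := pt_inj2_460 (h.trans h3.symm)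
    exact (ht n).1 hn
  · intro h
    have h3 := hu (by rw [← h]; exact dist_pt V (t + 1))
    obtain ⟨n, hn⟩ := pt_inj2_460 (h.trans h3.symm)
    exact (ht n).2 hn

/-- **(E+), (K++): a real flip, seen by a plain apex.**  All points of order at least four of `S(V)` are
in `{y1, y2}`, no point of `S(V)` is a limit of both pairs. -/
theorem mlist_zn460 (S : CzM U T V a b c d e f) (Z : Zn T V a b c d p q)
    (exA : ∃ w, w ∈ closure (Ex T V {a, b}) ∧ (T w).ncard ≤ 3)
    (exC : ∃ w, w ∈ closure (Ex T V {c, d}) ∧ (T w).ncard ≤ 3)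
    (hJ : ∀ w, w ∈ closure (Ex T V {a, b}) → w ∉ closure (Ex T V {c, d}))
    (h2 : ∀ y, dist y V = 1 → 4 ≤ (T y).ncard → y = y1 ∨ y = y2) :
    ∃ x, dist x V = 1 ∧ dist x y1 = 1 ∧ (T x).ncard ≤ 3 ∧ ¬ PX T V a b c d e f y1 x ∧
      RF T V a b c d e f y1 x := by
  by_contra hcon
  refine mlist_aux460 S Z ?_ ?_ ?_ h2 (y1 := y1) ?_
  · obtain ⟨w, hw, h3⟩ := exA
    obtain ⟨t, rfl⟩ := exists_pt2_460 (dist_of_closure hw)
    exact ⟨t, subset_closure ⟨h3, hw⟩⟩
  · obtain ⟨w, hw, h3⟩ := exC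
    obtain ⟨t, rfl⟩ := exists_pt2_460 (dist_of_closure hw)
    exact ⟨t, subset_closure ⟨h3, hw⟩⟩
  · intro t hA hC
    exact hJ _ (LL_Lt (l := 2) S.irr hA) (LL_Lt (l := 3) S.irr hC)
  · intro x hx hxy h3
    by_contra hn
    rw [not_or, not_not] at hn
    exact hcon ⟨x, hx, hxy, h3, hn.1, hn.2⟩

end Vale.Agent.P032.H460
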