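import Vale.Agent.P032.H460.KApex
import Vale.Agent.P032.S5.H585.Pinch

/-!
# P032: no swaps at harmless points of the circle

`z` a centre with the colours `a, b, c, d`, free colours `e, f`, `y ∈ S(z)` a harmless point with at
most one of the colours `e`, `f`.

* `not_insideH460` : no common point of `S(z)`, `S(y)` has its palette inside `T y`.
* `noswpH460` : no swap of `y` with a neighbour `x`, which has at most three colours or is also
  harmless with at most one of `e`, `f`.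
* `hsw460` : no swaps at all outside the closed `ab`-arcs.
-/

open Set Filter Topology Metric

noncomputable section

namespace Vale.Agent.P032.H460

open Vale.Agent.P032.Six Vale.Agent.P032.S5.H767 Vale.Agent.P032.H695

variable {U : Fin 6 → Set ℂ} {T : ℂ → Set (Fin 6)} {z x y : ℂ} {a b c d e f : Fin 6}
  {A : Set (Fin 6)}

/-- the palette of an apex is not inside the palette of a harmless neighbour -/
theorem not_insideH460 (C : Ctr U T z a b c d e f) (hy : dist y z = 1) (H : Harm T y A)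
    (hcov : ¬ (e ∈ T y ∧ f ∈ T y)) (hx : dist x z = 1) (hxy : dist x y = 1) : ¬ T x ⊆ T y := by
  intro hsub
  have h := C.irr
  have hzy : dist z y = 1 := by rw [dist_comm]; exact hy
  have hfin : ∀ t ∈ A, t = e ∨ t = f := by
    intro t ht
    by_contra hcon
    have htz : t ∈ T z := by
      by_contra h4
      exact hcon (C.miss h4)
    refine apex460 h hzy hxy hx ?_ htz
    filter_upwards [mem_nhdsWithin_of_mem_nhds (h.nhd x), self_mem_nhdsWithin] with w h1 h2
    exact H.h1 w h2 (h1.trans hsub) ht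
  obtain ⟨p, q, hpq, hA⟩ := Set.ncard_eq_two.1 H.cardA
  have hp : p ∈ A := by rw [hA]; simp
  have hq : q ∈ A := by rw [hA]; simp
  refine hcov ?_
  rcases hfin p hp with h1 | h1 <;> rcases hfin q hq with h2 | h2
  · exact absurd (h1.trans h2.symm) hpq
  · exact ⟨h1 ▸ H.sub hp, h2 ▸ H.sub hq⟩
  · exact ⟨h2 ▸ H.sub hq, h1 ▸ H.sub hp⟩
  · exact absurd (h1.trans h2.symm) hpq

/-- the fourth colour -/
theorem fourth460 {s : Set (Fin 6)} (h4 : s.ncard ≤ 4) {i j k l m : Fin 6} (hi : i ∈ s)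
    (hj : j ∈ s) (hk : k ∈ s) (hl : l ∈ s) (hn : [i, j, k, l].Nodup) (hm : m ∈ s) :
    m = i ∨ m = j ∨ m = k ∨ m = l := by
  by_contra hcon
  push Not at hcon
  have h1 : ({m, i, j, k, l} : Set (Fin 6)) ⊆ s := by
    rintro t (rfl | rfl | rfl | rfl | rfl) <;> assumption
  have h2 : ({m, i, j, k, l} : Set (Fin 6)).ncard = 5 := by
    simp only [List.nodup_cons, List.mem_cons, List.not_mem_nil, or_false, not_or,
      List.nodup_nil, and_true, not_false_eq_true] at hn
    obtain ⟨⟨ij, ik, il⟩, ⟨jk, jl⟩, kl⟩ := hn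
    have e1 : ({m, i, j, k, l} : Set (Fin 6)) = (({m, i, j, k, l} : Finset (Fin 6)) : Set (Fin 6)) := by
      ext t; simp
    rw [e1, Set.ncard_coe_finset]
    rw [Finset.card_insert_of_notMem, Finset.card_insert_of_notMem, Finset.card_insert_of_notMem,
      Finset.card_insert_of_notMem, Finset.card_singleton]
    · simp [kl]
    · simp [jk, jl]
    · simp [ij, ik, il]
    · simp [hcon.1, hcon.2.1, hcon.2.2.1, hcon.2.2.2]
  have h3 := Set.ncard_le_ncard h1 (Set.toFinite _)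
  omega

/-- a letter `g` and the pair `{c, d}` are not common letters -/
theorem noGP460 (C : Ctr U T z a b c d e f) {g g' : Fin 6} (hg : g ∉ T z)
    (hgg : ∀ i, i ∉ T z → i = g ∨ i = g') (hy : dist y z = 1)
    (H : Harm T y A) (hcy : g' ∉ T y) (hcov : ¬ (e ∈ T y ∧ f ∈ T y)) (hx : dist x z = 1)
    (hxy : dist x y = 1) (hx4 : (T x).ncard ≤ 3 ∨ (T x).ncard ≤ 4 ∧ g' ∉ T x)
    (hgy : g ∈ T y) (hgx : g ∈ T x) (hyc : y ∈ closure (Ex T z {c, d})) (hxc : c ∈ T x)
    (hxd : d ∈ T x) : False := by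
  have h := C.irr
  have hnin := not_insideH460 C hy H hcov hx hxy
  obtain ⟨r, hrx, hry⟩ := Set.not_subset.1 hnin
  have hcd := sub_of_closure h hyc
  have hyc' : c ∈ T y := hcd (by simp)
  have hyd' : d ∈ T y := hcd (by simp)
  have hn := C.nd
  simp only [List.nodup_cons, List.mem_cons, List.not_mem_nil, or_false, not_or, List.nodup_nil,
    and_true, not_false_eq_true] at hn
  obtain ⟨⟨ab, ac, ad, ae, af⟩, ⟨bc, bd, be, bf⟩, ⟨cd, ce, cf⟩, ⟨de, df⟩, ef⟩ := hn
  have hcz : c ∈ T z := by rw [C.pal]; simp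
  have hdz : d ∈ T z := by rw [C.pal]; simp
  have hgc : g ≠ c := fun h4 => hg (h4 ▸ hcz)
  have hgd : g ≠ d := fun h4 => hg (h4 ▸ hdz)
  have hrg : r ≠ g := fun h4 => hry (h4 ▸ hgy)
  have hrc : r ≠ c := fun h4 => hry (h4 ▸ hyc')
  have hrd : r ≠ d := fun h4 => hry (h4 ▸ hyd')
  have hnd : [r, g, c, d].Nodup := by simp [hrg, hrc, hrd, hgc, hgd, cd]
  rcases hx4 with hx3 | ⟨hx4, hgx'⟩
  · exact not_four460 hx3 hrx hgx hxc hxd hnd
  have hrg' : r ≠ g' := fun h4 => hgx' (h4 ▸ hrx)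
  have hrz : r ∈ T z := by
    by_contra h4
    rcases hgg r h4 with h5 | h5
    · exact hrg h5
    · exact hrg' h5
  have hzy : dist z y = 1 := by rw [dist_comm]; exact hy
  have hzx : dist z x = 1 := by rw [dist_comm]; exact hx
  -- `A ⊆ {g, c, d}`
  have hA1 : A ⊆ {g, c, d} := by
    by_contra hA1
    refine apex460 h hzy hxy hx (t := r) ?_ hrz
    filter_upwards [mem_nhdsWithin_of_mem_nhds (h.nhd x), self_mem_nhdsWithin] with w h1 h2
    by_contra hrw
    have h3 : ∀ i ∈ T w, i = g ∨ i = c ∨ i = d := by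
      intro i hi
      rcases fourth460 hx4 hrx hgx hxc hxd hnd (h1 hi) with h4 | h4 | h4 | h4
      · exact absurd (h4 ▸ hi) hrw
      · exact Or.inl h4
      · exact Or.inr (Or.inl h4)
      · exact Or.inr (Or.inr h4)
    have h4 : T w ⊆ T y := by
      intro i hi
      rcases h3 i hi with rfl | rfl | rfl
      exacts [hgy, hyc', hyd']
    exact hA1 ((H.h1 w h2 h4).trans fun i hi => h3 i hi)
  -- `A` is not `{c, d}`
  have hA2 : g ∈ A := by
    by_contra hgA
    have h1 : A ⊆ {c, d} := by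
      intro i hi
      rcases hA1 hi with h2 | h2
      · exact absurd (h2 ▸ hi) hgA
      · exact h2
    have h2 : A = {c, d} := by
      refine Set.eq_of_subset_of_ncard_le h1 ?_ (Set.toFinite _)
      rw [H.cardA, Set.ncard_pair cd]
    obtain ⟨p, hp, hJ⟩ := H.arc
    have hpA : T p = A := hJ.self_of_nhdsWithin hp
    have h3 := h.no_layer hp
    obtain ⟨w, hw1, hw2⟩ := mem_closure_iff_nhds.1 hyc _ h3
    have h4 : 4 ≤ (T w).ncard := hw1 (by rw [hpA, h2, ex_self hw2])
    rw [ex_self hw2, Set.ncard_pair cd] at h4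
    omega
  -- the fourth colour of `y`
  obtain ⟨r', hr'y, hr'⟩ : ∃ r' ∈ T y, r' ∉ ({g, c, d} : Set (Fin 6)) := by
    by_contra hcon
    push Not at hcon
    have h1 := Set.ncard_le_ncard (s := T y) (t := {g, c, d}) (fun i hi => hcon i hi)
      (Set.toFinite _)
    rw [H.card] at h1
    have h2 : ({g, c, d} : Set (Fin 6)).ncard ≤ 3 := by
      refine (Set.ncard_insert_le _ _).trans ?_
      have := Set.ncard_insert_le c ({d} : Set (Fin 6))
      rw [Set.ncard_singleton] at this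
      have h5 : ({c, d} : Set (Fin 6)).ncard ≤ 2 := this
      omega
    omega
  simp only [mem_insert_iff, mem_singleton_iff, not_or] at hr'
  have hr'z : r' ∈ T z := by
    by_contra h4
    rcases hgg r' h4 with h5 | h5
    · exact hr'.1 h5
    · exact hcy (h5 ▸ hr'y)
  have hrr' : r ≠ r' := fun h4 => hry (h4 ▸ hr'y)
  have hz4 : (T z).ncard ≤ 4 := by
    rw [C.pal]
    have e1 : ({a, b, c, d} : Set (Fin 6)) = (({a, b, c, d} : Finset (Fin 6)) : Set (Fin 6)) := by
      ext t; simp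
    rw [e1, Set.ncard_coe_finset]
    exact Finset.card_le_four
  have hnd' : [r, r', c, d].Nodup := by
    simp [hrr', hrc, hrd, hr'.2.1, hr'.2.2, cd]
  refine apex460 h hxy hzy hzx (t := r) ?_ hrx
  filter_upwards [mem_nhdsWithin_of_mem_nhds (h.nhd z), self_mem_nhdsWithin] with w h1 h2
  by_contra hrw
  have h3 : T w ⊆ T y := by
    intro i hi
    rcases fourth460 hz4 hrz hr'z hcz hdz hnd' (h1 hi) with h4 | h4 | h4 | h4
    · exact absurd (h4 ▸ hi) hrw
    · exact h4 ▸ hr'y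
    · exact h4 ▸ hyc'
    · exact h4 ▸ hyd'
  exact hg (h1 (H.h1 w h2 h3 hA2))

/-- **no swap at a harmless point** -/
theorem noswpH460 (C : Ctr U T z a b c d e f) (hy : dist y z = 1) (H : Harm T y A)
    (hcov : ¬ (e ∈ T y ∧ f ∈ T y)) (hx : dist x z = 1) (hxy : dist x y = 1)
    (hx4 : (T x).ncard ≤ 3 ∨ (T x).ncard ≤ 4 ∧ ¬ (e ∈ T x ∧ f ∈ T x))
    (hy2 : y ∉ closure (Ex T z {a, b})) :
    ¬ Swp T z a b c d e f y x := by
  rintro ⟨l, m, hlm, k1, k2, k3, k4⟩
  have h := C.irr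
  have key : ∀ l m : Fin 4, l < m → y ∈ Lt T z a b c d e f l → y ∈ Lt T z a b c d e f m →
      x ∈ Lt T z a b c d e f l → x ∈ Lt T z a b c d e f m → False := by
    intro l m hlm k1 k2 k3 k4
    have hcase : (l = 0 ∧ m = 1) ∨ (l = 2 ∨ m = 2) ∨ (l = 0 ∧ m = 3) ∨ (l = 1 ∧ m = 3) := by
      revert hlm; clear k1 k2 k3 k4; revert l m; decide
    rcases hcase with ⟨rfl, rfl⟩ | (rfl | rfl) | ⟨rfl, rfl⟩ | ⟨rfl, rfl⟩
    · exact hcov ⟨Lt_col h k1 rfl, Lt_col h k2 rfl⟩
    · exact hy2 k1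
    · exact hy2 k2
    · have ey : e ∈ T y := Lt_col h k1 rfl
      have ex : e ∈ T x := Lt_col h k3 rfl
      have cx := Lt_col h k4
      have ez : e ∉ T z := by
        have hn := C.nd
        simp only [List.nodup_cons, List.mem_cons, List.not_mem_nil, or_false, not_or,
          List.nodup_nil, and_true, not_false_eq_true] at hn
        rw [C.pal]
        simp [Ne.symm hn.1.2.2.2.1, Ne.symm hn.2.1.2.2.1, Ne.symm hn.2.2.1.2.1, Ne.symm hn.2.2.2.1.1]
      refine noGP460 C ez (fun i hi => C.miss hi) hy H (fun hf => hcov ⟨ey, hf⟩) hcov hx hxy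
        (hx4.imp_right fun h1 => ⟨h1.1, fun hf => h1.2 ⟨ex, hf⟩⟩) ey ex k2 (cx (Or.inl rfl))
        (cx (Or.inr rfl))
    · have fy : f ∈ T y := Lt_col h k1 rfl
      have fx : f ∈ T x := Lt_col h k3 rfl
      have cx := Lt_col h k4
      have fz : f ∉ T z := by
        have hn := C.nd
        simp only [List.nodup_cons, List.mem_cons, List.not_mem_nil, or_false, not_or,
          List.nodup_nil, and_true, not_false_eq_true] at hn
        rw [C.pal]
        simp [Ne.symm hn.1.2.2.2.2, Ne.symm hn.2.1.2.2.2, Ne.symm hn.2.2.1.2.2, Ne.symm hn.2.2.2.1.2]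
      refine noGP460 C fz (fun i hi => (C.miss hi).symm) hy H (fun he => hcov ⟨he, fy⟩) hcov hx hxy
        (hx4.imp_right fun h1 => ⟨h1.1, fun he => h1.2 ⟨he, fx⟩⟩) fy fx k2 (cx (Or.inl rfl))
        (cx (Or.inr rfl))
  rcases lt_or_gt_of_ne hlm with h4 | h4
  · exact key l m h4 k1 k2 k3 k4
  · exact key m l h4 k2 k1 k4 k3

/-- **no swaps** outside the closed `ab`-arcs, if the points with at least four colours there are
harmless with at most one of the free colours -/
theorem hsw460 (C : Ctr U T z a b c d e f)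
    (hH : ∀ y, dist y z = 1 → 4 ≤ (T y).ncard → y ∉ closure (Ex T z {a, b}) →
      (∃ A, Harm T y A) ∧ ¬ (e ∈ T y ∧ f ∈ T y)) (y y' : ℂ) (hy : dist y z = 1)
    (hy' : dist y' z = 1) (hyy : dist y y' = 1) (h2 : y ∉ closure (Ex T z {a, b}))
    (h2' : y' ∉ closure (Ex T z {a, b})) : ¬ Swp T z a b c d e f y y' := by
  have hyy' : dist y' y = 1 := by rw [dist_comm]; exact hyy
  have hor : ∀ w, dist w z = 1 → w ∉ closure (Ex T z {a, b}) →
      (T w).ncard ≤ 3 ∨ (T w).ncard ≤ 4 ∧ ¬ (e ∈ T w ∧ f ∈ T w) := by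
    intro w hw hw2
    rcases le_or_gt (T w).ncard 3 with h3 | h3
    · exact Or.inl h3
    · obtain ⟨⟨A, hA⟩, h4⟩ := hH w hw h3 hw2
      exact Or.inr ⟨hA.card.le, h4⟩
  rcases le_or_gt (T y).ncard 3 with h3 | h3
  · rcases le_or_gt (T y').ncard 3 with h3' | h3'
    · rintro ⟨l, m, hlm, k1, k2, k3, k4⟩
      exact C.noswap hlm hyy h3 h3' k1 k2 k3 k4
    · obtain ⟨⟨A, hA⟩, h4⟩ := hH y' hy' h3' h2'
      rintro ⟨l, m, hlm, k1, k2, k3, k4⟩
      exact noswpH460 C hy' hA h4 hy hyy (hor y hy h2) h2' ⟨l, m, hlm, k3, k4, k1, k2⟩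
  · obtain ⟨⟨A, hA⟩, h4⟩ := hH y hy h3 h2
    exact noswpH460 C hy hA h4 hy' hyy' (hor y' hy' h2') h2

end Vale.Agent.P032.H460
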