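import Vale.Agent.P032.H460.GenF
import Vale.Agent.P032.H460.KApexH
import Vale.Agent.P032.H460.SwpH
import Vale.Agent.P032.H961.QI
import Vale.Agent.P032.H678.VW4

/-!
# P032: the four-term sum (B3) at a quasi-full point with harmless invisible points

`QI0.parH460` : `V` a quasi-full point of the structure `QI0 T Inv`, the invisible points of `S(V)`
harmless with at most one of the two free colours: the sum of the four state values `{i, e, f}` at
`V`, `i = a, b, m, n`, is `1`.
-/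

open Set Filter Topology Metric

noncomputable section

namespace Vale.Agent.P032.H460

open Vale.Agent.P032.Six Vale.Agent.P032.S5.H767 Vale.Agent.P032.H961 Vale.Agent.P032.H695

variable {U : Fin 6 → Set ℂ} {T : ℂ → Set (Fin 6)} {Inv : ℂ → ℂ → Prop} {V V1 V2 : ℂ}
  {a b m n e f : Fin 6}

theorem six_cases460 (h : [a, b, m, n, e, f].Nodup) (i : Fin 6) :
    i = a ∨ i = b ∨ i = m ∨ i = n ∨ i = e ∨ i = f := by
  by_contra hcon
  simp only [not_or] at hcon
  have h1 : ({a, b, m, n, e, f} : Finset (Fin 6)).card = 6 := by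
    simp only [List.nodup_cons, List.mem_cons, List.not_mem_nil, or_false, not_or,
      List.nodup_nil, and_true, not_false_eq_true] at h
    obtain ⟨⟨hab, hac, had, hae, haf⟩, ⟨hbc, hbd, hbe, hbf⟩, ⟨hcd, hce, hcf⟩, ⟨hde, hdf⟩, hef⟩ := h
    rw [Finset.card_insert_of_notMem, Finset.card_insert_of_notMem, Finset.card_insert_of_notMem,
      Finset.card_insert_of_notMem, Finset.card_pair hef] <;>
      simp [hab, hac, had, hae, haf, hbc, hbd, hbe, hbf, hcd, hce, hcf, hde, hdf]
  have h2 : ({a, b, m, n, e, f} : Finset (Fin 6)) = Finset.univ :=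
    Finset.eq_univ_of_card _ (by rw [h1]; rfl)
  have h3 := Finset.mem_univ i
  rw [← h2] at h3
  simp only [Finset.mem_insert, Finset.mem_singleton] at h3
  tauto

theorem QI0.jk1_460 (h : QI0 T Inv V a b m n e f V1 V2) : JKEnd T V a b m n e f V1 := by
  obtain ⟨g, hg | hg⟩ := h.lk1
  · rcases six_cases460 h.nd g with rfl | rfl | rfl | rfl | rfl | rfl
    · exact absurd rfl hg.ad
    · exact absurd rfl hg.cd
    · exact absurd rfl hg.bd
    · left
      rw [hg.pal, h.pal]
      ext i; simp only [mem_insert_iff, mem_singleton_iff]; tauto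
    · exact Or.inr ⟨a, b, m, g, Or.inl ⟨rfl, rfl⟩, Or.inl rfl, Or.inl rfl, hg⟩
    · exact Or.inr ⟨a, b, m, g, Or.inl ⟨rfl, rfl⟩, Or.inl rfl, Or.inr rfl, hg⟩
  · rcases six_cases460 h.nd g with rfl | rfl | rfl | rfl | rfl | rfl
    · exact absurd rfl hg.cd
    · exact absurd rfl hg.bd
    · left
      rw [hg.pal, h.pal]
      ext i; simp only [mem_insert_iff, mem_singleton_iff]; tauto
    · exact absurd rfl hg.ad
    · exact Or.inr ⟨b, a, n, g, Or.inr ⟨rfl, rfl⟩, Or.inr rfl, Or.inl rfl, hg.swap12⟩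
    · exact Or.inr ⟨b, a, n, g, Or.inr ⟨rfl, rfl⟩, Or.inr rfl, Or.inr rfl, hg.swap12⟩

theorem JKEnd.swap460 {v : ℂ} (h : JKEnd T V a b n m e f v) : JKEnd T V a b m n e f v := by
  rcases h with h | ⟨x, x', y, g, hx, hy, hg, hD⟩
  · exact Or.inl h
  · exact Or.inr ⟨x, x', y, g, hx, hy.symm, hg, hD⟩

theorem QI0.jk2_460 (h : QI0 T Inv V a b m n e f V1 V2) : JKEnd T V a b m n e f V2 :=
  JKEnd.swap460 (QI0.jk1_460 h.mirror)

/-- a `J`/`K`-link has not both free colours -/
theorem JKEnd.heg460 (hz : DPt T V a b m n) (hnd : [a, b, m, n, e, f].Nodup) {v : ℂ}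
    (hv : JKEnd T V a b m n e f v) : ¬ (e ∈ T v ∧ f ∈ T v) := by
  simp only [List.nodup_cons, List.mem_cons, List.not_mem_nil, or_false, not_or, List.nodup_nil,
    and_true, not_false_eq_true] at hnd
  obtain ⟨⟨ab, ac, ad, ae, af⟩, ⟨bc, bd, be, bf⟩, ⟨cd, ce, cf⟩, ⟨de, df⟩, ef⟩ := hnd
  rcases hv with hv | ⟨x, x', y, g, hx, hy, hg, hD⟩
  · rw [hv, hz.pal]
    simp [Ne.symm ae, Ne.symm be, Ne.symm ce, Ne.symm de]
  · rw [hD.pal]
    rcases hx with ⟨rfl, rfl⟩ | ⟨rfl, rfl⟩ <;> rcases hy with rfl | rfl <;>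
      rcases hg with rfl | rfl <;>
      simp [Ne.symm ae, Ne.symm be, Ne.symm ce, Ne.symm de, Ne.symm af, Ne.symm bf, Ne.symm cf,
        Ne.symm df, ef, Ne.symm ef]

/-- multiples of six -/
theorem int6_460 {k : ℤ} {x : ℝ} (hx : x = k * 6) (h1 : -6 < x) (h2 : x < 6) : x = 0 := by
  rw [hx] at h1 h2
  have c1 : (k : ℝ) < 1 := by linarith
  have c2 : (-1 : ℝ) < k := by linarith
  have c3 : k < (1 : ℤ) := by exact_mod_cast c1
  have c4 : (-1 : ℤ) < k := by exact_mod_cast c2
  have c5 : k = 0 := by omega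
  rw [hx, c5]; simp

theorem pt_ne460 {s t : ℝ} (h0 : s ≠ t) (h1 : -6 < s - t) (h2 : s - t < 6) : pt V s ≠ pt V t := by
  intro h
  obtain ⟨k, hk⟩ := pt_inj460 h
  exact h0 (by linarith [int6_460 (x := s - t) (k := k) (by linarith) h1 h2])

theorem notMem_arc460 {s t r : ℝ} (h0 : r < s) (h1 : t < r + 6) :
    pt V r ∉ pt V '' Icc s t := by
  rintro ⟨x, hx, hxr⟩
  obtain ⟨k, hk⟩ := pt_inj460 hxr
  have := int6_460 (x := x - r) (k := k) (by linarith) (by linarith [hx.1]) (by linarith [hx.2])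
  linarith [hx.1]

/-- the palettes near the ends of the closed arc -/
theorem arc_end460 {s t : ℝ} (hst : s < t) (hst' : t ≤ s + 1)
    (hcl : closure (Ex T V {a, b}) = pt V '' Icc s t)
    (hex : ∀ u ∈ Ioo s t, pt V u ∈ Ex T V {a, b}) :
    ((∀ᶠ w in 𝓝[sphere V 1] (pt V s), 1 < dist w (pt V (s - 1)) → T w = {a, b}) ∧
      (∀ᶠ w in 𝓝[sphere V 1] (pt V s), dist w (pt V (s - 1)) < 1 →
        w ∉ closure (Ex T V {a, b}))) ∧
    (∀ᶠ w in 𝓝[sphere V 1] (pt V t), 1 < dist w (pt V (t + 1)) → T w = {a, b}) ∧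
      (∀ᶠ w in 𝓝[sphere V 1] (pt V t), dist w (pt V (t + 1)) < 1 →
        w ∉ closure (Ex T V {a, b})) := by
  refine ⟨⟨ev_circle V ?_, ev_circle V ?_⟩, ev_circle V ?_, ev_circle V ?_⟩
  · filter_upwards [Ioo_mem_nhds (a := s - 1) (b := t) (by linarith) hst] with v hv h1
    rcases le_or_gt v s with h2 | h2
    · exfalso
      have := H383.dist_pt_le V (s := v) (t := s - 1)
        (abs_le.2 ⟨by linarith [hv.1], by linarith⟩)
      linarith
    · exact ex_self (hex v ⟨h2, hv.2⟩)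
  · filter_upwards [Ioo_mem_nhds (a := s - 1) (b := t) (by linarith) hst] with v hv h1
    rcases lt_or_ge v s with h2 | h2
    · rw [hcl]
      exact notMem_arc460 h2 (by linarith [hv.1])
    · exfalso
      rcases eq_or_lt_of_le h2 with h3 | h3
      · rw [← h3] at h1
        have := dist_pt_one V (s - 1)
        rw [sub_add_cancel, dist_comm] at this
        linarith
      · have := H678.dist_pt_gt V (s := v) (t := s - 1)
          (by rw [abs_of_pos (by linarith)]; linarith)
          (by rw [abs_of_pos (by linarith)]; linarith [hv.2])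
        linarith
  · filter_upwards [Ioo_mem_nhds (a := s) (b := t + 1) hst (by linarith)] with v hv h1
    rcases le_or_gt t v with h2 | h2
    · exfalso
      have := H383.dist_pt_le V (s := v) (t := t + 1)
        (abs_le.2 ⟨by linarith, by linarith [hv.2]⟩)
      linarith
    · exact ex_self (hex v ⟨hv.1, h2⟩)
  · filter_upwards [Ioo_mem_nhds (a := s) (b := t + 1) hst (by linarith)] with v hv h1
    rcases lt_or_ge t v with h2 | h2
    · rw [hcl]
      intro h3
      obtain ⟨x, hx, hxr⟩ := h3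
      obtain ⟨k, hk⟩ := pt_inj460 hxr
      have := int6_460 (x := x - v) (k := k) (by linarith) (by linarith [hx.1, hv.2])
        (by linarith [hx.2])
      linarith [hx.2]
    · exfalso
      rcases eq_or_lt_of_le h2 with h3 | h3
      · rw [h3] at h1
        have := dist_pt_one V t
        linarith
      · have := H678.dist_pt_gt V (s := v) (t := t + 1)
          (by rw [abs_of_neg (by linarith)]; linarith)
          (by rw [abs_of_neg (by linarith)]; linarith [hv.1])
        linarith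

variable {g : ℂ → Set (Fin 6)} {Z : Set ℂ} {o : ℂ} {R δ₀ : ℝ}

open Vale.Agent.P032.Carr in
/-- **(B3)** at a quasi-full point, the invisible points harmless with at most one free colour -/
theorem QI0.parH460 (D : DSt U T Z g o R δ₀) (hR : dist V o ≤ R - 1)
    (hV : QI0 T Inv V a b m n e f V1 V2)
    (hI : ∀ y, Inv V y → dist y V = 1 → (∃ A, Harm T y A) ∧ ¬ (e ∈ T y ∧ f ∈ T y)) :
    lamT T Z g δ₀ a V e f + lamT T Z g δ₀ b V e f + lamT T Z g δ₀ m V e f +
      lamT T Z g δ₀ n V e f = 1 := by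
  have h := D.df.irr
  have hz := hV.dpt
  have hnd := hV.nd
  have C := ctr_of h hz hnd
  obtain ⟨s, t, hst, hst', hends, hex, hcl⟩ := hV.arc' h
  have hn := hnd
  simp only [List.nodup_cons, List.mem_cons, List.not_mem_nil, or_false, not_or, List.nodup_nil,
    and_true, not_false_eq_true] at hn
  obtain ⟨⟨ab, ac, ad, ae, af⟩, ⟨bc, bd, be, bf⟩, ⟨cd, ce, cf⟩, ⟨de, df⟩, ef⟩ := hn
  obtain ⟨⟨l1, l2⟩, r1, r2⟩ := arc_end460 hst hst' hcl hex
  -- the order-4 points
  have hord : ∀ y, dist y V = 1 → 4 ≤ (T y).ncard → y = pt V s ∨ y = pt V t ∨ Inv V y := by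
    intro y hy h4
    rcases hV.ord y hy h4 with h1 | h1 | h1
    · rcases hends with ⟨h2, -⟩ | ⟨h2, -⟩
      · exact Or.inr (Or.inl (h1.trans h2))
      · exact Or.inl (h1.trans h2)
    · rcases hends with ⟨-, h2⟩ | ⟨-, h2⟩
      · exact Or.inl (h1.trans h2)
      · exact Or.inr (Or.inl (h1.trans h2))
    · exact Or.inr (Or.inr h1)
  have jkl : JKEnd T V a b m n e f (pt V s) := by
    rcases hends with ⟨-, h2⟩ | ⟨h2, -⟩
    · rw [← h2]; exact QI0.jk2_460 hV
    · rw [← h2]; exact QI0.jk1_460 hV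
  have jkr : JKEnd T V a b m n e f (pt V t) := by
    rcases hends with ⟨h2, -⟩ | ⟨-, h2⟩
    · rw [← h2]; exact QI0.jk1_460 hV
    · rw [← h2]; exact QI0.jk2_460 hV
  have hdl : ∃ p q r u : Fin 6, DPt T (pt V s) p q r u := by
    rcases hends with ⟨-, h2⟩ | ⟨h2, -⟩
    · rw [← h2]
      obtain ⟨x, hx | hx⟩ := hV.lk2
      · exact ⟨_, _, _, _, hx⟩
      · exact ⟨_, _, _, _, hx⟩
    · rw [← h2]
      obtain ⟨x, hx | hx⟩ := hV.lk1
      · exact ⟨_, _, _, _, hx⟩
      · exact ⟨_, _, _, _, hx⟩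
  have hdr : ∃ p q r u : Fin 6, DPt T (pt V t) p q r u := by
    rcases hends with ⟨h2, -⟩ | ⟨-, h2⟩
    · rw [← h2]
      obtain ⟨x, hx | hx⟩ := hV.lk1
      · exact ⟨_, _, _, _, hx⟩
      · exact ⟨_, _, _, _, hx⟩
    · rw [← h2]
      obtain ⟨x, hx | hx⟩ := hV.lk2
      · exact ⟨_, _, _, _, hx⟩
      · exact ⟨_, _, _, _, hx⟩
  -- not both free colours
  have heg : ∀ y, dist y V = 1 → 4 ≤ (T y).ncard → ¬ (e ∈ T y ∧ f ∈ T y) := by
    intro y hy h4
    rcases hord y hy h4 with rfl | rfl | h1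
    · exact JKEnd.heg460 hz hnd jkl
    · exact JKEnd.heg460 hz hnd jkr
    · exact (hI y h1 hy).2
  have hor : ∀ y, dist y V = 1 → y ≠ pt V s → y ≠ pt V t →
      (T y).ncard ≤ 3 ∨ ∃ A, Harm T y A := by
    intro y hy h1 h2
    rcases le_or_gt (T y).ncard 3 with h3 | h3
    · exact Or.inl h3
    · rcases hord y hy h3 with h4 | h4 | h4
      exacts [absurd h4 h1, absurd h4 h2, Or.inr (hI y h4 hy).1]
  have hst2 : s + (t - s) = t := by ring
  refine D.sum_four_gen hR C (u0 := s) (α := t - s) (by linarith) (by linarith)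
    (fun r hr => ?_) ?_ ?_ (fun r hr => ?_) (fun r hr hcon => ?_) (fun y hy he hf => ?_)
    (hsw460 C fun y hy h4 hy2 => ?_) (fun y hy h4 hfy => ?_)
  · rw [ex_self (hex (s + r) ⟨by linarith [hr.1], by linarith [hr.2]⟩)]
    simp [Ne.symm ae, Ne.symm be, Ne.symm af, Ne.symm bf]
  · refine JKEnd.pendH460 h hz hnd jkl (dist_pt V _) (dist_pt V _) ?_ (hor _ (dist_pt V _) ?_ ?_)
      l1 l2
    · have := dist_pt_one V (s - 1)
      rwa [sub_add_cancel] at this
    · exact pt_ne460 (by linarith) (by linarith) (by linarith)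
    · exact pt_ne460 (by linarith) (by linarith) (by linarith)
  · rw [hst2]
    refine JKEnd.pendH460 h hz hnd jkr (dist_pt V _) (dist_pt V _) ?_ (hor _ (dist_pt V _) ?_ ?_)
      r1 r2
    · rw [dist_comm]; exact dist_pt_one V _
    · exact pt_ne460 (by linarith) (by linarith) (by linarith)
    · exact pt_ne460 (by linarith) (by linarith) (by linarith)
  · rw [hcl]
    rintro ⟨x, hx, hxr⟩
    obtain ⟨k, hk⟩ := pt_inj460 hxr
    have := int6_460 (x := s + r - x) (k := -k) (by push_cast; linarith)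
      (by linarith [hx.2, hr.1]) (by linarith [hx.1, hr.2])
    linarith [hx.2, hr.1]
  · have e1 : s + 3 + r = s + r + 3 := by ring
    rw [e1, pt_three] at hcon
    have h0 : pt V (s + r) ∈ closure (Ex T V {a, b}) := by
      rw [hcl]
      exact ⟨s + r, ⟨by linarith [hr.1], by linarith [hr.2]⟩, rfl⟩
    have h1 := pair_sub460 (sub_of_closure h h0)
    have h2 := pair_sub460 (sub_of_closure h hcon)
    exact h.anti hz (dist_pt V _) (h.sub _ h1.1) (h.sub _ h1.2) (h.sub _ h2.1) (h.sub _ h2.2)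
  · have h3 : (T y).ncard ≤ 3 := by
      by_contra h4
      exact heg y hy (by omega) ⟨he, hf⟩
    constructor
    · intro h4
      rcases C.noEF h3 he hf (l := 2) h4 with h5 | h5 <;> exact absurd h5 (by decide)
    · intro h4
      rcases C.noEF h3 he hf (l := 3) h4 with h5 | h5 <;> exact absurd h5 (by decide)
  · refine ⟨?_, heg y hy h4⟩
    rcases hord y hy h4 with h1 | h1 | h1
    · exfalso
      refine hy2 ?_
      rw [hcl, h1]
      exact ⟨s, ⟨le_rfl, hst.le⟩, rfl⟩
    · exfalso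
      refine hy2 ?_
      rw [hcl, h1]
      exact ⟨t, ⟨hst.le, le_rfl⟩, rfl⟩
    · exact (hI y h1 hy).1
  · refine heg y hy h4 ?_
    have hsub : g y ⊆ T y := by
      rcases hord y hy h4 with h1 | h1 | h1
      · obtain ⟨p, q, r, u, hD⟩ := hdl
        rw [← h1] at hD
        rw [hD.pal]
        rcases D.ch.two y p q r u hD with h2 | h2 <;> rw [h2]
        · rintro i (rfl | rfl) <;> simp
        · rintro i (rfl | rfl) <;> simp
      · obtain ⟨p, q, r, u, hD⟩ := hdr
        rw [← h1] at hD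
        rw [hD.pal]
        rcases D.ch.two y p q r u hD with h2 | h2 <;> rw [h2]
        · rintro i (rfl | rfl) <;> simp
        · rintro i (rfl | rfl) <;> simp
      · obtain ⟨A, hA⟩ := (hI y h1 hy).1
        rw [D.ch.harm y A hA]
        exact hA.sub
    rw [hfy] at hsub
    exact ⟨hsub (Or.inl rfl), hsub (Or.inr rfl)⟩

end Vale.Agent.P032.H460
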