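import Vale.Agent.P032.H460.ParK
import Vale.Agent.P032.H460.KApex

/-!
# P032: parity at a quasi-full two-pair point with J- and K-ends, geometric form

`par_quasi460` : `z` two-pair with the pairs `{a, b}`, `{c, d}`, the exact `ab`-arcs form one arc of
length at most `60` degrees whose ends are `PEnd` (J or K, `JKEnd.pend`); every point of `S(z)` of
order at least four has the palette of `z`, or is a two-pair point whose pairs are not `{e, f}` with
apexes of order at most three.  Then `Par T z e f`.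
-/

open Set Filter Topology Metric

noncomputable section

namespace Vale.Agent.P032.H460

open Vale.Agent.P032.Six Vale.Agent.P032.S5.H767 Vale.Agent.P032.H695

variable {U : Fin 6 → Set ℂ} {T : ℂ → Set (Fin 6)} {z : ℂ} {a b c d e f : Fin 6}

/-- a J-neighbour or a K-neighbour of `z` -/
def JKEnd (T : ℂ → Set (Fin 6)) (z : ℂ) (a b c d e f : Fin 6) (v : ℂ) : Prop :=
  T v = T z ∨ ∃ x x' y g, ((x = a ∧ x' = b) ∨ (x = b ∧ x' = a)) ∧ (y = c ∨ y = d) ∧
    (g = e ∨ g = f) ∧ DPt T v x y x' g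

theorem JKEnd.pend (h : Irr U T) (hz : DPt T z a b c d) (hnd : [a, b, c, d, e, f].Nodup)
    {v p : ℂ} (hv : JKEnd T z a b c d e f v) (hvz : dist v z = 1) (hpz : dist p z = 1)
    (hpv : dist p v = 1) (h3 : (T p).ncard ≤ 3) : PEnd T e f v p := by
  have hn := hnd
  simp only [List.nodup_cons, List.mem_cons, List.not_mem_nil, or_false, not_or, List.nodup_nil,
    and_true, not_false_eq_true] at hn
  obtain ⟨⟨ab, ac, ad, ae, af⟩, ⟨bc, bd, be, bf⟩, ⟨cd, ce, cf⟩, ⟨de, df⟩, ef⟩ := hn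
  rcases hv with hv | ⟨x, x', y, g, hx, hy, hg, hD⟩
  · left
    rw [hv, hz.pal]
    simp [Ne.symm ae, Ne.symm be, Ne.symm ce, Ne.symm de, Ne.symm af, Ne.symm bf, Ne.symm cf,
      Ne.symm df]
  -- one K-type
  have key : ∀ a b c d e f : Fin 6, [a, b, c, d, e, f].Nodup → DPt T z a b c d → DPt T v a c b e →
      f ∉ T v ∧ f ∈ T p := by
    intro a b c d e f hnd hz hD
    refine ⟨?_, kapex460 h hz hnd hD hvz hpz hpv h3⟩
    simp only [List.nodup_cons, List.mem_cons, List.not_mem_nil, or_false, not_or, List.nodup_nil,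
      and_true, not_false_eq_true] at hnd
    obtain ⟨⟨ab, ac, ad, ae, af⟩, ⟨bc, bd, be, bf⟩, ⟨cd, ce, cf⟩, ⟨de, df⟩, ef⟩ := hnd
    rw [hD.pal]
    simp [Ne.symm af, Ne.symm bf, Ne.symm cf, Ne.symm ef]
  rcases hx with ⟨rfl, rfl⟩ | ⟨rfl, rfl⟩ <;> rcases hy with rfl | rfl <;>
    rcases hg with rfl | rfl
  · exact Or.inr (Or.inl (key _ _ _ _ _ _ hnd hz hD))
  · exact Or.inr (Or.inr (key _ _ _ _ _ _ (by
      simp [ab, ac, ad, ae, af, bc, bd, be, bf, cd, ce, cf, de, df, Ne.symm ef]) hz hD))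
  · exact Or.inr (Or.inl (key _ _ _ _ _ _ (by
      simp [ab, ac, ad, ae, af, bc, bd, be, bf, Ne.symm cd, ce, cf, de, df, ef]) hz.swap34 hD))
  · exact Or.inr (Or.inr (key _ _ _ _ _ _ (by
      simp [ab, ac, ad, ae, af, bc, bd, be, bf, Ne.symm cd, ce, cf, de, df, Ne.symm ef])
      hz.swap34 hD))
  · exact Or.inr (Or.inl (key _ _ _ _ _ _ (by
      simp [Ne.symm ab, ac, ad, ae, af, bc, bd, be, bf, cd, ce, cf, de, df, ef]) hz.swap12 hD))
  · exact Or.inr (Or.inr (key _ _ _ _ _ _ (by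
      simp [Ne.symm ab, ac, ad, ae, af, bc, bd, be, bf, cd, ce, cf, de, df, Ne.symm ef])
      hz.swap12 hD))
  · exact Or.inr (Or.inl (key _ _ _ _ _ _ (by
      simp [Ne.symm ab, ac, ad, ae, af, bc, bd, be, bf, Ne.symm cd, ce, cf, de, df, ef])
      hz.swap12.swap34 hD))
  · exact Or.inr (Or.inr (key _ _ _ _ _ _ (by
      simp [Ne.symm ab, ac, ad, ae, af, bc, bd, be, bf, Ne.symm cd, ce, cf, de, df, Ne.symm ef])
      hz.swap12.swap34 hD))

/-- points of order at least four of `S(z)` which are harmless for the parity -/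
def Safe (T : ℂ → Set (Fin 6)) (z : ℂ) (e f : Fin 6) (y : ℂ) : Prop :=
  T y = T z ∨ ((∃ p q r s, DPt T y p q r s ∧ ({e, f} : Set (Fin 6)) ≠ {p, q} ∧
    ({e, f} : Set (Fin 6)) ≠ {r, s}) ∧ ∀ x, dist x z = 1 → dist x y = 1 → (T x).ncard ≤ 3)

theorem pt_inj460 {u u' : ℝ} (h : pt z u = pt z u') : ∃ n : ℤ, u = u' + n * 6 := by
  unfold pt at h
  obtain ⟨n, hn⟩ := cis_eq (add_left_cancel h)
  refine ⟨n, ?_⟩
  have hpi := Real.pi_pos
  have h1 : (u - (u' + n * 6)) * (Real.pi / 3) = 0 := by linear_combination hn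
  rcases mul_eq_zero.1 h1 with h2 | h2
  · linarith
  · exfalso; linarith

/-- **Parity at a quasi-full two-pair point with J- and K-ends.** -/
theorem par_quasi460 (h : Irr U T) (hz : DPt T z a b c d) (hnd : [a, b, c, d, e, f].Nodup)
    {u0 α : ℝ} (hα0 : 0 < α) (hα1 : α ≤ 1) (harc : ∀ t ∈ Ioo (0 : ℝ) α, T (pt z (u0 + t)) = {a, b})
    (honly : ∀ q, dist q z = 1 → T q = {a, b} → ∃ t ∈ Ioo (0 : ℝ) α, q = pt z (u0 + t))
    (hl : PEnd T e f (pt z u0) (pt z (u0 - 1)))
    (hr : PEnd T e f (pt z (u0 + α)) (pt z (u0 + α + 1)))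
    (hN : ∀ y, dist y z = 1 → 4 ≤ (T y).ncard → Safe T z e f y) : Par T z e f := by
  have C := ctr_of h hz hnd
  have hn := hnd
  simp only [List.nodup_cons, List.mem_cons, List.not_mem_nil, or_false, not_or, List.nodup_nil,
    and_true, not_false_eq_true] at hn
  obtain ⟨⟨ab, ac, ad, ae, af⟩, ⟨bc, bd, be, bf⟩, ⟨cd, ce, cf⟩, ⟨de, df⟩, ef⟩ := hn
  -- the closed arc
  have hclos : closure (Ex T z {a, b}) ⊆ (fun t : ℝ => pt z (u0 + t)) '' Icc 0 α := by
    have h1 : IsClosed ((fun t : ℝ => pt z (u0 + t)) '' Icc 0 α) :=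
      (isCompact_Icc.image ((continuous_pt z).comp (continuous_const_add u0))).isClosed
    refine closure_minimal (fun y hy => ?_) h1
    obtain ⟨t, ht, hyt⟩ := honly y hy.1 (ex_self hy)
    exact ⟨t, ⟨ht.1.le, ht.2.le⟩, hyt.symm⟩
  have hclT : ∀ t ∈ Icc (0 : ℝ) α, ({a, b} : Set (Fin 6)) ⊆ T (pt z (u0 + t)) := by
    intro t ht i hi
    have h1 : IsClosed {t : ℝ | i ∈ T (pt z (u0 + t))} :=
      (h.closed i).preimage ((continuous_pt z).comp (continuous_const_add u0))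
    have h2 : closure (Ioo (0 : ℝ) α) ⊆ {t : ℝ | i ∈ T (pt z (u0 + t))} :=
      closure_minimal (fun s hs => by
        show i ∈ T (pt z (u0 + s))
        rw [harc s hs]; exact hi) h1
    rw [closure_Ioo hα0.ne] at h2
    exact h2 ht
  refine parK C hα0 hα1 (fun t ht => ?_) hl hr (fun t ht hcl => ?_) (fun t ht hcl => ?_)
    fun _ y y' hy hy' hyy hy2 hy2' => ?_
  · rw [harc t ht]
    simp [Ne.symm ae, Ne.symm be, Ne.symm af, Ne.symm bf]
  · obtain ⟨s, hs, hst⟩ := hclos hcl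
    obtain ⟨n, hn⟩ := pt_inj460 hst
    have h1 : s = t + n * 6 := by linarith
    have b1 : (n : ℝ) * 6 < 0 := by linarith [hs.2, ht.1]
    have b2 : -6 < (n : ℝ) * 6 := by linarith [hs.1, ht.2]
    have c1 : (n : ℝ) < 0 := by linarith
    have c2 : (-1 : ℝ) < n := by linarith
    have c3 : n < 0 := by exact_mod_cast c1
    have c4 : (-1 : ℤ) < n := by exact_mod_cast c2
    omega
  · have e1 : u0 + 3 + t = u0 + t + 3 := by ring
    rw [e1, pt_three] at hcl
    have h1 := pair_sub460 (hclT t ht)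
    have h2 := pair_sub460 (sub_of_closure h hcl)
    exact h.anti hz (dist_pt z _) (h.sub _ h1.1) (h.sub _ h1.2) (h.sub _ h2.1) (h.sub _ h2.2)
  · -- no swaps
    have hJ : ∀ y, T y = T z → y ∉ closure (Ex T z {a, b}) → ∀ l m : Fin 4, l ≠ m →
        y ∈ Lt T z a b c d e f l → y ∈ Lt T z a b c d e f m → False := by
      intro y hyT hy2 l m hlm hl hm
      have hey : e ∉ T y := by
        rw [hyT, hz.pal]; simp [Ne.symm ae, Ne.symm be, Ne.symm ce, Ne.symm de]
      have hfy : f ∉ T y := by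
        rw [hyT, hz.pal]; simp [Ne.symm af, Ne.symm bf, Ne.symm cf, Ne.symm df]
      have key : ∀ l : Fin 4, y ∈ Lt T z a b c d e f l → l = 3 := by
        intro l hl
        have hc := Lt_col h hl
        fin_cases l
        · exact absurd (hc rfl) hey
        · exact absurd (hc rfl) hfy
        · exact absurd hl hy2
        · rfl
      exact hlm ((key l hl).trans (key m hm).symm)
    have hyy' : dist y' y = 1 := by rw [dist_comm]; exact hyy
    by_cases h4 : 4 ≤ (T y).ncard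
    · rcases hN y hy h4 with h5 | ⟨⟨p, q, r, s, hD, h6, h7⟩, h8⟩
      · rintro ⟨l, m, hlm, k1, k2, k3, k4⟩
        exact hJ y h5 hy2 l m hlm k1 k2
      · exact noswp460 C hy hD h6 h7 hy' hyy' (h8 y' hy' hyy')
    · by_cases h4' : 4 ≤ (T y').ncard
      · rcases hN y' hy' h4' with h5 | ⟨⟨p, q, r, s, hD, h6, h7⟩, h8⟩
        · rintro ⟨l, m, hlm, k1, k2, k3, k4⟩
          exact hJ y' h5 hy2' l m hlm k3 k4
        · rintro ⟨l, m, hlm, k1, k2, k3, k4⟩
          exact noswp460 C hy' hD h6 h7 hy hyy (h8 y hy hyy) ⟨l, m, hlm, k3, k4, k1, k2⟩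
      · rintro ⟨l, m, hlm, k1, k2, k3, k4⟩
        exact C.noswap hlm hyy (by omega) (by omega) k1 k2 k3 k4

end Vale.Agent.P032.H460
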