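import Vale.Agent.P032.H758.Jump
import Vale.Agent.P032.H460.SumV

/-!
# P032, X-B (B3): the four-term sum in the full apex cover

`lamS_four460` : `K` nice about `x`, each of the four colours `a, b, p, q` can be avoided on the
circle: the sum of the four states `{i, e, g}`, `i = a, b, p, q`, is the number mod 2 of the `e|g`
changes of labels which are `e` or `g` wherever possible.
`DSt.sum_four_full` : the same in the world `DSt`, labels in 758's full apex cover: near an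
exceptional point `z` the two colours of `T z \ f z`.  No hypothesis on the exceptional points.
-/

open Set Filter Topology Metric Complex

noncomputable section

namespace Vale.Agent.P032.H460

open Vale.Agent.P032.S5 Vale.Agent.P032.Carr

variable {K : ℂ → Set (Fin 6)} {x : ℂ}

/-- labels which are `e` or `g` wherever possible -/
def EG (K : ℂ → Set (Fin 6)) (x : ℂ) (e g : Fin 6) (h : ℂ → Fin 6) : Prop :=
  ∀ y, dist y x = 1 → (h y = e ∧ e ∈ K y) ∨ (h y = g ∧ g ∈ K y) ∨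
    (h y ≠ e ∧ h y ≠ g ∧ e ∉ K y ∧ g ∉ K y)

theorem eg_can {e g a : Fin 6} (hae : a ≠ e) (hag : a ≠ g) : EG K x e g (can K e g a) := by
  intro y _
  unfold can
  split_ifs with h1 h2
  · exact Or.inl ⟨rfl, h1⟩
  · exact Or.inr (Or.inl ⟨rfl, h2⟩)
  · exact Or.inr (Or.inr ⟨hae, hag, h1, h2⟩)

/-- the labels for the colour `i` -/
theorem exists_lab460 {i e g : Fin 6} (hie : i ≠ e) (hig : i ≠ g) (heg : e ≠ g)
    (hav : Av K x i) {h : ℂ → Fin 6} (hh : EG K x e g h) :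
    ∃ b : ℂ → Fin 6, ∀ y, dist y x = 1 → b y ∈ K y ∧ b y ≠ i ∧ (b y = e ↔ h y = e) ∧
      (b y = g ↔ h y = g) := by
  have key : ∀ y, dist y x = 1 → ∃ t : Fin 6, t ∈ K y ∧ t ≠ i ∧ (t = e ↔ h y = e) ∧
      (t = g ↔ h y = g) := by
    intro y hy
    rcases hh y hy with ⟨h1, h2⟩ | ⟨h1, h2⟩ | ⟨h1, h2, h3, h4⟩
    · exact ⟨e, h2, hie.symm, ⟨fun _ => h1, fun _ => rfl⟩,
        ⟨fun h => absurd h heg, fun h => absurd (h1.symm.trans h) heg⟩⟩
    · exact ⟨g, h2, hig.symm, ⟨fun h => absurd h.symm heg, fun h => absurd (h.symm.trans h1) heg⟩,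
        ⟨fun _ => h1, fun _ => rfl⟩⟩
    · obtain ⟨t, ht, hti⟩ := hav y hy
      exact ⟨t, ht, hti, ⟨fun h => absurd (h ▸ ht) h3, fun h => absurd h h1⟩,
        ⟨fun h => absurd (h ▸ ht) h4, fun h => absurd h h2⟩⟩
  choose! b hb using key
  exact ⟨b, hb⟩

/-- comparison of the labelings for two colours -/
theorem cmpF460 (hK : Nice K x) {i e g : Fin 6} (hie : i ≠ e) (hig : i ≠ g) (heg : e ≠ g)
    {h b b' c : ℂ → Fin 6}
    (hb : ∀ y, dist y x = 1 → b y ∈ K y ∧ b y ≠ i ∧ (b y = e ↔ h y = e) ∧ (b y = g ↔ h y = g))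
    (hb' : ∀ y, dist y x = 1 → b' y ∈ K y ∧ (b' y = e ↔ h y = e) ∧ (b' y = g ↔ h y = g))
    (hc : ∀ p, c p ∈ K p) :
    ∀ᶠ j : ℕ in atTop, Ch (sl x c b j) (2 ^ j) (6 * 2 ^ j) {i, e, g} =
      Ch (sl x c b' j) (2 ^ j) (6 * 2 ^ j) {i, e, g} := by
  classical
  obtain ⟨η, hη, hL⟩ := exists_leb hK.usc hK.three
  filter_upwards [(tendsto_order.1 tendsto_mesh).2 _ hη] with j hjη
  have hlb : Lb K x 1 j (sl x c b j) :=
    sl_Lb (fun p _ => hc p) (fun p hp => (hb p hp).1) one_pos j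
  have hlb' : Lb K x 1 j (sl x c b' j) :=
    sl_Lb (fun p _ => hc p) (fun p hp => (hb' p hp).1) one_pos j
  refine Ch_eq (sl x c b' j) (sl x c b j) (2 ^ j) (6 * 2 ^ j) hlb'.per hlb.per hlb'.cen hlb.cen
    (fun i₀ hi₀ k hk => ?_) (fun k hk => ?_)
  · obtain ⟨M, hM, hMw⟩ := hL (pt x j i₀ k) (pt_mem hi₀.le k)
    refine ⟨M, Or.inl hM, fun i₁ k₁ h1 h2 => ?_⟩
    have hi1 : i₁ ≤ 2 ^ j := by omega
    have hd := dist_cell x hi1 h1 h2
    exact ⟨hMw _ (hd.trans_lt hjη) _ (sl_mem hc (fun p hp => (hb' p hp).1) j i₁ k₁),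
      hMw _ (hd.trans_lt hjη) _ (sl_mem hc (fun p hp => (hb p hp).1) j i₁ k₁)⟩
  · have e0 := pt_ring x j k
    have e1 := pt_ring x j (k + 1)
    rw [sl_ring, sl_ring, sl_ring, sl_ring]
    obtain ⟨-, m0, p0, q0⟩ := hb _ e0
    obtain ⟨-, m1, p1, q1⟩ := hb _ e1
    obtain ⟨-, p0', q0'⟩ := hb' _ e0
    obtain ⟨-, p1', q1'⟩ := hb' _ e1
    refine ⟨{b' (pt x j (2 ^ j) k), b' (pt x j (2 ^ j) (k + 1)), b (pt x j (2 ^ j) k),
      b (pt x j (2 ^ j) (k + 1))}, fun hs => ?_, by simp, by simp, by simp, by simp⟩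
    have hi := hs (show i ∈ ({i, e, g} : Finset (Fin 6)) by simp)
    have he := hs (show e ∈ ({i, e, g} : Finset (Fin 6)) by simp)
    have hg := hs (show g ∈ ({i, e, g} : Finset (Fin 6)) by simp)
    simp only [Finset.mem_insert, Finset.mem_singleton] at hi he hg
    have hE : h (pt x j (2 ^ j) k) = e ∨ h (pt x j (2 ^ j) (k + 1)) = e := by
      rcases he with h | h | h | h
      · exact Or.inl (p0'.1 h.symm)
      · exact Or.inr (p1'.1 h.symm)
      · exact Or.inl (p0.1 h.symm)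
      · exact Or.inr (p1.1 h.symm)
    have hG : h (pt x j (2 ^ j) k) = g ∨ h (pt x j (2 ^ j) (k + 1)) = g := by
      rcases hg with h | h | h | h
      · exact Or.inl (q0'.1 h.symm)
      · exact Or.inr (q1'.1 h.symm)
      · exact Or.inl (q0.1 h.symm)
      · exact Or.inr (q1.1 h.symm)
    have hI : b' (pt x j (2 ^ j) k) = i ∨ b' (pt x j (2 ^ j) (k + 1)) = i := by
      rcases hi with h | h | h | h
      · exact Or.inl h.symm
      · exact Or.inr h.symm
      · exact absurd h.symm m0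
      · exact absurd h.symm m1
    rcases hE with hE | hE
    · rcases hG with hG | hG
      · exact heg (hE.symm.trans hG)
      · rcases hI with hI | hI
        · exact hie (hI.symm.trans (p0'.2 hE))
        · exact hig (hI.symm.trans (q1'.2 hG))
    · rcases hG with hG | hG
      · rcases hI with hI | hI
        · exact hig (hI.symm.trans (q0'.2 hG))
        · exact hie (hI.symm.trans (p1'.2 hE))
      · exact heg (hE.symm.trans hG)

/-- **The four-term sum for a nice cover** -/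
theorem lamS_four460 (hK : Nice K x) {a b p q e g : Fin 6}
    (hnd : [a, b, p, q, e, g].Nodup) (hav : ∀ i ∈ ({a, b, p, q} : Set (Fin 6)), Av K x i)
    {h : ℂ → Fin 6} (hh : EG K x e g h) {v : ZMod 2}
    (hW : ∃ᶠ j : ℕ in atTop, ∑ k ∈ Finset.range (6 * 2 ^ j),
      eps (h (pt x j (2 ^ j) k)) (h (pt x j (2 ^ j) (k + 1))) {e, g} = v) :
    lamS K a x {a, e, g} + lamS K b x {b, e, g} + lamS K p x {p, e, g} +
      lamS K q x {q, e, g} = v := by
  classical
  have hnd' := hnd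
  simp only [List.nodup_cons, List.mem_cons, List.not_mem_nil, or_false, not_or] at hnd'
  obtain ⟨⟨hab, hap, haq, hae, hag⟩, ⟨hbp, hbq, hbe, hbg⟩, ⟨hpq, hpe, hpg⟩, ⟨hqe, hqg⟩, heg, -⟩ :=
    hnd'
  have hva := hav a (by simp)
  have hvb := hav b (by simp)
  have hvp := hav p (by simp)
  have hvq := hav q (by simp)
  obtain ⟨ra, hra⟩ := exists_lab460 hae hag heg hva hh
  obtain ⟨rb, hrb⟩ := exists_lab460 hbe hbg heg hvb hh
  obtain ⟨rp, hrp⟩ := exists_lab460 hpe hpg heg hvp hh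
  obtain ⟨rq, hrq⟩ := exists_lab460 hqe hqg heg hvq hh
  choose c hc using hK.ne
  have hra' : ∀ y, dist y x = 1 → ra y ∈ K y ∧ (ra y = e ↔ h y = e) ∧ (ra y = g ↔ h y = g) :=
    fun y hy => ⟨(hra y hy).1, (hra y hy).2.2⟩
  -- the values
  have hval : ∀ (i : Fin 6) (r : ℂ → Fin 6), Av K x i →
      (∀ y, dist y x = 1 → r y ∈ K y ∧ r y ≠ i ∧ (r y = e ↔ h y = e) ∧ (r y = g ↔ h y = g)) →
      ∀ᶠ j : ℕ in atTop,
        Ch (sl x c r j) (2 ^ j) (6 * 2 ^ j) {i, e, g} = lamS K i x {i, e, g} := by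
    intro i r hi hri
    obtain ⟨ε, hε, hs⟩ := lamS_spec hK hi (show i ∈ ({i, e, g} : Finset (Fin 6)) by simp)
    filter_upwards [(tendsto_order.1 tendsto_mesh).2 _ hε] with j hj
    refine hs j hj _ (sl_Lb (fun p _ => hc p) (fun p hp => (hri p hp).1) hε j) fun k _ => ?_
    rw [sl_ring]
    exact (hri _ (pt_ring x j k)).2.1
  obtain ⟨j, hjW, ⟨hVa, hVb, hVp, hVq, hCb, hCp, hCq⟩⟩ :=
    (hW.and_eventually
      ((hval a ra hva hra).and ((hval b rb hvb hrb).and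
      ((hval p rp hvp hrp).and ((hval q rq hvq hrq).and
      ((cmpF460 hK hbe hbg heg hrb hra' hc).and
      ((cmpF460 hK hpe hpg heg hrp hra' hc).and
        (cmpF460 hK hqe hqg heg hrq hra' hc)))))))).exists
  have hlb : Lb K x 1 j (sl x c ra j) :=
    sl_Lb (fun p _ => hc p) (fun p hp => (hra p hp).1) one_pos j
  have e1 := bd_Ch (sl x c ra j) (2 ^ j) (6 * 2 ^ j) hlb.per hlb.cen (Finset.card_pair heg)
  have e2 : ∑ k ∈ Finset.range (6 * 2 ^ j), eps (sl x c ra j (2 ^ j) k)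
      (sl x c ra j (2 ^ j) (k + 1)) {e, g} = v := by
    rw [← hjW]
    refine Finset.sum_congr rfl fun k _ => ?_
    have f0 := hra' _ (pt_ring x j k)
    have f1 := hra' _ (pt_ring x j (k + 1))
    rw [sl_ring, sl_ring]
    exact eps_congr460 f0.2.1 f0.2.2 f1.2.1 f1.2.2
  rw [e2] at e1
  unfold bd at e1
  rw [setlem a b p e g q (by
      simp only [List.nodup_cons, List.mem_cons, List.not_mem_nil, or_false, not_or,
        List.nodup_nil, and_true, not_false_eq_true]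
      tauto), Finset.sum_insert (by
      simp only [Finset.mem_insert, Finset.mem_singleton]; tauto), Finset.sum_insert (by
      simp only [Finset.mem_insert, Finset.mem_singleton]; tauto), Finset.sum_insert (by
      simp only [Finset.mem_singleton]; tauto), Finset.sum_singleton] at e1
  rw [← hVa, ← hVb, ← hVp, ← hVq, hCb, hCp, hCq, ← e1]
  ring

end Vale.Agent.P032.H460

namespace Vale.Agent.P032.Six

open Vale.Agent.P032.S5 Vale.Agent.P032.Carr Vale.Agent.P032.H460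

variable {U : Fin 6 → Set ℂ} {T : ℂ → Set (Fin 6)} {f : ℂ → Set (Fin 6)} {Z : Set ℂ} {c : ℂ}
  {R δ₀ δ : ℝ}

/-- **The four-term sum in the world `DSt`**, labels in the full apex cover -/
theorem DSt.sum_four_full (D : DSt U T Z f c R δ₀) {V : ℂ} (hV : dist V c ≤ R - 1)
    {a b p q e g : Fin 6} (hnd : [a, b, p, q, e, g].Nodup)
    (hT : ∀ i ∈ ({a, b, p, q} : Set (Fin 6)), i ∈ T V) (hδ : 0 < δ) (hδ' : δ ≤ δ₀ / 2)
    {h : ℂ → Fin 6} (hh : EG (apF758 T Z f δ) V e g h) {v : ZMod 2}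
    (hW : ∃ᶠ j : ℕ in atTop, ∑ k ∈ Finset.range (6 * 2 ^ j),
      eps (h (S5.pt V j (2 ^ j) k)) (h (S5.pt V j (2 ^ j) (k + 1))) {e, g} = v) :
    lamT T Z f δ₀ a V e g + lamT T Z f δ₀ b V e g + lamT T Z f δ₀ p V e g +
      lamT T Z f δ₀ q V e g = v := by
  have hnd' := hnd
  simp only [List.nodup_cons, List.mem_cons, List.not_mem_nil, or_false, not_or] at hnd'
  obtain ⟨⟨hab, hap, haq, hae, hag⟩, ⟨hbp, hbq, hbe, hbg⟩, ⟨hpq, hpe, hpg⟩, ⟨hqe, hqg⟩, heg, -⟩ :=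
    hnd'
  have hr := D.rg hV
  have hav : ∀ i ∈ ({a, b, p, q} : Set (Fin 6)), Av T V i := fun i hi => av_T D.df.irr (hT i hi)
  rw [lamT_eq ⟨hae, hag, heg⟩, lamT_eq ⟨hbe, hbg, heg⟩, lamT_eq ⟨hpe, hpg, heg⟩,
    lamT_eq ⟨hqe, hqg, heg⟩,
    ← D.hm.lam_apF758 hr (hav a (by simp)) hδ hδ' (show a ∈ ({a, e, g} : Finset (Fin 6)) by simp),
    ← D.hm.lam_apF758 hr (hav b (by simp)) hδ hδ' (show b ∈ ({b, e, g} : Finset (Fin 6)) by simp),
    ← D.hm.lam_apF758 hr (hav p (by simp)) hδ hδ' (show p ∈ ({p, e, g} : Finset (Fin 6)) by simp),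
    ← D.hm.lam_apF758 hr (hav q (by simp)) hδ hδ' (show q ∈ ({q, e, g} : Finset (Fin 6)) by simp)]
  exact lamS_four460 (D.hm.apF_nice758 hr hδ hδ') hnd
    (fun i hi => D.hm.apF_av758 (hav i hi) δ) hh hW

end Vale.Agent.P032.Six
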