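import Vale.Agent.P032.H460.RingV
import Vale.Agent.P032.H460.SumF

/-!
# P032, X-B (B3) with arbitrary order-4 points on the circle

`ring_allK` : ring form of the odd winding number for every real parameter sequence.
`ring_q3K` : the same for the three-letter cover of a quasi-full centre.
`DSt.sum_four_gen` : the four-term sum at a quasi-full two-pair point is `1` if the order-4 points
`y` of its circle satisfy (S1) `e, g ∈ T y` only outside the closed pair arcs, (S2) no swaps,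
(S3) `f y ≠ {e, g}`.
-/

open Set Filter Topology Metric

noncomputable section

namespace Vale.Agent.P032.H460

open Vale.Agent.P032.H180 hiding pt pt_six dist_pt continuous_pt
open Vale.Agent.P032.H695

section free

variable {Q : ℝ → Set (Fin 3)}

theorem per_int460 (h : Cov Q) (t : ℝ) (m : ℤ) : Q (t + m * 6) = Q t := by
  have hn : ∀ (n : ℕ) (t : ℝ), Q (t + n * 6) = Q t := by
    intro n
    induction n with
    | zero => intro t; simp
    | succ n ih =>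
      intro t
      rw [show t + ((n + 1 : ℕ) : ℝ) * 6 = t + n * 6 + 6 by push_cast; ring, h.per, ih]
  rcases Int.eq_nat_or_neg m with ⟨n, rfl | rfl⟩
  · exact_mod_cast hn n t
  · rw [← hn n (t + ((-(n : ℤ) : ℤ) : ℝ) * 6)]
    congr 1
    push_cast
    ring

/-- **Ring form**, any real parameters -/
theorem ring_allK (h : Cov Q) {α : ℝ} (hα0 : 0 < α) (hα1 : α ≤ 1)
    (hX : ∀ t ∈ Ioo (3 : ℝ) (3 + α), Q t ⊆ {2}) (hl : KEnd Q 3 2) (hr : KEnd Q (3 + α) (4 + α))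
    (hB : ∀ t ∈ Icc (6 : ℝ) (6 + α), 2 ∉ Q t)
    (hinc : ∀ t ∈ Ioo (3 + α) (8 : ℝ), ¬ Q t ⊆ Q (t + 1) ∧ ¬ Q (t + 1) ⊆ Q t) :
    ∃ δ > 0, ∀ (n : ℕ) (s : ℕ → ℝ) (lab : ℕ → Fin 3), s n = s 0 + 6 →
      (∀ k < n, |s k - s (k + 1)| < δ) → (∀ k ≤ n, lab k ∈ Q (s k)) → lab n = lab 0 →
      ∑ k ∈ Finset.range n, f2 (lab k) (lab (k + 1)) = 1 := by
  obtain ⟨ℓ, hℓ, hd, hor⟩ := lift_oddK h hα0 hα1 hX hl hr hB hinc
  have hT2 : Tor (Icc (0 : ℝ) 12) Q fun _ => f2 :=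
    h.tor f2 (by intro i j l hijl; revert i j l; unfold f2; decide) _
  obtain ⟨δ, hδ, hu⟩ := unif hT2 (sec2K hℓ hd)
  set G : ℝ → Fin 3 → ZMod 2 := fun t i => (((ℓ t i + 2) / 3 : ℤ) : ZMod 2) with hG
  have hgain : ∀ t ∈ Icc (0 : ℝ) 6, ∀ i ∈ Q t, G (t + 6) i = G t i + 1 := by
    intro t ht i hi
    have e3 := hor t ht i hi
    have : (ℓ (t + 6) i + 2) / 3 = (ℓ t i + 2) / 3 +
        2 * (((ℓ (t + 6) i + 2) / 3 - (ℓ t i + 2) / 3) / 2) + 1 := by omega
    show (((ℓ (t + 6) i + 2) / 3 : ℤ) : ZMod 2) = (((ℓ t i + 2) / 3 : ℤ) : ZMod 2) + 1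
    rw [this]
    push_cast
    have h2 : (2 : ZMod 2) = 0 := rfl
    rw [h2, zero_mul, add_zero]
  set Hh : ℝ → Fin 3 → ZMod 2 := fun x i => G (x - ⌊x / 6⌋ * 6) i + ((⌊x / 6⌋ : ℤ) : ZMod 2)
    with hHh
  have key : ∀ x y : ℝ, x ≤ y → y - x < min δ 1 → ∀ i ∈ Q x, ∀ j ∈ Q y,
      Hh y j - Hh x i = f2 i j := by
    intro x y hxy hyx i hi j hj
    have hyδ := hyx.trans_le (min_le_left _ _)
    have hy1 := hyx.trans_le (min_le_right _ _)
    obtain ⟨m, hm⟩ : ∃ m : ℤ, m = ⌊x / 6⌋ := ⟨_, rfl⟩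
    have hx1 := Int.floor_le (x / 6)
    have hx2 := Int.lt_floor_add_one (x / 6)
    rw [← hm] at hx1 hx2
    have hx' : x - m * 6 ∈ Icc (0 : ℝ) 12 := ⟨by linarith, by linarith⟩
    have hy' : y - m * 6 ∈ Icc (0 : ℝ) 12 := ⟨by linarith, by linarith⟩
    have q1 : ∀ w : ℝ, Q (w - m * 6) = Q w := by
      intro w
      have := per_int460 h (w - m * 6) m
      rw [sub_add_cancel] at this
      exact this.symm
    have e1 := hu _ hx' _ hy' (by
      rw [show x - m * 6 - (y - m * 6) = x - y by ring, abs_sub_comm, abs_of_nonneg (by linarith)]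
      exact hyδ) i (by rw [q1]; exact hi) j (by rw [q1]; exact hj)
    have e1' : G (y - m * 6) j - G (x - m * 6) i = f2 i j := e1
    by_cases hc : y / 6 < m + 1
    · have hf : ⌊y / 6⌋ = m := by
        rw [Int.floor_eq_iff]
        exact ⟨by linarith, hc⟩
      show G (y - ⌊y / 6⌋ * 6) j + ((⌊y / 6⌋ : ℤ) : ZMod 2) -
        (G (x - ⌊x / 6⌋ * 6) i + ((⌊x / 6⌋ : ℤ) : ZMod 2)) = f2 i j
      rw [hf, ← hm, ← e1']
      ring
    · push Not at hc
      have hf : ⌊y / 6⌋ = m + 1 := by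
        rw [Int.floor_eq_iff]
        push_cast
        exact ⟨hc, by linarith⟩
      have hy2 : y - ((m + 1 : ℤ) : ℝ) * 6 ∈ Icc (0 : ℝ) 6 := by
        push_cast
        exact ⟨by linarith, by linarith⟩
      have q2 : Q (y - ((m + 1 : ℤ) : ℝ) * 6) = Q y := by
        have := per_int460 h (y - ((m + 1 : ℤ) : ℝ) * 6) (m + 1)
        rw [sub_add_cancel] at this
        exact this.symm
      have e2 := hgain _ hy2 j (by rw [q2]; exact hj)
      have e3 : y - ((m + 1 : ℤ) : ℝ) * 6 + 6 = y - m * 6 := by push_cast; ring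
      rw [e3] at e2
      show G (y - ⌊y / 6⌋ * 6) j + ((⌊y / 6⌋ : ℤ) : ZMod 2) -
        (G (x - ⌊x / 6⌋ * 6) i + ((⌊x / 6⌋ : ℤ) : ZMod 2)) = f2 i j
      rw [hf, ← hm, ← e1', e2]
      push_cast
      have h2 : (1 : ZMod 2) + 1 = 0 := rfl
      ring
  have hsym : ∀ i j : Fin 3, f2 i j = f2 j i := by unfold f2; decide
  have key2 : ∀ x y : ℝ, |x - y| < min δ 1 → ∀ i ∈ Q x, ∀ j ∈ Q y,
      Hh y j - Hh x i = f2 i j := by
    intro x y hxy i hi j hj
    rcases le_total x y with hle | hle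
    · refine key x y hle ?_ i hi j hj
      rw [abs_sub_comm, abs_of_nonneg (by linarith)] at hxy
      exact hxy
    · have e := key y x hle (by rw [abs_of_nonneg (by linarith)] at hxy; exact hxy) j hj i hi
      rw [hsym i j, ← e]
      have : ∀ a b : ZMod 2, a - b = b - a := by decide
      exact this _ _
  refine ⟨min δ 1, lt_min hδ one_pos, fun n s lab hs hst hlab hn => ?_⟩
  have e1 : ∀ k ∈ Finset.range n, f2 (lab k) (lab (k + 1)) =
      Hh (s (k + 1)) (lab (k + 1)) - Hh (s k) (lab k) := by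
    intro k hk
    have hk' := Finset.mem_range.1 hk
    exact (key2 _ _ (hst k hk') _ (hlab k hk'.le) _ (hlab (k + 1) hk')).symm
  rw [Finset.sum_congr rfl e1, Finset.sum_range_sub fun k => Hh (s k) (lab k), hn, hs]
  show G (s 0 + 6 - ⌊(s 0 + 6) / 6⌋ * 6) (lab 0) + ((⌊(s 0 + 6) / 6⌋ : ℤ) : ZMod 2) -
    (G (s 0 - ⌊s 0 / 6⌋ * 6) (lab 0) + ((⌊s 0 / 6⌋ : ℤ) : ZMod 2)) = 1
  have e2 : (s 0 + 6) / 6 = s 0 / 6 + 1 := by ring
  rw [e2, Int.floor_add_one]
  have e3 : s 0 + 6 - ((⌊s 0 / 6⌋ + 1 : ℤ) : ℝ) * 6 = s 0 - (⌊s 0 / 6⌋ : ℝ) * 6 := by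
    push_cast; ring
  rw [e3]
  push_cast
  ring

end free

open Vale.Agent.P032.Six Vale.Agent.P032.S5.H767
open Vale.Agent.P032.S5 (eps)

variable {U : Fin 6 → Set ℂ} {T : ℂ → Set (Fin 6)} {z : ℂ} {a b c d e f : Fin 6}

/-- **The winding form at a quasi-full centre, J- or K-ends** -/
theorem ring_q3K (C : Ctr U T z a b c d e f) {u0 α : ℝ} (hα0 : 0 < α) (hα1 : α ≤ 1)
    (hX : ∀ t ∈ Ioo (0 : ℝ) α, e ∉ T (pt z (u0 + t)) ∧ f ∉ T (pt z (u0 + t)))
    (hl : PEnd T e f (pt z u0) (pt z (u0 - 1)))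
    (hr : PEnd T e f (pt z (u0 + α)) (pt z (u0 + α + 1)))
    (hXonly : ∀ t ∈ Ioo α (6 : ℝ), pt z (u0 + t) ∉ closure (Ex T z {a, b}))
    (hback : ∀ t ∈ Icc (0 : ℝ) α, pt z (u0 + 3 + t) ∉ closure (Ex T z {c, d}))
    (htr : ∀ q, dist q z = 1 → e ∈ T q → f ∈ T q → q ∉ closure (Ex T z {a, b}) ∧
        q ∉ closure (Ex T z {c, d}))
    (hsw : ∀ y y', dist y z = 1 → dist y' z = 1 → dist y y' = 1 → y ∉ closure (Ex T z {a, b}) →
        y' ∉ closure (Ex T z {a, b}) → ¬ Swp T z a b c d e f y y') :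
    ∃ δ > 0, ∀ (n : ℕ) (s : ℕ → ℝ) (lab : ℕ → Fin 3), s n = s 0 + 6 →
      (∀ k < n, |s k - s (k + 1)| < δ) →
      (∀ k ≤ n, lab k ∈ Q3 T z a b c d e f (pt z (s k))) → lab n = lab 0 →
      ∑ k ∈ Finset.range n, f2 (lab k) (lab (k + 1)) = 1 := by
  -- no triple point
  have hntr : ∀ q, dist q z = 1 → ¬ ∀ l, l ∈ Q3 T z a b c d e f q := by
    intro q hq hall
    have h1 := htr q hq (Q3_zero.1 (hall 0)).2 (Q3_one.1 (hall 1)).2
    rcases Q3_two.1 (hall 2) with h2 | h2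
    · exact h1.1 h2
    · exact h1.2 h2
  have hcov : Cov fun t => Q3 T z a b c d e f (pt z (u0 - 3 + t)) := by
    refine ⟨fun t => ?_, fun t => ?_, fun t => ?_, fun t => ?_⟩
    · have h1 : u0 - 3 + (t + 6) = u0 - 3 + t + 6 := by ring
      simp only [h1, pt_six]
    · obtain ⟨l, hl⟩ := C.cover (dist_pt z (u0 - 3 + t))
      exact ⟨mg l, Q3_mg hl⟩
    · by_contra hcon
      push Not at hcon
      exact hntr _ (dist_pt z _) hcon
    · have h1 : Tendsto (fun s : ℝ => pt z (u0 - 3 + s)) (𝓝 t) (𝓝 (pt z (u0 - 3 + t))) :=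
        ((continuous_pt z).comp (continuous_const_add (u0 - 3))).tendsto t
      have h3 : ∀ l, ∀ᶠ y in 𝓝 (pt z (u0 - 3 + t)), l ∈ Q3 T z a b c d e f y →
          l ∈ Q3 T z a b c d e f (pt z (u0 - 3 + t)) := by
        intro l
        by_cases hl : l ∈ Q3 T z a b c d e f (pt z (u0 - 3 + t))
        · exact Eventually.of_forall fun _ _ => hl
        · filter_upwards [(Q3_closed C.irr l).isOpen_compl.mem_nhds hl] with y hy hy'
          exact absurd hy' hy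
      filter_upwards [h1.eventually (eventually_all.2 h3)] with y hy l hl
      exact hy l hl
  have kl : KEnd (fun t => Q3 T z a b c d e f (pt z (u0 - 3 + t))) 3 2 := by
    refine PEnd.kend (p := fun t => pt z (u0 - 3 + t)) ?_ fun t => dist_pt z _
    show PEnd T e f (pt z (u0 - 3 + 3)) (pt z (u0 - 3 + 2))
    rw [show u0 - 3 + 3 = u0 by ring, show u0 - 3 + 2 = u0 - 1 by ring]
    exact hl
  have kr : KEnd (fun t => Q3 T z a b c d e f (pt z (u0 - 3 + t))) (3 + α) (4 + α) := by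
    refine PEnd.kend (p := fun t => pt z (u0 - 3 + t)) ?_ fun t => dist_pt z _
    show PEnd T e f (pt z (u0 - 3 + (3 + α))) (pt z (u0 - 3 + (4 + α)))
    rw [show u0 - 3 + (3 + α) = u0 + α by ring, show u0 - 3 + (4 + α) = u0 + α + 1 by ring]
    exact hr
  obtain ⟨δ, hδ, hring⟩ := ring_allK hcov (α := α) hα0 hα1 (fun t ht => by
    have h1 := hX (t - 3) ⟨by linarith [ht.1], by linarith [ht.2]⟩
    have h3 : u0 + (t - 3) = u0 - 3 + t := by ring
    rw [h3] at h1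
    intro l hl
    rcases hl with ⟨rfl, h⟩ | ⟨rfl, h⟩ | ⟨rfl, h⟩
    · exact absurd h.2 h1.1
    · exact absurd h.2 h1.2
    · rfl) kl kr (fun t ht h => by
    rcases Q3_two.1 h with h | h
    · have h3 : u0 + (t - 3) = u0 - 3 + t := by ring
      have h4 := hXonly (t - 3) ⟨by linarith [ht.1], by linarith [ht.2]⟩
      rw [h3] at h4
      exact h4 h
    · have h3 : u0 + 3 + (t - 6) = u0 - 3 + t := by ring
      have h4 := hback (t - 6) ⟨by linarith [ht.1], by linarith [ht.2]⟩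
      rw [h3] at h4
      exact h4 h)
    (fun t ht => by
    have h3 : u0 + (t - 3) = u0 - 3 + t := by ring
    have h3' : u0 + (t - 2) = u0 - 3 + (t + 1) := by ring
    have h4 := hXonly (t - 3) ⟨by linarith [ht.1], by linarith [ht.2]⟩
    have h4' := hXonly (t - 2) ⟨by linarith [ht.1], by linarith [ht.2]⟩
    rw [h3] at h4
    rw [h3'] at h4'
    have h5 : dist (pt z (u0 - 3 + t)) (pt z (u0 - 3 + (t + 1))) = 1 := by
      have := dist_pt_one z (u0 - 3 + t)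
      rwa [add_assoc] at this
    have h6 : ¬ Swp T z a b c d e f (pt z (u0 - 3 + t)) (pt z (u0 - 3 + (t + 1))) :=
      hsw _ _ (dist_pt z _) (dist_pt z _) h5 h4 h4'
    have h6' : ¬ Swp T z a b c d e f (pt z (u0 - 3 + (t + 1))) (pt z (u0 - 3 + t)) := by
      rintro ⟨l, m, hlm, k1, k2, k3, k4⟩
      exact h6 ⟨l, m, hlm, k3, k4, k1, k2⟩
    exact ⟨not_sub C (dist_pt z _) (dist_pt z _) h5 h4 h4' h6,
      not_sub C (dist_pt z _) (dist_pt z _) (by rw [dist_comm]; exact h5) h4' h4 h6'⟩)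
  refine ⟨δ, hδ, fun n s lab hs hst hlab hn => ?_⟩
  refine hring n (fun k => s k - (u0 - 3)) lab (by rw [hs]; ring) (fun k hk => ?_)
    (fun k hk => ?_) hn
  · rw [show s k - (u0 - 3) - (s (k + 1) - (u0 - 3)) = s k - s (k + 1) by ring]
    exact hst k hk
  · show lab k ∈ Q3 T z a b c d e f (pt z (u0 - 3 + (s k - (u0 - 3))))
    rw [show u0 - 3 + (s k - (u0 - 3)) = s k by ring]
    exact hlab k hk

end Vale.Agent.P032.H460
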